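import Vale.Agent.P228.CtlA

/-! Part AC: the acyclic carrier theorem. -/

namespace Vale.Agent.P228

open Filter Matrix DagCat Set

theorem AC_step {α β A : Type} [Fintype α] [Fintype β] (dX : Matrix α α ℂ) (dT : Matrix β β ℂ)
    (e : Matrix A β ℂ) (f : Matrix β α ℂ) (wt : α → ℕ) (N : ℕ) (hN : ∀ a, wt a ≤ N)
    (hwt : ∀ a' a, dX a' a ≠ 0 → wt a < wt a') (G : Set α)
    (hG : ∀ a ∈ G, ∀ a', dX a' a ≠ 0 → a' ∈ G)
    (hsq : ∀ a ∈ G, ∀ a', (dX * dX) a' a = 0)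
    (hf : ∀ a ∈ G, ∀ b, (f * dX) b a = (dT * f) b a) (he : ∀ a ∈ G, ∀ x, (e * f) x a = 0)
    (pre car : α → Set β) (hpre : ∀ a ∈ G, ∀ b, f b a ≠ 0 → b ∈ pre a)
    (hcar : ∀ a ∈ G, ∀ a', dX a' a ≠ 0 → car a' ⊆ pre a)
    (hac : ∀ a ∈ G, ∀ z : β → ℂ, (∀ b, z b ≠ 0 → b ∈ pre a) → dT *ᵥ z = 0 → e *ᵥ z = 0 →
      ∃ w : β → ℂ, (∀ b, w b ≠ 0 → b ∈ car a) ∧ dT *ᵥ w = z ∧ e *ᵥ w = 0) (k : ℕ) :
    ∃ h : Matrix β α ℂ, (∀ b a, h b a ≠ 0 → a ∈ G ∧ b ∈ car a) ∧ e * h = 0 ∧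
      ∀ a ∈ G, N < wt a + k → ∀ b, f b a = (dT * h + h * dX) b a := by
  classical
  induction k with
  | zero =>
    refine ⟨0, fun b a h => absurd rfl h, Matrix.mul_zero _, fun a _ h => ?_⟩
    have := hN a
    omega
  | succ k ih =>
    obtain ⟨h, h1, h2, h3⟩ := ih
    have hw : ∀ a, ∃ w : β → ℂ, a ∈ G → wt a + k = N →
        (∀ b, w b ≠ 0 → b ∈ car a) ∧ dT *ᵥ w = (fun b => (f - h * dX) b a) ∧ e *ᵥ w = 0 := by
      intro a
      by_cases ha : a ∈ G ∧ wt a + k = N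
      · obtain ⟨w, hw⟩ := hac a ha.1 (fun b => (f - h * dX) b a) (fun b hb => by
          by_cases hfb : f b a = 0
          · simp only [Matrix.sub_apply, hfb, zero_sub, ne_eq, neg_eq_zero, Matrix.mul_apply] at hb
            obtain ⟨a', -, ha'⟩ := Finset.exists_ne_zero_of_sum_ne_zero hb
            exact hcar a ha.1 a' (right_ne_zero_of_mul ha') (h1 b a' (left_ne_zero_of_mul ha')).2
          · exact hpre a ha.1 b hfb) (by
          funext b
          have e1 : (dT *ᵥ fun b => (f - h * dX) b a) b = (dT * (f - h * dX)) b a := rfl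
          have e2 : ((f - dT * h - h * dX) * dX) b a = 0 := by
            rw [Matrix.mul_apply]
            refine Finset.sum_eq_zero fun a' _ => ?_
            by_cases hd : dX a' a = 0
            · rw [hd, mul_zero]
            · have := h3 a' (hG a ha.1 a' hd) (by have := hwt a' a hd; omega) b
              simp only [Matrix.sub_apply, this, Matrix.add_apply]
              ring
          have e3 : (h * (dX * dX)) b a = 0 := by
            rw [Matrix.mul_apply]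
            exact Finset.sum_eq_zero fun a' _ => by rw [hsq a ha.1 a', mul_zero]
          rw [e1, Matrix.mul_sub, Matrix.sub_apply, ← hf a ha.1 b, Pi.zero_apply]
          rw [Matrix.sub_mul, Matrix.sub_mul, Matrix.sub_apply, Matrix.sub_apply,
            Matrix.mul_assoc h, e3, Matrix.mul_assoc, sub_zero] at e2
          exact e2) (by
          funext x
          have e1 : (e *ᵥ fun b => (f - h * dX) b a) x = (e * (f - h * dX)) x a := rfl
          rw [e1, Matrix.mul_sub, ← Matrix.mul_assoc, h2, Matrix.zero_mul, sub_zero, he a ha.1 x,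
            Pi.zero_apply])
        exact ⟨w, fun _ _ => hw⟩
      · exact ⟨0, fun h1 h2 => absurd ⟨h1, h2⟩ ha⟩
    choose w hw using hw
    let h' : Matrix β α ℂ := Matrix.of fun b a => if a ∈ G ∧ wt a + k = N then w a b else h b a
    have hmul : ∀ a b, N ≤ wt a + k → (h' * dX) b a = (h * dX) b a := fun a b ha => by
      rw [Matrix.mul_apply, Matrix.mul_apply]
      refine Finset.sum_congr rfl fun a' _ => ?_
      by_cases hd : dX a' a = 0
      · rw [hd, mul_zero, mul_zero]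
      · have := hwt a' a hd
        simp only [h', Matrix.of_apply]
        rw [if_neg (by omega)]
    refine ⟨h', fun b a hb => ?_, ?_, fun a ha hk b => ?_⟩
    · simp only [h', Matrix.of_apply] at hb
      split_ifs at hb with hc
      · exact ⟨hc.1, (hw a hc.1 hc.2).1 b hb⟩
      · exact h1 b a hb
    · ext x a
      by_cases hc : a ∈ G ∧ wt a + k = N
      · have := congrFun (hw a hc.1 hc.2).2.2 x
        simp only [Matrix.mul_apply, h', Matrix.of_apply, if_pos hc]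
        exact this
      · have := congrFun (congrFun h2 x) a
        simp only [Matrix.mul_apply, h', Matrix.of_apply, if_neg hc]
        exact this
    · rw [Matrix.add_apply, hmul a b (by omega)]
      by_cases hc : wt a + k = N
      · have := congrFun (hw a ha hc).2.1 b
        have e1 : (dT * h') b a = (dT *ᵥ w a) b := by
          simp only [Matrix.mul_apply, h', Matrix.of_apply, if_pos (And.intro ha hc)]
          rfl
        rw [e1, this, Matrix.sub_apply, sub_add_cancel]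
      · have e1 : (dT * h') b a = (dT * h) b a := by
          simp only [Matrix.mul_apply, h', Matrix.of_apply, if_neg (fun h : _ ∧ _ => hc h.2)]
        rw [e1, h3 a ha (by omega) b, Matrix.add_apply]

/-- The finite acyclic carrier lemma. -/
theorem ac_core {α β A : Type} [Fintype α] [Fintype β] (dX : Matrix α α ℂ) (dT : Matrix β β ℂ)
    (e : Matrix A β ℂ) (f : Matrix β α ℂ) (wt : α → ℕ) (N : ℕ) (hN : ∀ a, wt a ≤ N)
    (hwt : ∀ a' a, dX a' a ≠ 0 → wt a < wt a') (G : Set α)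
    (hG : ∀ a ∈ G, ∀ a', dX a' a ≠ 0 → a' ∈ G)
    (hsq : ∀ a ∈ G, ∀ a', (dX * dX) a' a = 0)
    (hf : ∀ a ∈ G, ∀ b, (f * dX) b a = (dT * f) b a) (he : ∀ a ∈ G, ∀ x, (e * f) x a = 0)
    (pre car : α → Set β) (hpre : ∀ a ∈ G, ∀ b, f b a ≠ 0 → b ∈ pre a)
    (hcar : ∀ a ∈ G, ∀ a', dX a' a ≠ 0 → car a' ⊆ pre a)
    (hac : ∀ a ∈ G, ∀ z : β → ℂ, (∀ b, z b ≠ 0 → b ∈ pre a) → dT *ᵥ z = 0 → e *ᵥ z = 0 →
      ∃ w : β → ℂ, (∀ b, w b ≠ 0 → b ∈ car a) ∧ dT *ᵥ w = z ∧ e *ᵥ w = 0) :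
    ∃ h : Matrix β α ℂ, (∀ b a, h b a ≠ 0 → a ∈ G ∧ b ∈ car a) ∧ e * h = 0 ∧
      ∀ a ∈ G, ∀ b, f b a = (dT * h + h * dX) b a := by
  obtain ⟨h, h1, h2, h3⟩ :=
    AC_step dX dT e f wt N hN hwt G hG hsq hf he pre car hpre hcar hac (N + 1)
  exact ⟨h, h1, h2, fun a ha => h3 a ha (by omega)⟩

variable {Y : Type} [MetricSpace Y] [CompactSpace Y]

/-- Uniform form of local acyclicity on compact subsets. -/
theorem Acyc.uniform {Γ : Grp Y} {T : Obj Γ} {W K : Set Y} {dT : Mor T T} {A : ℕ → Type}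
    {e : ∀ i, Matrix (A i) (T.β i) ℂ} (h : Acyc W dT e) (hK : IsCompact K) (hKW : K ⊆ W)
    {r : ℝ} (hr : 0 < r) : ∃ r' > 0, ∀ᶠ i in atTop, ∀ y ∈ K, ∀ z : T.β i → ℂ,
      (∀ b, z b ≠ 0 → dist (T.pos i b) y < r') → mat dT i *ᵥ z = 0 → e i *ᵥ z = 0 →
      ∃ w : T.β i → ℂ, (∀ b, w b ≠ 0 → dist (T.pos i b) y < r) ∧ mat dT i *ᵥ w = z ∧
        e i *ᵥ w = 0 := by
  refine hK.induction_on (p := fun K => ∃ r' > 0, ∀ᶠ i in atTop, ∀ y ∈ K, ∀ z : T.β i → ℂ,
      (∀ b, z b ≠ 0 → dist (T.pos i b) y < r') → mat dT i *ᵥ z = 0 → e i *ᵥ z = 0 →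
      ∃ w : T.β i → ℂ, (∀ b, w b ≠ 0 → dist (T.pos i b) y < r) ∧ mat dT i *ᵥ w = z ∧
        e i *ᵥ w = 0) ?_ ?_ ?_ ?_
  · exact ⟨1, one_pos, Eventually.of_forall fun _ _ hy => hy.elim⟩
  · rintro s t hst ⟨r', hr', h'⟩
    exact ⟨r', hr', h'.mono fun i hi y hy => hi y (hst hy)⟩
  · rintro s t ⟨r1, hr1, h1⟩ ⟨r2, hr2, h2⟩
    refine ⟨min r1 r2, lt_min hr1 hr2, ?_⟩
    filter_upwards [h1, h2] with i h1 h2 y hy z hz
    rcases hy with hy | hy
    · exact h1 y hy z fun b hb => (hz b hb).trans_le (min_le_left _ _)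
    · exact h2 y hy z fun b hb => (hz b hb).trans_le (min_le_right _ _)
  · intro y0 hy0
    obtain ⟨r', hr', h'⟩ := h y0 (hKW hy0) (r / 2) (by positivity)
    refine ⟨Metric.ball y0 (min (r' / 2) (r / 2)),
      mem_nhdsWithin_of_mem_nhds (Metric.ball_mem_nhds _ (by positivity)), r' / 2, by positivity,
      h'.mono fun i hi y hy z hz h1 h2 => ?_⟩
    have hy1 : dist y y0 < r' / 2 := (Metric.mem_ball.mp hy).trans_le (min_le_left _ _)
    have hy2 : dist y y0 < r / 2 := (Metric.mem_ball.mp hy).trans_le (min_le_right _ _)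
    obtain ⟨w, hw1, hw2⟩ := hi z (fun b hb => by
      linarith [hz b hb, dist_triangle (T.pos i b) y y0]) h1 h2
    exact ⟨w, fun b hb => by
      linarith [hw1 b hb, dist_triangle (T.pos i b) y0 y, dist_comm y y0], hw2⟩

theorem Acyc.mono {Γ : Grp Y} {T : Obj Γ} {W V : Set Y} {dT : Mor T T} {A : ℕ → Type}
    {e : ∀ i, Matrix (A i) (T.β i) ℂ} (h : Acyc W dT e) (hV : V ⊆ W) : Acyc V dT e :=
  fun y hy => h y (hV hy)

/-- Diagonal argument. -/
theorem exists_slow {P : ℕ → ℕ → Prop} (h : ∀ m, ∀ᶠ i in atTop, P m i) :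
    ∃ m : ℕ → ℕ, Tendsto m atTop atTop ∧ ∀ᶠ i in atTop, P (m i) i := by
  simp only [eventually_atTop] at h
  choose t ht using h
  refine ⟨fun i => Nat.findGreatest (fun m => t m ≤ i) i, ?_, ?_⟩
  · refine tendsto_atTop.mpr fun M => ?_
    filter_upwards [eventually_ge_atTop M, eventually_ge_atTop (t M)] with i h1 h2
    exact Nat.le_findGreatest h1 h2
  · filter_upwards [eventually_ge_atTop (t 0)] with i hi
    exact ht _ i (Nat.findGreatest_spec (P := fun m => t m ≤ i) (Nat.zero_le i) hi)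

theorem AC_col {Γ : Grp Y} {X : Obj Γ} {U K : Set Y} {A : ℕ → Type}
    {e : ∀ i, Matrix (A i) (X.β i) ℂ} (he : VanR U X e) (hK : IsCompact K) (hKU : K ⊆ U) :
    ∀ᶠ i in atTop, ∀ b, X.pos i b ∈ K → ∀ a, e i a b = 0 := by
  obtain ⟨r, hr, h⟩ := he.compact hK hKU
  refine h.mono fun i hi b hb a => ?_
  by_contra hne
  have := hi a b hne _ hb
  rw [dist_self] at this
  linarith

theorem AC_local {X T : Obj (triv Y)} {W K : Set Y} (hW : IsOpen W) {dX : Mor X X} {dT : Mor T T}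
    {A : ℕ → Type} {e : ∀ i, Matrix (A i) (T.β i) ℂ} (hX : Tri dX)
    (hsq : loc W dX * loc W dX = 0) (hT : Acyc W dT e) {f : Mor X T}
    (hf : Chain (loc W dX) (loc W dT) (loc W f)) (he : VanR W X (fun i => e i * mat f i))
    (hK : IsCompact K) (hKW : K ⊆ W) {ε : ℝ} (hε : 0 < ε) :
    ∀ᶠ i in atTop, ∃ h : Matrix (T.β i) (X.β i) ℂ,
      (∀ b a, h b a ≠ 0 → dist (T.pos i b) (X.pos i a) < ε) ∧ e i * h = 0 ∧
      ∀ a, X.pos i a ∈ K → ∀ b, mat f i b a = (mat dT i * h + h * mat dX i) b a := by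
  obtain ⟨N, wt, hN, -, hwt⟩ := hX
  obtain ⟨δ, hδ, hδW⟩ := hK.exists_cthickening_subset_open hW hKW
  have hK' : IsCompact (Metric.cthickening δ K) := Metric.isClosed_cthickening.isCompact
  have hsq' : Van W (dX * dX) := (van _ W).q_eq_zero.mp (by simpa using hsq)
  have hf' : Van W (f * dX - dT * f) := (chain_q _).mp hf
  have hφ : ∀ r : ℝ, ∃ r' : ℝ, 0 < r → 0 < r' ∧ ∀ᶠ i in atTop, ∀ y ∈ Metric.cthickening δ K,
      ∀ z : T.β i → ℂ,
      (∀ b, z b ≠ 0 → dist (T.pos i b) y < r') → mat dT i *ᵥ z = 0 → e i *ᵥ z = 0 →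
      ∃ w : T.β i → ℂ, (∀ b, w b ≠ 0 → dist (T.pos i b) y < r) ∧ mat dT i *ᵥ w = z ∧
        e i *ᵥ w = 0 := fun r => by
    by_cases hr : 0 < r
    · obtain ⟨r', h1, h2⟩ := hT.uniform hK' hδW hr
      exact ⟨r', fun _ => ⟨h1, h2⟩⟩
    · exact ⟨0, fun h => absurd h hr⟩
  choose φ hφ using hφ
  let R : ℕ → ℝ := fun w => Nat.rec ε (fun _ r => min r (φ r / 2)) w
  have hRs : ∀ w, R (w + 1) = min (R w) (φ (R w) / 2) := fun _ => rfl
  have hR0 : ∀ w, 0 < R w := fun w => by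
    induction w with
    | zero => exact hε
    | succ w ih => rw [hRs]; exact lt_min ih (half_pos (hφ _ ih).1)
  have hanti : Antitone R := antitone_nat_of_succ_le fun w => by rw [hRs]; exact min_le_left _ _
  have hRφ : ∀ w w', w < w' → R w' ≤ φ (R w) / 2 := fun w w' h =>
    (hanti h).trans (by rw [hRs]; exact min_le_right _ _)
  have hall := (eventually_all_finset (Finset.range (N + 1))).mpr fun w _ => (hφ (R w) (hR0 w)).2
  have hτ : 0 < δ / (N + 1) := by positivity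
  filter_upwards [hall, AC_col hsq' hK' hδW, AC_col hf' hK' hδW, AC_col he hK' hδW,
    mat_ctl dX _ hτ, mat_ctl dX _ (hR0 (N + 1)), mat_ctl f _ (hR0 (N + 1))]
    with i h1 h2 h3 h4 h5 h6 h7
  have hGK : ∀ a, (∃ y ∈ K, dist (X.pos i a) y < (wt i a + 1) * (δ / (N + 1))) →
      X.pos i a ∈ Metric.cthickening δ K := by
    rintro a ⟨y, hy, hd⟩
    refine Metric.mem_cthickening_of_dist_le _ y _ _ hy (hd.le.trans ?_)
    have : ((wt i a : ℝ) + 1) ≤ N + 1 := by
      have : (wt i a : ℝ) ≤ N := by exact_mod_cast hN i a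
      linarith
    calc ((wt i a : ℝ) + 1) * (δ / (N + 1)) ≤ (N + 1) * (δ / (N + 1)) := by gcongr
      _ = δ := by field_simp
  obtain ⟨h, g1, g2, g3⟩ := ac_core (mat dX i) (mat dT i) (e i) (mat f i) (wt i) N (hN i) (hwt i)
    {a | ∃ y ∈ K, dist (X.pos i a) y < (wt i a + 1) * (δ / (N + 1))}
    (by
      rintro a ⟨y, hy, hd⟩ a' ha'
      refine ⟨y, hy, ?_⟩
      have e1 := h5 a' a ha'
      have e2 : ((wt i a : ℝ) + 1) ≤ wt i a' := by exact_mod_cast hwt i a' a ha'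
      have e3 := mul_le_mul_of_nonneg_right e2 hτ.le
      linarith [dist_triangle (X.pos i a') (X.pos i a) y])
    (fun a ha a' => h2 a (hGK a ha) a')
    (fun a ha b => sub_eq_zero.mp (h3 a (hGK a ha) b))
    (fun a ha x => h4 a (hGK a ha) x)
    (fun a => {b | dist (T.pos i b) (X.pos i a) < φ (R (wt i a))})
    (fun a => {b | dist (T.pos i b) (X.pos i a) < R (wt i a)})
    (fun a _ b hb => by
      have e1 := h7 b a hb
      have e2 := hRφ (wt i a) (N + 1) (Nat.lt_succ_of_le (hN i a))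
      have e3 := hR0 (N + 1)
      change dist _ _ < _
      linarith)
    (fun a _ a' ha' b hb => by
      have e1 := h6 a' a ha'
      have e2 := hRφ (wt i a) (N + 1) (Nat.lt_succ_of_le (hN i a))
      have e3 := hRφ (wt i a) (wt i a') (hwt i a' a ha')
      have e4 : dist (T.pos i b) (X.pos i a') < R (wt i a') := hb
      change dist _ _ < _
      linarith [dist_triangle (T.pos i b) (X.pos i a') (X.pos i a)])
    (fun a ha z => h1 (wt i a) (Finset.mem_range.mpr (Nat.lt_succ_of_le (hN i a))) _ (hGK a ha) z)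
  refine ⟨h, fun b a hb => ?_, g2, fun a ha => g3 a ⟨_, ha, ?_⟩⟩
  · exact lt_of_lt_of_le (g1 b a hb).2 (hanti (Nat.zero_le _))
  · rw [dist_self]
    positivity

/-- An exhaustion of an open set by compact sets. -/
def AC_K (W : Set Y) (m : ℕ) : Set Y := (Metric.thickening (1 / ((m : ℝ) + 1)) Wᶜ)ᶜ

theorem AC_K_compact (W : Set Y) (m : ℕ) : IsCompact (AC_K W m) :=
  Metric.isOpen_thickening.isClosed_compl.isCompact

omit [CompactSpace Y] in
theorem AC_K_sub (W : Set Y) (m : ℕ) : AC_K W m ⊆ W := fun y hy => by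
  by_contra h
  exact hy (Metric.self_subset_thickening (by positivity) _ h)

omit [CompactSpace Y] in
theorem AC_small {m : ℕ → ℕ} (hm : Tendsto m atTop atTop) {ε : ℝ} (hε : 0 < ε) :
    ∀ᶠ i in atTop, 1 / ((m i : ℝ) + 1) < ε :=
  hm.eventually ((tendsto_one_div_add_atTop_nhds_zero_nat (𝕜 := ℝ)).eventually (gt_mem_nhds hε))

omit [CompactSpace Y] in
theorem AC_van {Γ : Grp Y} {X : Obj Γ} {W : Set Y} (hW : IsOpen W) {m : ℕ → ℕ}
    (hm : Tendsto m atTop atTop) {A : ℕ → Type} {e : ∀ i, Matrix (A i) (X.β i) ℂ}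
    (h : ∀ᶠ i in atTop, ∀ b, X.pos i b ∈ AC_K W (m i) → ∀ a, e i a b = 0) : VanR W X e := by
  intro y hy
  obtain ⟨δ, hδ, hb⟩ := Metric.isOpen_iff.mp hW y hy
  refine ⟨δ / 2, by positivity, ?_⟩
  filter_upwards [h, AC_small hm (half_pos hδ)] with i h1 h2 a b hne
  by_contra hlt
  refine hne (h1 b (fun hth => ?_) a)
  obtain ⟨z, hz, hd⟩ := Metric.mem_thickening_iff.mp hth
  refine hz (hb (Metric.mem_ball.mpr ?_))
  linarith [dist_triangle z (X.pos i b) y, dist_comm z (X.pos i b), not_le.mp hlt]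

/-- The asymptotic acyclic carrier theorem. -/
theorem ac_null {X T : Obj (triv Y)} {W : Set Y} (hW : IsOpen W) {dX : Mor X X} {dT : Mor T T}
    {A : ℕ → Type} {e : ∀ i, Matrix (A i) (T.β i) ℂ} (hX : Tri dX)
    (hsq : loc W dX * loc W dX = 0) (hT : Acyc W dT e) {f : Mor X T}
    (hf : Chain (loc W dX) (loc W dT) (loc W f)) (he : VanR W X (fun i => e i * mat f i)) :
    ∃ h : Mor X T, Van W (f - (dT * h + h * dX)) ∧ ∀ i, e i * mat h i = 0 := by
  classical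
  obtain ⟨m, hm, hP⟩ := exists_slow fun m => AC_local hW hX hsq hT hf he (AC_K_compact W m)
    (AC_K_sub W m) (ε := 1 / ((m : ℝ) + 1)) (by positivity)
  have hex : ∀ i, ∃ h : Matrix (T.β i) (X.β i) ℂ,
      (∀ b a, h b a ≠ 0 → dist (T.pos i b) (X.pos i a) < 1 / ((m i : ℝ) + 1)) ∧ e i * h = 0 ∧
      ((∃ h : Matrix (T.β i) (X.β i) ℂ,
        (∀ b a, h b a ≠ 0 → dist (T.pos i b) (X.pos i a) < 1 / ((m i : ℝ) + 1)) ∧ e i * h = 0 ∧
        ∀ a, X.pos i a ∈ AC_K W (m i) → ∀ b, mat f i b a = (mat dT i * h + h * mat dX i) b a) →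
      ∀ a, X.pos i a ∈ AC_K W (m i) → ∀ b, mat f i b a = (mat dT i * h + h * mat dX i) b a) := by
    intro i
    by_cases hi : ∃ h : Matrix (T.β i) (X.β i) ℂ,
        (∀ b a, h b a ≠ 0 → dist (T.pos i b) (X.pos i a) < 1 / ((m i : ℝ) + 1)) ∧ e i * h = 0 ∧
        ∀ a, X.pos i a ∈ AC_K W (m i) → ∀ b, mat f i b a = (mat dT i * h + h * mat dX i) b a
    · obtain ⟨h, h1, h2, h3⟩ := hi
      exact ⟨h, h1, h2, fun _ => h3⟩
    · exact ⟨0, fun b a h => absurd rfl h, Matrix.mul_zero _, fun h => absurd h hi⟩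
  choose h h1 h2 h3 using hex
  refine ⟨mkMor h (fun ε hε => (AC_small hm hε).mono fun i hi b a hb => (h1 i b a hb).trans hi)
    (equi_triv _), AC_van hW hm (hP.mono fun i hi a ha b => ?_), h2⟩
  exact sub_eq_zero.mpr (h3 i hi a ha b)

theorem ac_null' {X T : Obj (triv Y)} {W : Set Y} (hW : IsOpen W) {dX : Mor X X} {dT : Mor T T}
    {A : ℕ → Type} {e : ∀ i, Matrix (A i) (T.β i) ℂ} (hX : Tri dX)
    (hsq : loc W dX * loc W dX = 0) (hT : Acyc W dT e) {f : Mor X T}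
    (hf : Chain (loc W dX) (loc W dT) (loc W f)) (he : VanR W X (fun i => e i * mat f i)) :
    Null (loc W dX) (loc W dT) (loc W f) := by
  obtain ⟨h, hh, -⟩ := ac_null hW hX hsq hT hf he
  exact (null_q _).mpr ⟨h, hh⟩

theorem AC_vert {T : Obj (triv Y)} {W K : Set Y} {dT : Mor T T}
    {e : ∀ i, Matrix Unit (T.β i) ℂ}
    (hv : ∀ y ∈ W, ∀ r > 0, ∀ᶠ i in atTop, ∃ v : T.β i → ℂ,
      (∀ b, v b ≠ 0 → dist (T.pos i b) y < r) ∧ mat dT i *ᵥ v = 0 ∧ e i *ᵥ v = 1)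
    (hK : IsCompact K) (hKW : K ⊆ W) {r : ℝ} (hr : 0 < r) :
    ∀ᶠ i in atTop, ∀ y ∈ K, ∃ v : T.β i → ℂ,
      (∀ b, v b ≠ 0 → dist (T.pos i b) y < r) ∧ mat dT i *ᵥ v = 0 ∧ e i *ᵥ v = 1 := by
  refine hK.induction_on (p := fun K => ∀ᶠ i in atTop, ∀ y ∈ K, ∃ v : T.β i → ℂ,
      (∀ b, v b ≠ 0 → dist (T.pos i b) y < r) ∧ mat dT i *ᵥ v = 0 ∧ e i *ᵥ v = 1) ?_ ?_ ?_ ?_
  · exact Eventually.of_forall fun _ _ hy => hy.elim
  · exact fun s t hst h' => h'.mono fun i hi y hy => hi y (hst hy)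
  · intro s t h1 h2
    filter_upwards [h1, h2] with i h1 h2 y hy
    exact hy.elim (h1 y) (h2 y)
  · intro y0 hy0
    refine ⟨Metric.ball y0 (r / 2),
      mem_nhdsWithin_of_mem_nhds (Metric.ball_mem_nhds _ (by positivity)),
      (hv y0 (hKW hy0) (r / 2) (by positivity)).mono fun i hi y hy => ?_⟩
    obtain ⟨v, h1, h2⟩ := hi
    exact ⟨v, fun b hb => by
      linarith [h1 b hb, dist_triangle (T.pos i b) y0 y, dist_comm y y0, Metric.mem_ball.mp hy],
      h2⟩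

/-- Existence of chain maps with prescribed augmentation, given enough vertices. -/
theorem ac_exists {X T : Obj (triv Y)} {W : Set Y} (hW : IsOpen W) {dX : Mor X X} {dT : Mor T T}
    {e : ∀ i, Matrix Unit (T.β i) ℂ} (hX : Tri dX) (hsq : loc W dX * loc W dX = 0)
    (hT : Acyc W dT e)
    (hv : ∀ y ∈ W, ∀ r > 0, ∀ᶠ i in atTop, ∃ v : T.β i → ℂ,
      (∀ b, v b ≠ 0 → dist (T.pos i b) y < r) ∧ mat dT i *ᵥ v = 0 ∧ e i *ᵥ v = 1)
    {η : ∀ i, Matrix Unit (X.β i) ℂ} (hη : VanR W X (fun i => η i * mat dX i)) :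
    ∃ c : Mor X T, Chain (loc W dX) (loc W dT) (loc W c) ∧
      VanR W X (fun i => e i * mat c i - η i) := by
  classical
  obtain ⟨m, hm, hP⟩ := exists_slow fun m => AC_vert hv (AC_K_compact W m)
    (AC_K_sub W m) (r := 1 / ((m : ℝ) + 1)) (by positivity)
  have hex : ∀ i (y : Y), ∃ v : T.β i → ℂ,
      (∀ b, v b ≠ 0 → dist (T.pos i b) y < 1 / ((m i : ℝ) + 1)) ∧ mat dT i *ᵥ v = 0 ∧
      ((∃ v : T.β i → ℂ, (∀ b, v b ≠ 0 → dist (T.pos i b) y < 1 / ((m i : ℝ) + 1)) ∧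
        mat dT i *ᵥ v = 0 ∧ e i *ᵥ v = 1) → e i *ᵥ v = 1) := by
    intro i y
    by_cases hi : ∃ v : T.β i → ℂ, (∀ b, v b ≠ 0 → dist (T.pos i b) y < 1 / ((m i : ℝ) + 1)) ∧
        mat dT i *ᵥ v = 0 ∧ e i *ᵥ v = 1
    · obtain ⟨v, h1, h2, h3⟩ := hi
      exact ⟨v, h1, h2, fun _ => h3⟩
    · exact ⟨0, fun b h => absurd rfl h, Matrix.mulVec_zero _, fun h => absurd h hi⟩
  choose v h1 h2 h3 using hex
  let f0 : Mor X T := mkMor (fun i => Matrix.of fun b a => v i (X.pos i a) b * η i () a)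
    (fun ε hε => (AC_small hm hε).mono fun i hi b a hb =>
      (h1 i _ b (left_ne_zero_of_mul hb)).trans hi) (equi_triv _)
  have hf0 : ∀ i b a, mat f0 i b a = v i (X.pos i a) b * η i () a := fun _ _ _ => rfl
  have hd0 : dT * f0 = 0 := mor_ext fun i => by
    ext b a
    have := congrFun (h2 i (X.pos i a)) b
    simp only [mulVec, dotProduct, Pi.zero_apply] at this
    simp only [mat_mul, hf0, Matrix.mul_apply, ← mul_assoc,
      ← Finset.sum_mul, this, zero_mul, mat_zero, Matrix.zero_apply]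
  have he0 : VanR W X (fun i => e i * mat f0 i - η i) := AC_van hW hm (hP.mono fun i hi a ha x => by
    have := congrFun (h3 i (X.pos i a) (hi _ ha)) x
    simp only [mulVec, dotProduct, Pi.one_apply] at this
    simp only [hf0, Matrix.sub_apply, Matrix.mul_apply, ← mul_assoc,
      ← Finset.sum_mul, this, one_mul, sub_self])
  obtain ⟨h, g1, g2⟩ := ac_null (e := e) (f := f0 * dX) hW hX.neg (by simpa using hsq) hT
    (by
      have h0 : loc W dT * loc W f0 = 0 := by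
        rw [← DFun.map_mul, hd0, DFun.map_zero]
      simp [Chain, hsq, Hom.reassoc h0])
    (((he0.mul_ctl (mat_ctl dX)).add hη).congr (Eventually.of_forall fun i => by
      simp [Matrix.sub_mul, Matrix.mul_assoc]))
  refine ⟨f0 + h, (chain_q _).mpr ?_, he0.congr (Eventually.of_forall fun i => ?_)⟩
  · have : (f0 + h) * dX - dT * (f0 + h) = f0 * dX - (dT * h + h * -dX) := by
      simp only [Hom.add_mul, Hom.mul_add, hd0, Hom.mul_neg]
      abel
    rw [this]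
    exact g1
  · simp [Matrix.mul_add, g2 i]

end Vale.Agent.P228
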