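import Vale.Agent.P228.Cat

/-! Ungraded complexes, Hermitian forms and Lagrangians in a dagger category: definitions. -/

namespace Vale.Agent.P228.DagCat

universe u v
variable {O : Type u} [Add O] {C : DagCat O} {D E L M T X Y Z X' Y' : O}

open Hom Complex

/-- `f` is a chain map from `(X, d)` to `(Y, d')`. -/
def Chain (d : C.Hom X X) (d' : C.Hom Y Y) (f : C.Hom X Y) : Prop := f * d = d' * f

/-- `f` is null-homotopic from `(X, d)` to `(Y, d')`. -/
def Null (d : C.Hom X X) (d' : C.Hom Y Y) (f : C.Hom X Y) : Prop :=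
  ∃ h : C.Hom X Y, f = d' * h + h * d

/-- `(X, d)` is contractible. -/
def Contr (d : C.Hom X X) : Prop := Null d d 1

/-- `f` is a chain homotopy equivalence. -/
structure IsEquiv (d : C.Hom X X) (d' : C.Hom Y Y) (f : C.Hom X Y) : Prop where
  chain : Chain d d' f
  inv : ∃ g : C.Hom Y X, Chain d' d g ∧ Null d d (g * f - 1) ∧ Null d' d' (f * g - 1)

/-- Lower triangular block matrix. -/
def tri (d : C.Hom X X') (f : C.Hom X Y') (d' : C.Hom Y Y') : C.Hom (X + Y) (X' + Y') :=
  col (row d 0) (row f d')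

/-- Diagonal block matrix. -/
def dsum (f : C.Hom X X') (g : C.Hom Y Y') : C.Hom (X + Y) (X' + Y') := col (row f 0) (row 0 g)

/-- The hyperbolic form. -/
def hyp (C : DagCat O) (X : O) : C.Hom (X + X) (X + X) := col (row 0 1) (row 1 0)

/-- The unitary swapping the two middle summands. -/
def mid (C : DagCat O) (X Y X' Y' : O) : C.Hom ((X + Y) + (X' + Y')) ((X + X') + (Y + Y')) :=
  col (col (row (row 1 0) 0) (row 0 (row 1 0))) (col (row (row 0 1) 0) (row 0 (row 0 1)))

/-- A split short exact sequence of complexes `(A, dA) → (T, dT) → (X, dX)`. -/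
structure SES {A : O} (dA : C.Hom A A) (dT : C.Hom T T) (dX : C.Hom X X)
    (i : C.Hom A T) (p : C.Hom T X) : Prop where
  chain_i : Chain dA dT i
  chain_p : Chain dT dX p
  split : ∃ (r : C.Hom T A) (s : C.Hom X T),
    r * i = 1 ∧ p * s = 1 ∧ p * i = 0 ∧ i * r + s * p = 1

/-- A complex with a Hermitian chain map to its dual. -/
structure IsSym (d B : C.Hom X X) : Prop where
  sq : d * d = 0
  herm : B.dag = B
  chain : Chain d d.dag B

/-- A Poincare complex. -/
structure Poinc (d B : C.Hom X X) : Prop extends IsSym d B where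
  equiv : IsEquiv d d.dag B

/-- Isotropic data `(L, dL, l, h)` in `(X, d, B)`. -/
structure Isot (d B : C.Hom X X) (dL : C.Hom L L) (l : C.Hom L X) (h : C.Hom L L) : Prop where
  sq : dL * dL = 0
  herm : h.dag = h
  chain : Chain dL d l
  iso : l.dag * (B * l) = dL.dag * h + h * dL

/-- The fibre of `l† B`. -/
def fibD (d B : C.Hom X X) (dL : C.Hom L L) (l : C.Hom L X) : C.Hom (X + L) (X + L) :=
  tri d (l.dag * B) (-dL.dag)

/-- A Lagrangian. -/
structure Lag (d B : C.Hom X X) (dL : C.Hom L L) (l : C.Hom L X) (h : C.Hom L L) : Prop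
    extends Isot d B dL l h where
  equiv : IsEquiv dL (fibD d B dL l) (col l h)

/-- Differential of the result of surgery. -/
def surgD (d B : C.Hom X X) (dL : C.Hom L L) (l : C.Hom L X) (h : C.Hom L L) :
    C.Hom (L + (X + L)) (L + (X + L)) := tri (-dL) (col l h) (fibD d B dL l)

/-- Form of the result of surgery. -/
def surgB (L : O) (B : C.Hom X X) : C.Hom (L + (X + L)) (L + (X + L)) :=
  col (row 0 (row 0 1)) (col (row 0 (row B 0)) (row 1 0))

/-- Differential of the boundary of a Hermitian chain map `φ`; the form is `hyp`. -/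
def bdD (d φ : C.Hom X X) : C.Hom (X + X) (X + X) := tri (I • d) φ (I • d).dag

/-- Differential of the Lagrangian of the boundary given by isotropic data. -/
def bdL (d φ : C.Hom X X) (dM : C.Hom M M) (l : C.Hom M X) (h : C.Hom M M) :
    C.Hom (M + (X + M)) (M + (X + M)) :=
  tri (I • dM) (col (φ * l) (I • h)) (tri (I • d).dag l.dag (I • dM.dag))

/-- Structure map of the boundary Lagrangian. -/
def bdl (l : C.Hom M X) : C.Hom (M + (X + M)) (X + X) := col (row l 0) (row 0 (row 1 0))

/-- Null-homotopy of the boundary Lagrangian. -/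
def bdh (C : DagCat O) (M X : O) : C.Hom (M + (X + M)) (M + (X + M)) :=
  col (row 0 (row 0 1)) (col 0 (row 1 0))

/-- Differential of the double. -/
def dblD (d : C.Hom D D) : C.Hom (D + D) (D + D) := dsum d d.dag

/-- Form of the double. -/
def dblB (β β' : C.Hom D D) : C.Hom (D + D) (D + D) :=
  col (row β (1 - β * β')) (row (1 - β' * β) β')

/-- `(D, dD)` dominates `(X, d)`. -/
structure Dom (d : C.Hom X X) (dD : C.Hom D D) (α : C.Hom X D) (δ : C.Hom D X) : Prop where
  sq : dD * dD = 0
  chain_α : Chain d dD α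
  chain_δ : Chain dD d δ
  null : Null d d (δ * α - 1)

/-- Doubling data for `(X, d, B)` on a dominating complex. -/
structure Dbl (d B : C.Hom X X) (dD : C.Hom D D) (δ : C.Hom D X) (β β' : C.Hom D D) : Prop where
  herm : β.dag = β
  herm' : β'.dag = β'
  chain : Chain dD dD.dag β
  chain' : Chain dD.dag dD β'
  ex : ∃ (α : C.Hom X D) (B' : C.Hom X X), Dom d dD α δ ∧ Chain d.dag d B' ∧
    Null d d (B' * B - 1) ∧ Null dD dD.dag (β - δ.dag * (B * δ)) ∧
    Null dD.dag dD (β' - α * (B' * α.dag))

/-- A dagger functor (sums are not part of the data). -/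
structure GFun {O' : Type v} [Add O'] (C : DagCat O) (C' : DagCat O') where
  obj : O → O'
  map : ∀ {X Y : O}, C.Hom X Y → C'.Hom (obj X) (obj Y)
  map_mul : ∀ {X Y Z : O} (g : C.Hom Y Z) (f : C.Hom X Y), map (g * f) = map g * map f
  map_one : ∀ X : O, map (1 : C.Hom X X) = 1
  map_add : ∀ {X Y : O} (f g : C.Hom X Y), map (f + g) = map f + map g
  map_smul : ∀ {X Y : O} (c : ℂ) (f : C.Hom X Y), map (c • f) = c • map f
  map_dag : ∀ {X Y : O} (f : C.Hom X Y), map f.dag = (map f).dag

attribute [simp] GFun.map_mul GFun.map_one GFun.map_add GFun.map_smul GFun.map_dag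

namespace GFun
variable {O' : Type v} [Add O'] {C' : DagCat O'} (F : GFun C C')
@[simp] theorem map_zero : F.map (0 : C.Hom X Y) = 0 := by
  have := F.map_smul (0 : ℂ) (0 : C.Hom X Y)
  simpa using this
@[simp] theorem map_neg (f : C.Hom X Y) : F.map (-f) = -F.map f := by
  have := F.map_smul (-1 : ℂ) f
  simpa using this
@[simp] theorem map_sub (f g : C.Hom X Y) : F.map (f - g) = F.map f - F.map g := by
  simp [sub_eq_add_neg]

/-- The functor induced on quotients. -/
def quot {I : Ideal C} {J : Ideal C'} (h : ∀ {X Y : O} {f : C.Hom X Y}, I.Mem f → J.Mem (F.map f)) :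
    GFun I.quot J.quot where
  obj := F.obj
  map {X Y} f := Quotient.liftOn' (s₁ := (I.sub X Y).quotientRel) f (fun f => J.q.map (F.map f)) (by
    intro f g hfg
    rw [Submodule.quotientRel_def] at hfg
    rw [J.q_eq, ← F.map_sub]
    exact h hfg)
  map_mul g f := by
    obtain ⟨g, rfl⟩ := I.q_surj g
    obtain ⟨f, rfl⟩ := I.q_surj f
    change J.q.map (F.map (g * f)) = J.q.map (F.map g) * J.q.map (F.map f)
    simp
  map_one X := by
    change J.q.map (F.map (1 : C.Hom X X)) = 1
    simp
  map_add g f := by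
    obtain ⟨g, rfl⟩ := I.q_surj g
    obtain ⟨f, rfl⟩ := I.q_surj f
    change J.q.map (F.map (g + f)) = J.q.map (F.map g) + J.q.map (F.map f)
    simp
  map_smul c f := by
    obtain ⟨f, rfl⟩ := I.q_surj f
    change J.q.map (F.map (c • f)) = c • J.q.map (F.map f)
    simp
  map_dag f := by
    obtain ⟨f, rfl⟩ := I.q_surj f
    change J.q.map (F.map f.dag) = (J.q.map (F.map f)).dag
    simp

theorem quot_q {I : Ideal C} {J : Ideal C'}
    (h : ∀ {X Y : O} {f : C.Hom X Y}, I.Mem f → J.Mem (F.map f)) (f : C.Hom X Y) :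
    (F.quot h).map (I.q.map f) = J.q.map (F.map f) := rfl
end GFun

/-- An identity-on-objects functor as a general functor. -/
def DFun.toG {C' : DagCat O} (F : DFun C C') : GFun C C' where
  obj X := X
  map := F.map
  map_mul := F.map_mul
  map_one := F.map_one
  map_add := F.map_add
  map_smul := F.map_smul
  map_dag := F.map_dag

namespace DFun
variable {C' : DagCat O} (F : DFun C C')
@[simp] theorem map_tri (d : C.Hom X X') (f : C.Hom X Y') (d' : C.Hom Y Y') :
    F.map (tri d f d') = tri (F.map d) (F.map f) (F.map d') := by simp [tri]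
@[simp] theorem map_dsum (f : C.Hom X X') (g : C.Hom Y Y') :
    F.map (dsum f g) = dsum (F.map f) (F.map g) := by simp [dsum]
@[simp] theorem map_hyp : F.map (C.hyp X) = C'.hyp X := by simp [hyp]
@[simp] theorem map_mid : F.map (C.mid X Y X' Y') = C'.mid X Y X' Y' := by simp [mid]
@[simp] theorem map_fibD (d B : C.Hom X X) (dL : C.Hom L L) (l : C.Hom L X) :
    F.map (fibD d B dL l) = fibD (F.map d) (F.map B) (F.map dL) (F.map l) := by simp [fibD]
@[simp] theorem map_surgD (d B : C.Hom X X) (dL : C.Hom L L) (l : C.Hom L X) (h : C.Hom L L) :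
    F.map (surgD d B dL l h) = surgD (F.map d) (F.map B) (F.map dL) (F.map l) (F.map h) := by
  simp [surgD]
@[simp] theorem map_surgB (B : C.Hom X X) : F.map (surgB L B) = surgB L (F.map B) := by
  simp [surgB]
@[simp] theorem map_bdD (d φ : C.Hom X X) : F.map (bdD d φ) = bdD (F.map d) (F.map φ) := by
  simp [bdD]
@[simp] theorem map_bdL (d φ : C.Hom X X) (dM : C.Hom M M) (l : C.Hom M X) (h : C.Hom M M) :
    F.map (bdL d φ dM l h) = bdL (F.map d) (F.map φ) (F.map dM) (F.map l) (F.map h) := by
  simp [bdL]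
@[simp] theorem map_bdl (l : C.Hom M X) : F.map (bdl l) = bdl (F.map l) := by simp [bdl]
@[simp] theorem map_bdh : F.map (C.bdh M X) = C'.bdh M X := by simp [bdh]
@[simp] theorem map_dblD (d : C.Hom D D) : F.map (dblD d) = dblD (F.map d) := by simp [dblD]
@[simp] theorem map_dblB (β β' : C.Hom D D) :
    F.map (dblB β β') = dblB (F.map β) (F.map β') := by simp [dblB]
end DFun

end Vale.Agent.P228.DagCat
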