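import Vale.Agent.P228.Alg

/-! Part AlgA: chain maps, homotopies, equivalences, cones, split exact sequences. -/

namespace Vale.Agent.P228.DagCat

universe u v
variable {O : Type u} [Add O] {C : DagCat O} {A A' D E L M T T' X Y Z X' Y' : O}

open Hom Complex

section basic
variable {d : C.Hom X X} {d' : C.Hom Y Y} {d'' : C.Hom Z Z} {f g : C.Hom X Y}

theorem sq_dag (h : d * d = 0) : d.dag * d.dag = 0 := by
  rw [← dag_mul, h, dag_zero]
theorem Chain.one : Chain d d 1 := by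
  simp [Chain]
theorem Chain.zero : Chain d d' 0 := by
  simp [Chain]
theorem Chain.add (hf : Chain d d' f) (hg : Chain d d' g) : Chain d d' (f + g) := by
  unfold Chain at *; simp [hf, hg]
theorem Chain.neg (hf : Chain d d' f) : Chain d d' (-f) := by
  unfold Chain at *; simp [hf]
theorem Chain.sub (hf : Chain d d' f) (hg : Chain d d' g) : Chain d d' (f - g) := by
  unfold Chain at *; simp [hf, hg]
theorem Chain.smul (c : ℂ) (hf : Chain d d' f) : Chain d d' (c • f) := by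
  unfold Chain at *; simp [hf]
theorem Chain.mul {k : C.Hom Y Z} (hk : Chain d' d'' k) (hf : Chain d d' f) :
    Chain d d'' (k * f) := by
  unfold Chain at *; simp [hf, reassoc hk]
theorem Chain.dag (hf : Chain d d' f) : Chain d'.dag d.dag f.dag := by
  unfold Chain at *; rw [← dag_mul, ← hf, dag_mul]
theorem Chain.smul_d (c : ℂ) (hf : Chain d d' f) : Chain (c • d) (c • d') f := by
  unfold Chain at *; simp [hf]
theorem Chain.neg_d (hf : Chain d d' f) : Chain (-d) (-d') f := by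
  unfold Chain at *; simp [hf]
theorem Chain.oplus {e : C.Hom X' X'} {e' : C.Hom Y' Y'} {k : C.Hom X' Y'}
    (hf : Chain d d' f) (hk : Chain e e' k) : Chain (dsum d e) (dsum d' e') (dsum f k) := by
  unfold Chain at *; simp [dsum, hf, hk]

theorem Null.zero : Null d d' 0 := by
  exact ⟨0, by simp⟩
theorem Null.of_eq (h : f = 0) : Null d d' f := by
  exact ⟨0, by simp [h]⟩
theorem Null.add (hf : Null d d' f) (hg : Null d d' g) : Null d d' (f + g) := by
  obtain ⟨a, rfl⟩ := hf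
  obtain ⟨b, rfl⟩ := hg
  exact ⟨a + b, by simp; abel⟩
theorem Null.neg (hf : Null d d' f) : Null d d' (-f) := by
  obtain ⟨a, rfl⟩ := hf
  exact ⟨-a, by simp; abel⟩
theorem Null.sub (hf : Null d d' f) (hg : Null d d' g) : Null d d' (f - g) := by
  rw [sub_eq_add_neg]; exact hf.add hg.neg
theorem Null.smul (c : ℂ) (hf : Null d d' f) : Null d d' (c • f) := by
  obtain ⟨a, rfl⟩ := hf
  exact ⟨c • a, by simp⟩
theorem Null.symm (h : Null d d' (f - g)) : Null d d' (g - f) := by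
  simpa using h.neg
theorem Null.trans {k : C.Hom X Y} (h : Null d d' (f - g)) (h' : Null d d' (g - k)) :
    Null d d' (f - k) := by
  simpa using h.add h'
theorem Null.mul_left {k : C.Hom Y Z} (hk : Chain d' d'' k) (hf : Null d d' f) :
    Null d d'' (k * f) := by
  obtain ⟨a, rfl⟩ := hf
  exact ⟨k * a, by simp [reassoc hk]⟩
theorem Null.mul_right {k : C.Hom Y Z} (hk : Null d' d'' k) (hf : Chain d d' f) :
    Null d d'' (k * f) := by
  obtain ⟨a, rfl⟩ := hk
  unfold Chain at hf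
  exact ⟨a * f, by simp [hf]⟩
theorem Null.dag (hf : Null d d' f) : Null d'.dag d.dag f.dag := by
  obtain ⟨a, rfl⟩ := hf
  exact ⟨a.dag, by simp [add_comm]⟩
theorem Null.chain (h : d * d = 0) (h' : d' * d' = 0) (hf : Null d d' f) : Chain d d' f := by
  obtain ⟨a, rfl⟩ := hf
  simp [Chain, h, reassoc h']
theorem Null.smul_d {c : ℂ} (hc : c ≠ 0) (hf : Null d d' f) : Null (c • d) (c • d') f := by
  obtain ⟨a, rfl⟩ := hf
  exact ⟨c⁻¹ • a, by simp [smul_smul, hc]⟩
theorem Null.neg_d (hf : Null d d' f) : Null (-d) (-d') f := by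
  obtain ⟨a, rfl⟩ := hf
  exact ⟨-a, by simp⟩
theorem Null.oplus {e : C.Hom X' X'} {e' : C.Hom Y' Y'} {k : C.Hom X' Y'}
    (hf : Null d d' f) (hk : Null e e' k) : Null (dsum d e) (dsum d' e') (dsum f k) := by
  obtain ⟨a, rfl⟩ := hf
  obtain ⟨b, rfl⟩ := hk
  exact ⟨dsum a b, by simp [dsum]⟩
/-- Block criterion for maps between direct sums of complexes. -/
theorem Null.mat {e : C.Hom X' X'} {e' : C.Hom Y' Y'} {a : C.Hom X Y} {b : C.Hom X' Y}
    {c : C.Hom X Y'} {k : C.Hom X' Y'} (ha : Null d d' a) (hb : Null e d' b) (hc : Null d e' c)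
    (hk : Null e e' k) : Null (dsum d e) (dsum d' e') (col (row a b) (row c k)) := by
  obtain ⟨a, rfl⟩ := ha
  obtain ⟨b, rfl⟩ := hb
  obtain ⟨c, rfl⟩ := hc
  obtain ⟨k, rfl⟩ := hk
  exact ⟨col (row a b) (row c k), by simp [dsum]⟩
/-- A Hermitian null-homotopic map has a Hermitian null-homotopy. -/
theorem Null.herm {S : C.Hom X X} (hS : S.dag = S) (h : Null d d.dag S) :
    ∃ k : C.Hom X X, k.dag = k ∧ S = d.dag * k + k * d := by
  obtain ⟨a, ha⟩ := h
  have h2 : S = d.dag * a.dag + a.dag * d := by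
    rw [← hS, ha]; simp [add_comm]
  have h2' : starRingEnd ℂ 2 = 2 := map_ofNat _ 2
  refine ⟨(1 / 2 : ℂ) • (a + a.dag), by simp [add_comm, h2'], ?_⟩
  have h3 : S = (1 / 2 : ℂ) • (S + S) := by
    rw [← two_smul ℂ S, smul_smul]; simp
  rw [h3]
  nth_rewrite 1 [ha]
  nth_rewrite 1 [h2]
  simp only [Hom.mul_smul, Hom.smul_mul, Hom.mul_add, Hom.add_mul, smul_add]
  abel

theorem Contr.smul {c : ℂ} (hc : c ≠ 0) (h : Contr d) : Contr (c • d) := by
  exact Null.smul_d hc h
theorem Contr.neg (h : Contr d) : Contr (-d) := by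
  exact Null.neg_d h
theorem Contr.dag (h : Contr d) : Contr d.dag := by
  simpa [Contr] using Null.dag h
theorem Contr.null_left (h : Contr d) (hf : Chain d d' f) : Null d d' f := by
  simpa using Null.mul_left hf h
theorem Contr.null_right (h : Contr d') (hf : Chain d d' f) : Null d d' f := by
  simpa using Null.mul_right h hf
theorem Contr.of_one_eq_zero (h : (1 : C.Hom X X) = 0) : Contr d := by
  exact Null.of_eq h
/-- If `d Γ + Γ d` is invertible then `d` is contractible. -/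
theorem Contr.of_unit (hd : d * d = 0) {Γ u v : C.Hom X X} (h : u = d * Γ + Γ * d)
    (huv : u * v = 1) (hvu : v * u = 1) : Contr d := by
  have h1 : u * d = d * u := by simp [h, hd, reassoc hd]
  have h2 : v * d = d * v := by
    calc v * d = v * (d * (u * v)) := by rw [huv, Hom.mul_one]
      _ = v * (u * (d * v)) := by rw [reassoc h1, Hom.assoc]
      _ = d * v := by rw [reassoc hvu, Hom.one_mul]
  refine ⟨Γ * v, ?_⟩
  rw [← huv, h]
  simp [h2]

theorem IsEquiv.refl : IsEquiv d d 1 := by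
  exact ⟨Chain.one, 1, Chain.one, Null.of_eq (by simp), Null.of_eq (by simp)⟩
theorem IsEquiv.mul {k : C.Hom Y Z} (hk : IsEquiv d' d'' k) (hf : IsEquiv d d' f) :
    IsEquiv d d'' (k * f) := by
  obtain ⟨hk1, k', hk2, hk3, hk4⟩ := hk
  obtain ⟨hf1, f', hf2, hf3, hf4⟩ := hf
  refine ⟨hk1.mul hf1, f' * k', hf2.mul hk2, ?_, ?_⟩
  · have := ((hk3.mul_right hf1).mul_left hf2).add hf3
    simpa using this
  · have := ((hf4.mul_right hk2).mul_left hk1).add hk4
    simpa using this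
theorem IsEquiv.dag (hf : IsEquiv d d' f) : IsEquiv d'.dag d.dag f.dag := by
  obtain ⟨hf1, f', hf2, hf3, hf4⟩ := hf
  exact ⟨hf1.dag, f'.dag, hf2.dag, by simpa using hf4.dag, by simpa using hf3.dag⟩
theorem IsEquiv.smul {c : ℂ} (hc : c ≠ 0) (hf : IsEquiv d d' f) : IsEquiv d d' (c • f) := by
  obtain ⟨hf1, f', hf2, hf3, hf4⟩ := hf
  exact ⟨hf1.smul c, c⁻¹ • f', hf2.smul _, by simpa [smul_smul, hc] using hf3,
    by simpa [smul_smul, hc] using hf4⟩
theorem IsEquiv.neg (hf : IsEquiv d d' f) : IsEquiv d d' (-f) := by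
  simpa using hf.smul (c := -1) (by simp)
theorem IsEquiv.smul_d {c : ℂ} (hc : c ≠ 0) (hf : IsEquiv d d' f) :
    IsEquiv (c • d) (c • d') f := by
  obtain ⟨hf1, f', hf2, hf3, hf4⟩ := hf
  exact ⟨hf1.smul_d c, f', hf2.smul_d c, hf3.smul_d hc, hf4.smul_d hc⟩
theorem IsEquiv.neg_d (hf : IsEquiv d d' f) : IsEquiv (-d) (-d') f := by
  obtain ⟨hf1, f', hf2, hf3, hf4⟩ := hf
  exact ⟨hf1.neg_d, f', hf2.neg_d, hf3.neg_d, hf4.neg_d⟩
theorem IsEquiv.of_htp (hf : IsEquiv d d' f) (hg : Chain d d' g) (h : Null d d' (g - f)) :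
    IsEquiv d d' g := by
  obtain ⟨hf1, f', hf2, hf3, hf4⟩ := hf
  refine ⟨hg, f', hf2, ?_, ?_⟩
  · simpa using (h.mul_left hf2).add hf3
  · simpa using (h.mul_right hf2).add hf4
theorem IsEquiv.of_iso (hf : Chain d d' f) {k : C.Hom Y X} (h1 : k * f = 1) (h2 : f * k = 1) :
    IsEquiv d d' f := by
  refine ⟨hf, k, ?_, Null.of_eq (by simp [h1]), Null.of_eq (by simp [h2])⟩
  unfold Chain at *
  calc k * d' = k * (d' * (f * k)) := by rw [h2, Hom.mul_one]
    _ = k * (f * (d * k)) := by rw [reassoc hf, Hom.assoc]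
    _ = d * k := by rw [reassoc h1, Hom.one_mul]
theorem IsEquiv.symm (hf : IsEquiv d d' f) :
    ∃ k : C.Hom Y X, IsEquiv d' d k ∧ Null d d (k * f - 1) ∧ Null d' d' (f * k - 1) := by
  obtain ⟨hf1, f', hf2, hf3, hf4⟩ := hf
  exact ⟨f', ⟨hf2, f, hf1, hf4, hf3⟩, hf3, hf4⟩
theorem IsEquiv.of_mul_left {k : C.Hom Y Z} (hk : IsEquiv d' d'' k) (hf : Chain d d' f)
    (h : IsEquiv d d'' (k * f)) : IsEquiv d d' f := by
  obtain ⟨k', hk1, hk2, -⟩ := hk.symm
  refine (hk1.mul h).of_htp hf ?_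
  simpa using (hk2.mul_right hf).neg
theorem IsEquiv.of_mul_right {k : C.Hom Y Z} (hk : Chain d' d'' k) (hf : IsEquiv d d' f)
    (h : IsEquiv d d'' (k * f)) : IsEquiv d' d'' k := by
  obtain ⟨f', hf1, -, hf3⟩ := hf.symm
  refine (h.mul hf1).of_htp hk ?_
  simpa using (hf3.mul_left hk).neg
theorem IsEquiv.contr_left (hf : IsEquiv d d' f) (h : Contr d') : Contr d := by
  obtain ⟨hf1, f', hf2, hf3, -⟩ := hf
  have := ((h.null_right hf1).mul_left hf2).sub hf3
  simpa [Contr] using this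
theorem IsEquiv.contr_right (hf : IsEquiv d d' f) (h : Contr d) : Contr d' := by
  obtain ⟨f', hf1, -, -⟩ := hf.symm
  exact hf1.contr_left h
theorem IsEquiv.of_contr (hf : Chain d d' f) (h : Contr d) (h' : Contr d') : IsEquiv d d' f := by
  refine ⟨hf, 0, Chain.zero, ?_, ?_⟩
  · simpa using Null.neg h
  · simpa using Null.neg h'
theorem IsEquiv.oplus {e : C.Hom X' X'} {e' : C.Hom Y' Y'} {k : C.Hom X' Y'}
    (hf : IsEquiv d d' f) (hk : IsEquiv e e' k) :
    IsEquiv (dsum d e) (dsum d' e') (dsum f k) := by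
  obtain ⟨hk1, k', hk2, hk3, hk4⟩ := hk
  obtain ⟨hf1, f', hf2, hf3, hf4⟩ := hf
  refine ⟨hf1.oplus hk1, dsum f' k', hf2.oplus hk2, ?_, ?_⟩
  · simpa [dsum] using hf3.oplus hk3
  · simpa [dsum] using hf4.oplus hk4

theorem cone_sq (h : d * d = 0) (h' : d' * d' = 0) (hf : Chain d d' f) :
    tri (-d) f d' * tri (-d) f d' = 0 := by
  unfold Chain at hf
  simp [tri, h, h', hf]
theorem fib_sq (h : d * d = 0) (h' : d' * d' = 0) (hf : Chain d d' f) :
    tri d f (-d') * tri d f (-d') = 0 := by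
  unfold Chain at hf
  simp [tri, h, h', hf]
theorem contr_cone_iff (h : d * d = 0) (h' : d' * d' = 0) (hf : Chain d d' f) :
    Contr (tri (-d) f d') ↔ IsEquiv d d' f := by
  constructor
  · rintro ⟨G, hG⟩
    obtain ⟨a, b, c, e, rfl⟩ := exists_mat G
    simp [tri] at hG
    obtain ⟨⟨h1, h2⟩, h3, h4⟩ := hG
    refine ⟨hf, b, ?_, ⟨a, ?_⟩, ⟨-e, ?_⟩⟩
    · unfold Chain
      rw [← sub_eq_zero, ← h2]; abel
    · rw [← h1]; abel
    · rw [← h4]; simp; abel
  · rintro ⟨-, g, hg, ⟨k, hk⟩, ⟨k', hk'⟩⟩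
    unfold Chain at hg
    have hk1 : g * f = 1 + (d * k + k * d) := by rw [← hk]; abel
    have hk2 : f * g = 1 + (d' * k' + k' * d') := by rw [← hk']; abel
    refine Contr.of_unit (cone_sq h h' hf) (Γ := col (row k g) (row 0 (-k')))
      (u := tri 1 (f * k - k' * f) 1) (v := tri 1 (-(f * k - k' * f)) 1) ?_ ?_ ?_
    · simp [tri, hk1, hk2, hg]
      refine ⟨?_, ?_, ?_⟩ <;> abel
    · simp [tri]
    · simp [tri]
theorem contr_fib_iff (h : d * d = 0) (h' : d' * d' = 0) (hf : Chain d d' f) :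
    Contr (tri d f (-d')) ↔ IsEquiv d d' f := by
  have e : tri d f (-d') = -tri (-d) (-f) d' := by simp [tri]
  rw [e]
  constructor
  · intro hc
    have := (contr_cone_iff h h' hf.neg).1 (by simpa using hc.neg)
    simpa using this.neg
  · intro hc
    exact ((contr_cone_iff h h' hf.neg).2 hc.neg).neg
end basic

section ses
variable {dA : C.Hom A A} {dT : C.Hom T T} {dX : C.Hom X X} {i : C.Hom A T} {p : C.Hom T X}
  {dA' : C.Hom A' A'} {dT' : C.Hom T' T'} {dX' : C.Hom X' X'} {i' : C.Hom A' T'}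
  {p' : C.Hom T' X'}

theorem SES.dag (h : SES dA dT dX i p) : SES dX.dag dT.dag dA.dag p.dag i.dag := by
  obtain ⟨hi, hp, r, s, h1, h2, h3, h4⟩ := h
  refine ⟨hp.dag, hi.dag, s.dag, r.dag, ?_, ?_, ?_, ?_⟩
  · rw [← dag_mul, h2, dag_one]
  · rw [← dag_mul, h1, dag_one]
  · rw [← dag_mul, h3, dag_zero]
  · rw [← dag_mul, ← dag_mul, ← dag_add, add_comm, h4, dag_one]
theorem SES.equiv_p (h : SES dA dT dX i p) (hT : dT * dT = 0) (hA : Contr dA) :
    IsEquiv dT dX p := by
  obtain ⟨hi, hp, r, s, h1, h2, h3, h4⟩ := h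
  obtain ⟨G, hG⟩ := hA
  have hi' : i * dA = dT * i := hi
  have hp' : p * dT = dX * p := hp
  have hX : dX * dX = 0 := by
    calc dX * dX = dX * (dX * (p * s)) := by rw [h2, Hom.mul_one]
      _ = p * (dT * (dT * s)) := by rw [reassoc hp', Hom.assoc, reassoc hp', Hom.assoc]
      _ = 0 := by rw [reassoc hT]; simp
  have hir : i * r = 1 - s * p := by rw [← h4]; abel
  obtain ⟨t, ht⟩ : ∃ t : C.Hom X A, t = r * (dT * s - s * dX) := ⟨_, rfl⟩
  have hit : i * t = dT * s - s * dX := by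
    rw [ht, reassoc hir]
    simp [reassoc hp', h2, reassoc h2]
  have hinj : ∀ {W : O} (y : C.Hom W A), i * y = 0 → y = 0 := by
    intro W y hy
    rw [← Hom.one_mul y, ← h1, Hom.assoc, hy, Hom.mul_zero]
  have htt : dA * t + t * dX = 0 := by
    apply hinj
    rw [Hom.mul_add, reassoc hi', Hom.assoc, hit, reassoc hit]
    simp [reassoc hT, hX]
  obtain ⟨s', hs'⟩ : ∃ s' : C.Hom X T, s' = s - i * (G * t) := ⟨_, rfl⟩
  have hs1 : Chain dX dT s' := by
    unfold Chain
    have e1 : t * dX = -(dA * t) := eq_neg_of_add_eq_zero_right htt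
    have e2 : dA * (G * t) = t - G * (dA * t) := by
      have := congrArg (fun y => y * t) hG
      simp at this
      rw [eq_sub_iff_add_eq]; exact this.symm
    have e3 : dT * (i * (G * t)) = i * t - i * (G * (dA * t)) := by
      rw [← Hom.mul_sub, ← e2, reassoc hi', Hom.assoc]
    rw [hs']
    simp [e1, e3, hit]
    abel
  have hs2 : p * s' = 1 := by rw [hs']; simp [h2, reassoc h3]
  obtain ⟨r', hr'⟩ : ∃ r' : C.Hom T A, r' = r * (1 - s' * p) := ⟨_, rfl⟩
  have hir' : i * r' = 1 - s' * p := by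
    rw [hr', reassoc hir]
    simp [reassoc hs2]
  have hr1 : Chain dT dA r' := by
    unfold Chain at *
    rw [← sub_eq_zero]
    apply hinj
    rw [Hom.mul_sub, reassoc hir', reassoc hi', Hom.assoc, hir']
    simp [hp', reassoc hs1]
  refine ⟨hp, s', hs1, ?_, Null.of_eq (by simp [hs2])⟩
  have := ((Contr.null_right ⟨G, hG⟩ hr1).mul_left hi).neg
  rw [hir'] at this
  simpa using this
theorem SES.equiv_i (h : SES dA dT dX i p) (hT : dT * dT = 0) (hX : Contr dX) :
    IsEquiv dA dT i := by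
  simpa using (h.dag.equiv_p (sq_dag hT) hX.dag).dag
theorem SES.contr (h : SES dA dT dX i p) (hT : dT * dT = 0) (hA : Contr dA) (hX : Contr dX) :
    Contr dT := by
  exact (h.equiv_p hT hA).contr_left hX
theorem SES.sq_left (h : SES dA dT dX i p) (hT : dT * dT = 0) : dA * dA = 0 := by
  obtain ⟨hi, hp, r, s, h1, h2, h3, h4⟩ := h
  have hi' : i * dA = dT * i := hi
  calc dA * dA = r * (i * (dA * dA)) := by rw [reassoc h1, Hom.one_mul]
    _ = r * (dT * (dT * i)) := by rw [reassoc hi', Hom.assoc, hi']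
    _ = 0 := by rw [reassoc hT]; simp
theorem SES.sq_right (h : SES dA dT dX i p) (hT : dT * dT = 0) : dX * dX = 0 := by
  simpa using sq_dag (h.dag.sq_left (sq_dag hT))

/-- The five lemma. -/
theorem SES.five (h : SES dA dT dX i p) (h' : SES dA' dT' dX' i' p') (hT : dT * dT = 0)
    (hT' : dT' * dT' = 0) {a : C.Hom A A'} {t : C.Hom T T'} {x : C.Hom X X'}
    (ha : IsEquiv dA dA' a) (ht : Chain dT dT' t) (hx : IsEquiv dX dX' x)
    (h1 : t * i = i' * a) (h2 : p' * t = x * p) : IsEquiv dT dT' t := by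
  have hA := h.sq_left hT
  have hX := h.sq_right hT
  have hA' := h'.sq_left hT'
  have hX' := h'.sq_right hT'
  rw [← contr_cone_iff hT hT' ht]
  have hs : SES (tri (-dA) a dA') (tri (-dT) t dT') (tri (-dX) x dX') (dsum i i') (dsum p p') := by
    obtain ⟨hi, hp, r, s, e1, e2, e3, e4⟩ := h
    obtain ⟨hi', hp', r', s', e1', e2', e3', e4'⟩ := h'
    unfold Chain at hi hp hi' hp'
    refine ⟨?_, ?_, dsum r r', dsum s s', ?_, ?_, ?_, ?_⟩
    · simp [Chain, tri, dsum, hi, hi', h1]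
    · simp [Chain, tri, dsum, hp, hp', h2]
    · simp [dsum, e1, e1']
    · simp [dsum, e2, e2']
    · simp [dsum, e3, e3']
    · simp [dsum, e4, e4']
  exact hs.contr (cone_sq hT hT' ht) ((contr_cone_iff hA hA' ha.chain).2 ha)
    ((contr_cone_iff hX hX' hx.chain).2 hx)
theorem ses_tri (d : C.Hom X X) (f : C.Hom X Y) (d' : C.Hom Y Y) :
    SES d' (tri d f d') d (col 0 1) (row 1 0) := by
  refine ⟨?_, ?_, row 0 1, col 1 0, ?_, ?_, ?_, ?_⟩ <;> simp [Chain, tri]
theorem Contr.of_tri {d : C.Hom X X} {f : C.Hom X Y} {d' : C.Hom Y Y}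
    (hsq : tri d f d' * tri d f d' = 0) (h : Contr d) (h' : Contr d') : Contr (tri d f d') := by
  exact (ses_tri d f d').contr hsq h' h
/-- The five lemma for triangular complexes. -/
theorem IsEquiv.of_tri {d : C.Hom X X} {f : C.Hom X Y} {d' : C.Hom Y Y} {e : C.Hom X' X'}
    {g : C.Hom X' Y'} {e' : C.Hom Y' Y'} (h1 : tri d f d' * tri d f d' = 0)
    (h2 : tri e g e' * tri e g e' = 0) {a : C.Hom X X'} {k : C.Hom X Y'} {b : C.Hom Y Y'}
    (hc : Chain (tri d f d') (tri e g e') (tri a k b)) (ha : IsEquiv d e a)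
    (hb : IsEquiv d' e' b) : IsEquiv (tri d f d') (tri e g e') (tri a k b) := by
  exact (ses_tri d f d').five (ses_tri e g e') h1 h2 hb hc ha (by simp [tri]) (by simp [tri])
/-- The fibre of a split surjection `f` is its kernel. -/
theorem SES.equiv_fib (h : SES dA dT dX i p) (hT : dT * dT = 0) :
    IsEquiv dA (tri dT p (-dX)) (col i 0) := by
  have hX := h.sq_right hT
  have hs : SES dA (tri dT p (-dX)) (tri dX 1 (-dX)) (col i 0) (dsum p 1) := by
    obtain ⟨hi, hp, r, s, e1, e2, e3, e4⟩ := h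
    unfold Chain at hi hp
    refine ⟨?_, ?_, row r 0, dsum s 1, ?_, ?_, ?_, ?_⟩
    · simp [Chain, tri, hi, e3]
    · simp [Chain, tri, dsum, hp]
    · simp [e1]
    · simp [dsum, e2]
    · simp [dsum, e3]
    · simp [dsum, e4]
  exact hs.equiv_i (fib_sq hT hX h.chain_p) ((contr_fib_iff hX hX Chain.one).2 IsEquiv.refl)
end ses

section map
variable {O' : Type v} [Add O'] {C' : DagCat O'} (F : GFun C C')
  {d B : C.Hom X X} {d' : C.Hom Y Y} {f : C.Hom X Y}
theorem Chain.gmap (h : Chain d d' f) : Chain (F.map d) (F.map d') (F.map f) := by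
  unfold Chain at *; rw [← F.map_mul, h, F.map_mul]
theorem Null.gmap (h : Null d d' f) : Null (F.map d) (F.map d') (F.map f) := by
  obtain ⟨a, rfl⟩ := h
  exact ⟨F.map a, by simp⟩
theorem Contr.gmap (h : Contr d) : Contr (F.map d) := by
  simpa [Contr] using Null.gmap F h
theorem IsEquiv.gmap (h : IsEquiv d d' f) : IsEquiv (F.map d) (F.map d') (F.map f) := by
  obtain ⟨hf1, f', hf2, hf3, hf4⟩ := h
  exact ⟨hf1.gmap F, F.map f', hf2.gmap F, by simpa using hf3.gmap F, by simpa using hf4.gmap F⟩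
theorem IsSym.gmap (h : IsSym d B) : IsSym (F.map d) (F.map B) := by
  exact ⟨by rw [← F.map_mul, h.sq, F.map_zero], by rw [← F.map_dag, h.herm],
    by simpa using h.chain.gmap F⟩
theorem Poinc.gmap (h : Poinc d B) : Poinc (F.map d) (F.map B) := by
  exact ⟨h.toIsSym.gmap F, by simpa using h.equiv.gmap F⟩
theorem Dom.gmap {dD : C.Hom D D} {α : C.Hom X D} {δ : C.Hom D X} (h : Dom d dD α δ) :
    Dom (F.map d) (F.map dD) (F.map α) (F.map δ) := by
  exact ⟨by rw [← F.map_mul, h.sq, F.map_zero], h.chain_α.gmap F, h.chain_δ.gmap F,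
    by simpa using h.null.gmap F⟩
theorem Dbl.gmap {dD : C.Hom D D} {δ : C.Hom D X} {β β' : C.Hom D D} (h : Dbl d B dD δ β β') :
    Dbl (F.map d) (F.map B) (F.map dD) (F.map δ) (F.map β) (F.map β') := by
  obtain ⟨h1, h2, h3, h4, α, B', h5, h6, h7, h8, h9⟩ := h
  exact ⟨by rw [← F.map_dag, h1], by rw [← F.map_dag, h2], by simpa using h3.gmap F,
    by simpa using h4.gmap F, F.map α, F.map B', h5.gmap F, by simpa using h6.gmap F,
    by simpa using h7.gmap F, by simpa using h8.gmap F, by simpa using h9.gmap F⟩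
end map

section dmap
variable {C' : DagCat O} (F : DFun C C') {d B : C.Hom X X} {d' : C.Hom Y Y} {f : C.Hom X Y}
theorem Chain.map (h : Chain d d' f) : Chain (F.map d) (F.map d') (F.map f) := h.gmap F.toG
theorem Null.map (h : Null d d' f) : Null (F.map d) (F.map d') (F.map f) := h.gmap F.toG
theorem Contr.map (h : Contr d) : Contr (F.map d) := h.gmap F.toG
theorem IsEquiv.map (h : IsEquiv d d' f) : IsEquiv (F.map d) (F.map d') (F.map f) := h.gmap F.toG
theorem IsSym.map (h : IsSym d B) : IsSym (F.map d) (F.map B) := h.gmap F.toG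
theorem Poinc.map (h : Poinc d B) : Poinc (F.map d) (F.map B) := h.gmap F.toG
theorem Dom.map {dD : C.Hom D D} {α : C.Hom X D} {δ : C.Hom D X} (h : Dom d dD α δ) :
    Dom (F.map d) (F.map dD) (F.map α) (F.map δ) := h.gmap F.toG
theorem Dbl.map {dD : C.Hom D D} {δ : C.Hom D X} {β β' : C.Hom D D} (h : Dbl d B dD δ β β') :
    Dbl (F.map d) (F.map B) (F.map dD) (F.map δ) (F.map β) (F.map β') := h.gmap F.toG
theorem Isot.map {dL h : C.Hom L L} {l : C.Hom L X} (hL : Isot d B dL l h) :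
    Isot (F.map d) (F.map B) (F.map dL) (F.map l) (F.map h) := by
  refine ⟨by rw [← F.map_mul, hL.sq, F.map_zero], by rw [← F.map_dag, hL.herm],
    hL.chain.map F, ?_⟩
  simpa using congrArg F.map hL.iso
theorem Lag.map {dL h : C.Hom L L} {l : C.Hom L X} (hL : Lag d B dL l h) :
    Lag (F.map d) (F.map B) (F.map dL) (F.map l) (F.map h) := by
  exact ⟨hL.toIsot.map F, by simpa using hL.equiv.map F⟩
end dmap

section quot
variable (I : Ideal C) {d : C.Hom X X} {d' : C.Hom Y Y} {f : C.Hom X Y}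
theorem chain_q : Chain (I.q.map d) (I.q.map d') (I.q.map f) ↔ I.Mem (f * d - d' * f) := by
  unfold Chain
  rw [← I.q.map_mul, ← I.q.map_mul, I.q_eq]
theorem null_q : Null (I.q.map d) (I.q.map d') (I.q.map f) ↔
    ∃ h : C.Hom X Y, I.Mem (f - (d' * h + h * d)) := by
  constructor
  · rintro ⟨k, hk⟩
    obtain ⟨k, rfl⟩ := I.q_surj k
    refine ⟨k, I.q_eq.1 ?_⟩
    simpa using hk
  · rintro ⟨k, hk⟩
    refine ⟨I.q.map k, ?_⟩
    simpa using I.q_eq.2 hk
theorem contr_q : Contr (I.q.map d) ↔ ∃ h : C.Hom X X, I.Mem (1 - (d * h + h * d)) := by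
  rw [← null_q, I.q.map_one]; rfl
end quot

end Vale.Agent.P228.DagCat
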