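import Vale.Agent.P228.AlgA

/-! Part AlgB: Poincare complexes, Lagrangians, boundaries. -/

namespace Vale.Agent.P228.DagCat

universe u
variable {O : Type u} [Add O] {C : DagCat O} {A D E L L' M T X Y Z X' Y' : O}

open Hom Complex

variable {d B : C.Hom X X} {d' B' : C.Hom X' X'} {dL h : C.Hom L L} {l : C.Hom L X}

theorem dsum_dag {f : C.Hom X X'} {g : C.Hom Y Y'} : (dsum f g).dag = dsum f.dag g.dag := by
  simp [dsum]

theorem IsSym.neg (hs : IsSym d B) : IsSym d (-B) := by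
  exact ⟨hs.sq, by simp [hs.herm], hs.chain.neg⟩
theorem IsSym.oplus (hs : IsSym d B) (hs' : IsSym d' B') : IsSym (dsum d d') (dsum B B') := by
  refine ⟨by simp [dsum, hs.sq, hs'.sq], by simp [dsum, hs.herm, hs'.herm], ?_⟩
  rw [dsum_dag]; exact hs.chain.oplus hs'.chain
theorem IsSym.pull (hs : IsSym d' B') (hd : d * d = 0) {v : C.Hom X X'} (hv : Chain d d' v) :
    IsSym d (v.dag * (B' * v)) := by
  exact ⟨hd, by simp [hs.herm], hv.dag.mul (hs.chain.mul hv)⟩
theorem Poinc.neg (hs : Poinc d B) : Poinc d (-B) := by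
  exact ⟨hs.toIsSym.neg, hs.equiv.neg⟩
theorem Poinc.oplus (hs : Poinc d B) (hs' : Poinc d' B') : Poinc (dsum d d') (dsum B B') := by
  refine ⟨hs.toIsSym.oplus hs'.toIsSym, ?_⟩
  rw [dsum_dag]; exact hs.equiv.oplus hs'.equiv
theorem Poinc.pull (hs : Poinc d' B') (hd : d * d = 0) {v : C.Hom X X'} (hv : IsEquiv d d' v) :
    Poinc d (v.dag * (B' * v)) := by
  exact ⟨hs.toIsSym.pull hd hv.chain, hv.dag.mul (hs.equiv.mul hv)⟩
/-- A Poincare form has a Hermitian homotopy inverse. -/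
theorem Poinc.exists_inv (hs : Poinc d B) : ∃ K : C.Hom X X, K.dag = K ∧ Chain d.dag d K ∧
    Null d d (K * B - 1) ∧ Null d.dag d.dag (B * K - 1) := by
  obtain ⟨K, h1, h2, h3⟩ := hs.equiv.inv
  have h2' : starRingEnd ℂ 2 = 2 := map_ofNat _ 2
  have h4 : Chain d.dag d K.dag := by simpa using h1.dag
  have h5 : Null d d (K.dag * B - 1) := by simpa [hs.herm] using h3.dag
  have h6 : Null d.dag d.dag (B * K.dag - 1) := by simpa [hs.herm] using h2.dag
  have e : (1 : C.Hom X X) = (1 / 2 : ℂ) • (1 + 1) := by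
    rw [← two_smul ℂ (1 : C.Hom X X), smul_smul]; simp
  refine ⟨(1 / 2 : ℂ) • (K + K.dag), by simp [add_comm, h2'], (h1.add h4).smul _, ?_, ?_⟩
  · have := (h2.add h5).smul (1 / 2 : ℂ)
    convert this using 1
    nth_rewrite 1 [e]
    simp only [Hom.smul_mul, Hom.add_mul, smul_add, smul_sub]
    abel
  · have := (h3.add h6).smul (1 / 2 : ℂ)
    convert this using 1
    nth_rewrite 1 [e]
    simp only [Hom.mul_smul, Hom.mul_add, smul_add, smul_sub]
    abel
theorem poinc_hyp (hd : d * d = 0) : Poinc (dsum d d.dag) (C.hyp X) := by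
  have hc : Chain (dsum d d.dag) (dsum d d.dag).dag (C.hyp X) := by simp [Chain, dsum, hyp]
  exact ⟨⟨by simp [dsum, hd, sq_dag hd], by simp [hyp], hc⟩,
    IsEquiv.of_iso hc (k := C.hyp X) (by simp [hyp]) (by simp [hyp])⟩

theorem fibD_sq (hs : IsSym d B) (hL : Isot d B dL l h) : fibD d B dL l * fibD d B dL l = 0 := by
  exact fib_sq hs.sq (sq_dag hL.sq) (hL.chain.dag.mul hs.chain)
theorem Isot.chain_col (hL : Isot d B dL l h) : Chain dL (fibD d B dL l) (col l h) := by
  have h1 : l * dL = d * l := hL.chain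
  simp [Chain, fibD, tri, h1, hL.iso]
theorem Isot.pull (hL : Isot d B dL l h) {dM : C.Hom M M} (hM : dM * dM = 0) {u : C.Hom M L}
    (hu : Chain dM dL u) : Isot d B dM (l * u) (u.dag * (h * u)) := by
  have h1 : u * dM = dL * u := hu
  have h2 : u.dag * dL.dag = dM.dag * u.dag := hu.dag
  refine ⟨hM, by simp [hL.herm], hL.chain.mul hu, ?_⟩
  have h3 := congrArg (fun y => u.dag * (y * u)) hL.iso
  simp at h3
  simp [h3, h1, reassoc h2]

/-- Transport of a Lagrangian along an equivalence of its source. -/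
theorem Lag.of_equiv (hs : IsSym d B) (hL : Lag d B dL l h) {dM : C.Hom M M} (hM : dM * dM = 0)
    {u : C.Hom M L} (hu : IsEquiv dM dL u) : Lag d B dM (l * u) (u.dag * (h * u)) := by
  refine ⟨hL.toIsot.pull hM hu.chain, ?_⟩
  have h2 : u.dag * dL.dag = dM.dag * u.dag := hu.chain.dag
  have h1 : IsEquiv (fibD d B dL l) (fibD d B dM (l * u)) (tri 1 0 u.dag) :=
    IsEquiv.of_tri (fibD_sq hs hL.toIsot) (fibD_sq hs (hL.toIsot.pull hM hu.chain))
      (by simp [Chain, tri, h2]) IsEquiv.refl hu.dag.neg_d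
  simpa [tri] using h1.mul (hL.equiv.mul hu)
/-- Transport of a Lagrangian along an isometric equivalence of the ambient complex. -/
theorem Lag.isometry (hs : IsSym d B) (hs' : IsSym d' B') (hL : Lag d B dL l h) {v : C.Hom X X'}
    (hv : IsEquiv d d' v) (hi : Null d d.dag (v.dag * (B' * v) - B)) :
    ∃ h' : C.Hom L L, Lag d' B' dL (v * l) h' := by
  obtain ⟨k, hk, e⟩ := hi.herm (by simp [hs.herm, hs'.herm])
  have e' : v.dag * (B' * v) = B + (d.dag * k + k * d) := by rw [← e]; abel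
  have e2 : ∀ {W : O} (y : C.Hom W X),
      v.dag * (B' * (v * y)) = B * y + (d.dag * (k * y) + k * (d * y)) := by
    intro W y
    simpa using congrArg (fun z => z * y) e'
  have h1 : l * dL = d * l := hL.chain
  have h2 : l.dag * d.dag = dL.dag * l.dag := hL.chain.dag
  have h3 : v * d = d' * v := hv.chain
  have hI : Isot d' B' dL (v * l) (h + l.dag * (k * l)) := by
    refine ⟨hL.sq, by simp [hL.herm, hk], hv.chain.mul hL.chain, ?_⟩
    simp [e2, hL.iso, h1, reassoc h2]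
    abel
  refine ⟨_, hI, ?_⟩
  have h4 : IsEquiv (fibD d B dL l) (fibD d' B' dL (v * l)) (tri v (l.dag * k) 1) := by
    refine IsEquiv.of_tri (fibD_sq hs hL.toIsot) (fibD_sq hs' hI) ?_ hv IsEquiv.refl
    simp [Chain, tri, h3, e', reassoc h2]
    abel
  simpa [tri, add_comm] using h4.mul hL.equiv
theorem Lag.neg (hL : Lag d B dL l h) : Lag d (-B) dL l (-h) := by
  refine ⟨⟨hL.sq, by simp [hL.herm], hL.chain, by simp [hL.iso, add_comm]⟩, ?_⟩
  have h1 : IsEquiv (fibD d B dL l) (fibD d (-B) dL l) (dsum 1 (-1)) :=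
    IsEquiv.of_iso (by simp [Chain, fibD, tri, dsum]) (k := dsum 1 (-1)) (by simp [dsum])
      (by simp [dsum])
  simpa [dsum] using h1.mul hL.equiv
theorem Lag.oplus (hL : Lag d B dL l h) {dL' h' : C.Hom L' L'} {l' : C.Hom L' X'}
    (hL' : Lag d' B' dL' l' h') :
    Lag (dsum d d') (dsum B B') (dsum dL dL') (dsum l l') (dsum h h') := by
  refine ⟨⟨by simp [dsum, hL.sq, hL'.sq], by simp [dsum, hL.herm, hL'.herm],
    hL.chain.oplus hL'.chain, by simp [dsum, hL.iso, hL'.iso]⟩, ?_⟩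
  have h1 : IsEquiv (dsum (fibD d B dL l) (fibD d' B' dL' l'))
      (fibD (dsum d d') (dsum B B') (dsum dL dL') (dsum l l')) (C.mid X L X' L') :=
    IsEquiv.of_iso (by simp [Chain, fibD, tri, dsum, mid]) (k := (C.mid X L X' L').dag)
      (by simp [mid, one_sum]) (by simp [mid, one_sum])
  simpa [dsum, mid] using h1.mul (hL.equiv.oplus hL'.equiv)
theorem lag_hyp (hd : d * d = 0) : Lag (dsum d d.dag) (C.hyp X) d (col 1 0) 0 := by
  refine ⟨⟨hd, by simp, by simp [Chain, dsum], by simp [hyp]⟩, ?_⟩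
  have hs : SES d (dsum d d.dag) d.dag (col 1 0) (row 0 1) := by
    refine ⟨?_, ?_, row 1 0, col 0 1, ?_, ?_, ?_, ?_⟩ <;> simp [Chain, dsum]
  have := hs.equiv_fib (poinc_hyp hd).sq
  simpa [fibD, hyp] using this
/-- Stabilisation of a Lagrangian by a hyperbolic summand mapping to zero. -/
theorem Lag.stab (hL : Lag d B dL l h) {dA : C.Hom A A} (hA : dA * dA = 0) :
    Lag d B (dsum dL (dsum dA (-dA.dag))) (row l 0) (dsum h (C.hyp A)) := by
  have h0 : l * dL = d * l := hL.chain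
  refine ⟨⟨by simp [dsum, hL.sq, hA, sq_dag hA], by simp [dsum, hL.herm, hyp],
    by simp [Chain, dsum, h0], by simp [dsum, hL.iso, hyp]⟩, ?_⟩
  have h1 : IsEquiv (dsum dA (-dA.dag)) (dsum (-dA.dag) dA) (C.hyp A) :=
    IsEquiv.of_iso (by simp [Chain, dsum, hyp]) (k := C.hyp A) (by simp [hyp]) (by simp [hyp])
  have h2 : IsEquiv (dsum (fibD d B dL l) (dsum (-dA.dag) dA))
      (fibD d B (dsum dL (dsum dA (-dA.dag))) (row l 0))
      (col (row (row 1 0) 0) (col (row (row 0 1) 0) (row 0 1))) :=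
    IsEquiv.of_iso (by simp [Chain, fibD, tri, dsum])
      (k := (col (row (row 1 0) 0) (col (row (row 0 1) 0) (row 0 1))).dag)
      (by simp [one_sum]) (by simp [one_sum])
  simpa [dsum] using h2.mul (hL.equiv.oplus h1)
/-- The graph of an isometric equivalence. -/
theorem lag_graph (hs : IsSym d B) (hs' : Poinc d' B') {v : C.Hom X X'} (hv : IsEquiv d d' v)
    {k : C.Hom X X} (hk : k.dag = k) (hi : B - v.dag * (B' * v) = d.dag * k + k * d) :
    Lag (dsum d d') (dsum B (-B')) d (col 1 v) k := by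
  have h0 : v * d = d' * v := hv.chain
  have hI : Isot (dsum d d') (dsum B (-B')) d (col 1 v) k :=
    ⟨hs.sq, hk, by simp [Chain, dsum, h0], by simp [dsum, ← hi, sub_eq_add_neg]⟩
  refine ⟨hI, ?_⟩
  have hS : SES (tri d' (-(v.dag * B')) (-d.dag)) (fibD (dsum d d') (dsum B (-B')) d (col 1 v)) d
      (col (col 0 (row 1 0)) (row 0 1)) (row (row 1 0) 0) := by
    refine ⟨?_, ?_, col (row (row 0 1) 0) (row 0 1), col (col 1 0) 0, ?_, ?_, ?_, ?_⟩ <;>
      simp [Chain, dsum, fibD, tri, one_sum]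
  have he := (hv.dag.mul hs'.equiv).neg
  have h1 := hS.equiv_p (fibD_sq (hs.oplus hs'.toIsSym.neg) hI)
    ((contr_fib_iff hs'.sq (sq_dag hs.sq) he.chain).2 he)
  exact h1.of_mul_left hI.chain_col (by simpa using IsEquiv.refl)
theorem lag_graph' (hs : IsSym d B) (hs' : Poinc d' B') {v : C.Hom X X'} (hv : IsEquiv d d' v)
    (hi : Null d d.dag (v.dag * (B' * v) - B)) :
    ∃ k : C.Hom X X, Lag (dsum d d') (dsum B (-B')) d (col 1 v) k := by
  obtain ⟨k, hk, e⟩ := hi.symm.herm (by simp [hs.herm, hs'.herm])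
  exact ⟨k, lag_graph hs hs' hv hk e⟩

theorem poinc_bd {φ : C.Hom X X} (hs : IsSym d φ) : Poinc (bdD d φ) (C.hyp X) := by
  have h0 : φ * d = d.dag * φ := hs.chain
  have hc : Chain (bdD d φ) (bdD d φ).dag (C.hyp X) := by simp [Chain, bdD, tri, hyp, hs.herm]
  exact ⟨⟨by simp [bdD, tri, hs.sq, sq_dag hs.sq, h0], by simp [hyp], hc⟩,
    IsEquiv.of_iso hc (k := C.hyp X) (by simp [hyp]) (by simp [hyp])⟩
theorem contr_bd {φ : C.Hom X X} (hs : Poinc d φ) : Contr (bdD d φ) := by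
  have he := hs.equiv.smul_d I_ne_zero
  have := (contr_fib_iff (by simp [hs.sq]) (by simp [sq_dag hs.sq]) he.chain).2 he
  simpa [bdD] using this
/-- Isotropic data give a Lagrangian of the boundary. -/
theorem lag_bd {φ : C.Hom X X} (hs : IsSym d φ) (hi : Isot d φ dL l h) :
    Lag (bdD d φ) (C.hyp X) (bdL d φ dL l h) (bdl l) (C.bdh L X) := by
  have h0 : φ * d = d.dag * φ := hs.chain
  have h1 : l * dL = d * l := hi.chain
  have h2 : l.dag * d.dag = dL.dag * l.dag := hi.chain.dag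
  have hI : Isot (bdD d φ) (C.hyp X) (bdL d φ dL l h) (bdl l) (C.bdh L X) := by
    refine ⟨?_, by simp [bdh], ?_, ?_⟩
    · simp [bdL, tri, hi.sq, sq_dag hi.sq, sq_dag hs.sq, h1, h2, reassoc h0, hi.iso, smul_smul]
    · simp [Chain, bdL, bdD, bdl, tri, h1]
    · simp [bdL, bdl, bdh, hyp, tri, hi.herm]
  refine ⟨hI, hI.chain_col, col (row 0 (row 0 (row 0 1)))
    (col (row (row 0 1) (row 0 (row (-φ) 0))) (row 0 (row 1 0))), ?_, Null.of_eq ?_,
    ⟨-(col (col (row 0 (row 0 (row 1 0))) 0) 0), ?_⟩⟩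
  · simp [Chain, fibD, bdL, bdD, bdl, tri, hyp, hi.herm, hs.herm, h0]
  · simp [bdl, bdh, one_sum]
  · simp [fibD, bdL, bdD, bdl, bdh, tri, hyp, hi.herm, hs.herm, one_sum]
theorem contr_bdL {φ : C.Hom X X} (hs : Poinc d φ) (hL : Lag d φ dL l h) :
    Contr (bdL d φ dL l h) := by
  have h0 : φ * d = d.dag * φ := hs.chain
  have h2 : l.dag * d.dag = dL.dag * l.dag := hL.chain.dag
  have hq : tri (I • d.dag) (-l.dag) (-(I • dL.dag)) * tri (I • d.dag) (-l.dag) (-(I • dL.dag))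
      = 0 := by simp [tri, sq_dag hs.sq, sq_dag hL.sq, h2]
  have e : I • fibD d φ dL l = tri (I • d) (I • (l.dag * φ)) (-(I • dL.dag)) := by
    simp [fibD, tri]
  have h1 : IsEquiv (I • fibD d φ dL l) (tri (I • d.dag) (-l.dag) (-(I • dL.dag)))
      (tri φ 0 (I • 1)) := by
    rw [e]
    refine IsEquiv.of_tri ?_ hq ?_ (hs.equiv.smul_d I_ne_zero) (IsEquiv.refl.smul I_ne_zero)
    · rw [← e]; simp [fibD_sq hs.toIsSym hL.toIsot]
    · simp [Chain, tri, h0, smul_smul]
  have he := h1.mul (hL.equiv.smul_d I_ne_zero)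
  have := (contr_fib_iff (by simp [hL.sq]) hq he.chain).2 he
  simpa [bdL, tri] using this

theorem mid_dag_mul : (C.mid X Y X' Y').dag * C.mid X Y X' Y' = 1 := by
  simp [mid, one_sum]
theorem mid_mul_dag : C.mid X Y X' Y' * (C.mid X Y X' Y').dag = 1 := by
  simp [mid, one_sum]
theorem mid_bdD (φ : C.Hom X X) (φ' : C.Hom X' X') :
    C.mid X X X' X' * dsum (bdD d φ) (bdD d' φ') =
      bdD (dsum d d') (dsum φ φ') * C.mid X X X' X' := by
  simp [mid, dsum, bdD, tri]
theorem mid_hyp : (C.mid X X X' X').dag * (C.hyp (X + X') * C.mid X X X' X') =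
    dsum (C.hyp X) (C.hyp X') := by
  simp [mid, dsum, hyp]
theorem mid_dblD : C.mid X X X' X' * dsum (dblD d) (dblD d') =
    dblD (dsum d d') * C.mid X X X' X' := by
  simp [mid, dsum, dblD]
theorem mid_dblB (β β' : C.Hom X X) (γ γ' : C.Hom X' X') :
    (C.mid X X X' X').dag * (dblB (dsum β γ) (dsum β' γ') * C.mid X X X' X') =
      dsum (dblB β β') (dblB γ γ') := by
  simp [mid, dsum, dblB]
theorem sgn_bdD (φ : C.Hom X X) :
    dsum 1 (-1) * bdD d φ = bdD d (-φ) * dsum (1 : C.Hom X X) (-1 : C.Hom X X) := by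
  simp [dsum, bdD, tri]
theorem sgn_hyp : (dsum (1 : C.Hom X X) (-1 : C.Hom X X)).dag * (C.hyp X * dsum 1 (-1)) =
    -C.hyp X := by
  simp [dsum, hyp]
theorem sgn_dblD : dsum 1 (-1) * dblD d = dblD d * dsum (1 : C.Hom X X) (-1 : C.Hom X X) := by
  simp [dsum, dblD]
theorem sgn_dblB (β β' : C.Hom X X) :
    (dsum (1 : C.Hom X X) (-1 : C.Hom X X)).dag * (dblB (-β) (-β') * dsum 1 (-1)) =
      -dblB β β' := by
  simp [dsum, dblB]
  abel

/-- Surgery preserves Poincare duality. -/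
theorem poinc_surg (hs : Poinc d B) (hi : Isot d B dL l h) :
    Poinc (surgD d B dL l h) (surgB L B) := by
  have h0 : B * d = d.dag * B := hs.chain
  have h1 : l * dL = d * l := hi.chain
  have h2 : l.dag * d.dag = dL.dag * l.dag := hi.chain.dag
  have hq : surgD d B dL l h * surgD d B dL l h = 0 :=
    cone_sq hi.sq (fibD_sq hs.toIsSym hi) hi.chain_col
  refine ⟨⟨hq, by simp [surgB, hs.herm], ?_⟩, ?_⟩
  · simp [Chain, surgB, surgD, fibD, tri, hs.herm, hi.herm, h0]
  have hq1 : tri d.dag l.dag (-dL.dag) * tri d.dag l.dag (-dL.dag) = 0 := by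
    simp [tri, sq_dag hs.sq, sq_dag hi.sq, h2]
  have h3 : IsEquiv (fibD d B dL l) (tri d.dag l.dag (-dL.dag)) (tri B 0 1) :=
    IsEquiv.of_tri (fibD_sq hs.toIsSym hi) hq1 (by simp [Chain, tri, h0]) hs.equiv IsEquiv.refl
  have h4 : IsEquiv (surgD d B dL l h) (tri (-dL) (col (B * l) h) (tri d.dag l.dag (-dL.dag)))
      (tri 1 0 (tri B 0 1)) := by
    refine IsEquiv.of_tri hq ?_ ?_ IsEquiv.refl h3
    · have := cone_sq hi.sq hq1 (h3.chain.mul hi.chain_col)
      simpa [tri] using this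
    · simp [Chain, fibD, tri, h0]
  have h5 : IsEquiv (tri (-dL) (col (B * l) h) (tri d.dag l.dag (-dL.dag))) (surgD d B dL l h).dag
      (surgB L 1) :=
    IsEquiv.of_iso (by simp [Chain, surgB, surgD, fibD, tri, hs.herm, hi.herm]) (k := surgB L 1)
      (by simp [surgB, one_sum]) (by simp [surgB, one_sum])
  simpa [surgB, tri] using h5.mul h4
theorem contr_surg (hs : IsSym d B) (hL : Lag d B dL l h) : Contr (surgD d B dL l h) := by
  exact (contr_cone_iff hL.sq (fibD_sq hs hL.toIsot) hL.chain_col).2 hL.equiv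
/-- The trace of a surgery. -/
theorem lag_trace (hs : Poinc d B) (hi : Isot d B dL l h) :
    Lag (dsum d (surgD d B dL l h)) (dsum B (-surgB L B)) (fibD d B dL l)
      (col (row 1 0) (col 0 1)) 0 := by
  have h0 : B * d = d.dag * B := hs.chain
  have h1 : l * dL = d * l := hi.chain
  have hI : Isot (dsum d (surgD d B dL l h)) (dsum B (-surgB L B)) (fibD d B dL l)
      (col (row 1 0) (col 0 1)) 0 := by
    refine ⟨fibD_sq hs.toIsSym hi, by simp, ?_, ?_⟩
    · simp [Chain, dsum, surgD, fibD, tri]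
    · simp [dsum, surgB, one_sum]
  refine ⟨hI, ?_⟩
  have hS : SES (fibD d B dL l) (fibD (dsum d (surgD d B dL l h)) (dsum B (-surgB L B))
      (fibD d B dL l) (col (row 1 0) (col 0 1)))
      (tri (tri (-dL) (-1) dL) (dsum (-l) (-(B * l))) (tri d B (-d.dag)))
      (col (col (row 1 0) (col 0 1)) 0)
      (col (col (row (row 0 (row 1 0)) 0) (row 0 (row 0 1)))
        (col (row (row 1 (row 0 (row (-1) 0))) 0) (row 0 (row 1 0)))) := by
    refine ⟨hI.chain_col, ?_, row (row 0 (row 0 1)) 0,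
      col (col (row 0 (row 1 0)) (col (row (row 1 0) 0) 0))
        (col (row 0 (row 0 1)) (row (row 0 1) 0)), ?_, ?_, ?_, ?_⟩
    · simp [Chain, dsum, surgD, surgB, fibD, tri, one_sum, hs.herm]
    · simp [one_sum]
    · simp [one_sum]
    · simp
    · simp [one_sum]
  have hT := fibD_sq (hs.toIsSym.oplus (poinc_surg hs hi).toIsSym.neg) hI
  refine hS.equiv_i hT (Contr.of_tri (hS.sq_right hT) ?_ ?_)
  · exact (contr_cone_iff hi.sq hi.sq Chain.one.neg).2 IsEquiv.refl.neg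
  · exact (contr_fib_iff hs.sq (sq_dag hs.sq) hs.chain).2 hs.equiv

end Vale.Agent.P228.DagCat
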