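import Vale.Agent.P228.AlgB

/-! Part AlgD: the double of a dominated Poincare complex. -/

namespace Vale.Agent.P228.DagCat

universe u
variable {O : Type u} [Add O] {C : DagCat O} {A D D' E L M T X Y Z X' Y' : O}

open Hom Complex

variable {d B : C.Hom X X} {d' B' : C.Hom X' X'} {dD β β' : C.Hom D D} {δ : C.Hom D X}

/-- Homotopic chain maps. -/
structure Htp (d : C.Hom X X) (d' : C.Hom Y Y) (f g : C.Hom X Y) : Prop where
  left : Chain d d' f
  right : Chain d d' g
  null : Null d d' (f - g)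

section htp
variable {e : C.Hom Y Y} {e' : C.Hom Z Z} {f g k : C.Hom X Y}
theorem Htp.refl (hf : Chain d e f) : Htp d e f f := ⟨hf, hf, Null.of_eq (sub_self f)⟩
theorem Htp.symm (h : Htp d e f g) : Htp d e g f := ⟨h.right, h.left, h.null.symm⟩
theorem Htp.trans (h : Htp d e f g) (h' : Htp d e g k) : Htp d e f k :=
  ⟨h.left, h'.right, h.null.trans h'.null⟩
theorem Htp.mul {a b : C.Hom Y Z} (h : Htp e e' a b) (h' : Htp d e f g) :
    Htp d e' (a * f) (b * g) := by
  refine ⟨h.left.mul h'.left, h.right.mul h'.right, ?_⟩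
  simpa using (h.null.mul_right h'.left).add (h'.null.mul_left h.right)
theorem Htp.lmul {a : C.Hom Y Z} (h : Chain e e' a) (h' : Htp d e f g) :
    Htp d e' (a * f) (a * g) := (Htp.refl h).mul h'
theorem Htp.rmul {a b : C.Hom Y Z} (h : Htp e e' a b) (h' : Chain d e f) :
    Htp d e' (a * f) (b * f) := h.mul (Htp.refl h')
theorem Htp.dag (h : Htp d e f g) : Htp e.dag d.dag f.dag g.dag :=
  ⟨h.left.dag, h.right.dag, by simpa using h.null.dag⟩
theorem Htp.sub {f' g' : C.Hom X Y} (h : Htp d e f g) (h' : Htp d e f' g') :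
    Htp d e (f - f') (g - g') := by
  refine ⟨h.left.sub h'.left, h.right.sub h'.right, ?_⟩
  convert h.null.sub h'.null using 1
  abel
theorem Htp.of_eq {f' g' : C.Hom X Y} (h : Htp d e f g) (h1 : f = f') (h2 : g = g') :
    Htp d e f' g' := h1 ▸ h2 ▸ h
end htp

theorem Dbl.sq (h : Dbl d B dD δ β β') : dD * dD = 0 := by
  obtain ⟨-, -, -, -, α, K, h5, -⟩ := h
  exact h5.sq

theorem Dbl.chain_δ (h : Dbl d B dD δ β β') : Chain dD d δ := by
  obtain ⟨-, -, -, -, α, K, h5, -⟩ := h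
  exact h5.chain_δ

theorem Dbl.isSym (h : Dbl d B dD δ β β') : IsSym (dblD dD) (dblB β β') := by
  have h1 : β * dD = dD.dag * β := h.chain
  have h2 : β' * dD.dag = dD * β' := h.chain'
  refine ⟨by simp [dblD, dsum, h.sq, sq_dag h.sq], by simp [dblB, h.herm, h.herm'], ?_⟩
  simp [Chain, dblD, dblB, dsum, h1, h2, reassoc h1, reassoc h2]

/-- The data of a double in terms of homotopies. -/
theorem Dbl.htp (hs : Poinc d B) (h : Dbl d B dD δ β β') :
    ∃ (α : C.Hom X D) (K : C.Hom X X), Dom d dD α δ ∧ Chain d.dag d K ∧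
      Htp d d (δ * α) 1 ∧ Htp d.dag d.dag (α.dag * δ.dag) 1 ∧ Htp d d (K * B) 1 ∧
      Htp dD dD.dag β (δ.dag * (B * δ)) ∧ Htp dD.dag dD β' (α * (K * α.dag)) := by
  obtain ⟨h1, h2, h3, h4, α, K, h5, h6, h7, h8, h9⟩ := h
  have e1 : Htp d d (δ * α) 1 := ⟨h5.chain_δ.mul h5.chain_α, Chain.one, h5.null⟩
  exact ⟨α, K, h5, h6, e1, by simpa using e1.dag, ⟨h6.mul hs.chain, Chain.one, h7⟩,
    ⟨h3, h5.chain_δ.dag.mul (hs.chain.mul h5.chain_δ), h8⟩,
    ⟨h4, h5.chain_α.mul (h6.mul h5.chain_α.dag), h9⟩⟩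

/-- A dominating complex splits as `X ⊕ fib δ`. -/
theorem Dom.split (hd : d * d = 0) {α : C.Hom X D} (h : Dom d dD α δ) :
    IsEquiv (dsum d (tri dD δ (-d))) dD (row α (row 1 0)) := by
  have h1 : α * d = dD * α := h.chain_α
  have h2 : δ * dD = d * δ := h.chain_δ
  have hS : SES (tri d (-(δ * α)) (-d)) (dsum d (tri dD δ (-d))) dD
      (col (row 1 0) (col (row (-α) 0) (row 0 1))) (row α (row 1 0)) := by
    refine ⟨?_, ?_, col (row 1 0) (row 0 (row 0 1)), col 0 (col 1 0), ?_, ?_, ?_, ?_⟩ <;>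
      simp [Chain, dsum, tri, one_sum, h1]
  have he : IsEquiv d d (-(δ * α)) :=
    (IsEquiv.refl.of_htp (h.chain_δ.mul h.chain_α) h.null).neg
  exact hS.equiv_p (by simp [dsum, tri, hd, h.sq, h2]) ((contr_fib_iff hd hd he.chain).2 he)

theorem Dom.dbl (hs : Poinc d B) {α : C.Hom X D} (h : Dom d dD α δ) :
    ∃ β β' : C.Hom D D, Dbl d B dD δ β β' := by
  obtain ⟨K, h1, h2, h3, -⟩ := hs.exists_inv
  exact ⟨δ.dag * (B * δ), α * (K * α.dag), by simp [hs.herm], by simp [h1],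
    h.chain_δ.dag.mul (hs.chain.mul h.chain_δ), h.chain_α.mul (h2.mul h.chain_α.dag),
    α, K, h, h2, h3, Null.of_eq (sub_self _), Null.of_eq (sub_self _)⟩
theorem Dbl.poinc (hs : Poinc d B) (h : Dbl d B dD δ β β') : Poinc (dblD dD) (dblB β β') := by
  obtain ⟨α, K, h5, h6, e1, e2, e3, e4, e5⟩ := h.htp hs
  have c1 := h5.chain_α
  have c2 := h5.chain_δ
  have f1 : Htp dD dD (β' * β) (α * δ) := by
    refine (e5.mul e4).trans ?_
    refine Htp.trans (g := α * (K * B * δ)) ?_ ((e3.rmul c2).lmul c1 |>.of_eq rfl (by simp))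
    exact (((e2.rmul (hs.chain.mul c2)).lmul h6).lmul c1).of_eq (by simp) (by simp)
  have f2 : Htp dD dD.dag (β * (β' * β)) β := by
    refine (e4.mul f1).trans (Htp.trans ?_ e4.symm)
    exact (((e1.rmul c2).lmul hs.chain).lmul c2.dag).of_eq (by simp) (by simp)
  have f3 : Htp dD.dag dD (β' * (β * β')) β' := by
    refine Htp.trans ((f1.mul e5).of_eq (by simp) rfl) (Htp.trans ?_ e5.symm)
    exact ((e1.rmul (h6.mul c1.dag)).lmul c1).of_eq (by simp) (by simp)
  have g1 := f2.null.mul_left h.chain'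
  have g2 := f3.null.mul_left h.chain
  have g3 := f2.null.neg.add f2.null.neg
  have g4 := f3.null.neg.add f3.null.neg
  have h1 : β * dD = dD.dag * β := h.chain
  have h2 : β' * dD.dag = dD * β' := h.chain'
  refine ⟨h.isSym, h.isSym.chain, dblB β' β, ?_, ?_, ?_⟩
  · simp [Chain, dblD, dblB, dsum, h1, h2, reassoc h1, reassoc h2]
  · have e : dblB β' β * dblB β β' - 1 = col (row (β' * (β * (β' * β) - β))
        (-(β' * (β * β') - β') + -(β' * (β * β') - β')))
        (row (-(β * (β' * β) - β) + -(β * (β' * β) - β)) (β * (β' * (β * β') - β'))) := by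
      simp only [dblB, col_mul, row_mul_col, mul_row, row_add, col_sub_one, row_sub, col_inj,
        row_inj, Hom.mul_sub, Hom.sub_mul, Hom.one_mul, Hom.mul_one, Hom.assoc]
      refine ⟨⟨?_, ?_⟩, ?_, ?_⟩ <;> abel
    rw [e]
    exact Null.mat g1 g4 g3 g2
  · have e : dblB β β' * dblB β' β - 1 = col (row (β * (β' * (β * β') - β'))
        (-(β * (β' * β) - β) + -(β * (β' * β) - β)))
        (row (-(β' * (β * β') - β') + -(β' * (β * β') - β')) (β' * (β * (β' * β) - β))) := by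
      simp only [dblB, col_mul, row_mul_col, mul_row, row_add, col_sub_one, row_sub, col_inj,
        row_inj, Hom.mul_sub, Hom.sub_mul, Hom.one_mul, Hom.mul_one, Hom.assoc]
      refine ⟨⟨?_, ?_⟩, ?_, ?_⟩ <;> abel
    rw [e, dblD, dsum_dag, dag_dag]
    exact Null.mat g2 g3 g4 g1
theorem Dbl.neg (h : Dbl d B dD δ β β') : Dbl d (-B) dD δ (-β) (-β') := by
  obtain ⟨h1, h2, h3, h4, α, K, h5, h6, h7, h8, h9⟩ := h
  refine ⟨by simp [h1], by simp [h2], h3.neg, h4.neg, α, -K, h5, h6.neg, by simpa using h7,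
    ?_, ?_⟩
  · convert h8.neg using 1
    simp; abel
  · convert h9.neg using 1
    simp; abel
theorem Dbl.oplus (h : Dbl d B dD δ β β') {dD' γ γ' : C.Hom D' D'} {δ' : C.Hom D' X'}
    (h' : Dbl d' B' dD' δ' γ γ') :
    Dbl (dsum d d') (dsum B B') (dsum dD dD') (dsum δ δ') (dsum β γ) (dsum β' γ') := by
  obtain ⟨h1, h2, h3, h4, α, K, h5, h6, h7, h8, h9⟩ := h
  obtain ⟨k1, k2, k3, k4, α', K', k5, k6, k7, k8, k9⟩ := h'
  refine ⟨by simp [dsum, h1, k1], by simp [dsum, h2, k2], ?_, ?_, dsum α α', dsum K K',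
    ⟨by simp [dsum, h5.sq, k5.sq], h5.chain_α.oplus k5.chain_α, h5.chain_δ.oplus k5.chain_δ, ?_⟩,
    ?_, ?_, ?_, ?_⟩
  · rw [dsum_dag]; exact h3.oplus k3
  · rw [dsum_dag]; exact h4.oplus k4
  · simpa [dsum] using h5.null.oplus k5.null
  · rw [dsum_dag]; exact h6.oplus k6
  · simpa [dsum] using h7.oplus k7
  · simpa [dsum] using h8.oplus k8
  · simpa [dsum] using h9.oplus k9
/-- Transport of doubling data along an isometric equivalence. -/
theorem Dbl.transport (hs : Poinc d B) (hs' : Poinc d' B') (h : Dbl d B dD δ β β')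
    {w : C.Hom X X'} (hw : IsEquiv d d' w) (hi : Null d d.dag (w.dag * (B' * w) - B)) :
    Dbl d' B' dD (w * δ) β β' := by
  obtain ⟨α, K, h5, h6, e1, e2, e3, e4, e5⟩ := h.htp hs
  obtain ⟨c0, w', c3, n1, n2⟩ := hw
  have c1 := h5.chain_α
  have c2 := h5.chain_δ
  have w1 : Htp d d (w' * w) 1 := ⟨c3.mul c0, Chain.one, n1⟩
  have w2 : Htp d' d' (w * w') 1 := ⟨c0.mul c3, Chain.one, n2⟩
  have w3 : Htp d d.dag (w.dag * (B' * w)) B := ⟨c0.dag.mul (hs'.chain.mul c0), hs.chain, hi⟩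
  refine ⟨h.herm, h.herm', h.chain, h.chain', α * w', w * (K * w.dag),
    ⟨h5.sq, c1.mul c3, c0.mul c2, ?_⟩, c0.mul (h6.mul c0.dag), ?_, ?_, ?_⟩
  · exact (Htp.trans (((e1.rmul c3).lmul c0).of_eq (by simp) (by simp)) w2).null
  · have a1 : Htp d' d' (w * (K * w.dag) * B') (w * (K * (w.dag * (B' * w) * w'))) :=
      (w2.symm.lmul ((c0.mul (h6.mul c0.dag)).mul hs'.chain)).of_eq (by simp) (by simp)
    have a2 : Htp d' d' (w * (K * (w.dag * (B' * w) * w'))) (w * (K * B * w')) :=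
      (((w3.rmul c3).lmul h6).lmul c0).of_eq rfl (by simp)
    have a3 : Htp d' d' (w * (K * B * w')) (w * w') :=
      ((e3.rmul c3).lmul c0).of_eq rfl (by simp)
    exact (a1.trans (a2.trans (a3.trans w2))).null
  · exact (e4.trans (((w3.symm.rmul c2).lmul c2.dag).of_eq rfl (by simp))).null
  · exact (e5.trans (((w1.symm.mul ((w1.symm.dag.rmul c1.dag).lmul h6)).lmul c1).of_eq
      (by simp) (by simp))).null
/-- The double is isometric to two copies plus a hyperbolic complex. -/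
theorem Dbl.isometry (hs : Poinc d B) (h : Dbl d B dD δ β β') :
    ∃ v : C.Hom ((X + X) + ((D + X) + (D + X))) (D + D),
      IsEquiv (dsum (dsum d d) (dsum (tri dD δ (-d)) (tri dD δ (-d)).dag)) (dblD dD) v ∧
      Null (dsum (dsum d d) (dsum (tri dD δ (-d)) (tri dD δ (-d)).dag))
        (dsum (dsum d d) (dsum (tri dD δ (-d)) (tri dD δ (-d)).dag)).dag
        (v.dag * (dblB β β' * v) - dsum (dsum B B) (C.hyp (D + X))) := by
  obtain ⟨α, K, h5, h6, e1, e2, e3, e4, e5⟩ := h.htp hs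
  have c1 := h5.chain_α
  have c2 := h5.chain_δ
  have hq := h5.split hs.sq
  have hn : Null (tri dD δ (-d)) d (δ * row 1 0) := ⟨row 0 1, by simp [tri]⟩
  generalize tri dD δ (-d) = J at hq hn ⊢
  generalize (row 1 0 : C.Hom (D + X) D) = π at hq hn
  obtain ⟨q', hq', n1, n2⟩ := hq.symm
  have cp : Chain (dsum d J) d (row 1 0) := by simp [Chain, dsum]
  have ci : Chain d (dsum d J) (col 1 0) := by simp [Chain, dsum]
  have a1 : Htp (dsum d J) d (δ * row α π) (row 1 0) := by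
    refine ⟨c2.mul hq.chain, cp, ?_⟩
    obtain ⟨x, hx⟩ := e1.null
    obtain ⟨y, hy⟩ := hn
    exact ⟨row x y, by simp [dsum, hx, hy]⟩
  have q1 : Htp (dsum d J) (dsum d J) (q' * row α π) 1 := ⟨hq'.chain.mul hq.chain, Chain.one, n1⟩
  have a2 : Htp d (dsum d J) (q' * α) (col 1 0) := (q1.rmul ci).of_eq (by simp) (by simp)
  have hb : IsEquiv (dsum d J.dag) (dsum d J).dag (dsum B 1) := by
    rw [dsum_dag]; exact hs.equiv.oplus IsEquiv.refl
  have cp' : Chain (dsum d J.dag) d (row 1 0) := by simp [Chain, dsum]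
  generalize hqq : row α π = q at *
  have b1 : Htp (dsum d J) (dsum d J).dag (q.dag * (β * q)) (dsum B 0) := by
    refine ((e4.rmul hq.chain).lmul hq.chain.dag).trans ?_
    exact (a1.dag.mul (a1.lmul hs.chain)).of_eq (by simp) (by simp [dsum])
  have b2 : Htp (dsum d J.dag) (dsum d J.dag).dag
      ((q'.dag * dsum B 1).dag * (β' * (q'.dag * dsum B 1))) (dsum B 0) := by
    have c4 := hq'.chain.dag.mul hb.chain
    refine ((e5.rmul c4).lmul (by simpa using c4.dag)).trans ?_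
    have t1 := ((a2.mul ((a2.dag.rmul hb.chain).lmul h6)).lmul
      (by simpa using hb.chain.dag : Chain (dsum d J) (dsum d J.dag).dag (dsum B 1).dag))
    refine Htp.trans (t1.of_eq (by simp) rfl) ?_
    exact (((e3.rmul cp').lmul hs.chain).lmul cp'.dag).of_eq (by simp [dsum, hs.herm])
      (by simp [dsum])
  have b3 : Htp (dsum d J) (dsum d J.dag).dag
      ((q'.dag * dsum B 1).dag * ((1 - β' * β) * q)) (dsum 0 1) := by
    have t1 : Htp (dsum d J) (dsum d J) (q' * (β' * β * q))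
        (col (1 : C.Hom X X) 0 * row (1 : C.Hom X X) 0) := by
      refine (((e5.mul e4).rmul hq.chain).lmul hq'.chain).trans ?_
      have t2 := a2.mul ((e2.mul (a1.lmul hs.chain)).lmul h6)
      refine Htp.trans (t2.of_eq (by simp) rfl) ?_
      exact ((e3.rmul cp).lmul ci).of_eq (by simp) (by simp)
    exact ((q1.sub t1).lmul
      (by simpa using hb.chain.dag : Chain (dsum d J) (dsum d J.dag).dag (dsum B 1).dag)).of_eq
      (by simp) (by simp [dsum, one_sum])
  have b4 : Htp (dsum d J.dag) (dsum d J).dag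
      (q.dag * ((1 - β * β') * (q'.dag * dsum B 1))) (dsum 0 1) := by
    have := b3.dag
    rw [dag_dag] at this
    exact this.of_eq (by simp [h.herm, h.herm']) (by simp [dsum])
  have hm : IsEquiv (dsum (dsum d d) (dsum J J.dag)) (dsum (dsum d J) (dsum d J.dag))
      (C.mid X X (D + X) (D + X)) :=
    IsEquiv.of_iso (by simp [Chain, dsum, mid]) mid_dag_mul mid_mul_dag
  have hu : IsEquiv (dsum (dsum d J) (dsum d J.dag)) (dblD dD) (dsum q (q'.dag * dsum B 1)) :=
    hq.oplus (hq'.dag.mul hb)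
  refine ⟨_, hu.mul hm, ?_⟩
  have n3 := Null.mat b1.null b4.null b3.null b2.null
  rw [← dsum_dag] at n3
  convert (n3.mul_right hm.chain).mul_left hm.chain.dag using 1
  generalize q'.dag * dsum B (1 : C.Hom (D + X) (D + X)) = u
  have e6 : dsum (dsum B B) (C.hyp (D + X)) = (C.mid X X (D + X) (D + X)).dag *
      (col (row (dsum B 0) (dsum 0 1)) (row (dsum 0 1) (dsum B 0)) *
        C.mid X X (D + X) (D + X)) := by
    simp [mid, dsum, hyp]
  rw [e6]
  generalize C.mid X X (D + X) (D + X) = m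
  rw [dag_mul, Hom.assoc, ← Hom.mul_sub, ← Hom.assoc (dblB β β'), ← Hom.assoc _ _ m,
    ← Hom.sub_mul]
  congr 2
  generalize dsum B (0 : C.Hom (D + X) (D + X)) = z
  generalize dsum (0 : C.Hom X X) (1 : C.Hom (D + X) (D + X)) = z'
  simp [dsum, dblB]
theorem dbl_perm1 (a : C.Hom X X) (b : C.Hom Y Y) (c : C.Hom Z Z) :
    IsEquiv (dsum (dsum a b) c) (dsum (dsum a c) b)
      (col (col (row (row 1 0) 0) (row 0 1)) (row (row 0 1) 0)) :=
  IsEquiv.of_iso (by simp [Chain, dsum])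
    (k := (col (col (row (row 1 0) 0) (row 0 1)) (row (row 0 1) 0)).dag)
    (by simp [one_sum]) (by simp [one_sum])

theorem dbl_perm2 (a : C.Hom X X) (b : C.Hom Y Y) (a' : C.Hom X' X') (c : C.Hom Z Z)
    (b' : C.Hom Y' Y') :
    IsEquiv (dsum (dsum a b) (dsum a' (dsum c b'))) (dsum (dsum (dsum a a') c) (dsum b b'))
      (col (col (col (row (row 1 0) 0) (row 0 (row 1 0))) (row 0 (row 0 (row 1 0))))
        (col (row (row 0 1) 0) (row 0 (row 0 (row 0 1))))) :=
  IsEquiv.of_iso (by simp [Chain, dsum])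
    (k := (col (col (col (row (row 1 0) 0) (row 0 (row 1 0))) (row 0 (row 0 (row 1 0))))
        (col (row (row 0 1) 0) (row 0 (row 0 (row 0 1))))).dag)
    (by simp [one_sum]) (by simp [one_sum])

/-- The double is cobordant to two copies. -/
theorem Dbl.lag_two (hs : Poinc d B) (h : Dbl d B dD δ β β') :
    ∃ (l : C.Hom ((X + X) + (D + X)) ((D + D) + (X + X)))
      (k : C.Hom ((X + X) + (D + X)) ((X + X) + (D + X))),
      Lag (dsum (dblD dD) (dsum d d)) (dsum (dblB β β') (-dsum B B))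
        (dsum (dsum d d) (tri dD δ (-d))) l k := by
  obtain ⟨v, hv, hi⟩ := h.isometry hs
  have hJ : tri dD δ (-d) * tri dD δ (-d) = 0 := fib_sq h.sq hs.sq h.chain_δ
  generalize tri dD δ (-d) = J at *
  have h2 := hs.oplus hs
  generalize dsum d d = d2 at *
  generalize dsum B B = B2 at *
  have l1 := (lag_graph h2.toIsSym h2 IsEquiv.refl (k := 0) (by simp) (by simp)).oplus
    (lag_hyp hJ)
  have s1 := (h2.toIsSym.oplus h2.toIsSym.neg).oplus (poinc_hyp hJ).toIsSym
  have s2 := (h2.toIsSym.oplus (poinc_hyp hJ).toIsSym).oplus h2.toIsSym.neg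
  have hσ : IsEquiv (dsum (dsum d2 d2) (dsum J J.dag)) (dsum (dsum d2 (dsum J J.dag)) d2)
      (col (col (row (row 1 0) 0) (row 0 1)) (row (row 0 1) 0)) := dbl_perm1 _ _ _
  obtain ⟨k2, l2⟩ := l1.isometry s1 s2 hσ (Null.of_eq (by simp [dsum]))
  obtain ⟨k3, l3⟩ := l2.isometry s2 (h.isSym.oplus h2.toIsSym.neg) (hv.oplus IsEquiv.refl) (by
    have := hi.oplus (Null.zero (d := d2) (d' := d2.dag))
    rw [← dsum_dag] at this
    convert this using 1
    generalize dblB β β' = b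
    generalize dsum B2 (C.hyp (D + X)) = c
    simp [dsum])
  exact ⟨_, _, l3⟩
/-- A dominated Lagrangian gives a Lagrangian of the double built from the dominating complexes. -/
theorem Dbl.lag (hs : Poinc d B) (h : Dbl d B dD δ β β') {dL k : C.Hom L L} {l : C.Hom L X}
    (hL : Lag d B dL l k) {dE : C.Hom E E} {a : C.Hom L E} {b : C.Hom E L} (hE : Dom dL dE a b) :
    ∃ (g : C.Hom D E) (l' : C.Hom (E + (D + E)) (D + D)) (k' : C.Hom (E + (D + E)) (E + (D + E))),
      Lag (dblD dD) (dblB β β') (dsum dE (tri dD g (-dE.dag))) l' k' := by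
  obtain ⟨v, hv, hi⟩ := h.isometry hs
  obtain ⟨α, K, h5, -⟩ := h.htp hs
  have hJ : tri dD δ (-d) * tri dD δ (-d) = 0 := fib_sq h.sq hs.sq h.chain_δ
  obtain ⟨q', hq', -⟩ := (h5.split hs.sq).symm
  generalize tri dD δ (-d) = J at *
  have hA : tri dE b (-dL) * tri dE b (-dL) = 0 := fib_sq hE.sq hL.sq hE.chain_δ
  obtain ⟨p', hp', -⟩ := (hE.split hL.sq).symm
  generalize tri dE b (-dL) = dA at *
  obtain ⟨m', hm', -⟩ := hL.equiv.symm
  have l1 := (hL.oplus hL).oplus (lag_hyp hJ)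
  obtain ⟨k2, l2⟩ := l1.isometry ((hs.toIsSym.oplus hs.toIsSym).oplus (poinc_hyp hJ).toIsSym)
    h.isSym hv hi
  have l3 := l2.stab hA
  have c0 : l.dag * (B * d) = dL.dag * (l.dag * B) := by
    simpa [Chain] using hL.chain.dag.mul hs.chain
  obtain ⟨g0, hg0⟩ : ∃ g0 : C.Hom (X + (D + X)) (L + (E + L)), g0 = col (row (l.dag * B) 0) 0 :=
    ⟨_, rfl⟩
  have c1 : Chain (dsum d J) (dsum dL dA).dag g0 := by simp [Chain, hg0, dsum, c0]
  have sQ : dsum d J * dsum d J = 0 := by simp [dsum, hs.sq, hJ]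
  have sP : dsum dL dA * dsum dL dA = 0 := by simp [dsum, hL.sq, hA]
  have c2 := hp'.chain.dag.mul c1
  have c3 := c2.mul hq'.chain
  have cq : q' * dD = dsum d J * q' := hq'.chain
  have cp : p'.dag * (dsum dL dA).dag = dE.dag * p'.dag := hp'.chain.dag
  have u1 : IsEquiv (tri dD (p'.dag * g0 * q') (-dE.dag)) (tri (dsum d J) (p'.dag * g0) (-dE.dag))
      (tri q' 0 1) :=
    IsEquiv.of_tri (fib_sq h.sq (sq_dag hE.sq) c3) (fib_sq sQ (sq_dag hE.sq) c2)
      (by simp [Chain, tri, cq]) hq' IsEquiv.refl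
  have u2 : IsEquiv (tri (dsum d J) g0 (-(dsum dL dA).dag))
      (tri (dsum d J) (p'.dag * g0) (-dE.dag)) (tri 1 0 p'.dag) :=
    IsEquiv.of_tri (fib_sq sQ (sq_dag sP) c1) (fib_sq sQ (sq_dag hE.sq) c2)
      (by simp [Chain, tri, cp]) IsEquiv.refl hp'.dag.neg_d
  obtain ⟨u2', u3, -⟩ := u2.symm
  have u4 : IsEquiv (tri (dsum d J) g0 (-(dsum dL dA).dag))
      (dsum (fibD d B dL l) (dsum J (-dA.dag))) (C.mid X (D + X) L (E + L)) :=
    IsEquiv.of_iso (by simp [Chain, hg0, dsum, tri, fibD, mid]) mid_dag_mul mid_mul_dag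
  have u5 := (hm'.oplus IsEquiv.refl).mul (u4.mul (u3.mul u1))
  have u6 := (dbl_perm2 dL dA dL J (-dA.dag)).mul (hp'.oplus u5)
  refine ⟨_, _, _, l3.of_equiv h.isSym ?_ u6⟩
  have := fib_sq h.sq (sq_dag hE.sq) c3
  generalize tri dD (p'.dag * g0 * q') (-dE.dag) = t at this
  simp [dsum, this, hE.sq]

end Vale.Agent.P228.DagCat
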