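import Mathlib

/-! Dagger categories with sums: a light-weight framework. Composition is written `g * f`. -/

namespace Vale.Agent.P228

universe u

/-- A `ℂ`-linear dagger category with binary sums on a fixed type of objects. -/
structure DagCat (O : Type u) [Add O] where
  hom : O → O → Type
  acg : ∀ X Y, AddCommGroup (hom X Y)
  mod : ∀ X Y, Module ℂ (hom X Y)
  comp : ∀ {X Y Z}, hom Y Z → hom X Y → hom X Z
  id : ∀ X, hom X X
  adj : ∀ {X Y}, hom X Y → hom Y X
  inl : ∀ X Y, hom X (X + Y)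
  inr : ∀ X Y, hom Y (X + Y)
  assoc3 : ∀ {W X Y Z} (h : hom Y Z) (g : hom X Y) (f : hom W X),
    comp (comp h g) f = comp h (comp g f)
  id_comp : ∀ {X Y} (f : hom X Y), comp (id Y) f = f
  comp_id : ∀ {X Y} (f : hom X Y), comp f (id X) = f
  add_comp : ∀ {X Y Z} (g g' : hom Y Z) (f : hom X Y),
    comp (g + g') f = comp g f + comp g' f
  comp_add : ∀ {X Y Z} (g : hom Y Z) (f f' : hom X Y),
    comp g (f + f') = comp g f + comp g f'
  smul_comp : ∀ {X Y Z} (c : ℂ) (g : hom Y Z) (f : hom X Y), comp (c • g) f = c • comp g f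
  comp_smul : ∀ {X Y Z} (c : ℂ) (g : hom Y Z) (f : hom X Y), comp g (c • f) = c • comp g f
  adj_adj : ∀ {X Y} (f : hom X Y), adj (adj f) = f
  adj_comp : ∀ {X Y Z} (g : hom Y Z) (f : hom X Y), adj (comp g f) = comp (adj f) (adj g)
  adj_add : ∀ {X Y} (f g : hom X Y), adj (f + g) = adj f + adj g
  adj_smul : ∀ {X Y} (c : ℂ) (f : hom X Y), adj (c • f) = (starRingEnd ℂ c) • adj f
  inl_inl : ∀ X Y, comp (adj (inl X Y)) (inl X Y) = id X
  inr_inr : ∀ X Y, comp (adj (inr X Y)) (inr X Y) = id Y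
  inl_inr : ∀ X Y, comp (adj (inl X Y)) (inr X Y) = 0
  total : ∀ X Y, comp (inl X Y) (adj (inl X Y)) + comp (inr X Y) (adj (inr X Y)) = id (X + Y)

namespace DagCat

variable {O : Type u} [Add O]

/-- Morphisms. -/
def Hom (C : DagCat O) (X Y : O) : Type := C.hom X Y

variable {C : DagCat O} {T V W X Y Z X' Y' Z' : O}

instance : AddCommGroup (C.Hom X Y) := C.acg X Y
instance : Module ℂ (C.Hom X Y) := C.mod X Y
@[default_instance 100]
instance : HMul (C.Hom Y Z) (C.Hom X Y) (C.Hom X Z) := ⟨C.comp⟩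
instance : One (C.Hom X X) := ⟨C.id X⟩

namespace Hom

/-- The adjoint. -/
def dag (f : C.Hom X Y) : C.Hom Y X := C.adj f

@[simp] theorem assoc (h : C.Hom Y Z) (g : C.Hom X Y) (f : C.Hom W X) :
    h * g * f = h * (g * f) := C.assoc3 h g f
@[simp] theorem one_mul (f : C.Hom X Y) : (1 : C.Hom Y Y) * f = f := C.id_comp f
@[simp] theorem mul_one (f : C.Hom X Y) : f * (1 : C.Hom X X) = f := C.comp_id f
@[simp] theorem add_mul (g g' : C.Hom Y Z) (f : C.Hom X Y) : (g + g') * f = g * f + g' * f :=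
  C.add_comp g g' f
@[simp] theorem mul_add (g : C.Hom Y Z) (f f' : C.Hom X Y) : g * (f + f') = g * f + g * f' :=
  C.comp_add g f f'
@[simp] theorem smul_mul (c : ℂ) (g : C.Hom Y Z) (f : C.Hom X Y) : (c • g) * f = c • (g * f) :=
  C.smul_comp c g f
@[simp] theorem mul_smul (c : ℂ) (g : C.Hom Y Z) (f : C.Hom X Y) : g * (c • f) = c • (g * f) :=
  C.comp_smul c g f
@[simp] theorem zero_mul (f : C.Hom X Y) : (0 : C.Hom Y Z) * f = 0 := by
  have := smul_mul (0 : ℂ) (0 : C.Hom Y Z) f
  simpa using this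
@[simp] theorem mul_zero (g : C.Hom Y Z) : g * (0 : C.Hom X Y) = 0 := by
  have := mul_smul (0 : ℂ) g (0 : C.Hom X Y)
  simpa using this
@[simp] theorem neg_mul (g : C.Hom Y Z) (f : C.Hom X Y) : (-g) * f = -(g * f) := by
  have := smul_mul (-1 : ℂ) g f
  simpa using this
@[simp] theorem mul_neg (g : C.Hom Y Z) (f : C.Hom X Y) : g * (-f) = -(g * f) := by
  have := mul_smul (-1 : ℂ) g f
  simpa using this
@[simp] theorem sub_mul (g g' : C.Hom Y Z) (f : C.Hom X Y) : (g - g') * f = g * f - g' * f := by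
  simp [sub_eq_add_neg]
@[simp] theorem mul_sub (g : C.Hom Y Z) (f f' : C.Hom X Y) : g * (f - f') = g * f - g * f' := by
  simp [sub_eq_add_neg]
@[simp] theorem dag_dag (f : C.Hom X Y) : f.dag.dag = f := C.adj_adj f
@[simp] theorem dag_mul (g : C.Hom Y Z) (f : C.Hom X Y) : (g * f).dag = f.dag * g.dag :=
  C.adj_comp g f
@[simp] theorem dag_add (f g : C.Hom X Y) : (f + g).dag = f.dag + g.dag := C.adj_add f g
@[simp] theorem dag_smul (c : ℂ) (f : C.Hom X Y) :
    (c • f).dag = (starRingEnd ℂ c) • f.dag := C.adj_smul c f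
@[simp] theorem dag_zero : (0 : C.Hom X Y).dag = 0 := by
  have := dag_smul (0 : ℂ) (0 : C.Hom X Y)
  simpa using this
@[simp] theorem dag_neg (f : C.Hom X Y) : (-f).dag = -f.dag := by
  have := dag_smul (-1 : ℂ) f
  simpa using this
@[simp] theorem dag_sub (f g : C.Hom X Y) : (f - g).dag = f.dag - g.dag := by
  simp [sub_eq_add_neg]
@[simp] theorem dag_one : (1 : C.Hom X X).dag = 1 := by
  have := dag_mul (1 : C.Hom X X).dag (1 : C.Hom X X)
  rw [mul_one, dag_dag, mul_one] at this
  exact this.symm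
theorem dag_inj {f g : C.Hom X Y} : f.dag = g.dag ↔ f = g :=
  ⟨fun h => by rw [← dag_dag f, h, dag_dag], fun h => by rw [h]⟩
/-- Rewriting under a right-associated product: from `a * b = c` get `a * (b * k) = c * k`. -/
theorem reassoc {a : C.Hom Y Z} {b : C.Hom X Y} {c : C.Hom X Z} (h : a * b = c)
    {W : O} (k : C.Hom W X) : a * (b * k) = c * k := by rw [← assoc, h]

end Hom

open Hom

/-- First inclusion. -/
def i1 (C : DagCat O) (X Y : O) : C.Hom X (X + Y) := C.inl X Y
/-- Second inclusion. -/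
def i2 (C : DagCat O) (X Y : O) : C.Hom Y (X + Y) := C.inr X Y

/-- The map into a sum with components `f`, `g`. -/
def col (f : C.Hom T X) (g : C.Hom T Y) : C.Hom T (X + Y) := C.i1 X Y * f + C.i2 X Y * g

/-- The map out of a sum with components `f`, `g`. -/
def row (f : C.Hom X T) (g : C.Hom Y T) : C.Hom (X + Y) T := (col f.dag g.dag).dag

@[simp] theorem dag_col (f : C.Hom T X) (g : C.Hom T Y) : (col f g).dag = row f.dag g.dag := by
  simp [row]
@[simp] theorem dag_row (f : C.Hom X T) (g : C.Hom Y T) : (row f g).dag = col f.dag g.dag := by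
  rw [row, dag_dag]
@[simp] theorem col_mul (f : C.Hom T X) (g : C.Hom T Y) (k : C.Hom W T) :
    col f g * k = col (f * k) (g * k) := by simp [col]
@[simp] theorem mul_row (k : C.Hom T W) (f : C.Hom X T) (g : C.Hom Y T) :
    k * row f g = row (k * f) (k * g) := by
  rw [← dag_inj]; simp
@[simp] theorem row_mul_col (f : C.Hom X T) (g : C.Hom Y T) (a : C.Hom W X) (b : C.Hom W Y) :
    row f g * col a b = f * a + g * b := by
  have h1 : (C.i1 X Y).dag * C.i1 X Y = 1 := C.inl_inl X Y
  have h2 : (C.i2 X Y).dag * C.i2 X Y = 1 := C.inr_inr X Y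
  have h3 : (C.i1 X Y).dag * C.i2 X Y = 0 := C.inl_inr X Y
  have h4 : (C.i2 X Y).dag * C.i1 X Y = 0 := by
    rw [← dag_inj]; simpa using h3
  rw [row, col, col]
  simp [reassoc h1, reassoc h2, reassoc h3, reassoc h4]
theorem row_mul_col_mul (f : C.Hom X T) (g : C.Hom Y T) (a : C.Hom W X) (b : C.Hom W Y)
    (k : C.Hom V W) : row f g * (col a b * k) = f * (a * k) + g * (b * k) := by simp
@[simp] theorem col_add (f f' : C.Hom T X) (g g' : C.Hom T Y) :
    col f g + col f' g' = col (f + f') (g + g') := by simp [col]; abel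
@[simp] theorem row_add (f f' : C.Hom X T) (g g' : C.Hom Y T) :
    row f g + row f' g' = row (f + f') (g + g') := by rw [← dag_inj]; simp
@[simp] theorem smul_col (c : ℂ) (f : C.Hom T X) (g : C.Hom T Y) :
    c • col f g = col (c • f) (c • g) := by simp [col]
@[simp] theorem smul_row (c : ℂ) (f : C.Hom X T) (g : C.Hom Y T) :
    c • row f g = row (c • f) (c • g) := by rw [← dag_inj]; simp
@[simp] theorem neg_col (f : C.Hom T X) (g : C.Hom T Y) : -col f g = col (-f) (-g) := by
  simp [col]; abel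
@[simp] theorem neg_row (f : C.Hom X T) (g : C.Hom Y T) : -row f g = row (-f) (-g) := by
  rw [← dag_inj]; simp
@[simp] theorem col_sub (f f' : C.Hom T X) (g g' : C.Hom T Y) :
    col f g - col f' g' = col (f - f') (g - g') := by simp [sub_eq_add_neg]
@[simp] theorem row_sub (f f' : C.Hom X T) (g g' : C.Hom Y T) :
    row f g - row f' g' = row (f - f') (g - g') := by simp [sub_eq_add_neg]
@[simp] theorem col_zero : col (0 : C.Hom T X) (0 : C.Hom T Y) = 0 := by simp [col]
@[simp] theorem row_zero : row (0 : C.Hom X T) (0 : C.Hom Y T) = 0 := by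
  rw [← dag_inj]; simp
@[simp] theorem col_inj {f f' : C.Hom T X} {g g' : C.Hom T Y} :
    col f g = col f' g' ↔ f = f' ∧ g = g' := by
  refine ⟨fun h => ⟨?_, ?_⟩, fun h => by rw [h.1, h.2]⟩
  · have := congrArg (fun k => row (1 : C.Hom X X) (0 : C.Hom Y X) * k) h
    simpa using this
  · have := congrArg (fun k => row (0 : C.Hom X Y) (1 : C.Hom Y Y) * k) h
    simpa using this
@[simp] theorem row_inj {f f' : C.Hom X T} {g g' : C.Hom Y T} :
    row f g = row f' g' ↔ f = f' ∧ g = g' := by
  rw [← dag_inj]; simp [dag_inj]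
@[simp] theorem col_eq_zero {f : C.Hom T X} {g : C.Hom T Y} : col f g = 0 ↔ f = 0 ∧ g = 0 := by
  rw [← col_zero, col_inj]
@[simp] theorem zero_eq_col {f : C.Hom T X} {g : C.Hom T Y} : 0 = col f g ↔ f = 0 ∧ g = 0 := by
  rw [eq_comm, col_eq_zero]
@[simp] theorem row_eq_zero {f : C.Hom X T} {g : C.Hom Y T} : row f g = 0 ↔ f = 0 ∧ g = 0 := by
  rw [← row_zero, row_inj]
@[simp] theorem zero_eq_row {f : C.Hom X T} {g : C.Hom Y T} : 0 = row f g ↔ f = 0 ∧ g = 0 := by
  rw [eq_comm, row_eq_zero]
@[simp] theorem row_col (a : C.Hom X X') (b : C.Hom Y X') (c : C.Hom X Y') (d : C.Hom Y Y') :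
    row (col a c) (col b d) = col (row a b) (row c d) := by
  simp only [row, col, dag_add, dag_mul, dag_dag, Hom.mul_add, Hom.assoc]; abel
@[simp] theorem row_col_zero (a : C.Hom X X') (c : C.Hom X Y') :
    row (col a c) (0 : C.Hom Y (X' + Y')) = col (row a 0) (row c 0) := by
  rw [← row_col, col_zero]
@[simp] theorem row_zero_col (b : C.Hom Y X') (d : C.Hom Y Y') :
    row (0 : C.Hom X (X' + Y')) (col b d) = col (row 0 b) (row 0 d) := by
  rw [← row_col, col_zero]
/-- The identity of a sum as a block matrix (not a `simp` lemma; use `simp [one_sum]`). -/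
theorem one_sum : (1 : C.Hom (X + Y) (X + Y)) =
    col (row (1 : C.Hom X X) 0) (row 0 (1 : C.Hom Y Y)) := by
  have h : C.i1 X Y * (C.i1 X Y).dag + C.i2 X Y * (C.i2 X Y).dag = 1 := C.total X Y
  rw [← h]
  simp only [row, col, dag_one, dag_zero, Hom.mul_one, Hom.mul_zero, add_zero, zero_add]
theorem eq_col (k : C.Hom T (X + Y)) :
    k = col (row (1 : C.Hom X X) 0 * k) (row 0 (1 : C.Hom Y Y) * k) := by
  rw [← col_mul, ← one_sum, Hom.one_mul]
theorem eq_row (k : C.Hom (X + Y) T) :
    k = row (k * col (1 : C.Hom X X) 0) (k * col 0 (1 : C.Hom Y Y)) := by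
  rw [← mul_row, row_col, ← one_sum, Hom.mul_one]
theorem exists_col (k : C.Hom T (X + Y)) : ∃ a b, k = col a b := ⟨_, _, eq_col k⟩
theorem exists_row (k : C.Hom (X + Y) T) : ∃ a b, k = row a b := ⟨_, _, eq_row k⟩
theorem exists_mat (k : C.Hom (X + Y) (X' + Y')) :
    ∃ a b c d, k = col (row a b) (row c d) := by
  obtain ⟨u, v, rfl⟩ := exists_col k
  obtain ⟨a, b, rfl⟩ := exists_row u
  obtain ⟨c, d, rfl⟩ := exists_row v
  exact ⟨a, b, c, d, rfl⟩
@[simp] theorem col_eq_one {f : C.Hom (X + Y) X} {g : C.Hom (X + Y) Y} :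
    col f g = 1 ↔ f = row 1 0 ∧ g = row 0 1 := by rw [one_sum, col_inj]
@[simp] theorem one_eq_col {f : C.Hom (X + Y) X} {g : C.Hom (X + Y) Y} :
    1 = col f g ↔ f = row 1 0 ∧ g = row 0 1 := by rw [eq_comm, col_eq_one]
@[simp] theorem one_add_col (f : C.Hom (X + Y) X) (g : C.Hom (X + Y) Y) :
    1 + col f g = col (row 1 0 + f) (row 0 1 + g) := by rw [one_sum, col_add]
@[simp] theorem col_add_one (f : C.Hom (X + Y) X) (g : C.Hom (X + Y) Y) :
    col f g + 1 = col (f + row 1 0) (g + row 0 1) := by rw [one_sum, col_add]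
@[simp] theorem one_sub_col (f : C.Hom (X + Y) X) (g : C.Hom (X + Y) Y) :
    1 - col f g = col (row 1 0 - f) (row 0 1 - g) := by rw [one_sum, col_sub]
@[simp] theorem col_sub_one (f : C.Hom (X + Y) X) (g : C.Hom (X + Y) Y) :
    col f g - 1 = col (f - row 1 0) (g - row 0 1) := by rw [one_sum, col_sub]

/-- An identity-on-objects dagger functor. -/
structure DFun (C D : DagCat O) where
  map : ∀ {X Y : O}, C.Hom X Y → D.Hom X Y
  map_mul : ∀ {X Y Z : O} (g : C.Hom Y Z) (f : C.Hom X Y), map (g * f) = map g * map f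
  map_one : ∀ X : O, map (1 : C.Hom X X) = 1
  map_add : ∀ {X Y : O} (f g : C.Hom X Y), map (f + g) = map f + map g
  map_smul : ∀ {X Y : O} (c : ℂ) (f : C.Hom X Y), map (c • f) = c • map f
  map_dag : ∀ {X Y : O} (f : C.Hom X Y), map f.dag = (map f).dag
  map_col : ∀ {T X Y : O} (f : C.Hom T X) (g : C.Hom T Y), map (col f g) = col (map f) (map g)

attribute [simp] DFun.map_mul DFun.map_one DFun.map_add DFun.map_smul DFun.map_dag DFun.map_col

namespace DFun
variable {D : DagCat O} (F : DFun C D)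
@[simp] theorem map_zero : F.map (0 : C.Hom X Y) = 0 := by
  have := F.map_smul (0 : ℂ) (0 : C.Hom X Y)
  simpa using this
@[simp] theorem map_neg (f : C.Hom X Y) : F.map (-f) = -F.map f := by
  have := F.map_smul (-1 : ℂ) f
  simpa using this
@[simp] theorem map_sub (f g : C.Hom X Y) : F.map (f - g) = F.map f - F.map g := by
  simp [sub_eq_add_neg]
@[simp] theorem map_row (f : C.Hom X T) (g : C.Hom Y T) :
    F.map (row f g) = row (F.map f) (F.map g) := by
  rw [row, F.map_dag, F.map_col, F.map_dag, F.map_dag, dag_col, dag_dag, dag_dag]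
end DFun

/-- A two-sided dagger ideal. -/
structure Ideal (C : DagCat O) where
  sub : ∀ X Y : O, Submodule ℂ (C.Hom X Y)
  mul_left : ∀ {X Y Z : O} (g : C.Hom Y Z) {f : C.Hom X Y}, f ∈ sub X Y → g * f ∈ sub X Z
  dag_mem : ∀ {X Y : O} {f : C.Hom X Y}, f ∈ sub X Y → f.dag ∈ sub Y X

namespace Ideal
variable (I J : Ideal C)

/-- Membership in the ideal. -/
def Mem (f : C.Hom X Y) : Prop := f ∈ I.sub X Y

variable {I}
theorem Mem.zero : I.Mem (0 : C.Hom X Y) := (I.sub X Y).zero_mem
theorem Mem.add {f g : C.Hom X Y} (hf : I.Mem f) (hg : I.Mem g) : I.Mem (f + g) :=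
  (I.sub X Y).add_mem hf hg
theorem Mem.neg {f : C.Hom X Y} (hf : I.Mem f) : I.Mem (-f) := (I.sub X Y).neg_mem hf
theorem Mem.sub {f g : C.Hom X Y} (hf : I.Mem f) (hg : I.Mem g) : I.Mem (f - g) :=
  (I.sub X Y).sub_mem hf hg
theorem Mem.smul (c : ℂ) {f : C.Hom X Y} (hf : I.Mem f) : I.Mem (c • f) :=
  (I.sub X Y).smul_mem c hf
theorem Mem.dag {f : C.Hom X Y} (hf : I.Mem f) : I.Mem f.dag := I.dag_mem hf
theorem Mem.mul_left (g : C.Hom Y Z) {f : C.Hom X Y} (hf : I.Mem f) : I.Mem (g * f) :=
  I.mul_left g hf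
theorem Mem.mul_right {g : C.Hom Y Z} (hg : I.Mem g) (f : C.Hom X Y) : I.Mem (g * f) := by
  have := (Mem.mul_left f.dag hg.dag).dag
  simpa using this
theorem mem_dag {f : C.Hom X Y} : I.Mem f.dag ↔ I.Mem f :=
  ⟨fun h => by simpa using h.dag, Mem.dag⟩
theorem mem_col {f : C.Hom T X} {g : C.Hom T Y} : I.Mem (col f g) ↔ I.Mem f ∧ I.Mem g := by
  refine ⟨fun h => ⟨?_, ?_⟩, fun h => (h.1.mul_left _).add (h.2.mul_left _)⟩
  · simpa using h.mul_left (row (1 : C.Hom X X) (0 : C.Hom Y X))
  · simpa using h.mul_left (row (0 : C.Hom X Y) (1 : C.Hom Y Y))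
theorem mem_row {f : C.Hom X T} {g : C.Hom Y T} : I.Mem (row f g) ↔ I.Mem f ∧ I.Mem g := by
  rw [← mem_dag, dag_row, mem_col, mem_dag, mem_dag]
theorem mem_one_sum : I.Mem (1 : C.Hom (X + Y) (X + Y)) ↔
    I.Mem (1 : C.Hom X X) ∧ I.Mem (1 : C.Hom Y Y) := by
  rw [one_sum, mem_col, mem_row, mem_row]
  exact ⟨fun h => ⟨h.1.1, h.2.2⟩, fun h => ⟨⟨h.1, Mem.zero⟩, Mem.zero, h.2⟩⟩
variable (I)

/-- Composition in the quotient. -/
def qcomp (g : C.Hom Y Z ⧸ I.sub Y Z) (f : C.Hom X Y ⧸ I.sub X Y) : C.Hom X Z ⧸ I.sub X Z :=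
  Quotient.liftOn₂' g f (fun g f => Submodule.Quotient.mk (g * f)) (by
    intro g f g' f' hg hf
    rw [Submodule.quotientRel_def] at hg hf
    rw [Submodule.Quotient.eq]
    have : g * f - g' * f' = (g - g') * f + g' * (f - f') := by simp
    rw [this]
    exact Mem.add (I := I) (Mem.mul_right (I := I) hg f) (Mem.mul_left (I := I) g' hf))

/-- The adjoint in the quotient. -/
def qdag (f : C.Hom X Y ⧸ I.sub X Y) : C.Hom Y X ⧸ I.sub Y X :=
  Quotient.liftOn' f (fun f => Submodule.Quotient.mk f.dag) (by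
    intro f f' hf
    rw [Submodule.quotientRel_def] at hf
    rw [Submodule.Quotient.eq, ← dag_sub]
    exact I.dag_mem hf)

theorem qcomp_mk (g : C.Hom Y Z) (f : C.Hom X Y) :
    I.qcomp (Submodule.Quotient.mk g) (Submodule.Quotient.mk f) = Submodule.Quotient.mk (g * f) :=
  rfl
theorem qdag_mk (f : C.Hom X Y) :
    I.qdag (Submodule.Quotient.mk f) = Submodule.Quotient.mk f.dag := rfl

/-- The quotient dagger category. -/
def quot : DagCat O where
  hom X Y := C.Hom X Y ⧸ I.sub X Y
  acg _ _ := inferInstance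
  mod _ _ := inferInstance
  comp := I.qcomp
  id X := Submodule.Quotient.mk 1
  adj := I.qdag
  inl X Y := Submodule.Quotient.mk (C.inl X Y)
  inr X Y := Submodule.Quotient.mk (C.inr X Y)
  assoc3 h g f := by
    induction h using Submodule.Quotient.induction_on
    induction g using Submodule.Quotient.induction_on
    induction f using Submodule.Quotient.induction_on
    simp only [qcomp_mk, Hom.assoc]
  id_comp f := by
    induction f using Submodule.Quotient.induction_on
    simp only [qcomp_mk, Hom.one_mul]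
  comp_id f := by
    induction f using Submodule.Quotient.induction_on
    simp only [qcomp_mk, Hom.mul_one]
  add_comp g g' f := by
    induction g using Submodule.Quotient.induction_on
    induction g' using Submodule.Quotient.induction_on
    induction f using Submodule.Quotient.induction_on
    simp only [← Submodule.Quotient.mk_add, qcomp_mk, Hom.add_mul]
  comp_add g f f' := by
    induction g using Submodule.Quotient.induction_on
    induction f' using Submodule.Quotient.induction_on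
    induction f using Submodule.Quotient.induction_on
    simp only [← Submodule.Quotient.mk_add, qcomp_mk, Hom.mul_add]
  smul_comp c g f := by
    induction g using Submodule.Quotient.induction_on
    induction f using Submodule.Quotient.induction_on
    simp only [← Submodule.Quotient.mk_smul, qcomp_mk, Hom.smul_mul]
  comp_smul c g f := by
    induction g using Submodule.Quotient.induction_on
    induction f using Submodule.Quotient.induction_on
    simp only [← Submodule.Quotient.mk_smul, qcomp_mk, Hom.mul_smul]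
  adj_adj f := by
    induction f using Submodule.Quotient.induction_on
    simp only [qdag_mk, Hom.dag_dag]
  adj_comp g f := by
    induction g using Submodule.Quotient.induction_on
    induction f using Submodule.Quotient.induction_on
    simp only [qdag_mk, qcomp_mk, Hom.dag_mul]
  adj_add g f := by
    induction g using Submodule.Quotient.induction_on
    induction f using Submodule.Quotient.induction_on
    simp only [← Submodule.Quotient.mk_add, qdag_mk, Hom.dag_add]
  adj_smul c f := by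
    induction f using Submodule.Quotient.induction_on
    simp only [← Submodule.Quotient.mk_smul, qdag_mk, Hom.dag_smul]
  inl_inl X Y := congrArg (Submodule.Quotient.mk (p := I.sub X X)) (C.inl_inl X Y)
  inr_inr X Y := congrArg (Submodule.Quotient.mk (p := I.sub Y Y)) (C.inr_inr X Y)
  inl_inr X Y := congrArg (Submodule.Quotient.mk (p := I.sub Y X)) (C.inl_inr X Y)
  total X Y := congrArg (Submodule.Quotient.mk (p := I.sub (X + Y) (X + Y))) (C.total X Y)

/-- The quotient functor. -/
def q : DFun C I.quot where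
  map {X Y} f := Submodule.Quotient.mk (p := I.sub X Y) f
  map_mul _ _ := rfl
  map_one _ := rfl
  map_add _ _ := rfl
  map_smul _ _ := rfl
  map_dag _ := rfl
  map_col _ _ := rfl

theorem q_eq {f g : C.Hom X Y} : I.q.map f = I.q.map g ↔ I.Mem (f - g) :=
  Submodule.Quotient.eq _
theorem q_eq_zero {f : C.Hom X Y} : I.q.map f = 0 ↔ I.Mem f :=
  Submodule.Quotient.mk_eq_zero _
theorem q_surj (f : I.quot.Hom X Y) : ∃ g : C.Hom X Y, I.q.map g = f :=
  Submodule.Quotient.mk_surjective _ f

/-- Inclusion of ideals. -/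
def Le : Prop := ∀ {X Y : O} {f : C.Hom X Y}, I.Mem f → J.Mem f

variable {I J}
/-- The functor between quotients by nested ideals. -/
def res (h : I.Le J) : DFun I.quot J.quot where
  map {X Y} f := Submodule.mapQ (I.sub X Y) (J.sub X Y) LinearMap.id (fun _ hf => h hf) f
  map_mul g f := by
    obtain ⟨g, rfl⟩ := I.q_surj g
    obtain ⟨f, rfl⟩ := I.q_surj f
    rfl
  map_one _ := rfl
  map_add g f := by
    obtain ⟨g, rfl⟩ := I.q_surj g
    obtain ⟨f, rfl⟩ := I.q_surj f
    rfl
  map_smul c f := by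
    obtain ⟨f, rfl⟩ := I.q_surj f
    rfl
  map_dag f := by
    obtain ⟨f, rfl⟩ := I.q_surj f
    rfl
  map_col g f := by
    obtain ⟨g, rfl⟩ := I.q_surj g
    obtain ⟨f, rfl⟩ := I.q_surj f
    rfl

@[simp] theorem res_q (h : I.Le J) (f : C.Hom X Y) : (res h).map (I.q.map f) = J.q.map f := rfl

end Ideal

end DagCat

end Vale.Agent.P228
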