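import Vale.Agent.P228.Alg

/-! The controlled category: asymptotic families of finite matrices with positions in a metric
space, equivariant for a family of finite abelian groups. -/

namespace Vale.Agent.P228

open Filter Matrix DagCat

noncomputable section

/-- A family of finite abelian groups together with a relation `y' ∈ g • y` on the space. -/
structure Grp (Y : Type) where
  G : ℕ → Type
  acg : ∀ i, AddCommGroup (G i)
  fin : ∀ i, Fintype (G i)
  rel : ∀ i, G i → Y → Y → Prop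

attribute [instance] Grp.acg Grp.fin

/-- The trivial group family. -/
@[reducible] def triv (Y : Type) : Grp Y where
  G _ := Unit
  acg _ := inferInstance
  fin _ := inferInstance
  rel _ _ y y' := y' = y

variable {Y : Type}

/-- Invariant functions. -/
def Grp.Inv (Γ : Grp Y) {α : Type} (u : Y → α) : Prop :=
  ∀ i g y y', Γ.rel i g y y' → u y' = u y

theorem triv_inv {α : Type} (u : Y → α) : (triv Y).Inv u := by
  intro i g y y' h
  rw [show y' = y from h]

/-- Positioned based modules with a unitary action. -/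
structure Obj (Γ : Grp Y) where
  β : ℕ → Type
  fin : ∀ i, Fintype (β i)
  dec : ∀ i, DecidableEq (β i)
  pos : ∀ i, β i → Y
  ρ : ∀ i, Γ.G i → Matrix (β i) (β i) ℂ
  ρ_zero : ∀ i, ρ i 0 = 1
  ρ_add : ∀ i g g', ρ i (g + g') = ρ i g * ρ i g'
  ρ_star : ∀ i g, (ρ i g)ᴴ = ρ i (-g)
  ρ_rel : ∀ i g b' b, ρ i g b' b ≠ 0 → Γ.rel i g (pos i b) (pos i b')

attribute [instance] Obj.fin Obj.dec

variable {Γ : Grp Y}

/-- Direct sum of objects. -/
@[reducible] def Obj.sum (X X' : Obj Γ) : Obj Γ where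
  β i := X.β i ⊕ X'.β i
  fin _ := inferInstance
  dec _ := inferInstance
  pos i := Sum.elim (X.pos i) (X'.pos i)
  ρ i g := fromBlocks (X.ρ i g) 0 0 (X'.ρ i g)
  ρ_zero i := by rw [X.ρ_zero, X'.ρ_zero, fromBlocks_one]
  ρ_add i g g' := by simp [X.ρ_add, X'.ρ_add, fromBlocks_multiply]
  ρ_star i g := by simp [fromBlocks_conjTranspose, X.ρ_star, X'.ρ_star]
  ρ_rel i g b' b h := by
    rcases b' with b' | b' <;> rcases b with b | b
    · exact X.ρ_rel i g b' b h
    · exact absurd rfl h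
    · exact absurd rfl h
    · exact X'.ρ_rel i g b' b h

instance : Add (Obj Γ) := ⟨Obj.sum⟩

/-- Families of matrices. -/
abbrev Fam (X X' : Obj Γ) : Type := ∀ i, Matrix (X'.β i) (X.β i) ℂ

/-- Equivariance. -/
def Equi (X X' : Obj Γ) (f : Fam X X') : Prop := ∀ i g, f i * X.ρ i g = X'.ρ i g * f i

variable [MetricSpace Y]

/-- Propagation tends to zero. -/
def Ctl (X X' : Obj Γ) (f : Fam X X') : Prop :=
  ∀ ε > 0, ∀ᶠ i in atTop, ∀ b' b, f i b' b ≠ 0 → dist (X'.pos i b') (X.pos i b) < ε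

theorem Ctl.of_supp {X X' : Obj Γ} {f g : Fam X X'} (hg : Ctl X X' g)
    (h : ∀ i b' b, f i b' b ≠ 0 → g i b' b ≠ 0) : Ctl X X' f := fun ε hε =>
  (hg ε hε).mono fun i hi b' b hb => hi b' b (h i b' b hb)

theorem Ctl.of_pos {X X' : Obj Γ} {f : Fam X X'}
    (h : ∀ i b' b, f i b' b ≠ 0 → X'.pos i b' = X.pos i b) : Ctl X X' f := fun ε hε =>
  Eventually.of_forall fun i b' b hb => by rw [h i b' b hb, dist_self]; exact hε

theorem Ctl.mul {X X' X'' : Obj Γ} {g : Fam X' X''} {f : Fam X X'} (hg : Ctl X' X'' g)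
    (hf : Ctl X X' f) : Ctl X X'' (fun i => g i * f i) := by
  intro ε hε
  filter_upwards [hg (ε / 2) (by positivity), hf (ε / 2) (by positivity)] with i h1 h2 b'' b hb
  rw [Matrix.mul_apply] at hb
  obtain ⟨b', -, hb'⟩ := Finset.exists_ne_zero_of_sum_ne_zero hb
  have := h1 b'' b' (left_ne_zero_of_mul hb')
  have := h2 b' b (right_ne_zero_of_mul hb')
  linarith [dist_triangle (X''.pos i b'') (X'.pos i b') (X.pos i b)]

/-- Controlled equivariant families. -/
def homSub (X X' : Obj Γ) : Submodule ℂ (Fam X X') where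
  carrier := {f | Ctl X X' f ∧ Equi X X' f}
  zero_mem' := ⟨Ctl.of_pos fun _ _ _ h => absurd rfl h, fun i g => by simp⟩
  add_mem' := by
    rintro f g ⟨hf, hf'⟩ ⟨hg, hg'⟩
    refine ⟨fun ε hε => ?_, fun i γ => ?_⟩
    · filter_upwards [hf ε hε, hg ε hε] with i h1 h2 b' b hb
      by_cases h : f i b' b = 0
      · exact h2 b' b (by simpa [h] using hb)
      · exact h1 b' b h
    · simp [Matrix.add_mul, Matrix.mul_add, hf' i γ, hg' i γ]
  smul_mem' := by
    rintro c f ⟨hf, hf'⟩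
    refine ⟨hf.of_supp fun i b' b h => right_ne_zero_of_mul h, fun i γ => ?_⟩
    simp [hf' i γ]

section aux
variable {a b c : Type} [Fintype a] [Fintype b] [DecidableEq a] [DecidableEq b]
omit [DecidableEq b] in
theorem rows_aux1 (M : Matrix a a ℂ) (N : Matrix b b ℂ) :
    fromRows (1 : Matrix a a ℂ) (0 : Matrix b a ℂ) * M =
      fromBlocks M 0 0 N * fromRows (1 : Matrix a a ℂ) (0 : Matrix b a ℂ) := by
  rw [fromBlocks_mul_fromRows]; simp [fromRows_mul]
omit [DecidableEq a] in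
theorem rows_aux2 (M : Matrix a a ℂ) (N : Matrix b b ℂ) :
    fromRows (0 : Matrix a b ℂ) (1 : Matrix b b ℂ) * N =
      fromBlocks M 0 0 N * fromRows (0 : Matrix a b ℂ) (1 : Matrix b b ℂ) := by
  rw [fromBlocks_mul_fromRows]; simp [fromRows_mul]
theorem rows_aux3 : fromRows (1 : Matrix a a ℂ) (0 : Matrix b a ℂ) *
      (fromRows (1 : Matrix a a ℂ) (0 : Matrix b a ℂ))ᴴ +
    fromRows (0 : Matrix a b ℂ) (1 : Matrix b b ℂ) *
      (fromRows (0 : Matrix a b ℂ) (1 : Matrix b b ℂ))ᴴ = (1 : Matrix (a ⊕ b) (a ⊕ b) ℂ) := by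
  rw [conjTranspose_fromRows_eq_fromCols_conjTranspose,
    conjTranspose_fromRows_eq_fromCols_conjTranspose, fromRows_mul_fromCols, fromRows_mul_fromCols]
  simp [fromBlocks_add]
theorem rows_aux4 (M : Matrix a c ℂ) (N : Matrix b c ℂ) :
    fromRows (1 : Matrix a a ℂ) (0 : Matrix b a ℂ) * M +
      fromRows (0 : Matrix a b ℂ) (1 : Matrix b b ℂ) * N = fromRows M N := by
  ext (x | x) y <;> simp [fromRows_mul]
end aux

/-- The controlled dagger category. -/
def cat (Γ : Grp Y) : DagCat (Obj Γ) where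
  hom X X' := homSub X X'
  acg _ _ := inferInstance
  mod _ _ := inferInstance
  comp g f := ⟨fun i => g.1 i * f.1 i, g.2.1.mul f.2.1, fun i γ => by
    rw [Matrix.mul_assoc, f.2.2, ← Matrix.mul_assoc, g.2.2, Matrix.mul_assoc]⟩
  id X := ⟨fun _ => 1, Ctl.of_pos fun i b' b h => by
    by_contra hne
    exact h (one_apply_ne fun e => hne (by rw [e])), fun i γ => by simp⟩
  adj {X X'} f := ⟨fun i => (f.1 i)ᴴ, fun ε hε => (f.2.1 ε hε).mono fun i hi b' b h => by
      rw [dist_comm]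
      exact hi b b' (by simpa using h), fun i γ => by
    have := congrArg conjTranspose (f.2.2 i (-γ))
    simp only [conjTranspose_mul, Obj.ρ_star, neg_neg] at this
    exact this.symm⟩
  inl X X' := ⟨fun _ => fromRows 1 0, Ctl.of_pos fun i b' b h => by
      rcases b' with b' | b'
      · by_contra hne
        exact h (one_apply_ne fun e => hne (by rw [e]; rfl))
      · exact absurd rfl h, fun i γ => rows_aux1 (X.ρ i γ) (X'.ρ i γ)⟩
  inr X X' := ⟨fun _ => fromRows 0 1, Ctl.of_pos fun i b' b h => by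
      rcases b' with b' | b'
      · exact absurd rfl h
      · by_contra hne
        exact h (one_apply_ne fun e => hne (by rw [e]; rfl)), fun i γ => rows_aux2 (X.ρ i γ) (X'.ρ i γ)⟩
  assoc3 h g f := Subtype.ext (funext fun i => Matrix.mul_assoc (h.1 i) (g.1 i) (f.1 i))
  id_comp f := Subtype.ext (funext fun i => Matrix.one_mul (f.1 i))
  comp_id f := Subtype.ext (funext fun i => Matrix.mul_one (f.1 i))
  add_comp g g' f := Subtype.ext (funext fun i => Matrix.add_mul (g.1 i) (g'.1 i) (f.1 i))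
  comp_add g f f' := Subtype.ext (funext fun i => Matrix.mul_add (g.1 i) (f.1 i) (f'.1 i))
  smul_comp c g f := Subtype.ext (funext fun i => Matrix.smul_mul c (g.1 i) (f.1 i))
  comp_smul c g f := Subtype.ext (funext fun i => Matrix.mul_smul (g.1 i) c (f.1 i))
  adj_adj f := Subtype.ext (funext fun i => conjTranspose_conjTranspose (f.1 i))
  adj_comp g f := Subtype.ext (funext fun i => conjTranspose_mul (g.1 i) (f.1 i))
  adj_add f g := Subtype.ext (funext fun i => conjTranspose_add (f.1 i) (g.1 i))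
  adj_smul c f := Subtype.ext (funext fun i => conjTranspose_smul c (f.1 i))
  inl_inl X X' := Subtype.ext (funext fun i => by
    change (fromRows (1 : Matrix (X.β i) (X.β i) ℂ) (0 : Matrix (X'.β i) (X.β i) ℂ))ᴴ *
      fromRows 1 0 = 1
    simp [conjTranspose_fromRows_eq_fromCols_conjTranspose, fromCols_mul_fromRows])
  inr_inr X X' := Subtype.ext (funext fun i => by
    change (fromRows (0 : Matrix (X.β i) (X'.β i) ℂ) (1 : Matrix (X'.β i) (X'.β i) ℂ))ᴴ *
      fromRows 0 1 = 1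
    simp [conjTranspose_fromRows_eq_fromCols_conjTranspose, fromCols_mul_fromRows])
  inl_inr X X' := Subtype.ext (funext fun i => by
    change (fromRows (1 : Matrix (X.β i) (X.β i) ℂ) (0 : Matrix (X'.β i) (X.β i) ℂ))ᴴ *
      fromRows (0 : Matrix (X.β i) (X'.β i) ℂ) 1 = 0
    simp [conjTranspose_fromRows_eq_fromCols_conjTranspose, fromCols_mul_fromRows])
  total X X' := Subtype.ext (funext fun i => rows_aux3 (a := X.β i) (b := X'.β i))

/-- Morphisms of the controlled category. -/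
abbrev Mor (X X' : Obj Γ) : Type := (cat Γ).Hom X X'

variable {T X X' X'' : Obj Γ}

/-- The matrices of a morphism. -/
def mat (f : Mor X X') : Fam X X' := Subtype.val (p := fun f => f ∈ homSub X X') f

/-- Building a morphism. -/
def mkMor (f : Fam X X') (hc : Ctl X X' f) (he : Equi X X' f) : Mor X X' :=
  Subtype.mk (p := fun f => f ∈ homSub X X') f ⟨hc, he⟩

@[simp] theorem mat_mkMor (f : Fam X X') (hc : Ctl X X' f) (he : Equi X X' f) :
    mat (mkMor f hc he) = f := rfl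
theorem mat_ctl (f : Mor X X') : Ctl X X' (mat f) :=
  (Subtype.property (p := fun f => f ∈ homSub X X') f).1
theorem mat_equi (f : Mor X X') : Equi X X' (mat f) :=
  (Subtype.property (p := fun f => f ∈ homSub X X') f).2
theorem mor_ext {f g : Mor X X'} (h : ∀ i, mat f i = mat g i) : f = g :=
  Subtype.ext (p := fun f => f ∈ homSub X X') (funext h)
@[simp] theorem mat_mul (g : Mor X' X'') (f : Mor X X') (i) :
    mat (g * f) i = mat g i * mat f i := rfl
@[simp] theorem mat_one (i) : mat (1 : Mor X X) i = 1 := rfl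
@[simp] theorem mat_zero (i) : mat (0 : Mor X X') i = 0 := rfl
@[simp] theorem mat_add (f g : Mor X X') (i) : mat (f + g) i = mat f i + mat g i := rfl
@[simp] theorem mat_neg (f : Mor X X') (i) : mat (-f) i = -mat f i := rfl
@[simp] theorem mat_sub (f g : Mor X X') (i) : mat (f - g) i = mat f i - mat g i := rfl
@[simp] theorem mat_smul (c : ℂ) (f : Mor X X') (i) : mat (c • f) i = c • mat f i := rfl
@[simp] theorem mat_dag (f : Mor X X') (i) : mat f.dag i = (mat f i)ᴴ := rfl
theorem mat_col (f : Mor T X) (g : Mor T X') (i) :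
    mat (col f g) i = fromRows (mat f i) (mat g i) := rows_aux4 (mat f i) (mat g i)
theorem mat_row (f : Mor X T) (g : Mor X' T) (i) :
    mat (row f g) i = fromCols (mat f i) (mat g i) := by
  rw [DagCat.row, mat_dag, mat_col]
  ext a (b | b) <;> simp
theorem mat_mat {Z Z' : Obj Γ} (a : Mor X Z) (b : Mor X' Z) (c : Mor X Z') (d : Mor X' Z') (i) :
    mat (col (row a b) (row c d)) i = fromBlocks (mat a i) (mat b i) (mat c i) (mat d i) := by
  rw [mat_col, mat_row, mat_row]
  ext (a | a) (b | b) <;> rfl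

/-- A family of matrices with columns positioned by `X` vanishes locally near points of `U`. -/
def VanR (U : Set Y) (X : Obj Γ) {A : ℕ → Type} (e : ∀ i, Matrix (A i) (X.β i) ℂ) : Prop :=
  ∀ y ∈ U, ∃ r > 0, ∀ᶠ i in atTop, ∀ a b, e i a b ≠ 0 → r ≤ dist (X.pos i b) y

theorem VanR.of_supp {U : Set Y} {A A' : ℕ → Type} {e : ∀ i, Matrix (A i) (X.β i) ℂ}
    {e' : ∀ i, Matrix (A' i) (X.β i) ℂ} (he : VanR U X e)
    (h : ∀ i a' b, e' i a' b ≠ 0 → ∃ a, e i a b ≠ 0) : VanR U X e' := by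
  intro y hy
  obtain ⟨r, hr, h'⟩ := he y hy
  refine ⟨r, hr, h'.mono fun i hi a b hb => ?_⟩
  obtain ⟨a', ha'⟩ := h i a b hb
  exact hi a' b ha'

theorem VanR.add {U : Set Y} {A : ℕ → Type} {e e' : ∀ i, Matrix (A i) (X.β i) ℂ}
    (he : VanR U X e) (he' : VanR U X e') : VanR U X (fun i => e i + e' i) := by
  intro y hy
  obtain ⟨r, hr, h⟩ := he y hy
  obtain ⟨r', hr', h'⟩ := he' y hy
  refine ⟨min r r', lt_min hr hr', ?_⟩
  filter_upwards [h, h'] with i h1 h2 a b hb
  by_cases h0 : e i a b = 0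
  · exact (min_le_right _ _).trans (h2 a b (by simpa [h0] using hb))
  · exact (min_le_left _ _).trans (h1 a b h0)

theorem VanR.mul_left {U : Set Y} {A A' : ℕ → Type} [∀ i, Fintype (A i)]
    {e : ∀ i, Matrix (A i) (X.β i) ℂ} (he : VanR U X e) (k : ∀ i, Matrix (A' i) (A i) ℂ) :
    VanR U X (fun i => k i * e i) := he.of_supp fun i a' b hb => by
  rw [Matrix.mul_apply] at hb
  obtain ⟨a, -, ha⟩ := Finset.exists_ne_zero_of_sum_ne_zero hb
  exact ⟨a, right_ne_zero_of_mul ha⟩

theorem VanR.mul_ctl {U : Set Y} {A : ℕ → Type} {e : ∀ i, Matrix (A i) (X'.β i) ℂ}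
    (he : VanR U X' e) {f : Fam X X'} (hf : Ctl X X' f) : VanR U X (fun i => e i * f i) := by
  intro y hy
  obtain ⟨r, hr, h⟩ := he y hy
  refine ⟨r / 2, by positivity, ?_⟩
  filter_upwards [h, hf (r / 2) (by positivity)] with i h1 h2 a b hb
  rw [Matrix.mul_apply] at hb
  obtain ⟨b', -, hb'⟩ := Finset.exists_ne_zero_of_sum_ne_zero hb
  have := h1 a b' (left_ne_zero_of_mul hb')
  have := h2 b' b (right_ne_zero_of_mul hb')
  linarith [dist_triangle (X'.pos i b') (X.pos i b) y]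

/-- The ideal of morphisms vanishing locally near points of `U`. -/
def van (Γ : Grp Y) (U : Set Y) : DagCat.Ideal (cat Γ) where
  sub X X' :=
    { carrier := {f | VanR U X (mat f)}
      zero_mem' := fun _ _ => ⟨1, one_pos, Eventually.of_forall fun _ _ _ h => absurd rfl h⟩
      add_mem' := fun hf hg => VanR.add hf hg
      smul_mem' := fun _ _ hf => VanR.of_supp hf fun _ a _ h => ⟨a, right_ne_zero_of_mul h⟩ }
  mul_left g _ hf := VanR.mul_left hf (mat g)
  dag_mem {X X' f} hf := by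
    intro y hy
    obtain ⟨r, hr, h⟩ := hf y hy
    refine ⟨r / 2, by positivity, ?_⟩
    filter_upwards [h, mat_ctl f (r / 2) (by positivity)] with i h1 h2 a b hb
    have hb' : mat f i b a ≠ 0 := by simpa using hb
    have := h1 b a hb'
    have := h2 b a hb'
    linarith [dist_triangle (X.pos i a) (X'.pos i b) y, dist_comm (X.pos i a) (X'.pos i b)]

/-- `f` vanishes over `U`. -/
abbrev Van (U : Set Y) (f : Mor X X') : Prop := (van Γ U).Mem f

theorem van_iff {U : Set Y} {f : Mor X X'} : Van U f ↔ VanR U X (mat f) := Iff.rfl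

/-- The class of `f` over `U`. -/
abbrev loc (U : Set Y) (f : Mor X X') : (van Γ U).quot.Hom X X' := (van Γ U).q.map f

theorem van_le {U V : Set Y} (h : V ⊆ U) : (van Γ U).Le (van Γ V) :=
  fun hf y hy => hf y (h hy)

theorem Van.mono {U V : Set Y} {f : Mor X X'} (hf : Van U f) (h : V ⊆ U) : Van V f := van_le h hf

theorem Van.union {U V : Set Y} {f : Mor X X'} (hf : Van U f) (hg : Van V f) : Van (U ∪ V) f :=
  fun y hy => hy.elim (hf y) (hg y)

theorem Van.of_cover {U V W : Set Y} {f : Mor X X'} (hf : Van U f) (hg : Van V f)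
    (h : W ⊆ U ∪ V) : Van W f := (hf.union hg).mono h

theorem van_empty (f : Mor X X') : Van ∅ f := fun _ h => h.elim

/-- Restriction from `U` to a smaller set. -/
abbrev resU {U V : Set Y} (h : V ⊆ U) : DFun (van Γ U).quot (van Γ V).quot :=
  DagCat.Ideal.res (van_le h)

/-- The differential is strictly triangular for bounded invariant weights. -/
def Tri (d : Mor X X) : Prop :=
  ∃ (N : ℕ) (wt : ∀ i, X.β i → ℕ), (∀ i b, wt i b ≤ N) ∧
    (∀ i g b' b, X.ρ i g b' b ≠ 0 → wt i b' = wt i b) ∧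
    ∀ i b' b, mat d i b' b ≠ 0 → wt i b < wt i b'

/-- `ι` includes a triangular subcomplex (over `W`). -/
structure IsSub (W : Set Y) (d : Mor X X) {Λ : Obj Γ} (ι : Mor Λ X) (dΛ : Mor Λ Λ) : Prop where
  isom : ι.dag * ι = 1
  tri : Tri dΛ
  chain : Chain (loc W dΛ) (loc W d) (loc W ι)

/-- The real quadratic form of a complex matrix. -/
def qf {β : Type} [Fintype β] (B : Matrix β β ℂ) : QuadraticForm ℝ (β → ℂ) :=
  LinearMap.BilinMap.toQuadraticMap (LinearMap.mk₂ ℝ (fun v w => (star v ⬝ᵥ B *ᵥ w).re)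
    (fun _ _ _ => by simp [add_dotProduct])
    (fun _ _ _ => by simp [smul_dotProduct])
    (fun _ _ _ => by simp [mulVec_add, dotProduct_add])
    (fun _ _ _ => by simp [mulVec_smul, dotProduct_smul]))

theorem qf_apply {β : Type} [Fintype β] (B : Matrix β β ℂ) (v : β → ℂ) :
    qf B v = (star v ⬝ᵥ B *ᵥ v).re := rfl

/-- The (real) signature of `B` on a subspace. -/
def sig {β : Type} [Fintype β] (B : Matrix β β ℂ) (V : Submodule ℝ (β → ℂ)) : ℤ :=
  (sigPos ((qf B).restrict V) : ℤ) - sigNeg ((qf B).restrict V)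

/-- Cycles in an eigenspace. -/
def cyc {β G : Type} [Fintype β] [AddCommGroup G] (d : Matrix β β ℂ) (ρ : G → Matrix β β ℂ)
    (χ : AddChar G ℂ) : Submodule ℝ (β → ℂ) where
  carrier := {v | d *ᵥ v = 0 ∧ ∀ g, ρ g *ᵥ v = χ g • v}
  zero_mem' := by simp
  add_mem' := by
    rintro v w ⟨h1, h2⟩ ⟨h3, h4⟩
    exact ⟨by simp [mulVec_add, h1, h3], fun g => by simp [mulVec_add, h2, h4]⟩
  smul_mem' := by
    rintro c v ⟨h1, h2⟩
    exact ⟨by simp [mulVec_smul, h1], fun g => by rw [mulVec_smul, h2, smul_comm]⟩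

/-- The signature of the `χ`-eigenspace at stage `i`. -/
def esig (d B : Mor X X) (i : ℕ) (χ : AddChar (Γ.G i) ℂ) : ℤ :=
  sig (mat B i) (cyc (mat d i) (X.ρ i) χ)

/-- A cut: the complex is kept where the first function is negative and removed where the second
function is negative. -/
abbrev Cut (Y : Type) : Type := (Y → ℝ) × (Y → ℝ)

/-- The centre of a list of cuts, with margin `η`. -/
def centre (cs : List (Cut Y)) (η : ℝ) : Set Y := {y | ∀ c ∈ cs, -η ≤ c.1 y ∧ -η ≤ c.2 y}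

/-- `s` is a value of the iterated cut-and-double construction on `(X, d, B)` over `W`. -/
def Val (W : Set Y) : List (Cut Y) → ∀ {X : Obj Γ}, Mor X X → Mor X X →
    (∀ i, AddChar (Γ.G i) ℂ → ℤ) → Prop
  | [], X, d, B, s => ∃ (Λ : Obj Γ) (ι : Mor Λ X) (dΛ : Mor Λ Λ), IsSub W d ι dΛ ∧
      Van W (1 - ι * ι.dag) ∧ Van Wᶜ (1 : Mor Λ Λ) ∧
      ∀ᶠ i in atTop, ∀ χ, s i χ = esig dΛ (ι.dag * (B * ι)) i χ
  | c :: cs, X, d, B, s => ∃ (Λ : Obj Γ) (ι : Mor Λ X) (dΛ : Mor Λ Λ) (D : Obj Γ) (dD : Mor D D)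
      (δ : Mor D (Λ + Λ)) (β β' : Mor D D), IsSub W d ι dΛ ∧
      Van {y | c.1 y < 0} (1 - ι * ι.dag) ∧ Van {y | c.2 y < 0} ι ∧
      δ.dag * δ = 1 ∧ Tri dD ∧ Van {y | c.1 y < 0} (1 : Mor D D) ∧
      Dbl (loc W (bdD dΛ (ι.dag * (B * ι)))) (loc W ((cat Γ).hyp Λ)) (loc W dD) (loc W δ)
        (loc W β) (loc W β') ∧
      Val W cs (dblD dD) (dblB β β') s

/-- A cut that can be realised. -/
def GoodCut (Γ : Grp Y) (c : Cut Y) : Prop :=
  ∃ (f : Y → ℝ) (a b : ℝ), Continuous f ∧ Γ.Inv f ∧ a < b ∧ (∀ y, c.1 y < 0 → f y < a) ∧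
    ∀ y, c.2 y < 0 → b < f y

/-- A cut along which Lagrangians can be cut. -/
def SepCut (Γ : Grp Y) (c : Cut Y) : Prop :=
  Continuous c.1 ∧ Γ.Inv c.1 ∧ ∀ y, ¬ (c.1 y < 0 ∧ c.2 y < 0)

/-- An invariant function separating `C` from the complement of `W`. -/
def Sep (Γ : Grp Y) (W C : Set Y) : Prop :=
  ∃ w : Y → ℝ, Continuous w ∧ Γ.Inv w ∧ (∀ y, y ∉ W → 0 < w y) ∧ ∀ y ∈ C, w y < 0

/-- Forgetting the action. -/
@[reducible] def Obj.forget (X : Obj Γ) : Obj (triv Y) where
  β := X.β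
  fin := X.fin
  dec := X.dec
  pos := X.pos
  ρ i _ := X.ρ i 0
  ρ_zero := X.ρ_zero
  ρ_add i _ _ := by rw [X.ρ_zero, Matrix.mul_one]
  ρ_star i _ := by rw [X.ρ_zero, conjTranspose_one]
  ρ_rel i _ b' b h := by
    rw [X.ρ_zero] at h
    by_contra hne
    exact h (one_apply_ne fun e => hne (by rw [e]))

omit [MetricSpace Y] in
theorem equi_triv {X X' : Obj (triv Y)} (f : Fam X X') : Equi X X' f := by
  intro i g
  have h : g = 0 := rfl
  rw [h, X.ρ_zero, X'.ρ_zero, Matrix.mul_one, Matrix.one_mul]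

/-- The forgetful functor. -/
def forget (Γ : Grp Y) : GFun (cat Γ) (cat (triv Y)) where
  obj := Obj.forget
  map {X X'} f := mkMor (X := X.forget) (X' := X'.forget) (mat (X := X) (X' := X') f)
    (mat_ctl (X := X) (X' := X') f) (equi_triv _)
  map_mul _ _ := rfl
  map_one _ := rfl
  map_add _ _ := rfl
  map_smul _ _ := rfl
  map_dag _ := rfl

/-- The underlying non-equivariant morphism. -/
def fgt (f : Mor X X') : Mor X.forget X'.forget := (forget Γ).map f

@[simp] theorem mat_fgt (f : Mor X X') (i) : mat (fgt f) i = mat f i := rfl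

/-- Twisting the action by a character. -/
@[reducible] def Obj.twist (X : Obj Γ) (ζ : ∀ i, AddChar (Γ.G i) ℂ) : Obj Γ where
  β := X.β
  fin := X.fin
  dec := X.dec
  pos := X.pos
  ρ i g := ζ i g • X.ρ i g
  ρ_zero i := by simp [X.ρ_zero]
  ρ_add i g g' := by simp [X.ρ_add, AddChar.map_add_eq_mul, smul_smul, mul_comm]
  ρ_star i g := by simp [X.ρ_star, AddChar.map_neg_eq_conj]
  ρ_rel i g b' b h := X.ρ_rel i g b' b (right_ne_zero_of_mul h)

/-- The twisting functor. -/
def twist (ζ : ∀ i, AddChar (Γ.G i) ℂ) : GFun (cat Γ) (cat Γ) where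
  obj X := X.twist ζ
  map {X X'} f := mkMor (X := X.twist ζ) (X' := X'.twist ζ) (mat (X := X) (X' := X') f)
    (mat_ctl (X := X) (X' := X') f) (fun i g => by
    change mat f i * (ζ i g • X.ρ i g) = (ζ i g • X'.ρ i g) * mat f i
    rw [Matrix.mul_smul, Matrix.smul_mul, mat_equi f])
  map_mul _ _ := rfl
  map_one _ := rfl
  map_add _ _ := rfl
  map_smul _ _ := rfl
  map_dag _ := rfl

/-- The twisted morphism. -/
def tw (ζ : ∀ i, AddChar (Γ.G i) ℂ) (f : Mor X X') : Mor (X.twist ζ) (X'.twist ζ) :=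
  (twist ζ).map f

@[simp] theorem mat_tw (ζ : ∀ i, AddChar (Γ.G i) ℂ) (f : Mor X X') (i) :
    mat (tw ζ f) i = mat f i := rfl

/-- Local acyclicity of `(X, d)` over `W` relative to the augmentations `e`. -/
def Acyc (W : Set Y) (d : Mor X X) {A : ℕ → Type} (e : ∀ i, Matrix (A i) (X.β i) ℂ) : Prop :=
  ∀ y ∈ W, ∀ r > 0, ∃ r' > 0, ∀ᶠ i in atTop, ∀ z : X.β i → ℂ,
    (∀ b, z b ≠ 0 → dist (X.pos i b) y < r') → mat d i *ᵥ z = 0 → e i *ᵥ z = 0 →
    ∃ w : X.β i → ℂ, (∀ b, w b ≠ 0 → dist (X.pos i b) y < r) ∧ mat d i *ᵥ w = z ∧ e i *ᵥ w = 0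

end

end Vale.Agent.P228
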