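import Vale.Agent.P228.Ctl
import Vale.Agent.P228.AlgA

/-! Part CtlA: triangular differentials, cutting and squeezing. -/

namespace Vale.Agent.P228

open Filter Matrix DagCat Set

variable {Y : Type} [MetricSpace Y] {Γ : Grp Y} {T X X' L M D Λ : Obj Γ}

theorem Tri.smul (c : ℂ) {d : Mor X X} (h : Tri d) : Tri (c • d) := by
  obtain ⟨N, wt, h1, h2, h3⟩ := h
  exact ⟨N, wt, h1, h2, fun i b' b hb => h3 i b' b (right_ne_zero_of_mul hb)⟩
theorem Tri.neg {d : Mor X X} (h : Tri d) : Tri (-d) := by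
  obtain ⟨N, wt, h1, h2, h3⟩ := h
  exact ⟨N, wt, h1, h2, fun i b' b hb => h3 i b' b (neg_ne_zero.1 hb)⟩
theorem Tri.dag {d : Mor X X} (h : Tri d) : Tri d.dag := by
  obtain ⟨N, wt, h1, h2, h3⟩ := h
  refine ⟨N, fun i b => N - wt i b, fun i b => Nat.sub_le _ _, fun i g b' b hb => by
    simp only [h2 i g b' b hb], fun i b' b hb => ?_⟩
  have := h3 i b b' (by simpa using hb)
  have := h1 i b
  show N - wt i b < N - wt i b'
  omega
theorem Tri.of_tri {d : Mor X X} {d' : Mor X' X'} (h : Tri d) (h' : Tri d') (f : Mor X X') :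
    Tri (tri d f d') := by
  obtain ⟨N, wt, h1, h2, h3⟩ := h
  obtain ⟨N', wt', h1', h2', h3'⟩ := h'
  refine ⟨N + 1 + N', fun i => Sum.elim (wt i) fun b => N + 1 + wt' i b, ?_, ?_, ?_⟩
  · rintro i (b | b)
    · exact (h1 i b).trans (by omega)
    · exact Nat.add_le_add_left (h1' i b) _
  · rintro i g (b' | b') (b | b) hb
    · exact h2 i g b' b hb
    · exact absurd rfl hb
    · exact absurd rfl hb
    · exact congrArg (N + 1 + ·) (h2' i g b' b hb)
  · rintro i (b' | b') (b | b) hb <;> rw [tri, mat_mat] at hb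
    · exact h3 i b' b hb
    · exact absurd rfl hb
    · exact (Nat.lt_succ_of_le (h1 i b)).trans_le (Nat.le_add_right _ _)
    · exact Nat.add_lt_add_left (h3' i b' b hb) _
theorem Tri.oplus {d : Mor X X} {d' : Mor X' X'} (h : Tri d) (h' : Tri d') :
    Tri (dsum d d') := h.of_tri h' 0
theorem Tri.bdD {d : Mor X X} (h : Tri d) (φ : Mor X X) : Tri (bdD d φ) := (h.smul _).of_tri (h.smul _).dag φ
theorem Tri.dblD {d : Mor X X} (h : Tri d) : Tri (dblD d) := h.oplus h.dag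
theorem Tri.bdL {d : Mor X X} (h : Tri d) (φ : Mor X X) {dM : Mor M M} (hM : Tri dM) (l : Mor M X)
    (k : Mor M M) : Tri (bdL d φ dM l k) := (hM.smul _).of_tri ((h.smul _).dag.of_tri (hM.dag.smul _) _) _
theorem Tri.fibD {d : Mor X X} (h : Tri d) (B : Mor X X) {dL : Mor L L} (hL : Tri dL)
    (l : Mor L X) : Tri (fibD d B dL l) := h.of_tri hL.dag.neg _
theorem Tri.surgD {d : Mor X X} (h : Tri d) (B : Mor X X) {dL : Mor L L} (hL : Tri dL)
    (l : Mor L X) (k : Mor L L) : Tri (surgD d B dL l k) := hL.neg.of_tri (h.fibD B hL l) _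
theorem Tri.fgt {d : Mor X X} (h : Tri d) : Tri (fgt d) := by
  obtain ⟨N, wt, h1, h2, h3⟩ := h
  exact ⟨N, wt, h1, fun i _ b' b hb => h2 i 0 b' b hb, h3⟩
theorem Tri.tw (ζ : ∀ i, AddChar (Γ.G i) ℂ) {d : Mor X X} (h : Tri d) : Tri (tw ζ d) := by
  obtain ⟨N, wt, h1, h2, h3⟩ := h
  exact ⟨N, wt, h1, fun i g b' b hb => h2 i g b' b (right_ne_zero_of_mul hb), h3⟩

theorem VanR.compact {U K : Set Y} {A : ℕ → Type} {e : ∀ i, Matrix (A i) (X.β i) ℂ}
    (he : VanR U X e) (hK : IsCompact K) (hKU : K ⊆ U) :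
    ∃ r > 0, ∀ᶠ i in atTop, ∀ a b, e i a b ≠ 0 → ∀ y ∈ K, r ≤ dist (X.pos i b) y := by
  refine hK.induction_on (p := fun S => ∃ r > 0, ∀ᶠ i in atTop, ∀ a b, e i a b ≠ 0 →
    ∀ y ∈ S, r ≤ dist (X.pos i b) y) ⟨1, one_pos, Eventually.of_forall fun _ _ _ _ _ h => h.elim⟩
    ?_ ?_ ?_
  · rintro s t hst ⟨r, hr, h⟩
    exact ⟨r, hr, h.mono fun i hi a b hb y hy => hi a b hb y (hst hy)⟩
  · rintro s t ⟨r, hr, h⟩ ⟨r', hr', h'⟩
    refine ⟨min r r', lt_min hr hr', ?_⟩
    filter_upwards [h, h'] with i h1 h2 a b hb y hy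
    exact hy.elim (fun hy => (min_le_left _ _).trans (h1 a b hb y hy))
      fun hy => (min_le_right _ _).trans (h2 a b hb y hy)
  · intro y hy
    obtain ⟨r, hr, h⟩ := he y (hKU hy)
    refine ⟨Metric.ball y (r / 2), mem_nhdsWithin_of_mem_nhds (Metric.ball_mem_nhds y (by positivity)),
      r / 2, by positivity, h.mono fun i hi a b hb z hz => ?_⟩
    have := hi a b hb
    have := Metric.mem_ball.1 hz
    linarith [dist_triangle (X.pos i b) z y]
theorem VanR.of_eventually {U : Set Y} {A : ℕ → Type} {e : ∀ i, Matrix (A i) (X.β i) ℂ}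
    (h : ∀ᶠ i in atTop, e i = 0) : VanR U X e := fun _ _ => ⟨1, one_pos, h.mono fun i hi a b hb => absurd (by rw [hi]; rfl) hb⟩
theorem VanR.eventually_zero [CompactSpace Y] {A : ℕ → Type} {e : ∀ i, Matrix (A i) (X.β i) ℂ}
    (h : VanR univ X e) : ∀ᶠ i in atTop, e i = 0 := by
  obtain ⟨r, hr, h⟩ := h.compact isCompact_univ Subset.rfl
  refine h.mono fun i hi => ?_
  ext a b
  by_contra hb
  have := hi a b hb (X.pos i b) (mem_univ _)
  rw [dist_self] at this
  linarith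
theorem VanR.mono {U V : Set Y} {A : ℕ → Type} {e : ∀ i, Matrix (A i) (X.β i) ℂ}
    (h : VanR U X e) (hV : V ⊆ U) : VanR V X e := fun y hy => h y (hV hy)
theorem VanR.smul {U : Set Y} {A : ℕ → Type} {e : ∀ i, Matrix (A i) (X.β i) ℂ}
    (h : VanR U X e) (c : ℕ → ℂ) : VanR U X (fun i => c i • e i) := h.of_supp fun _ a _ hb => ⟨a, right_ne_zero_of_mul hb⟩
theorem VanR.neg {U : Set Y} {A : ℕ → Type} {e : ∀ i, Matrix (A i) (X.β i) ℂ}
    (h : VanR U X e) : VanR U X (fun i => -e i) := h.of_supp fun _ a _ hb => ⟨a, neg_ne_zero.1 hb⟩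
theorem VanR.sub {U : Set Y} {A : ℕ → Type} {e e' : ∀ i, Matrix (A i) (X.β i) ℂ}
    (h : VanR U X e) (h' : VanR U X e') : VanR U X (fun i => e i - e' i) := by
  simpa only [sub_eq_add_neg] using h.add h'.neg
theorem VanR.congr {U : Set Y} {A : ℕ → Type} {e e' : ∀ i, Matrix (A i) (X.β i) ℂ}
    (h : VanR U X e) (h' : ∀ᶠ i in atTop, e i = e' i) : VanR U X e' := by
  intro y hy
  obtain ⟨r, hr, h⟩ := h y hy
  refine ⟨r, hr, ?_⟩
  filter_upwards [h, h'] with i h1 h2
  rwa [← h2]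
theorem loc_eq {U : Set Y} {f g : Mor X X'} : loc U f = loc U g ↔ Van U (f - g) := (van Γ U).q_eq
theorem loc_univ_eq [CompactSpace Y] {f g : Mor X X'} :
    loc univ f = loc univ g ↔ ∀ᶠ i in atTop, mat f i = mat g i := by
  rw [loc_eq]
  exact ⟨fun h => (VanR.eventually_zero h).mono fun i hi => sub_eq_zero.1 hi,
    fun h => VanR.of_eventually (h.mono fun i hi => sub_eq_zero.2 hi)⟩
/-- Over `W`, a map out of an object supported in `W` is determined globally. -/
theorem Van.univ_of_supp {W : Set Y} {f : Mor X X'} (hf : Van W f) (hX : Van Wᶜ (1 : Mor X X)) :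
    Van univ f := hf.of_cover (V := Wᶜ) (by simpa using hX.mul_left f) (by simp)
theorem van_fgt {U : Set Y} {f : Mor X X'} : Van U (fgt f) ↔ Van U f := Iff.rfl
theorem van_tw {U : Set Y} (ζ : ∀ i, AddChar (Γ.G i) ℂ) {f : Mor X X'} :
    Van U (tw ζ f) ↔ Van U f := Iff.rfl
theorem fgt_col (f : Mor T X) (g : Mor T X') : fgt (col f g) = col (fgt f) (fgt g) := mor_ext fun i => (mat_col f g i).trans (mat_col (fgt f) (fgt g) i).symm
theorem fgt_row (f : Mor X T) (g : Mor X' T) : fgt (row f g) = row (fgt f) (fgt g) := mor_ext fun i => (mat_row f g i).trans (mat_row (fgt f) (fgt g) i).symm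
theorem poinc_fgt {U : Set Y} {d B : Mor X X} (h : Poinc (loc U d) (loc U B)) :
    Poinc (loc U (fgt d)) (loc U (fgt B)) := h.gmap ((forget Γ).quot (I := van Γ U) (J := van (triv Y) U) fun hf => van_fgt.2 hf)
theorem poinc_tw {U : Set Y} (ζ : ∀ i, AddChar (Γ.G i) ℂ) {d B : Mor X X}
    (h : Poinc (loc U d) (loc U B)) : Poinc (loc U (tw ζ d)) (loc U (tw ζ B)) := h.gmap ((twist ζ).quot (I := van Γ U) (J := van Γ U) fun hf => (van_tw ζ).2 hf)

theorem van_one_of_isom {U : Set Y} {ι : Mor Λ X} (h : ι.dag * ι = 1) (hι : Van U ι) :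
    Van U (1 : Mor Λ Λ) := h ▸ hι.mul_left ι.dag
theorem van_one_sub {U : Set Y} {ι : Mor Λ X} (h : ι.dag * ι = 1) (hX : Van U (1 : Mor X X)) :
    Van U (1 : Mor Λ Λ) := by
  have := (hX.mul_right ι).mul_left ι.dag
  rwa [Hom.one_mul, h] at this
theorem IsSub.mono {W V : Set Y} {d : Mor X X} {ι : Mor Λ X} {dΛ : Mor Λ Λ} (h : IsSub W d ι dΛ)
    (hV : V ⊆ W) : IsSub V d ι dΛ := ⟨h.isom, h.tri, h.chain.map (resU hV)⟩
theorem IsSub.sq {W : Set Y} {d : Mor X X} {ι : Mor Λ X} {dΛ : Mor Λ Λ} (h : IsSub W d ι dΛ)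
    (hd : loc W d * loc W d = 0) : loc W dΛ * loc W dΛ = 0 := by
  have h1 : (loc W ι).dag * loc W ι = 1 := by
    rw [← DFun.map_dag, ← DFun.map_mul, h.isom, DFun.map_one]
  have h2 : loc W ι * loc W dΛ = loc W d * loc W ι := h.chain
  calc loc W dΛ * loc W dΛ = (loc W ι).dag * (loc W ι * (loc W dΛ * loc W dΛ)) := by
        rw [Hom.reassoc h1, Hom.one_mul]
    _ = 0 := by rw [Hom.reassoc h2, Hom.assoc, h2, Hom.reassoc hd, Hom.zero_mul, Hom.mul_zero]
theorem IsSub.equiv {W : Set Y} {d : Mor X X} {ι : Mor Λ X} {dΛ : Mor Λ Λ} (h : IsSub W d ι dΛ)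
    (hι : Van W (1 - ι * ι.dag)) : IsEquiv (loc W dΛ) (loc W d) (loc W ι) := by
  refine IsEquiv.of_iso h.chain (k := loc W ι.dag) ?_ ?_
  · rw [← DFun.map_mul, h.isom, DFun.map_one]
  · rw [← DFun.map_mul, ← DFun.map_one (van Γ W).q X]
    exact (loc_eq.2 hι).symm

section inc
variable {α β : Type} [Fintype β] [DecidableEq β] (S : β → Prop) [DecidablePred S]

/-- Inclusion of a coordinate subspace. -/
def ctlInc : Matrix β {b // S b} ℂ := Matrix.of fun b c => if b = c.1 then 1 else 0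

omit [Fintype β] [DecidablePred S] in
theorem ctlInc_apply (b : β) (c : {b // S b}) : ctlInc S b c = if b = c.1 then 1 else 0 := rfl

omit [DecidablePred S] in
theorem ctl_mul_inc (M : Matrix α β ℂ) :
    (M * ctlInc S : Matrix α {b // S b} ℂ) = M.submatrix id Subtype.val := by
  ext a b
  simp [ctlInc_apply, Matrix.mul_apply]
omit [DecidablePred S] in
theorem ctl_incH_mul (M : Matrix β α ℂ) :
    ((ctlInc S)ᴴ * M : Matrix {b // S b} α ℂ) = M.submatrix Subtype.val id := by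
  ext a b
  simp [ctlInc_apply, Matrix.mul_apply, apply_ite (star : ℂ → ℂ)]
theorem ctl_inc_mul (M : Matrix {b // S b} α ℂ) (b : β) (a : α) :
    (ctlInc S * M : Matrix β α ℂ) b a = if h : S b then M ⟨b, h⟩ a else 0 := by
  rw [Matrix.mul_apply]
  split_ifs with h
  · rw [Finset.sum_eq_single ⟨b, h⟩]
    · simp [ctlInc_apply]
    · intro c _ hc
      rw [ctlInc_apply, if_neg fun e => hc (Subtype.ext e.symm), zero_mul]
    · simp
  · refine Finset.sum_eq_zero fun c _ => ?_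
    rw [ctlInc_apply, if_neg fun e : b = c.1 => h (e ▸ c.2), zero_mul]
theorem ctl_stable {M : Matrix β β ℂ} (h : ∀ b' b, M b' b ≠ 0 → S b → S b') :
    (ctlInc S * (M.submatrix Subtype.val Subtype.val : Matrix {b // S b} {b // S b} ℂ) :
      Matrix β {b // S b} ℂ) = M * ctlInc S := by
  ext b c
  rw [ctl_inc_mul, ctl_mul_inc]
  split_ifs with hb
  · rfl
  · by_contra hne
    exact hb (h b c.1 (Ne.symm hne) c.2)
omit [DecidablePred S] in
theorem ctl_conj (M : Matrix β β ℂ) :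
    ((ctlInc S)ᴴ * (M * ctlInc S : Matrix β {b // S b} ℂ) : Matrix {b // S b} {b // S b} ℂ) =
      M.submatrix Subtype.val Subtype.val := by
  rw [ctl_incH_mul, ctl_mul_inc]
  rfl
end inc

omit [MetricSpace Y] in
open Classical in
/-- The sub-object spanned by an invariant set of basis elements. -/
@[reducible] noncomputable def Obj.sub (X : Obj Γ) (S : ∀ i, X.β i → Prop)
    (hS : ∀ i g b' b, X.ρ i g b' b ≠ 0 → S i b → S i b') : Obj Γ where
  β i := {b // S i b}
  fin _ := inferInstance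
  dec _ := inferInstance
  pos i b := X.pos i b.1
  ρ i g := (X.ρ i g).submatrix Subtype.val Subtype.val
  ρ_zero i := by rw [X.ρ_zero]; exact submatrix_one _ Subtype.val_injective
  ρ_add i g g' := by
    rw [X.ρ_add, ← ctl_conj, Matrix.mul_assoc, ← ctl_stable _ (hS i g'), ← Matrix.mul_assoc,
      ← Matrix.mul_assoc, Matrix.mul_assoc _ (X.ρ i g), ctl_conj]
  ρ_star i g := by rw [conjTranspose_submatrix, X.ρ_star]
  ρ_rel i g b' b h := X.ρ_rel i g b'.1 b.1 h

open Classical in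
theorem ctl_sub (X : Obj Γ) (S : ∀ i, X.β i → Prop)
    (hS : ∀ i g b' b, X.ρ i g b' b ≠ 0 → S i b → S i b') :
    ∃ (Λ : Obj Γ) (ι : Mor Λ X), ι.dag * ι = 1 ∧
      (∀ V : Set Y, IsOpen V → (∀ i b, X.pos i b ∈ V → S i b) → Van V (1 - ι * ι.dag)) ∧
      (∀ V : Set Y, IsOpen V → (∀ i b, X.pos i b ∈ V → ¬ S i b) → Van V ι) ∧
      (∀ d : Mor X X, Tri d → Tri (ι.dag * (d * ι))) ∧
      ∀ d : Mor X X, (∀ᶠ i in atTop, ∀ b' b, mat d i b' b ≠ 0 → S i b → S i b') →
        Chain (loc univ (ι.dag * (d * ι))) (loc univ d) (loc univ ι) := by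
  have vo : ∀ {Z Z' : Obj Γ} (f : Mor Z Z') (V : Set Y), IsOpen V →
      (∀ i a b, mat f i a b ≠ 0 → Z.pos i b ∉ V) → Van V f := by
    intro Z Z' f V hV h y hy
    obtain ⟨r, hr, hb⟩ := Metric.isOpen_iff.1 hV y hy
    exact ⟨r, hr, Eventually.of_forall fun i a b hab => not_lt.1 fun hlt => h i a b hab (hb hlt)⟩
  let ι : Mor (X.sub S hS) X := mkMor (fun i => ctlInc (S i))
    (Ctl.of_pos fun i b' b h => by
      by_contra hne
      exact h (if_neg fun e : b' = b.1 => hne (by rw [e])))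
    (fun i g => ctl_stable _ (hS i g))
  have hι : ∀ i, mat ι i = ctlInc (S i) := fun _ => rfl
  refine ⟨X.sub S hS, ι, mor_ext fun i => ?_, fun V hV h => vo _ V hV fun i a b hab hb => hab ?_,
    fun V hV h => vo _ V hV fun i a b _ hb => h i b.1 hb b.2, ?_, fun d hd => ?_⟩
  · rw [mat_mul, mat_dag, hι, ← Matrix.one_mul (ctlInc (S i)), conjTranspose_mul, conjTranspose_one,
      Matrix.mul_one, ctl_conj]
    exact submatrix_one _ Subtype.val_injective
  · have hb' := h i b hb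
    rw [mat_sub, mat_mul, mat_dag, hι, Matrix.sub_apply, ctl_inc_mul, mat_one]
    split_ifs with ha
    · rw [conjTranspose_apply, ctlInc_apply, one_apply]
      by_cases e : a = b
      · simp [e]
      · simp [e, Ne.symm e]
    · rw [one_apply_ne fun e : a = b => ha (e ▸ hb'), sub_zero]
  · rintro d ⟨N, wt, h1, h2, h3⟩
    refine ⟨N, fun i b => wt i b.1, fun i b => h1 i b.1, fun i g b' b hb => h2 i g b'.1 b.1 hb,
      fun i b' b hb => h3 i b'.1 b.1 ?_⟩
    rwa [mat_mul, mat_mul, mat_dag, hι, ctl_conj] at hb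
  · refine (chain_q _).2 (VanR.of_eventually (hd.mono fun i hi => ?_))
    rw [mat_sub, mat_mul, mat_mul, mat_mul, mat_dag, hι, ctl_conj, ctl_stable _ hi, sub_self]
/-- The projection onto the basis elements positioned in an invariant set. -/
theorem exists_proj {u : Y → ℝ} (hu : Continuous u) (hi : Γ.Inv u) (a : ℝ) (X : Obj Γ) :
    ∃ (Λ : Obj Γ) (ι : Mor Λ X), ι.dag * ι = 1 ∧ Van {y | u y < a} (1 - ι * ι.dag) ∧
      Van {y | a < u y} ι ∧ ∀ d : Mor X X, Tri d → Tri (ι.dag * (d * ι)) := by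
  obtain ⟨Λ, ι, h1, h2, h3, h4, -⟩ := ctl_sub X (fun i b => u (X.pos i b) ≤ a) fun i g b' b hb h => by
    rwa [hi i g _ _ (X.ρ_rel i g b' b hb)]
  exact ⟨Λ, ι, h1, h2 _ (isOpen_lt hu continuous_const) fun i b hb => le_of_lt hb,
    h3 _ (isOpen_lt continuous_const hu) fun i b hb => not_le.2 hb, h4⟩

/-- Cutting a triangular complex along an invariant function. -/
theorem exists_cut [CompactSpace Y] {d : Mor X X} (hd : Tri d) {u : Y → ℝ} (hu : Continuous u)
    (hi : Γ.Inv u) {a b : ℝ} (hab : a < b) :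
    ∃ (Λ : Obj Γ) (ι : Mor Λ X) (dΛ : Mor Λ Λ), IsSub univ d ι dΛ ∧
      Van {y | u y < a} (1 - ι * ι.dag) ∧ Van {y | b < u y} ι := by
  obtain ⟨N, wt, w1, w2, w3⟩ := id hd
  set ε := (b - a) / (N + 1) with hε
  have e0 : 0 < ε := div_pos (sub_pos.2 hab) (by positivity)
  have e1 : ε * (N + 1) = b - a := div_mul_cancel₀ _ (by positivity)
  obtain ⟨Λ, ι, h1, h2, h3, h4, h5⟩ := ctl_sub X (fun i c => u (X.pos i c) ≤ a + wt i c * ε)
    fun i g b' c hb h => by rwa [hi i g _ _ (X.ρ_rel i g b' c hb), w2 i g b' c hb]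
  refine ⟨Λ, ι, ι.dag * (d * ι), ⟨h1, h4 d hd, h5 d ?_⟩,
    h2 _ (isOpen_lt hu continuous_const) fun i c hc => ?_,
    h3 _ (isOpen_lt continuous_const hu) fun i c hc => not_le.2 ?_⟩
  · obtain ⟨η, hη, hu'⟩ := Metric.uniformContinuous_iff.1
      (CompactSpace.uniformContinuous_of_continuous hu) ε e0
    refine (mat_ctl d η hη).mono fun i h c' c hc hS => ?_
    have a1 := (abs_lt.1 (hu' (h c' c hc))).2
    have a2 : (wt i c : ℝ) + 1 ≤ wt i c' := by exact_mod_cast w3 i c' c hc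
    nlinarith
  · have : u (X.pos i c) < a := hc
    have : 0 ≤ (wt i c : ℝ) * ε := by positivity
    linarith
  · have : b < u (X.pos i c) := hc
    have : (wt i c : ℝ) ≤ N := by exact_mod_cast w1 i c
    nlinarith

/-- A complex contractible on `u < a` is dominated by a subcomplex vanishing on `u < a'`. -/
theorem exists_dom [CompactSpace Y] {W : Set Y} {d : Mor X X} (hd : Tri d)
    (hsq : loc W d * loc W d = 0) {u : Y → ℝ} (hu : Continuous u) (hi : Γ.Inv u) {a a' : ℝ}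
    (ha : a' < a) (hc : Contr (loc (W ∩ {y | u y < a}) d)) :
    ∃ (D : Obj Γ) (dD : Mor D D) (α : Mor X D) (δ : Mor D X), δ.dag * δ = 1 ∧ Tri dD ∧
      Van {y | u y < a'} (1 : Mor D D) ∧ Dom (loc W d) (loc W dD) (loc W α) (loc W δ) := by
  obtain ⟨G, hG⟩ := (contr_q _).1 hc
  obtain ⟨D, δ, dD, hs, v1, v2⟩ := exists_cut hd hu.neg (u := fun y => -u y)
    (fun i g y y' h => congrArg Neg.neg (hi i g y y' h)) (a := -((a + a') / 2)) (b := -a') (by linarith)
  have hs' := hs.mono (subset_univ W)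
  set e : Mor X X := 1 - (d * G + G * d) with he
  have k1 : loc W δ * loc W (δ.dag * e) = loc W e := by
    rw [← DFun.map_mul, eq_comm, loc_eq]
    have e1 : e - δ * (δ.dag * e) = (1 - δ * δ.dag) * e := by simp
    rw [e1]
    refine Van.of_cover (hG.mul_left _) (v1.mul_right e) fun y hy => ?_
    by_cases h : u y < a
    · exact Or.inl ⟨hy, h⟩
    · refine Or.inr ?_
      show -u y < -((a + a') / 2)
      linarith
  have k2 : (loc W δ).dag * loc W δ = 1 := by
    rw [← DFun.map_dag, ← DFun.map_mul, hs.isom, DFun.map_one]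
  have k3 : loc W δ * loc W dD = loc W d * loc W δ := hs'.chain
  have k4 : loc W e * loc W d = loc W d * loc W e := by
    simp [he, hsq, Hom.reassoc hsq]
  refine ⟨D, dD, δ.dag * e, δ, hs.isom, hs.tri, van_one_of_isom hs.isom (v2.mono fun y hy => ?_),
    hs'.sq hsq, ?_, hs'.chain, -loc W G, ?_⟩
  · exact neg_lt_neg (show u y < a' from hy)
  · show loc W (δ.dag * e) * loc W d = loc W dD * loc W (δ.dag * e)
    calc loc W (δ.dag * e) * loc W d
        = (loc W δ).dag * (loc W δ * (loc W (δ.dag * e) * loc W d)) := by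
          rw [Hom.reassoc k2, Hom.one_mul]
      _ = (loc W δ).dag * (loc W δ * (loc W dD * loc W (δ.dag * e))) := by
          rw [Hom.reassoc k1, Hom.reassoc k3, Hom.assoc, k1, k4]
      _ = _ := by rw [Hom.reassoc k2, Hom.one_mul]
  · rw [k1]
    simp [he]
    abel

theorem sep_triv {W C : Set Y} (hW : IsOpen W) (hC : IsClosed C) (h : C ⊆ W) :
    Sep (triv Y) W C := by
  obtain ⟨f, f0, f1, -⟩ := exists_continuous_zero_one_of_isClosed hC hW.isClosed_compl
    (disjoint_compl_right_iff_subset.2 h)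
  refine ⟨fun y => f y - 1 / 2, by fun_prop, triv_inv _, fun y hy => ?_, fun y hy => ?_⟩
  · have : f y = 1 := f1 hy
    simp only [this]
    norm_num
  · have : f y = 0 := f0 hy
    simp only [this]
    norm_num
theorem Sep.mono {W C C' : Set Y} (h : Sep Γ W C) (hC : C' ⊆ C) : Sep Γ W C' := by
  obtain ⟨w, h1, h2, h3, h4⟩ := h
  exact ⟨w, h1, h2, h3, fun y hy => h4 y (hC hy)⟩

end Vale.Agent.P228
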