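import Vale.Agent.P228.Sig
import Vale.Agent.P228.AlgD

/-! Part Delta: twisting invariance of equivariant signatures. -/

namespace Vale.Agent.P228

open Filter Matrix DagCat Set Topology

variable {Y : Type} [MetricSpace Y] [CompactSpace Y] {Γ : Grp Y} {X X' : Obj Γ}

/-- A local trivialisation of the twist: `θ` is `ζ`-equivariant, and locally constant of modulus
one on the set `ψ < 2`. -/
structure Sheet (Γ : Grp Y) (ζ : ∀ i, AddChar (Γ.G i) ℂ) (ψ : Y → ℝ) (θ : Y → ℂ) : Prop where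
  cont : Continuous ψ
  inv : Γ.Inv ψ
  equi : ∀ i g y y', Γ.rel i g y y' → θ y' = ζ i g * θ y
  const : ∀ y, ψ y < 2 → ∀ᶠ z in 𝓝 y, θ z = θ y
  norm : ∀ y, ψ y < 2 → ‖θ y‖ = 1

theorem exists_theta {ζ : ∀ i, AddChar (Γ.G i) ℂ} {ψ : Y → ℝ} {θ : Y → ℂ} (h : Sheet Γ ζ ψ θ)
    (X : Obj Γ) : ∃ t : Mor X (X.twist ζ), Van {y | ψ y < 2} (t.dag * t - 1) ∧
      Van {y | ψ y < 2} (t * t.dag - 1) ∧
      ∀ f : Mor X X, Van {y | ψ y < 2} (t * f - tw ζ f * t) := by
  let t : Mor X (X.twist ζ) := mkMor (fun i => Matrix.diagonal fun b => θ (X.pos i b))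
    (Ctl.of_pos fun i b' b hb => by
      by_contra hne
      exact hb (Matrix.diagonal_apply_ne _ fun e => hne (by rw [e])))
    (fun i g => by
      ext b' b
      change (Matrix.diagonal (fun b => θ (X.pos i b)) * X.ρ i g) b' b
        = ((ζ i g • X.ρ i g) * Matrix.diagonal fun b => θ (X.pos i b)) b' b
      rw [Matrix.diagonal_mul, Matrix.mul_diagonal, Matrix.smul_apply, smul_eq_mul]
      by_cases hρ : X.ρ i g b' b = 0
      · simp [hρ]
      · rw [h.equi i g _ _ (X.ρ_rel i g b' b hρ)]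
        ring)
  have ht : ∀ i, mat t i = Matrix.diagonal fun b => θ (X.pos i b) := fun _ => rfl
  have hball : ∀ y, ψ y < 2 → ∃ r > 0, ∀ z, dist z y < r → θ z = θ y := fun y hy =>
    Metric.eventually_nhds_iff.mp (h.const y hy)
  have hn : ∀ y, ψ y < 2 → star (θ y) * θ y = 1 := fun y hy => by
    have := Complex.conj_mul' (θ y)
    rw [h.norm y hy] at this
    simpa using this
  refine ⟨t, fun y hy => ?_, fun y hy => ?_, fun f y hy => ?_⟩
  · obtain ⟨r, hr, hz⟩ := hball y hy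
    refine ⟨r, hr, Eventually.of_forall fun i a b hb => ?_⟩
    by_contra hlt
    apply hb
    change ((Matrix.diagonal fun b => θ (X.pos i b))ᴴ * (Matrix.diagonal fun b => θ (X.pos i b))
      - 1) a b = 0
    rw [Matrix.sub_apply, Matrix.mul_diagonal, Matrix.diagonal_conjTranspose]
    by_cases hab : a = b
    · subst hab
      rw [Matrix.diagonal_apply_eq, Matrix.one_apply_eq, Pi.star_apply, hz _ (not_le.mp hlt),
        hn y hy, sub_self]
    · rw [Matrix.diagonal_apply_ne _ hab, Matrix.one_apply_ne hab, zero_mul, sub_self]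
  · obtain ⟨r, hr, hz⟩ := hball y hy
    refine ⟨r, hr, Eventually.of_forall fun i a b hb => ?_⟩
    by_contra hlt
    apply hb
    change ((Matrix.diagonal fun b => θ (X.pos i b)) * (Matrix.diagonal fun b => θ (X.pos i b))ᴴ
      - 1) a b = 0
    rw [Matrix.sub_apply, Matrix.diagonal_mul, Matrix.diagonal_conjTranspose]
    by_cases hab : a = b
    · subst hab
      rw [Matrix.diagonal_apply_eq, Matrix.one_apply_eq, Pi.star_apply, hz _ (not_le.mp hlt),
        mul_comm, hn y hy, sub_self]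
    · rw [Matrix.diagonal_apply_ne _ hab, Matrix.one_apply_ne hab, mul_zero, sub_self]
  · obtain ⟨r, hr, hz⟩ := hball y hy
    refine ⟨r / 2, half_pos hr, (mat_ctl f _ (half_pos hr)).mono fun i hi a b hb => ?_⟩
    by_contra hlt
    apply hb
    change ((Matrix.diagonal fun b => θ (X.pos i b)) * mat f i
      - mat f i * (Matrix.diagonal fun b => θ (X.pos i b))) a b = 0
    rw [Matrix.sub_apply, Matrix.diagonal_mul, Matrix.mul_diagonal]
    by_cases hf : mat f i a b = 0
    · simp [hf]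
    · have h1 := hi a b hf
      have h2 := not_le.mp hlt
      rw [hz (X.pos i b) (by linarith),
        hz (X.pos i a) (by linarith [dist_triangle (X.pos i a) (X.pos i b) y]), mul_comm, sub_self]

theorem Delta_lag {L : Obj Γ} {d B : Mor X X} {dL : Mor L L} {l : (van Γ univ).quot.Hom L X}
    {k : (van Γ univ).quot.Hom L L} (hs : IsSym (loc univ d) (loc univ B))
    (hL : Lag (loc univ d) (loc univ B) (loc univ dL) l k) :
    ∀ᶠ i in atTop, ∀ χ, esig d B i χ = 0 := by
  obtain ⟨l, rfl⟩ := (van Γ univ).q_surj l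
  obtain ⟨k, rfl⟩ := (van Γ univ).q_surj k
  exact esig_lag hs hL

omit [CompactSpace Y] in
theorem Delta_sum {U : Set Y} (h : Van U (1 : Mor X X)) (h' : Van U (1 : Mor X' X')) :
    Van U (1 : Mor (X + X') (X + X')) := DagCat.Ideal.mem_one_sum.mpr ⟨h, h'⟩

/-- One surgery step: the difference of signatures is realised (twice) by a complex vanishing on
one more sheet. -/
theorem delta_step {ζ : ∀ i, AddChar (Γ.G i) ℂ} {ψ : Y → ℝ} {θ : Y → ℂ} (h : Sheet Γ ζ ψ θ)
    {d B : Mor X X} (hd : Tri d) (hP : Poinc (loc univ d) (loc univ B)) {V : Set Y}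
    (hV : Van V (1 : Mor X X)) :
    ∃ (Z : Obj Γ) (dZ BZ : Mor Z Z), Tri dZ ∧ Poinc (loc univ dZ) (loc univ BZ) ∧
      Van (V ∪ {y | ψ y < -1}) (1 : Mor Z Z) ∧ ∀ᶠ i in atTop, ∀ χ,
        esig dZ BZ i (χ * ζ i) = 2 * (esig d B i (χ * ζ i) - esig d B i χ) := by
  obtain ⟨t, t1, t2, t3⟩ := exists_theta h X
  obtain ⟨Λ, ι, dΛ, h1, h2, h3⟩ := exists_cut hd h.cont h.inv (a := 0) (b := 1) one_pos
  have hcov : ∀ {Z : Obj Γ} {f : Mor X Z}, Van {y | ψ y < 2} f →
      ∀ g : Mor X X, loc univ f * (loc univ g * loc univ ι) = 0 := fun {Z f} hf g => by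
    have v : Van univ (f * (g * ι)) :=
      Van.of_cover (hf.mul_right _) ((h3.mul_left g).mul_left f) fun y _ => by
        by_cases hy : ψ y < 2
        · exact Or.inl hy
        · refine Or.inr ?_
          change 1 < ψ y
          linarith
    have := (van Γ univ).q_eq_zero.mpr v
    simpa using this
  have hP0 : Poinc (loc univ (dsum d (tw ζ d))) (loc univ (dsum B (-tw ζ B))) := by
    have := hP.oplus (poinc_tw ζ hP).neg
    simpa using this
  have hT0 : Tri (dsum d (tw ζ d)) := hd.oplus (hd.tw ζ)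
  have hI : Isot (loc univ (dsum d (tw ζ d))) (loc univ (dsum B (-tw ζ B))) (loc univ dΛ)
      (loc univ (col ι (t * ι))) (loc univ (0 : Mor Λ Λ)) := by
    have a1 : loc univ ι * loc univ dΛ = loc univ d * loc univ ι := h1.chain
    have a2 := hcov (t3 d) 1
    have a3 := hcov (t3 B) 1
    have a4 := hcov t1 B
    simp only [DFun.map_sub, DFun.map_mul, DFun.map_one, DFun.map_dag, Hom.one_mul, Hom.sub_mul,
      Hom.assoc, sub_eq_zero] at a2 a3 a4
    refine ⟨h1.sq hP.sq, by simp, ?_, ?_⟩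
    · simp [Chain, dsum, a1, a2]
    · simp [dsum, ← a3, a4]
  have hPS : Poinc (loc univ (surgD (dsum d (tw ζ d)) (dsum B (-tw ζ B)) dΛ (col ι (t * ι)) 0))
      (loc univ (surgB Λ (dsum B (-tw ζ B)))) := by
    have := poinc_surg hP0 hI
    simpa using this
  have hc : Contr (loc (univ ∩ {y | ψ y < 0})
      (surgD (dsum d (tw ζ d)) (dsum B (-tw ζ B)) dΛ (col ι (t * ι)) 0)) := by
    have hsub : univ ∩ {y | ψ y < 0} ⊆ {y | ψ y < 2} := fun y hy => by
      have := hy.2
      change ψ y < _ at this ⊢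
      linarith
    have hP1 : Poinc (loc (univ ∩ {y | ψ y < 0}) d) (loc (univ ∩ {y | ψ y < 0}) B) :=
      hP.map (resU inter_subset_left)
    have hP01 : Poinc (loc (univ ∩ {y | ψ y < 0}) (dsum d (tw ζ d)))
        (loc (univ ∩ {y | ψ y < 0}) (dsum B (-tw ζ B))) := hP0.map (resU inter_subset_left)
    have b1 := loc_eq.mpr (t1.mono hsub)
    have b2 := loc_eq.mpr (t2.mono hsub)
    have b3 := loc_eq.mpr ((t3 d).mono hsub)
    have b4 := loc_eq.mpr ((t3 B).mono hsub)
    simp only [DFun.map_mul, DFun.map_one, DFun.map_dag] at b1 b2 b3 b4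
    have hg := lag_graph hP1.toIsSym (poinc_tw ζ hP1) (v := loc (univ ∩ {y | ψ y < 0}) t)
      (IsEquiv.of_iso b3 b1 b2) (k := 0) (by simp) (by simp [← b4, Hom.reassoc b1])
    have hs1 := h1.mono (inter_subset_left (t := {y | ψ y < 0}))
    have := contr_surg (by simpa using hP01.toIsSym) (Lag.of_equiv (by simpa using hP01.toIsSym) hg
      (hs1.sq hP1.sq) (hs1.equiv (h2.mono inter_subset_right)))
    simpa using this
  obtain ⟨D, dD, α, δ, g1, g2, g3, g4⟩ := exists_dom (hT0.surgD _ h1.tri _ _) hPS.sq h.cont h.inv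
    (a' := -1) (by norm_num) hc
  obtain ⟨β, β', hβ⟩ := Dom.dbl hPS g4
  obtain ⟨β, rfl⟩ := (van Γ univ).q_surj β
  obtain ⟨β', rfl⟩ := (van Γ univ).q_surj β'
  have hPZ : Poinc (loc univ (dblD dD)) (loc univ (dblB β β')) := by
    have := Dbl.poinc hPS hβ
    simpa using this
  have hD : Van (V ∪ {y | ψ y < -1}) (1 : Mor D D) := by
    have a1 := van_one_sub h1.isom hV
    have a2 : Van V (1 : Mor (X.twist ζ) (X.twist ζ)) := (van_tw ζ).mpr hV
    exact (van_one_sub g1 (Delta_sum a1 (Delta_sum (Delta_sum hV a2) a1))).union g3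
  refine ⟨D + D, dblD dD, dblB β β', g2.dblD, hPZ, Delta_sum hD hD, ?_⟩
  set dS := surgD (dsum d (tw ζ d)) (dsum B (-tw ζ B)) dΛ (col ι (t * ι)) 0 with hdS
  set BS := surgB Λ (dsum B (-tw ζ B)) with hBS
  have s1 : ∀ᶠ i in atTop, ∀ χ,
      esig (dsum (dsum d (tw ζ d)) dS) (dsum (dsum B (-tw ζ B)) (-BS)) i χ = 0 := by
    refine Delta_lag (dL := fibD (dsum d (tw ζ d)) (dsum B (-tw ζ B)) dΛ (col ι (t * ι)))
      (l := col (row 1 0) (col 0 1)) (k := 0) ?_ ?_
    · have := (hP0.oplus hPS.neg).toIsSym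
      simpa only [DFun.map_dsum, DFun.map_neg] using this
    · have := lag_trace hP0 hI
      simpa only [hdS, hBS, DFun.map_dsum, DFun.map_neg, DFun.map_surgD, DFun.map_surgB,
        DFun.map_fibD] using this
  have s2 : ∀ᶠ i in atTop, ∀ χ,
      esig (dsum (dblD dD) (dsum dS dS)) (dsum (dblB β β') (-dsum BS BS)) i χ = 0 := by
    obtain ⟨l, k, hk⟩ := Dbl.lag_two hPS hβ
    refine Delta_lag (dL := dsum (dsum dS dS) (tri dD δ (-dS))) (l := l) (k := k) ?_ ?_
    · have := (hPZ.oplus (hPS.oplus hPS).neg).toIsSym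
      simpa only [DFun.map_dsum, DFun.map_neg] using this
    · simpa only [DFun.map_dsum, DFun.map_neg, DFun.map_tri, DFun.map_dblD, DFun.map_dblB] using hk
  filter_upwards [s1, s2] with i a b χ
  have a' := a (χ * ζ i)
  have b' := b (χ * ζ i)
  simp only [esig_dsum, esig_neg, esig_tw] at a' b'
  linarith

theorem delta_aux {A : Type} [CommGroup A] [Finite A] (ζ : A) (s t : A → ℤ)
    (h : ∀ χ, t (χ * ζ) = 2 * (s (χ * ζ) - s χ)) (ht : ∀ χ, t (χ * ζ) = t χ) :
    ∀ χ, s (χ * ζ) = s χ := by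
  intro χ
  have h1 : ∀ n : ℕ, t (χ * ζ ^ n) = t χ := fun n => by
    induction n with
    | zero => simp
    | succ n ih => rw [pow_succ, ← mul_assoc, ht, ih]
  have h2 : ∀ n : ℕ, s (χ * ζ ^ n) = s χ + n * (s (χ * ζ) - s χ) := fun n => by
    induction n with
    | zero => simp
    | succ n ih =>
      have a1 := h (χ * ζ ^ n)
      have a2 := h χ
      rw [ht, h1 n] at a1
      rw [ht] at a2
      rw [pow_succ, ← mul_assoc]
      push_cast
      linarith
  have h3 := h2 (orderOf ζ)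
  rw [pow_orderOf_eq_one, mul_one] at h3
  have h4 : (orderOf ζ : ℤ) ≠ 0 := by exact_mod_cast (orderOf_pos ζ).ne'
  have h5 : (orderOf ζ : ℤ) * (s (χ * ζ) - s χ) = 0 := by linarith
  exact sub_eq_zero.mp ((mul_eq_zero.mp h5).resolve_left h4)

theorem order_dvd_sum {A : Type} [CommGroup A] [Fintype A] (ζ : A) (s : A → ℤ)
    (h : ∀ χ, s (χ * ζ) = s χ) : (orderOf ζ : ℤ) ∣ ∑ χ, s χ := by
  classical
  have h1 : ∀ (n : ℕ) χ, s (χ * ζ ^ n) = s χ := fun n χ => by
    induction n with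
    | zero => simp
    | succ n ih => rw [pow_succ, ← mul_assoc, h, ih]
  have h2 : ∀ (x : Subgroup.zpowers ζ) χ, s (χ * x) = s χ := fun x χ => by
    obtain ⟨n, hn⟩ := mem_powers_iff_mem_zpowers.mpr x.2
    rw [← hn]
    exact h1 n χ
  have hb : Function.Bijective
      fun p : (A ⧸ Subgroup.zpowers ζ) × Subgroup.zpowers ζ => p.1.out * (p.2 : A) := by
    constructor
    · rintro ⟨q, x⟩ ⟨q', x'⟩ e
      simp only at e
      have e1 := congrArg (QuotientGroup.mk (s := Subgroup.zpowers ζ)) e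
      rw [QuotientGroup.mk_mul_of_mem _ x.2, QuotientGroup.mk_mul_of_mem _ x'.2,
        QuotientGroup.out_eq', QuotientGroup.out_eq'] at e1
      subst e1
      rw [Subtype.ext (mul_left_cancel e)]
    · intro χ
      obtain ⟨x, hx⟩ := QuotientGroup.mk_out_eq_mul (Subgroup.zpowers ζ) χ
      exact ⟨(QuotientGroup.mk χ, x⁻¹), by simp [hx]⟩
  rw [← hb.sum_comp s, Fintype.sum_prod_type]
  refine Finset.dvd_sum fun q _ => ?_
  simp only [h2, Finset.sum_const, Finset.card_univ, Fintype.card_zpowers, nsmul_eq_mul]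
  exact dvd_mul_right _ _

/-- Twisting invariance. -/
theorem esig_twist_inv {ζ : ∀ i, AddChar (Γ.G i) ℂ} (sh : List ((Y → ℝ) × (Y → ℂ)))
    (hsh : ∀ p ∈ sh, Sheet Γ ζ p.1 p.2) {d B : Mor X X} (hd : Tri d)
    (hP : Poinc (loc univ d) (loc univ B)) {V : Set Y} (hV : Van V (1 : Mor X X))
    (hcov : ∀ y, y ∉ V → ∃ p ∈ sh, p.1 y < -1) :
    ∀ᶠ i in atTop, ∀ χ, esig d B i (χ * ζ i) = esig d B i χ := by
  induction sh generalizing X V with
  | nil =>
    have hu : Van univ (1 : Mor X X) := hV.mono fun y _ => by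
      by_contra hy
      obtain ⟨p, hp, -⟩ := hcov y hy
      exact absurd hp List.not_mem_nil
    refine (VanR.eventually_zero hu).mono fun i hi χ => ?_
    rw [esig_of_one_eq_zero d B hi, esig_of_one_eq_zero d B hi]
  | cons p sh ih =>
    obtain ⟨Z, dZ, BZ, h1, h2, h3, h4⟩ := delta_step (hsh p List.mem_cons_self) hd hP hV
    have := ih (fun q hq => hsh q (List.mem_cons_of_mem _ hq)) h1 h2 h3 fun y hy => by
      simp only [mem_union, mem_setOf_eq, not_or] at hy
      obtain ⟨q, hq, hq'⟩ := hcov y hy.1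
      rcases List.mem_cons.mp hq with rfl | hq
      · exact absurd hq' hy.2
      · exact ⟨q, hq, hq'⟩
    filter_upwards [h4, this] with i a b
    exact delta_aux (ζ i) (esig d B i) (esig dZ BZ i) a b

theorem order_dvd_esig {ζ : ∀ i, AddChar (Γ.G i) ℂ} (sh : List ((Y → ℝ) × (Y → ℂ)))
    (hsh : ∀ p ∈ sh, Sheet Γ ζ p.1 p.2) {d B : Mor X X} (hd : Tri d)
    (hP : Poinc (loc univ d) (loc univ B)) {V : Set Y} (hV : Van V (1 : Mor X X))
    (hcov : ∀ y, y ∉ V → ∃ p ∈ sh, p.1 y < -1) :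
    ∀ᶠ i in atTop, (orderOf (ζ i) : ℤ) ∣ ∑ χ, esig d B i χ :=
  (esig_twist_inv sh hsh hd hP hV hcov).mono fun i hi => order_dvd_sum (ζ i) _ hi

end Vale.Agent.P228
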