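import Vale.Agent.P228.Orient
import Vale.Agent.P228.AlgD

/-! Part Equiv: the equivariant double of the grid. -/

namespace Vale.Agent.P228

open Filter Matrix DagCat Set

namespace EquivAux

section sim

variable {Y : Type} [MetricSpace Y] {Γ : Grp Y} {U : Set Y} {X X' : Obj Γ} {A A' : ℕ → Type}
  {e e' e'' : ∀ i, Matrix (A i) (X.β i) ℂ}

/-- Rows that agree over `U`. -/
def Sim (U : Set Y) (X : Obj Γ) {A : ℕ → Type} (e e' : ∀ i, Matrix (A i) (X.β i) ℂ) : Prop :=
  VanR U X fun i => e i - e' i

theorem Sim.of_eq (h : ∀ i, e i = e' i) : Sim U X e e' :=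
  VanR.of_eventually (Eventually.of_forall fun i => sub_eq_zero.2 (h i))

theorem Sim.trans (h : Sim U X e e') (h' : Sim U X e' e'') : Sim U X e e'' :=
  (VanR.add h h').congr (Eventually.of_forall fun _ => sub_add_sub_cancel _ _ _)

theorem Sim.symm (h : Sim U X e e') : Sim U X e' e :=
  (VanR.neg h).congr (Eventually.of_forall fun _ => neg_sub _ _)

theorem Sim.left [∀ i, Fintype (A i)] (h : Sim U X e e') (k : ∀ i, Matrix (A' i) (A i) ℂ) :
    Sim U X (fun i => k i * e i) (fun i => k i * e' i) :=
  (VanR.mul_left h k).congr (Eventually.of_forall fun _ => Matrix.mul_sub _ _ _)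

theorem Sim.right (h : Sim U X e e') (f : Mor X' X) :
    Sim U X' (fun i => e i * mat f i) (fun i => e' i * mat f i) :=
  (VanR.mul_ctl h (mat_ctl f)).congr (Eventually.of_forall fun _ => Matrix.sub_mul _ _ _)

theorem Sim.smul (h : Sim U X e e') (c : ℕ → ℂ) :
    Sim U X (fun i => c i • e i) (fun i => c i • e' i) :=
  (VanR.smul h c).congr (Eventually.of_forall fun _ => smul_sub _ _ _)

theorem Sim.congr {f f' : ∀ i, Matrix (A i) (X.β i) ℂ} (h : Sim U X e e') (h1 : ∀ i, f i = e i)
    (h2 : ∀ i, e' i = f' i) : Sim U X f f' := ((Sim.of_eq h1).trans h).trans (Sim.of_eq h2)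

theorem chain_fgt {d : Mor X X} {d' : Mor X' X'} {f : Mor X X'}
    (h : Chain (loc U d) (loc U d') (loc U f)) :
    Chain (loc U (fgt d)) (loc U (fgt d')) (loc U (fgt f)) := 
  (chain_q _).2 ((chain_q (van Γ U)).1 h)

end sim

variable (p : ℕ) [Fact p.Prime] (a : ℕ) {Y : Type} [MetricSpace Y] [CompactSpace Y]
  [AddAction ℤ_[p] Y] [ContinuousVAdd ℤ_[p] Y] {U : Set Y} {X : Obj (triv Y)}

/-- The constant column. -/
def ones (i : ℕ) : Matrix (ZMod (p ^ (a + i))) Unit ℂ := Matrix.of fun _ _ => 1

/-- The column of the neutral element. -/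
def del (i : ℕ) : Matrix (ZMod (p ^ (a + i))) Unit ℂ := Matrix.of fun g _ => if g = 0 then 1 else 0

/-- The inverse of the order of the group. -/
noncomputable def nrm (i : ℕ) : ℂ := 1 / (Fintype.card (ZMod (p ^ (a + i))) : ℂ)

theorem nrm_mul (i : ℕ) : nrm p a i * (Fintype.card (ZMod (p ^ (a + i))) : ℂ) = 1 :=
  one_div_mul_cancel (Nat.cast_ne_zero.2 Fintype.card_ne_zero)

theorem sim_ind (hU : InvSet p U) {e e' : ∀ i, Matrix Unit (X.β i) ℂ} (h : Sim U X e e') :
    Sim U (ind p a X).forget (indRow p a e) (indRow p a e') :=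
  (vanR_indRow p a hU h).congr (Eventually.of_forall fun i => by
    ext g b
    by_cases hb : b.1 = g <;> simp [indRow, hb])

theorem av_inv (hU : InvSet p U) {e e' : ∀ i, Matrix Unit (X.β i) ℂ} {κ : ℕ → ℂ}
    {f : Mor (ind p a X).forget (ind p a X).forget}
    (h : Sim U (ind p a X).forget (fun i => indRow p a e i * mat f i)
      (fun i => κ i • (ones p a i * sumRow p a e' i))) :
    VanR U (ind p a X).forget (fun i => indRow p a e i * mat (fgt (avM p a f) - f) i) := by
  have h1 : Sim U (ind p a X).forget _ _ := vanR_av p a hU (indRow_rho p a e) h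
  refine VanR.congr (h1.trans ((Sim.of_eq fun i => ?_).trans h.symm))
    (Eventually.of_forall fun i => (Matrix.mul_sub _ _ _).symm)
  ext g b
  simp [ones, Matrix.mul_apply, sumRow, ← mul_assoc, (Fact.out : p.Prime).ne_zero]

theorem av_del (hU : InvSet p U) {e e' : ∀ i, Matrix Unit (X.β i) ℂ}
    {c : Mor (ind p a X).forget X}
    (h : Sim U (ind p a X).forget (fun i => e i * mat c i) (sumRow p a e')) :
    Sim U X (fun i => indRow p a e i * mat (fgt (avM p a (jM p a X * c)) * jM p a X) i)
      (fun i => nrm p a i • (ones p a i * e' i)) := by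
  have h1 : Sim U (ind p a X).forget _ _ := vanR_av p a hU (indRow_rho p a e) (f := jM p a X * c)
    ((h.left (del p a)).congr (fun i => by
      rw [mat_mul, ← Matrix.mul_assoc, ← Matrix.mul_assoc, indRow_j]
      congr 1
      ext g b
      simp [del, Matrix.mul_apply]) fun _ => rfl)
  refine (h1.right (jM p a X)).congr (fun i => (Matrix.mul_assoc _ _ _).symm) fun i => ?_
  rw [← sumRow_j p a e', ← Matrix.mul_assoc, ← Matrix.smul_mul]
  congr 1
  ext g b
  simp [ones, del, nrm, Matrix.mul_apply, sub_eq_zero, sumRow]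

theorem av_dag (hU : InvSet p U) {e : ∀ i, Matrix Unit (X.β i) ℂ} {c : Mor (ind p a X).forget X}
    (h : Sim U X (fun i => indRow p a e i * (mat c i)ᴴ) (fun i => ones p a i * e i)) :
    Sim U (ind p a X).forget (fun i => e i * mat (fgt (avM p a (jM p a X * c)) * jM p a X).dag i)
      (fun i => nrm p a i • sumRow p a e i) := by
  have e0 : ∀ i, e i * (mat (jM p a X) i)ᴴ = (del p a i)ᴴ * indRow p a e i := fun i => by
    ext x ⟨g, b⟩
    by_cases hg : g = 0 <;> simp [Matrix.mul_apply, jM, jFam, del, indRow, hg, eq_comm]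
  have h1 : Sim U (ind p a X).forget _ _ := vanR_av p a hU (indRow_rho p a e)
    (f := (jM p a X * c).dag) ((h.right (jM p a X).dag).congr (fun i => by
      simp [Matrix.mul_assoc]) fun _ => rfl)
  refine (h1.left fun i => (del p a i)ᴴ).congr (fun i => ?_) fun i => ?_
  · rw [avM_dag, ← Matrix.mul_assoc, ← e0]
    simp [Matrix.mul_assoc]
  · ext x b
    have : ∀ g g', (ones p a i * e i * mat (jM p a X).dag i * (ind p a X).ρ i (-g)) g' b =
        indRow p a e i g b := fun g g' => by
      rw [mat_dag, Matrix.mul_assoc (ones p a i), e0, Matrix.mul_assoc, Matrix.mul_assoc,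
        Matrix.mul_apply, Fintype.sum_unique, Matrix.mul_apply]
      simp only [indRow_rho p a e i (-g)]
      simp [ones, del]
    rw [Matrix.mul_apply]
    simp only [Matrix.of_apply, this]
    simp [del, nrm, indRow, sumRow]

end EquivAux

open EquivAux

variable (p : ℕ) [Fact p.Prime] (a : ℕ) {n : ℕ} (K : Set (Fin n → ℝ)) [CompactSpace K]
  [AddAction ℤ_[p] K] [ContinuousVAdd ℤ_[p] K]

theorem exists_equivariant (y : Fin n → ℝ) {W1 W : Set K} (h : Oriented p K W1 W) (hW : IsOpen W)
    (hi : InvSet p W) :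
    ∃ (D : Obj (grpP p a K)) (dD β β' : Mor D D) (δ : Mor D.forget (grid K y 0)), Tri dD ∧
      Dbl (loc W (dG K y 0)) (loc W (bG K y)) (loc W (fgt dD)) (loc W δ) (loc W (fgt β))
        (loc W (fgt β')) ∧ Poinc (loc W (dblD dD)) (loc W (dblB β β')) := by
  obtain ⟨c, hc, he, hdeg⟩ := exists_approx p a K y h.1 h.2.1 h.2.2.1
  have ho : Sim W (grid K y 0) (fun i => indRow p a (muG K y 0) i * (mat c i)ᴴ)
      (fun i => ones p a i * muG K y 0 i) := Sim.congr (orient p a K y h hc he hdeg) (fun _ => rfl)
    fun i => by ext g b; simp [ones, Matrix.mul_apply]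
  have hW1 : W ⊆ W1 := fun x hx => by
    obtain ⟨-, -, -, xc, x1, R, R1, hB, -, -, -, hV⟩ := h
    obtain ⟨z, hz, e⟩ := hB _ (hV x hx)
    exact Subtype.ext e ▸ hz
  have hK : W ⊆ intK K := hW1.trans h.2.2.1
  replace hc : Chain (loc W (fgt (indM p a (dG K y 0)))) (loc W (dG K y 0)) (loc W c) :=
    hc.map (resU hW1)
  replace he : Sim W _ (fun i => epsG K y 0 i * mat c i) (sumRow p a (epsG K y 0)) := he.mono hW1
  have hP : Poinc (loc W (dG K y 0)) (loc W (bG K y)) := (poinc_bG K y).map (resU hK)
  have hB : Chain (loc W (dG K y 0)).dag (loc W (dG K y 0)) (loc W (bG K y)) := by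
    simpa using (bG_chain' K y).map (resU hK)
  have hT : Tri (indM p a (dG K y 0)) := tri_indM p a (tri_dG K y 0)
  have hA := acyc_ind p a hi ((acyc_grid K y 0).mono hK)
  have hsq : loc W (fgt (indM p a (dG K y 0))) * loc W (fgt (indM p a (dG K y 0))) = 0 := by
    rw [← DFun.map_mul]
    refine (van _ _).q_eq_zero.2 ?_
    have := van_indM p a hi ((OrientAux.van_sq K y).mono hK)
    rwa [indM_mul] at this
  have hj : Chain (loc W (dG K y 0)) (loc W (fgt (indM p a (dG K y 0))))
      (loc W (jM p a (grid K y 0))) := by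
    rw [Chain, ← DFun.map_mul, ← DFun.map_mul, jM_comm]
  obtain ⟨α, hα⟩ : ∃ α, α = fgt (avM p a (jM p a _ * c)) * jM p a (grid K y 0) := ⟨_, rfl⟩
  have a1 := av_del p a hi he
  have a2 := av_dag p a hi ho
  rw [← hα] at a1 a2
  have cα : Chain (loc W (dG K y 0)) (loc W (fgt (indM p a (dG K y 0)))) (loc W α) := by
    rw [hα]
    exact (chain_fgt (chain_avM p a hi (hj.mul hc))).mul hj
  have c1 : Chain (loc W (fgt (indM p a (dG K y 0)))) (loc W (fgt (indM p a (dG K y 0)).dag))
      (loc W (c.dag * (bG K y * c))) := hc.dag.mul (hP.chain.mul hc)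
  have c2 : Chain (loc W (fgt (indM p a (dG K y 0)).dag)) (loc W (fgt (indM p a (dG K y 0))))
      (loc W (α * (bG K y * α.dag))) := cα.mul (hB.mul cα.dag)
  have c3 := chain_fgt (chain_avM p a hi c1)
  have c4 := chain_fgt (chain_avM p a hi c2)
  have t1 : Chain (loc W (fgt (indM p a (dG K y 0)))) (loc W (fgt (indM p a (dG K y 0)).dag))
      (loc W (fgt (indM p a (tG K y 0)))) := chain_fgt ((chain_q _).2 (by
    have := van_indM p a hi (Van.mono ((chain_q _).1 (tG_chain K y 0)) hK)
    rwa [indM_sub, indM_mul, indM_mul, indM_dag] at this))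
  have t2 : Chain (loc W (fgt (indM p a (dG K y 0)).dag)) (loc W (fgt (indM p a (dG K y 0))))
      (loc W (fgt (indM p a (tG K y 0).dag))) := chain_fgt ((chain_q _).2 (by
    have := van_indM p a hi (Van.mono ((chain_q (d := (dG K y 0).dag) _).1 (tG_dag_chain K y 0)) hK)
    rwa [indM_sub, indM_mul, indM_mul, indM_dag p a (dG K y 0)] at this))
  have t3 : loc W (fgt (indM p a (tG K y 0))) * loc W (fgt (indM p a (tG K y 0).dag)) = 1 := by
    have := van_indM p a hi ((tG_mul_dag K y 0).mono hK)
    rw [indM_sub, indM_mul, indM_one] at this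
    exact (loc_eq (g := 1)).2 this
  have hD : Dbl (loc W (dG K y 0)) (loc W (bG K y)) (loc W (fgt (indM p a (dG K y 0)))) (loc W c)
      (loc W (fgt (avM p a (c.dag * (bG K y * c))))) (loc W (fgt (avM p a (α * (bG K y * α.dag))))) := by
    refine ⟨?_, ?_, c3, c4, loc W α, loc W (bG K y), ⟨hsq, cα, hc, ?_⟩, hB,
      by simpa using (bG_sq K y).map (resU hK), ?_, ?_⟩
    · change loc W (fgt (avM p a _).dag) = _
      rw [← avM_dag]
      simp [bG_herm]
    · change loc W (fgt (avM p a _).dag) = _
      rw [← avM_dag]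
      simp [bG_herm]
    · refine ac_null' (f := c * α - 1) hW (tri_dG K y 0) hP.sq ((acyc_grid K y 0).mono hK)
        ((hc.mul cα).sub Chain.one) (VanR.congr ((he.right α).trans
          ((a1.left fun i => (ones p a i)ᴴ).congr (f' := epsG K y 0) (fun i => ?_) fun i => ?_))
          (Eventually.of_forall fun i => by simp [Matrix.mul_sub, Matrix.mul_assoc]))
      · rw [← Matrix.mul_assoc]
        congr 1
        ext x b
        simp [ones, Matrix.mul_apply, sumRow, indRow]
      · ext x b
        have := nrm_mul p a i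
        simp only [ones, Matrix.mul_apply, Matrix.smul_apply, conjTranspose_apply, of_apply,
          star_one, one_mul, Fintype.sum_unique, Finset.sum_const, Finset.card_univ, nsmul_eq_mul,
          smul_eq_mul, ← mul_assoc]
        rw [mul_comm _ (nrm p a i), this, one_mul]
    · have k := av_inv p a hi (e := muG K y 0) (e' := epsG K y 0) (κ := fun _ => omega n)
        (f := c.dag * (bG K y * c)) (((ho.right (bG K y * c)).trans
          ((((Sim.right (VanR.mono (mu_bG K y) hK) c).trans ((he.smul fun _ => omega n).congr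
            (fun i => Matrix.smul_mul _ _ _) fun _ => rfl)).left (ones p a)).congr
            (fun i => by simp [Matrix.mul_assoc]) fun i => Matrix.mul_smul _ _ _)).congr
          (fun i => by simp [Matrix.mul_assoc]) fun _ => rfl)
      have k2 := (ac_null' (f := fgt (indM p a (tG K y 0).dag) *
        (fgt (avM p a (c.dag * (bG K y * c))) - c.dag * (bG K y * c))) hW hT.fgt hsq hA
        (t2.mul (c3.sub c1)) (((Sim.right (sim_ind p a hi (VanR.mono (eps_tG_dag K y 0) hK))
          (fgt (avM p a (c.dag * (bG K y * c))) - c.dag * (bG K y * c))).add k).congr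
          (Eventually.of_forall fun i => by
            rw [sub_add_cancel, mat_mul, ← Matrix.mul_assoc, mat_fgt, indRow_mul]
            rfl))).mul_left t1
      rw [show ∀ u v : Mor (ind p a (grid K y 0)).forget (ind p a (grid K y 0)).forget,
        loc W (u * v) = loc W u * loc W v from fun _ _ => rfl, ← Hom.assoc, t3, Hom.one_mul] at k2
      exact k2
    · exact ac_null' (f := fgt (avM p a (α * (bG K y * α.dag))) - α * (bG K y * α.dag)) hW
        hT.fgt.dag (sq_dag hsq) hA (c4.sub c2) (av_inv p a hi (e' := muG K y 0)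
          (κ := fun i => nrm p a i * (starRingEnd ℂ (omega n) * nrm p a i))
          (((a1.right (bG K y * α.dag)).trans (((((Sim.right (VanR.mono (eps_bG K y) hK) α.dag).trans
            ((a2.smul fun _ => starRingEnd ℂ (omega n)).congr (fun i => Matrix.smul_mul _ _ _)
              fun _ => rfl)).left (ones p a)).smul (nrm p a)).congr
            (fun i => by simp [Matrix.mul_assoc]) fun i => by simp [smul_smul])).congr
            (fun i => by simp [Matrix.mul_assoc]) fun _ => rfl))
  refine ⟨ind p a (grid K y 0), indM p a (dG K y 0), avM p a (c.dag * (bG K y * c)),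
    avM p a (α * (bG K y * α.dag)), c, hT, hD, poinc_of_fgt p a hi ?_⟩
  have := hD.poinc hP
  rw [← DFun.map_dblD, ← DFun.map_dblB] at this
  simp only [dblD, dblB, dsum, fgt_col, fgt_row]
  exact this

end Vale.Agent.P228
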