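import Vale.Agent.P228.Main

/-! Part GlobA: small orbits and the boundary of the interior of the fixed set. -/

namespace Vale.Agent.P228

open Filter Set Topology

set_option linter.unusedSectionVars false

variable {p : ℕ} [Fact p.Prime] {n : ℕ} {K : Set (Fin n → ℝ)} [CompactSpace K]
  [AddAction ℤ_[p] K] [ContinuousVAdd ℤ_[p] K]

theorem ga_supO_fix {u : K → ℝ} {x : K} (hx : ∀ t : ℤ_[p], t +ᵥ x = x) : supO p u x = u x := by
  simp [supO, hx]

theorem ga_cont {Φ Ψ : (Fin n → ℝ) → Fin n → ℝ} (hΦ : Continuous Φ) (hΨ : Continuous Ψ) :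
    Continuous (Function.uncurry fun (t : ℝ) (x : K) =>
      Ψ ((1 - t) • (fun j => supO p (fun w : K => Φ w.1 j) x) + t • Φ x.1)) := by
  have h1 : Continuous fun (x : K) j => supO p (fun w : K => Φ w.1 j) x :=
    continuous_pi fun j => continuous_supO p (by fun_prop)
  exact hΨ.comp (((continuous_const.sub continuous_fst).smul (h1.comp continuous_snd)).add
    (continuous_fst.smul (hΦ.comp (continuous_subtype_val.comp continuous_snd))))

theorem ga_core (h : LocalThm p) {W1 W : Set K} (ho : Oriented p K W1 W) (hW : IsOpen W)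
    (hi : InvSet p W) {Φ Ψ : (Fin n → ℝ) → Fin n → ℝ} (hΦ : Continuous Φ) (hΨ : Continuous Ψ)
    (hl : ∀ ξ, Ψ (Φ ξ) = ξ) {y : K} (hy : y ∈ W)
    (hfr : ∀ t ∈ Icc (0 : ℝ) 1, ∀ x ∈ frontier W,
      Ψ ((1 - t) • (fun j => supO p (fun w : K => Φ w.1 j) x) + t • Φ x.1) ≠ y.1) (t : ℤ_[p]) :
    t +ᵥ y = y := by
  obtain ⟨x, -, h1, h2⟩ := h n K W1 W ho hW hi _ y (ga_cont hΦ hΨ)
    (fun t x => by simp only [supO_vadd, zero_smul]) (fun x => by simp [hl]) hy hfr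
  simp only [ga_supO_fix h2, sub_zero, one_smul, zero_smul, add_zero, hl] at h1
  rw [← Subtype.ext h1]
  exact h2 t

/-- An action with small orbits is trivial. -/
theorem fixed_of_small (h : LocalThm p) {c : Fin n → ℝ} {ρ : ℝ} (hρ : 0 < ρ)
    (hK : Metric.ball c (8 * ρ) ⊆ K) (hs : ∀ (t : ℤ_[p]) (x : K), dist (t +ᵥ x) x ≤ ρ / 4)
    (x : K) (hx : x.1 ∈ Metric.ball c ρ) (t : ℤ_[p]) : t +ᵥ x = x := by
  have hb : ∀ r : ℝ, IsOpen {z : K | z.1 ∈ Metric.ball c r} := fun r =>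
    Metric.isOpen_ball.preimage continuous_subtype_val
  have hd : ∀ (r : ℝ) (t : ℤ_[p]) (z : K), z.1 ∈ Metric.ball c r →
      (t +ᵥ z).1 ∈ Metric.ball c (r + ρ) := fun r t z hz => by
    have h1 : dist (t +ᵥ z).1 z.1 ≤ ρ / 4 := hs t z
    have h2 := dist_triangle (t +ᵥ z).1 z.1 c
    rw [Metric.mem_ball] at hz ⊢
    linarith
  refine ga_core h (W1 := {x | ∃ t : ℤ_[p], ∃ z ∈ {z : K | z.1 ∈ Metric.ball c (4 * ρ)}, x = t +ᵥ z})
    (W := {x | ∃ t : ℤ_[p], ∃ z ∈ {z : K | z.1 ∈ Metric.ball c (3 * ρ)}, x = t +ᵥ z})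
    ⟨isOpen_sat p (hb _), invSet_sat p _, ?_, c, c, 4 * ρ, ρ, fun z hz => ?_, hρ,
      Metric.ball_subset_ball (by linarith), fun x _ t => hs t x, ?_⟩
    (isOpen_sat p (hb _)) (invSet_sat p _) continuous_id continuous_id (fun _ => rfl)
    ⟨0, x, Metric.ball_subset_ball (by linarith) hx, by simp⟩ (fun s hs' z hz e => ?_) t
  · rintro _ ⟨t, z, hz, rfl⟩
    exact interior_maximal hK Metric.isOpen_ball (Metric.ball_subset_ball (by linarith) (hd _ t z hz))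
  · exact ⟨⟨z, hK (Metric.ball_subset_ball (by linarith) hz)⟩, ⟨0, _, by exact hz, (zero_vadd _ _).symm⟩, rfl⟩
  · rintro _ ⟨t, z, hz, rfl⟩
    exact Metric.ball_subset_ball (by linarith) (hd _ t z hz)
  · have h1 : 3 * ρ ≤ dist z.1 c := by
      by_contra hh
      rw [(isOpen_sat p (hb _)).frontier_eq] at hz
      exact hz.2 ⟨0, z, not_le.1 hh, by simp⟩
    have h2 : dist x.1 z.1 ≤ ρ / 4 := by
      rw [← e, dist_pi_le_iff (by positivity)]
      intro j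
      obtain ⟨t, ht⟩ := exists_supO p (u := fun w : K => w.1 j)
        ((continuous_apply j).comp continuous_subtype_val) z
      have h3 : |(t +ᵥ z).1 j - z.1 j| ≤ ρ / 4 := (dist_le_pi_dist (t +ᵥ z).1 z.1 j).trans (hs t z)
      simp only [id, Pi.add_apply, Pi.smul_apply, smul_eq_mul, ht, Real.dist_eq]
      rw [show (1 - s) * (t +ᵥ z).1 j + s * z.1 j - z.1 j = (1 - s) * ((t +ᵥ z).1 j - z.1 j) by ring,
        abs_mul, abs_of_nonneg (sub_nonneg.2 hs'.2)]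
      nlinarith [hs'.1, hs'.2, abs_nonneg ((t +ᵥ z).1 j - z.1 j)]
    have h3 := dist_triangle_left z.1 c x.1
    rw [Metric.mem_ball] at hx
    linarith

theorem ga_real {a e A B V : ℝ} (ha : a ≠ 0) (hB : 0 ≤ B) (hV : 0 ≤ V) (h1 : A ^ 2 ≤ V * B)
    (h2 : e ^ 2 + B < a ^ 2) (h3 : 2 * (a * e + A) ≤ e ^ 2 + B)
    (h4 : (4 * V / a ^ 2 + 2) * B ≤ a * e + A) : e ^ 2 + B = 0 := by
  have ha2 : 0 < a ^ 2 := by positivity
  have h0 : 0 ≤ a * e + A := le_trans (by positivity) h4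
  have h5 : (4 * V + 2 * a ^ 2) * B ≤ a ^ 2 * (a * e + A) := by
    have := mul_le_mul_of_nonneg_left h4 ha2.le
    rwa [← mul_assoc, mul_add, mul_div_cancel₀ _ ha2.ne', mul_comm (a ^ 2) 2] at this
  have h6 : (2 * (a * e + A)) ^ 2 ≤ (e ^ 2 + B) * a ^ 2 := by
    calc _ ≤ (e ^ 2 + B) ^ 2 := pow_le_pow_left₀ (by linarith) h3 2
      _ ≤ _ := by rw [pow_two (e ^ 2 + B)]; gcongr
  have h7 : a ^ 2 * e ^ 2 ≤ (a ^ 2 + 4 * V) * B := by nlinarith [sq_nonneg (a * e + 2 * A)]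
  have h8 : a ^ 2 * (2 * (a * e + A)) ≤ a ^ 2 * (e ^ 2 + B) := by gcongr
  have h9 : B = 0 := by
    by_contra hh
    have := mul_pos (show 0 < 4 * V + 2 * a ^ 2 by positivity) (lt_of_le_of_ne hB (Ne.symm hh))
    nlinarith
  rw [h9, mul_zero] at h7
  rw [h9, add_zero]
  exact le_antisymm (by nlinarith) (sq_nonneg _)

/-- a polynomial change of coordinates flattening the outside of a round ball -/
theorem ga_coord {x0 z : Fin n → ℝ} (h : z ≠ x0) :
    ∃ (Φ Ψ : (Fin n → ℝ) → Fin n → ℝ) (j0 : Fin n) (δ : ℝ), Continuous Φ ∧ Continuous Ψ ∧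
      (∀ ξ, Ψ (Φ ξ) = ξ) ∧ (∀ u, Ψ u = x0 → u j0 = 0) ∧ 0 < δ ∧
      ∀ ξ, ξ ≠ x0 → ∑ k, (ξ k - x0 k) ^ 2 < δ → ∑ k, (x0 k - z k) ^ 2 ≤ ∑ k, (ξ k - z k) ^ 2 →
        Φ ξ j0 < 0 := by
  obtain ⟨j0, hj⟩ := Function.ne_iff.1 h
  have ha : z j0 - x0 j0 ≠ 0 := sub_ne_zero.2 hj
  set s := Finset.univ.erase j0 with hs
  set C := 4 * (∑ k ∈ s, (z k - x0 k) ^ 2) / (z j0 - x0 j0) ^ 2 + 2 with hC
  let P : (Fin n → ℝ) → ℝ := fun u => ∑ k ∈ s, (z k - x0 k) * u k - C * ∑ k ∈ s, u k ^ 2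
  have hP : Continuous P := by fun_prop
  have hPu : ∀ u c, P (Function.update u j0 c) = P u := fun u c => by
    have : ∀ k ∈ s, Function.update u j0 c k = u k := fun k hk =>
      Function.update_of_ne (Finset.ne_of_mem_erase hk) _ _
    simp only [P]
    rw [Finset.sum_congr rfl fun k hk => by rw [this k hk],
      Finset.sum_congr rfl (f := fun k => Function.update u j0 c k ^ 2) fun k hk => by rw [this k hk]]
  refine ⟨fun ξ => Function.update (ξ - x0) j0 ((z j0 - x0 j0) * (ξ j0 - x0 j0) + P (ξ - x0)),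
    fun u => x0 + Function.update u j0 ((u j0 - P u) / (z j0 - x0 j0)), j0, (z j0 - x0 j0) ^ 2,
    by fun_prop, by fun_prop, fun ξ => ?_, fun u hu => ?_, by positivity, fun ξ h1 h2 h3 => ?_⟩
  · simp only [hPu, Function.update_self, Function.update_idem, add_sub_cancel_right,
      mul_div_cancel_left₀ _ ha]
    rw [show ξ j0 - x0 j0 = (ξ - x0) j0 from rfl, Function.update_eq_self, add_sub_cancel]
  · have h1 := add_eq_left.1 hu
    have h2 := congrFun h1 j0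
    have h3 := hPu u ((u j0 - P u) / (z j0 - x0 j0))
    rw [h1] at h3
    simp only [Function.update_self, Pi.zero_apply, div_eq_zero_iff, ha, or_false] at h2
    rw [sub_eq_zero.1 h2, ← h3]
    simp [P]
  · simp only [Function.update_self]
    by_contra hh
    have e : ∀ f : Fin n → ℝ, ∑ k, f k = f j0 + ∑ k ∈ s, f k := fun f =>
      (Finset.add_sum_erase _ _ (Finset.mem_univ j0)).symm
    have e1 : ∑ k, (ξ k - z k) ^ 2 = ∑ k, (ξ k - x0 k) ^ 2 - 2 * ∑ k, (z k - x0 k) * (ξ k - x0 k)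
        + ∑ k, (x0 k - z k) ^ 2 := by
      rw [Finset.mul_sum, ← Finset.sum_sub_distrib, ← Finset.sum_add_distrib]
      exact Finset.sum_congr rfl fun k _ => by ring
    rw [e1, e fun k => (z k - x0 k) * (ξ k - x0 k), e fun k => (ξ k - x0 k) ^ 2] at h3
    rw [e] at h2
    have := ga_real (A := ∑ k ∈ s, (z k - x0 k) * (ξ k - x0 k)) ha
      (Finset.sum_nonneg fun k _ => sq_nonneg _) (Finset.sum_nonneg fun k _ => sq_nonneg _)
      (Finset.sum_mul_sq_le_sq_mul_sq s _ _) h2 (by linarith) (by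
        simp only [P, Pi.sub_apply] at hh
        linarith)
    rw [← e fun k => (ξ k - x0 k) ^ 2, Finset.sum_eq_zero_iff_of_nonneg fun k _ => sq_nonneg _] at this
    exact h1 (funext fun k => sub_eq_zero.1 (pow_eq_zero_iff two_ne_zero |>.1 (this k (Finset.mem_univ _))))

theorem ga_tube {x0 : K} (hx : ∀ t : ℤ_[p], t +ᵥ x0 = x0) {N : Set K} (hN : N ∈ 𝓝 x0) :
    ∃ r > 0, ∀ w ∈ Metric.ball x0 r, ∀ t : ℤ_[p], t +ᵥ w ∈ N := by
  have := (isCompact_univ (X := ℤ_[p])).eventually_forall_of_forall_eventually (x₀ := x0)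
    (P := fun w t => t +ᵥ w ∈ N) fun t _ =>
      (continuous_snd.vadd continuous_fst).continuousAt.preimage_mem_nhds (by
        show N ∈ 𝓝 (t +ᵥ x0)
        rwa [hx])
  obtain ⟨r, hr, h⟩ := Metric.mem_nhds_iff.1 this
  exact ⟨r, hr, fun w hw t => h hw t (mem_univ t)⟩

theorem ga_dist {a b : Fin n → ℝ} {ρ : ℝ} (hρ : 0 < ρ) (h : ∑ k, (a k - b k) ^ 2 < ρ ^ 2) :
    dist a b < ρ := by
  rw [dist_pi_lt_iff hρ]
  intro j
  exact abs_lt_of_sq_lt_sq ((Finset.single_le_sum (f := fun k => (a k - b k) ^ 2)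
    (fun k _ => sq_nonneg _) (Finset.mem_univ j)).trans_lt h) hρ.le

theorem ga_q (c : Fin n → ℝ) : Continuous fun w : K => ∑ k, (w.1 k - c k) ^ 2 :=
  (show Continuous fun w : Fin n → ℝ => ∑ k, (w k - c k) ^ 2 by fun_prop).comp continuous_subtype_val

/-- the Newman step at a boundary point of a fixed round ball -/
theorem ga_step (h : LocalThm p) {x0 : K} (hx : x0 ∈ intK K) {z : Fin n → ℝ} (hz : z ≠ x0.1)
    (hE : ∀ ξ, ∑ k, (ξ k - z k) ^ 2 < ∑ k, (x0.1 k - z k) ^ 2 → ξ ∈ K)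
    (hF : ∀ w : K, ∑ k, (w.1 k - z k) ^ 2 < ∑ k, (x0.1 k - z k) ^ 2 → ∀ t : ℤ_[p], t +ᵥ w = w) :
    ∀ᶠ y in 𝓝 x0, ∀ t : ℤ_[p], t +ᵥ y = y := by
  set E : Set (Fin n → ℝ) := {ξ | ∑ k, (ξ k - z k) ^ 2 < ∑ k, (x0.1 k - z k) ^ 2}
  have hEo : IsOpen E := isOpen_lt (by fun_prop) continuous_const
  have hm : 0 < ∑ k, (x0.1 k - z k) ^ 2 := by
    obtain ⟨j, hj⟩ := Function.ne_iff.1 hz
    exact Finset.sum_pos' (fun k _ => sq_nonneg _) ⟨j, Finset.mem_univ _,
      sq_pos_of_ne_zero (sub_ne_zero.2 hj.symm)⟩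
  have hcl : x0.1 ∈ closure E := by
    have h1 : Tendsto (fun s : ℝ => x0.1 + s • (z - x0.1)) (𝓝[>] 0) (𝓝 x0.1) := by
      have : Continuous fun s : ℝ => x0.1 + s • (z - x0.1) := by fun_prop
      simpa using (this.tendsto 0).mono_left nhdsWithin_le_nhds
    refine mem_closure_of_tendsto h1 ?_
    filter_upwards [Ioo_mem_nhdsGT one_pos] with s hs
    have : ∑ k, ((x0.1 + s • (z - x0.1)) k - z k) ^ 2 = (1 - s) ^ 2 * ∑ k, (x0.1 k - z k) ^ 2 := by
      rw [Finset.mul_sum]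
      exact Finset.sum_congr rfl fun k _ => by simp; ring
    show ∑ k, ((x0.1 + s • (z - x0.1)) k - z k) ^ 2 < _
    rw [this]
    exact mul_lt_of_lt_one_left hm (by nlinarith [hs.1, hs.2])
  have hx0 : ∀ t : ℤ_[p], t +ᵥ x0 = x0 := fun t => by
    have h1 : x0 ∈ closure {w : K | w.1 ∈ E} := by
      rw [closure_subtype]
      refine closure_mono (fun ξ hξ => ?_) hcl
      exact ⟨⟨ξ, hE ξ hξ⟩, hξ, rfl⟩
    exact closure_minimal (fun w hw => hF w hw t)
      (isClosed_eq (continuous_const_vadd t) continuous_id) h1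
  obtain ⟨Φ, Ψ, j0, δ, hΦ, hΨ, hl, h0, hδ, hneg⟩ := ga_coord hz
  obtain ⟨R0, hR0, hR0K⟩ := Metric.isOpen_iff.1 isOpen_interior _ hx
  obtain ⟨R1, hR1, hR1K⟩ := ga_tube hx0
    ((isOpen_interior.preimage continuous_subtype_val).mem_nhds hx : intK K ∈ 𝓝 x0)
  set R := min R0 R1
  have hR : 0 < R := lt_min hR0 hR1
  let N : Set K := Metric.closedBall x0 (R / 2) ∩ {w | ∑ k, (w.1 k - x0.1 k) ^ 2 ≤ δ / 2}
  have hNc : IsClosed N := Metric.isClosed_closedBall.inter (isClosed_le (ga_q x0.1) continuous_const)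
  obtain ⟨r, hr, hrN⟩ := ga_tube hx0 (N := N) (inter_mem (Metric.closedBall_mem_nhds _ (by positivity))
    (ContinuousAt.eventually_lt (f := fun w : K => ∑ k, (w.1 k - x0.1 k) ^ 2) (g := fun _ => δ / 2)
      (ga_q x0.1).continuousAt continuousAt_const (by simpa using hδ) |>.mono fun w hw => hw.le))
  set W : Set K := {x | ∃ t : ℤ_[p], ∃ z ∈ Metric.ball x0 r, x = t +ᵥ z}
  have hW : IsOpen W := isOpen_sat p Metric.isOpen_ball
  have hi : InvSet p W := invSet_sat p _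
  have hxW : x0 ∈ W := ⟨0, x0, Metric.mem_ball_self hr, by simp⟩
  have hWN : closure W ⊆ N := closure_minimal (by rintro _ ⟨t, w, hw, rfl⟩; exact hrN w hw t) hNc
  obtain ⟨x1, hx1, hx1E⟩ := mem_closure_iff.1 hcl _ Metric.isOpen_ball (Metric.mem_ball_self hR)
  obtain ⟨r1, hr1, hr1'⟩ := Metric.isOpen_iff.1 (Metric.isOpen_ball.inter hEo) x1 ⟨hx1, hx1E⟩
  have ho : Oriented p K {x | ∃ t : ℤ_[p], ∃ z ∈ Metric.ball x0 R, x = t +ᵥ z} W := by
    refine ⟨isOpen_sat p Metric.isOpen_ball, invSet_sat p _, ?_, x0.1, x1, R, r1, fun ξ hξ => ?_, hr1,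
      fun ξ hξ => (hr1' hξ).1, fun w hw t => ?_, fun w hw => ?_⟩
    · rintro _ ⟨t, w, hw, rfl⟩
      exact hR1K w (Metric.ball_subset_ball (min_le_right _ _) hw) t
    · exact ⟨⟨ξ, interior_subset (hR0K (Metric.ball_subset_ball (min_le_left _ _) hξ))⟩,
        ⟨0, _, by exact hξ, (zero_vadd _ _).symm⟩, rfl⟩
    · rw [hF w (hr1' hw).2 t, dist_self]
      positivity
    · exact Metric.closedBall_subset_ball (half_lt_self hR) (hWN (subset_closure hw)).1
  have hfr : ∀ t ∈ Icc (0 : ℝ) 1, ∀ x ∈ frontier W,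
      Ψ ((1 - t) • (fun j => supO p (fun w : K => Φ w.1 j) x) + t • Φ x.1) ≠ x0.1 := by
    intro s hs w hw e
    rw [hW.frontier_eq] at hw
    by_cases hwF : ∀ t : ℤ_[p], t +ᵥ w = w
    · simp only [ga_supO_fix hwF] at e
      rw [show (fun j => Φ w.1 j) = Φ w.1 from rfl, ← add_smul, sub_add_cancel, one_smul, hl] at e
      exact hw.2 (Subtype.ext e ▸ hxW)
    · have hn : ∀ t : ℤ_[p], Φ (t +ᵥ w).1 j0 < 0 := fun t => by
        have hfix : ¬ ∀ t' : ℤ_[p], t' +ᵥ t +ᵥ w = t +ᵥ w := fun hh => hwF fun t' => by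
          have := congrArg (-t +ᵥ ·) (hh t')
          simpa only [vadd_comm (-t) t', neg_vadd_vadd] using this
        refine hneg _ (fun e' => hfix fun t' => ?_)
          ((hWN (hi.closure p t w hw.1)).2.trans_lt (half_lt_self hδ)) (not_lt.1 fun hh => hfix (hF _ hh))
        rw [Subtype.ext e', hx0]
      obtain ⟨t, ht⟩ := exists_supO p (u := fun w : K => Φ w.1 j0) (by fun_prop) w
      have a1 := h0 _ e
      have a2 := hn t
      have a3 := hn 0
      rw [zero_vadd] at a3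
      simp only [Pi.add_apply, Pi.smul_apply, smul_eq_mul, ht] at a1
      rcases hs.1.eq_or_lt with h1 | h1
      · rw [← h1] at a1
        linarith
      · nlinarith [mul_pos_of_neg_of_neg a2 a2, hs.2, mul_neg_of_pos_of_neg h1 a3,
          mul_nonneg (sub_nonneg.2 hs.2) (neg_nonneg.2 a2.le)]
  have hc := ((isCompact_Icc (a := (0 : ℝ)) (b := 1)).prod
    (isClosed_frontier (s := W)).isCompact).image (ga_cont (p := p) (K := K) hΦ hΨ)
  have hnot := (hc.isClosed.isOpen_compl.preimage continuous_subtype_val).mem_nhds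
    (x := x0) (by rintro ⟨q, hq, e⟩; exact hfr q.1 hq.1 q.2 hq.2 e)
  filter_upwards [hnot, hW.mem_nhds hxW] with y hy hyW
  exact ga_core h ho hW hi hΦ hΨ hl hyW fun t ht x hx e => hy ⟨(t, x), ⟨ht, hx⟩, e⟩

/-- The interior of the fixed set is closed (inside the interior of `K`). -/
theorem newman (h : LocalThm p) (x : K) (hx : x ∈ intK K)
    (hc : x ∈ closure (interior {z : K | ∀ t : ℤ_[p], t +ᵥ z = z})) :
    x ∈ interior {z : K | ∀ t : ℤ_[p], t +ᵥ z = z} := by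
  set O := interior {z : K | ∀ t : ℤ_[p], t +ᵥ z = z}
  by_contra hxO
  obtain ⟨ρ, hρ, hρK⟩ := Metric.isOpen_iff.1 isOpen_interior _ hx
  obtain ⟨z, hz, hzO⟩ := mem_closure_iff.1 hc {z : K | ∑ k, (z.1 k - x.1 k) ^ 2 < (ρ / 2) ^ 2}
    (isOpen_lt (ga_q x.1) continuous_const) (by simpa using pow_pos (half_pos hρ) 2)
  replace hz : ∑ k, (x.1 k - z.1 k) ^ 2 < (ρ / 2) ^ 2 :=
    (Finset.sum_congr rfl fun k _ => by ring).trans_lt hz
  obtain ⟨x0, h0, hmin⟩ := (isOpen_interior.isClosed_compl.isCompact : IsCompact Oᶜ).exists_isMinOn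
    ⟨x, hxO⟩ (f := fun w : K => ∑ k, (w.1 k - z.1 k) ^ 2) (ga_q z.1).continuousOn
  have hm : ∑ k, (x0.1 k - z.1 k) ^ 2 < (ρ / 2) ^ 2 := (hmin hxO).trans_lt hz
  have hb : ∀ ξ : Fin n → ℝ, ∑ k, (ξ k - z.1 k) ^ 2 < (ρ / 2) ^ 2 → ξ ∈ interior K := fun ξ hξ => by
    refine hρK ?_
    have a1 := ga_dist (half_pos hρ) hξ
    have a2 := ga_dist (half_pos hρ) hz
    have a3 := dist_triangle_right ξ x.1 z.1
    rw [Metric.mem_ball]
    linarith
  refine h0 (mem_interior_iff_mem_nhds.2 (ga_step h (hb _ hm) (z := z.1)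
    (fun e => h0 (Subtype.ext e ▸ hzO)) (fun ξ hξ => interior_subset (hb ξ (hξ.trans hm)))
    fun w hw => ?_))
  exact interior_subset (s := {z : K | ∀ t : ℤ_[p], t +ᵥ z = z})
    (by_contra fun hh => (hmin hh).not_gt hw)

end Vale.Agent.P228
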