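import Vale.Agent.P228.GlobA

/-! Part GlobB: from the local theorem to manifolds. -/

namespace Vale.Agent.P228

open Filter Set Topology

universe u

section
variable {p : ℕ} [Fact p.Prime] {n : ℕ} {M : Type u} [TopologicalSpace M] {a : ℤ_[p] → M → M}

theorem gb_K (h0 : ∀ x, a 0 x = x) (hadd : ∀ s t x, a (s + t) x = a s (a t x))
    (hc : Continuous (Function.uncurry a)) (e : OpenPartialHomeomorph M (Fin n → ℝ)) {C : Set M}
    (hs : C ⊆ e.source) (hi : ∀ t, ∀ x ∈ C, a t x ∈ C) :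
    ∃ _ : AddAction ℤ_[p] (e '' C), ContinuousVAdd ℤ_[p] (e '' C) ∧
      ∀ (t : ℤ_[p]) (y : e '' C), (t +ᵥ y).1 = e (a t (e.symm y.1)) := by
  have hm : ∀ y : e '' C, e.symm y.1 ∈ C := by
    rintro ⟨_, x, hx, rfl⟩
    rwa [e.left_inv (hs hx)]
  have ht : ∀ y : e '' C, y.1 ∈ e.target := by
    rintro ⟨_, x, hx, rfl⟩
    exact e.map_source (hs hx)
  letI A : AddAction ℤ_[p] (e '' C) :=
    { vadd := fun t y => ⟨e (a t (e.symm y.1)), _, hi t _ (hm y), rfl⟩
      zero_vadd := fun y => Subtype.ext (by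
        show e (a 0 _) = _
        rw [h0, e.right_inv (ht y)])
      add_vadd := fun s t y => Subtype.ext (by
        show e (a (s + t) _) = e (a s (e.symm (e (a t _))))
        rw [hadd, e.left_inv (hs (hi t _ (hm y)))]) }
  refine ⟨A, ⟨?_⟩, fun t y => rfl⟩
  · refine Continuous.subtype_mk ?_ _
    have h1 : Continuous fun y : e '' C => e.symm y.1 :=
      e.continuousOn_symm.comp_continuous continuous_subtype_val ht
    exact e.continuousOn.comp_continuous (hc.comp (continuous_fst.prodMk (h1.comp continuous_snd)))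
      fun q => hs (hi _ _ (hm q.2))

theorem gb_sat (h0 : ∀ x, a 0 x = x) (hadd : ∀ s t x, a (s + t) x = a s (a t x))
    (hc : Continuous (Function.uncurry a)) {C0 S : Set M} (hC : IsCompact C0)
    (hs : ∀ w ∈ C0, ∀ t, a t w ∈ S) :
    ∃ C, IsCompact C ∧ C0 ⊆ C ∧ C ⊆ S ∧ ∀ t, ∀ x ∈ C, a t x ∈ C := by
  refine ⟨_, (isCompact_univ.prod hC).image hc, fun w hw => ⟨(0, w), ⟨mem_univ _, hw⟩, h0 w⟩, ?_, ?_⟩
  · rintro _ ⟨q, hq, rfl⟩
    exact hs _ hq.2 _
  · rintro t _ ⟨q, hq, rfl⟩
    exact ⟨(t + q.1, q.2), ⟨mem_univ _, hq.2⟩, hadd _ _ _⟩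

theorem gb_newman [T2Space M] [LocallyCompactSpace M] (h : LocalThm p) (h0 : ∀ x, a 0 x = x)
    (hadd : ∀ s t x, a (s + t) x = a s (a t x)) (hc : Continuous (Function.uncurry a))
    (e : OpenPartialHomeomorph M (Fin n → ℝ)) {x : M} (hx : x ∈ e.source)
    (hcl : x ∈ closure (interior {z | ∀ t, a t z = z})) : x ∈ interior {z | ∀ t, a t z = z} := by
  have hfix : ∀ t, a t x = x := fun t => closure_minimal (fun w hw => interior_subset (s := {z | ∀ t, a t z = z}) hw t)
    (isClosed_eq (hc.comp (Continuous.prodMk_right t)) continuous_id) hcl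
  have h1 := (isCompact_univ (X := ℤ_[p])).eventually_forall_of_forall_eventually (x₀ := x)
    (P := fun w t => a t w ∈ e.source) fun t _ =>
      (hc.comp continuous_swap).continuousAt.preimage_mem_nhds (e.open_source.mem_nhds (by
        show a t x ∈ e.source
        rwa [hfix]))
  obtain ⟨C0, hC0, hC0s, hC0c⟩ := local_compact_nhds h1
  obtain ⟨C, hC, c1, c2, c3⟩ := gb_sat h0 hadd hc hC0c fun w hw t => hC0s hw t (mem_univ t)
  obtain ⟨_, _, hv⟩ := gb_K h0 hadd hc e c2 c3
  haveI : CompactSpace (e '' C) :=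
    isCompact_iff_compactSpace.1 (hC.image_of_continuousOn (e.continuousOn.mono c2))
  have hK : e '' C ∈ 𝓝 (e x) := e.image_mem_nhds hx (mem_of_superset hC0 c1)
  let y : e '' C := ⟨e x, mem_of_mem_nhds hK⟩
  let g : e '' C → M := fun z => e.symm z.1
  have ht : ∀ y : e '' C, y.1 ∈ e.target := by
    rintro ⟨_, x, hx, rfl⟩
    exact e.map_source (c2 hx)
  have hm : ∀ y : e '' C, g y ∈ C := by
    rintro ⟨_, x, hx, rfl⟩
    simpa only [g, e.left_inv (c2 hx)] using hx
  have hg : Continuous g := e.continuousOn_symm.comp_continuous continuous_subtype_val ht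
  have hmap : map g (𝓝 y) = 𝓝 x := by
    rw [show g = e.symm ∘ Subtype.val from rfl, ← map_map, map_nhds_subtype_val,
      nhdsWithin_eq_nhds.2 hK]
    exact e.symm_map_nhds_eq hx
  have hF : {z : e '' C | ∀ t : ℤ_[p], t +ᵥ z = z} = g ⁻¹' {z | ∀ t, a t z = z} := by
    ext z
    refine forall_congr' fun t => ?_
    rw [Subtype.ext_iff, hv]
    constructor
    · intro h2
      rw [← e.left_inv (c2 (c3 t _ (hm z)))]
      exact congrArg e.symm h2
    · intro h2
      rw [show a t (e.symm z.1) = e.symm z.1 from h2, e.right_inv (ht z)]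
  have := newman h y (mem_interior_iff_mem_nhds.2 hK) (by
    rw [mem_closure_iff_frequently] at hcl ⊢
    rw [← hmap, frequently_map] at hcl
    rw [hF]
    exact hcl.mono fun z hz => preimage_interior_subset_interior_preimage hg hz)
  rw [mem_interior_iff_mem_nhds, ← hmap]
  rw [mem_interior_iff_mem_nhds, hF] at this
  exact this

theorem gb_small (h : LocalThm p) (h0 : ∀ x, a 0 x = x)
    (hadd : ∀ s t x, a (s + t) x = a s (a t x)) (hc : Continuous (Function.uncurry a))
    (e : OpenPartialHomeomorph M (Fin n → ℝ)) {x : M} (hx : x ∈ e.source) :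
    ∃ k : ℕ, x ∈ interior {z | ∀ t, a ((p : ℤ_[p]) ^ k * t) z = z} := by
  obtain ⟨r, hr, hrt⟩ := Metric.nhds_basis_closedBall.mem_iff.1
    (e.open_target.mem_nhds (e.map_source hx))
  obtain ⟨ρ, rfl⟩ : ∃ ρ, r = 9 * ρ := ⟨r / 9, by ring⟩
  have hρ : 0 < ρ := by linarith
  have hsub : Metric.closedBall (e x) (8 * ρ) ⊆ Metric.closedBall (e x) (9 * ρ) :=
    Metric.closedBall_subset_closedBall (by linarith)
  have hC1 : IsCompact (e.symm '' Metric.closedBall (e x) (9 * ρ)) :=
    (isCompact_closedBall _ _).image_of_continuousOn (e.continuousOn_symm.mono hrt)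
  have hC0 : IsCompact (e.symm '' Metric.closedBall (e x) (8 * ρ)) :=
    (isCompact_closedBall _ _).image_of_continuousOn (e.continuousOn_symm.mono (hsub.trans hrt))
  have hs1 : e.symm '' Metric.closedBall (e x) (9 * ρ) ⊆ e.source := by
    rintro _ ⟨w, hw, rfl⟩
    exact e.map_target (hrt hw)
  have h1 := hC1.eventually_forall_of_forall_eventually (x₀ := (0 : ℤ_[p]))
    (P := fun s w => a s w ∈ e.source ∧ dist (e (a s w)) (e w) < ρ / 4) fun w hw => by
      have b1 : ContinuousAt (fun q : ℤ_[p] × M => e (a q.1 q.2)) (0, w) :=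
        ContinuousAt.comp (g := e) (e.continuousAt (by rw [h0]; exact hs1 hw)) hc.continuousAt
      have b2 : ContinuousAt (fun q : ℤ_[p] × M => e q.2) (0, w) :=
        ContinuousAt.comp (g := e) (e.continuousAt (hs1 hw)) continuousAt_snd
      refine Eventually.and (hc.continuousAt.preimage_mem_nhds (e.open_source.mem_nhds ?_))
        ((b1.dist b2).eventually_lt continuousAt_const ?_)
      · show a 0 w ∈ e.source
        rw [h0]; exact hs1 hw
      · simp only [h0, dist_self]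
        positivity
  obtain ⟨ε, hε, hb⟩ := Metric.mem_nhds_iff.1 h1
  obtain ⟨k, hk⟩ := exists_pow_lt_of_lt_one hε (PadicInt.norm_p (p := p) ▸
    inv_lt_one_of_one_lt₀ (Nat.one_lt_cast.2 (Fact.out : p.Prime).one_lt) : ‖(p : ℤ_[p])‖ < 1)
  have h2 : ∀ t, ∀ w ∈ e.symm '' Metric.closedBall (e x) (9 * ρ), a ((p : ℤ_[p]) ^ k * t) w ∈ e.source ∧
      dist (e (a ((p : ℤ_[p]) ^ k * t) w)) (e w) < ρ / 4 := fun t => hb (by
    rw [mem_ball_zero_iff, norm_mul, norm_pow]
    exact (mul_le_of_le_one_right (by positivity) t.norm_le_one).trans_lt hk)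
  let b : ℤ_[p] → M → M := fun t => a ((p : ℤ_[p]) ^ k * t)
  have b0 : ∀ x, b 0 x = x := fun x => by simp only [b, mul_zero, h0]
  have badd : ∀ s t x, b (s + t) x = b s (b t x) := fun s t x => by simp only [b, mul_add, hadd]
  have bc : Continuous (Function.uncurry b) :=
    hc.comp ((continuous_const.mul continuous_fst).prodMk continuous_snd)
  obtain ⟨C, hC, c1, c2, c3⟩ := gb_sat b0 badd bc hC0 (S := e.symm '' Metric.closedBall (e x) (9 * ρ)) (by
    rintro _ ⟨w, hw, rfl⟩ t
    obtain ⟨d1, d2⟩ := h2 t _ ⟨w, hsub hw, rfl⟩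
    refine ⟨_, ?_, e.left_inv d1⟩
    rw [e.right_inv (hrt (hsub hw))] at d2
    have := dist_triangle (e (b t (e.symm w))) w (e x)
    rw [Metric.mem_closedBall] at hw ⊢
    linarith)
  obtain ⟨_, _, hv⟩ := gb_K b0 badd bc e (c2.trans hs1) c3
  haveI : CompactSpace (e '' C) :=
    isCompact_iff_compactSpace.1 (hC.image_of_continuousOn (e.continuousOn.mono (c2.trans hs1)))
  have hK : Metric.ball (e x) (8 * ρ) ⊆ e '' C := fun w hw =>
    ⟨_, c1 ⟨w, Metric.ball_subset_closedBall hw, rfl⟩,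
      e.right_inv (hrt (hsub (Metric.ball_subset_closedBall hw)))⟩
  have key := fixed_of_small h hρ hK (by
    rintro t ⟨_, w, hw, rfl⟩
    rw [Subtype.dist_eq, hv, e.left_inv (hs1 (c2 hw))]
    exact (h2 t w (c2 hw)).2.le)
  refine ⟨k, mem_interior_iff_mem_nhds.2 ?_⟩
  filter_upwards [e.open_source.mem_nhds hx, (e.continuousAt hx).preimage_mem_nhds
    (Metric.ball_mem_nhds _ hρ)] with w hw hw' t
  have hw8 := Metric.ball_subset_ball (show ρ ≤ 8 * ρ by linarith) hw'
  have := congrArg Subtype.val (key ⟨e w, hK hw8⟩ hw' t)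
  rw [hv, e.left_inv hw] at this
  exact e.injOn (h2 t w ⟨e w, hsub (Metric.ball_subset_closedBall hw8), e.left_inv hw⟩).1 hw this

end

theorem global {p : ℕ} [Fact p.Prime] (h : LocalThm p) (n : ℕ) (M : Type u) [TopologicalSpace M]
    [T2Space M] [ConnectedSpace M] [ChartedSpace (EuclideanSpace ℝ (Fin n)) M]
    [AddAction ℤ_[p] M] [ContinuousVAdd ℤ_[p] M] : ¬ FaithfulVAdd ℤ_[p] M := by
  intro hf
  haveI := ChartedSpace.locallyCompactSpace (EuclideanSpace ℝ (Fin n)) M
  let e : M → OpenPartialHomeomorph M (Fin n → ℝ) := fun x =>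
    (chartAt (EuclideanSpace ℝ (Fin n)) x).transHomeomorph (EuclideanSpace.equiv (Fin n) ℝ).toHomeomorph
  have he : ∀ x, x ∈ (e x).source := fun x => mem_chart_source _ x
  obtain ⟨x⟩ : Nonempty M := inferInstance
  obtain ⟨k, hk⟩ := gb_small (a := fun (t : ℤ_[p]) (x : M) => t +ᵥ x) h (zero_vadd _) add_vadd
    continuous_vadd (e x) (he x)
  have hcl : IsClosed (interior {z : M | ∀ t : ℤ_[p], ((p : ℤ_[p]) ^ k * t) +ᵥ z = z}) :=
    isClosed_of_closure_subset fun y hy => gb_newman (a := fun t x => ((p : ℤ_[p]) ^ k * t) +ᵥ x) h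
      (fun x => by simp) (fun s t x => by rw [mul_add, add_vadd])
      ((continuous_const.mul continuous_fst).vadd continuous_snd) (e y) (he y) hy
  have hu := IsClopen.eq_univ ⟨hcl, isOpen_interior⟩ ⟨x, hk⟩
  have : (p : ℤ_[p]) ^ k * 1 = 0 := hf.eq_of_vadd_eq_vadd fun z => by
    rw [zero_vadd]
    exact interior_subset (s := {z : M | ∀ t : ℤ_[p], ((p : ℤ_[p]) ^ k * t) +ᵥ z = z})
      (hu ▸ mem_univ z) 1
  rw [mul_one] at this
  exact pow_ne_zero k (Nat.cast_ne_zero.2 (Fact.out : p.Prime).ne_zero) this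

end Vale.Agent.P228
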