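import Vale.Agent.P228.Ctl

/-! The cubical grid complexes and the induced equivariant complexes: definitions. -/

namespace Vale.Agent.P228

open Filter Matrix DagCat Set

noncomputable section

variable {n : ℕ}

/-- The point of the grid of mesh `1 / (i + 1)` with integer coordinates `m`. -/
def pt (i : ℕ) (m : Fin n → ℤ) : Fin n → ℝ := fun j => (m j : ℝ) / (i + 1)

/-- An even integer vector whose grid point is close to `y`. -/
def cen (y : Fin n → ℝ) (i : ℕ) : Fin n → ℤ := fun j => 2 * ⌊((i : ℝ) + 1) * y j / 2⌋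

/-- Cells in `K` whose first `r` coordinates are frozen at `cen y i`. -/
def Cell (K : Set (Fin n → ℝ)) (y : Fin n → ℝ) (r i : ℕ) : Type :=
  {m : Fin n → ℤ // pt i m ∈ K ∧ ∀ j : Fin n, j.val < r → m j = cen y i j}

theorem cell_finite (K : Set (Fin n → ℝ)) [CompactSpace K] (y : Fin n → ℝ) (r i : ℕ) :
    Finite (Cell K y r i) := by
  have hK : IsCompact K := isCompact_iff_compactSpace.mpr inferInstance
  obtain ⟨R, hR⟩ := hK.isBounded.subset_closedBall 0
  have hfin : (Set.pi univ fun _ : Fin n => Icc (-⌈R * (i + 1)⌉) ⌈R * (i + 1)⌉).Finite :=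
    Set.Finite.pi fun _ => Set.finite_Icc _ _
  refine Set.Finite.to_subtype (hfin.subset ?_)
  rintro m ⟨hm, -⟩ j -
  have h1 := hR hm
  rw [mem_closedBall_zero_iff] at h1
  have h2 : |(m j : ℝ) / (i + 1)| ≤ R := (norm_le_pi_norm (pt i m) j).trans h1
  have hi : (0 : ℝ) < i + 1 := by positivity
  rw [abs_div, abs_of_pos hi, div_le_iff₀ hi, abs_le] at h2
  have h3 := Int.le_ceil (R * (i + 1))
  constructor
  · have : (-(⌈R * (i + 1)⌉ : ℤ) : ℝ) ≤ m j := by linarith [h2.1]
    exact_mod_cast this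
  · have : (m j : ℝ) ≤ (⌈R * (i + 1)⌉ : ℤ) := by linarith [h2.2]
    exact_mod_cast this

instance (K : Set (Fin n → ℝ)) [CompactSpace K] (y : Fin n → ℝ) (r i : ℕ) :
    Fintype (Cell K y r i) := @Fintype.ofFinite _ (cell_finite K y r i)

instance (K : Set (Fin n → ℝ)) (y : Fin n → ℝ) (r i : ℕ) : DecidableEq (Cell K y r i) :=
  Classical.decEq _

/-- The grid as an object of the controlled category. -/
@[reducible] def grid (K : Set (Fin n → ℝ)) [CompactSpace K] (y : Fin n → ℝ) (r : ℕ) :
    Obj (triv K) where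
  β := Cell K y r
  fin _ := inferInstance
  dec _ := inferInstance
  pos i m := ⟨pt i m.1, m.2.1⟩
  ρ _ _ := 1
  ρ_zero _ := rfl
  ρ_add _ _ _ := (Matrix.mul_one _).symm
  ρ_star _ _ := conjTranspose_one
  ρ_rel i _ b' b h := by
    by_contra hne
    exact h (one_apply_ne fun e => hne (by rw [e]))

/-- The sign of the `j`-th face. -/
def sgn (m : Fin n → ℤ) (j : Fin n) : ℂ := (-1) ^ (∑ k ∈ Finset.univ.filter (· < j), m k)

/-- The boundary coefficient of the cell `m'` in the cell `m`. -/
def dEnt (m' m : Fin n → ℤ) : ℂ := ∑ j, if Odd (m j) then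
  sgn m j * ((if m' = m + Pi.single j 1 then 1 else 0) - (if m' = m - Pi.single j 1 then 1 else 0))
  else 0

/-- The diagonal shift in the active coordinates. -/
def shf (n r : ℕ) : Fin n → ℤ := fun j => if r ≤ j.val then 1 else 0

/-- The sign of the duality shift. -/
def tsg (r : ℕ) (m : Fin n → ℤ) : ℂ :=
  (-1) ^ (∑ k : Fin n, if r ≤ k.val then ((k.val : ℤ) - r + 1) * m k else 0)

/-- The duality shift. -/
def tEnt (r : ℕ) (m' m : Fin n → ℤ) : ℂ := if m' = m + shf n r then tsg r m else 0

/-- The dimension of a cell. -/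
def deg (m : Fin n → ℤ) : ℕ := (Finset.univ.filter fun j => Odd (m j)).card

theorem dist_pt_le (i : ℕ) {m' m : Fin n → ℤ} (h : ∀ j, |m' j - m j| ≤ 1) :
    dist (pt i m') (pt i m) ≤ 1 / ((i : ℝ) + 1) := by
  have hi : (0 : ℝ) < i + 1 := by positivity
  rw [dist_pi_le_iff (by positivity)]
  intro j
  rw [Real.dist_eq, pt, pt, ← sub_div, abs_div, abs_of_pos hi]
  gcongr
  exact_mod_cast h j

theorem dEnt_ne {m' m : Fin n → ℤ} (h : dEnt m' m ≠ 0) :
    ∃ j, Odd (m j) ∧ (m' = m + Pi.single j 1 ∨ m' = m - Pi.single j 1) := by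
  obtain ⟨j, -, hj⟩ := Finset.exists_ne_zero_of_sum_ne_zero h
  by_cases ho : Odd (m j)
  · refine ⟨j, ho, ?_⟩
    by_contra hc
    push Not at hc
    simp [hc.1, hc.2] at hj
  · simp [ho] at hj

variable (K : Set (Fin n → ℝ)) [CompactSpace K] (y : Fin n → ℝ) (r : ℕ)

theorem grid_ctl {r' : ℕ} {f : Fam (grid K y r) (grid K y r')}
    (h : ∀ i b' b, f i b' b ≠ 0 → ∀ j, |b'.1 j - b.1 j| ≤ 1) : Ctl _ _ f := by
  intro ε hε
  filter_upwards [(tendsto_one_div_add_atTop_nhds_zero_nat (𝕜 := ℝ)).eventually (gt_mem_nhds hε)]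
    with i hi b' b hb
  exact (dist_pt_le i (h i b' b hb)).trans_lt hi

/-- The cubical boundary operator. -/
def dG : Mor (grid K y r) (grid K y r) :=
  mkMor (fun _ => Matrix.of fun b' b => dEnt b'.1 b.1) (grid_ctl K y r fun i b' b h j => by
    obtain ⟨k, -, hk | hk⟩ := dEnt_ne h <;> rw [hk] <;> by_cases e : j = k <;>
      simp [e]) (equi_triv _)

/-- The duality shift as a morphism. -/
def tG : Mor (grid K y r) (grid K y r) :=
  mkMor (fun _ => Matrix.of fun b' b => tEnt r b'.1 b.1) (grid_ctl K y r fun i b' b h j => by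
    have : b'.1 = b.1 + shf n r := by
      by_contra hc
      exact h (by simp [tEnt, hc])
    rw [this]
    by_cases e : r ≤ j.val <;> simp [shf, e]) (equi_triv _)

/-- The augmentation (sum of the coefficients of the vertices). -/
def epsG (i : ℕ) : Matrix Unit ((grid K y r).β i) ℂ :=
  Matrix.of fun _ b => if ∀ j, Even (b.1 j) then 1 else 0

/-- The dual augmentation (sum of the coefficients of the top cells). -/
def muG (i : ℕ) : Matrix Unit ((grid K y r).β i) ℂ :=
  Matrix.of fun _ b => if ∀ j : Fin n, r ≤ j.val → Odd (b.1 j) then 1 else 0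

/-- The phase making the duality Hermitian. -/
def omega (n : ℕ) : ℂ := Complex.I ^ (n * (n + 1) / 2)

/-- The Hermitian duality of the full grid. -/
def bG : Mor (grid K y 0) (grid K y 0) :=
  (1 / 2 : ℂ) • (omega n • tG K y 0 + (omega n • tG K y 0).dag)

/-- Homogeneity of a form: cells of complementary dimensions. -/
def Homog (B : Mor (grid K y r) (grid K y r)) : Prop :=
  ∀ i b' b, mat B i b' b ≠ 0 → deg b'.1 + deg b.1 + r = n

/-- The interior of `K`. -/
def intK : Set K := {x | x.1 ∈ interior K}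

/-- The coordinate cuts of a map `F` around `y`, for the coordinates `j ≥ r`. -/
def boxCuts {Y : Type} (F : Y → Fin n → ℝ) (y : Fin n → ℝ) (η : ℝ) (r : ℕ) : List (Cut Y) :=
  ((List.finRange n).drop r).map fun j =>
    (fun x => F x j - (y j - η), fun x => (y j + η) - F x j)

section padic
variable (p : ℕ) [Fact p.Prime] (a : ℕ) (Y : Type) [AddAction ℤ_[p] Y]

/-- The finite quotients of the `p`-adic integers acting on `Y`. -/
@[reducible] def grpP : Grp Y where
  G i := ZMod (p ^ (a + i))
  acg _ := inferInstance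
  fin _ := ZMod.fintype _
  rel i g x x' := ∃ t : ℤ_[p], PadicInt.toZModPow (a + i) t = g ∧ x' = t +ᵥ x

/-- The representative of a residue class. -/
def rep {k : ℕ} (g : ZMod (p ^ k)) : ℤ_[p] := (g.val : ℤ_[p])

theorem toZModPow_rep {k : ℕ} (g : ZMod (p ^ k)) : PadicInt.toZModPow k (rep p g) = g := by
  simp [rep]

variable {Y}

/-- The induced object. -/
@[reducible] def ind (X : Obj (triv Y)) : Obj (grpP p a Y) where
  β i := ZMod (p ^ (a + i)) × X.β i
  fin _ := inferInstance
  dec _ := inferInstance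
  pos i b := rep p b.1 +ᵥ X.pos i b.2
  ρ i g := Matrix.of fun b' b => if b' = (b.1 + g, b.2) then 1 else 0
  ρ_zero i := by
    ext b' b
    simp [Matrix.one_apply]
  ρ_add i g g' := by
    ext b' b
    simp only [Matrix.mul_apply, Matrix.of_apply, mul_ite, mul_one, mul_zero, Finset.sum_ite_eq',
      Finset.mem_univ, if_true, add_assoc, add_comm g' g]
  ρ_star i g := by
    ext b' b
    simp only [conjTranspose_apply, Matrix.of_apply]
    have : (b = (b'.1 + g, b'.2)) ↔ (b' = (b.1 + -g, b.2)) := by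
      constructor <;> rintro rfl <;> simp
    simp only [this]
    split_ifs <;> simp
  ρ_rel i g b' b h := by
    have hb : b' = (b.1 + g, b.2) := by
      by_contra hc
      exact h (by simp [hc])
    refine ⟨rep p b'.1 - rep p b.1, ?_, ?_⟩
    · rw [map_sub, toZModPow_rep, toZModPow_rep, hb]
      simp
    · rw [vadd_vadd, sub_add_cancel, hb]

/-- The rows `e` repeated on each sheet of the induced object. -/
def indRow {X : Obj (triv Y)} (e : ∀ i, Matrix Unit (X.β i) ℂ) (i : ℕ) :
    Matrix (ZMod (p ^ (a + i))) ((ind p a X).β i) ℂ :=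
  Matrix.of fun g b => if b.1 = g then e i () b.2 else 0

/-- The row `e` summed over the sheets of the induced object. -/
def sumRow {X : Obj (triv Y)} (e : ∀ i, Matrix Unit (X.β i) ℂ) (i : ℕ) :
    Matrix Unit ((ind p a X).β i) ℂ :=
  Matrix.of fun _ b => e i () b.2

/-- The induced matrices. -/
def indFam {X X' : Obj (triv Y)} (f : Fam X X') : Fam (ind p a X) (ind p a X') :=
  fun i => Matrix.of fun b' b => if b'.1 = b.1 then f i b'.2 b.2 else 0

/-- The inclusion of the neutral sheet. -/
def jFam (X : Obj (triv Y)) : Fam X (ind p a X).forget :=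
  fun _ => Matrix.of fun b' b => if b' = (0, b) then 1 else 0

/-- Averaging over the group. -/
def avFam {Γ : Grp Y} {X X' : Obj Γ} (f : Fam X X') : Fam X X' :=
  fun i => (1 / (Fintype.card (Γ.G i) : ℂ)) • ∑ g : Γ.G i, X'.ρ i g * f i * X.ρ i (-g)

/-- The character of order `p ^ a`. -/
def zetaP (i : ℕ) : AddChar ((grpP p a Y).G i) ℂ :=
  (ZMod.stdAddChar (N := p ^ a)).compAddMonoidHom
    (ZMod.castHom (pow_dvd_pow p (Nat.le_add_right a i)) (ZMod (p ^ a))).toAddMonoidHom

end padic

end

end Vale.Agent.P228
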