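import Vale.Agent.P228.Grid
import Vale.Agent.P228.CtlA

/-! Part GridA2: pointwise formulas for the cubical grid. -/

namespace Vale.Agent.P228

open Filter Matrix DagCat Set

variable {n : ℕ}

theorem ga_npow_even {a : ℤ} (h : Even a) : (-1 : ℂ) ^ a = 1 := h.neg_one_zpow
theorem ga_npow_add (a b : ℤ) : (-1 : ℂ) ^ (a + b) = (-1) ^ a * (-1) ^ b :=
  zpow_add₀ (by norm_num) a b
theorem ga_npow_sq (a : ℤ) : (-1 : ℂ) ^ a * (-1) ^ a = 1 := by
  rw [← ga_npow_add]; exact ga_npow_even ⟨a, rfl⟩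
theorem ga_npow_neg (a : ℤ) : (-1 : ℂ) ^ (-a) = (-1) ^ a := by
  have h := ga_npow_add a (-a)
  rw [add_neg_cancel, zpow_zero] at h
  calc (-1 : ℂ) ^ (-a) = ((-1) ^ a * (-1) ^ a) * (-1) ^ (-a) := by rw [ga_npow_sq, one_mul]
    _ = (-1) ^ a := by rw [mul_assoc, ← h, mul_one]
theorem ga_npow_star (a : ℤ) : star ((-1 : ℂ) ^ a) = (-1) ^ a := by
  rw [star_zpow₀]; simp

theorem sgn_add (m u : Fin n → ℤ) (j : Fin n) : sgn (m + u) j = sgn m j * sgn u j := by
  simp only [sgn, Pi.add_apply, Finset.sum_add_distrib, ga_npow_add]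
theorem sgn_neg (u : Fin n → ℤ) (j : Fin n) : sgn (-u) j = sgn u j := by
  simp only [sgn, Pi.neg_apply, Finset.sum_neg_distrib, ga_npow_neg]
theorem sgn_sub (m u : Fin n → ℤ) (j : Fin n) : sgn (m - u) j = sgn m j * sgn u j := by
  rw [sub_eq_add_neg, sgn_add, sgn_neg]
theorem sgn_single (j k : Fin n) : sgn (Pi.single j 1) k = if j < k then -1 else 1 := by
  simp only [sgn, Pi.single_apply, Finset.sum_ite_eq', Finset.mem_filter, Finset.mem_univ, true_and]
  split_ifs <;> simp
theorem sgn_sq (m : Fin n → ℤ) (j : Fin n) : sgn m j * sgn m j = 1 := ga_npow_sq _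
theorem sgn_ne (m : Fin n → ℤ) (j : Fin n) : sgn m j ≠ 0 := left_ne_zero_of_mul_eq_one (sgn_sq m j)
theorem sgn_star (m : Fin n → ℤ) (j : Fin n) : star (sgn m j) = sgn m j := ga_npow_star _
theorem sgn_shf {r : ℕ} {j : Fin n} (h : r ≤ j.val) :
    sgn (shf n r) j = (-1) ^ ((j.val : ℤ) - r) := by
  unfold sgn
  congr 1
  have h1 : ∑ k ∈ Finset.univ.filter (· < j), shf n r k
      = ∑ k ∈ Finset.range j.val, (if r ≤ k then (1 : ℤ) else 0) := by
    refine Finset.sum_bij (fun k _ => k.val) (fun k hk => ?_) (fun a _ b _ h => Fin.ext h)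
      (fun k hk => ⟨⟨k, (Finset.mem_range.1 hk).trans j.2⟩, ?_, rfl⟩) (fun k _ => rfl)
    · exact Finset.mem_range.2 (Finset.mem_filter.1 hk).2
    · exact Finset.mem_filter.2 ⟨Finset.mem_univ _, Finset.mem_range.1 hk⟩
  rw [h1, Finset.sum_boole]
  have h2 : (Finset.range j.val).filter (fun k => r ≤ k) = Finset.Ico r j.val := by
    ext k; simp [and_comm]
  rw [h2, Nat.card_Ico, Nat.cast_sub h]

theorem tsg_add (r : ℕ) (m u : Fin n → ℤ) : tsg r (m + u) = tsg r m * tsg r u := by
  rw [tsg, tsg, tsg, ← ga_npow_add, ← Finset.sum_add_distrib]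
  congr 1
  refine Finset.sum_congr rfl fun k _ => ?_
  split_ifs <;> simp [mul_add]
theorem tsg_neg (r : ℕ) (u : Fin n → ℤ) : tsg r (-u) = tsg r u := by
  rw [tsg, tsg, ← ga_npow_neg, ← Finset.sum_neg_distrib]
  congr 1
  refine Finset.sum_congr rfl fun k _ => ?_
  split_ifs <;> simp
theorem tsg_sub (r : ℕ) (m u : Fin n → ℤ) : tsg r (m - u) = tsg r m * tsg r u := by
  rw [sub_eq_add_neg, tsg_add, tsg_neg]
theorem tsg_single {r : ℕ} {j : Fin n} (h : r ≤ j.val) :
    tsg r (Pi.single j 1) = -(-1) ^ ((j.val : ℤ) - r) := by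
  have : (∑ k : Fin n, if r ≤ k.val then ((k.val : ℤ) - r + 1) * (Pi.single j 1 : Fin n → ℤ) k
      else 0) = (j.val : ℤ) - r + 1 := by
    rw [Finset.sum_eq_single j]
    · simp [h]
    · intro k _ hk; simp [hk]
    · simp
  rw [tsg, this, ga_npow_add]; simp
theorem tsg_sq (r : ℕ) (m : Fin n → ℤ) : tsg r m * tsg r m = 1 := ga_npow_sq _
theorem tsg_star (r : ℕ) (m : Fin n → ℤ) : star (tsg r m) = tsg r m := ga_npow_star _
theorem tsg_even (r : ℕ) {m : Fin n → ℤ} (h : ∀ j, Even (m j)) : tsg r m = 1 := by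
  refine ga_npow_even (Finset.even_sum _ fun k _ => ?_)
  split_ifs
  · exact (h k).mul_left _
  · exact Even.zero
theorem tsg_shf : tsg 0 (shf n 0) = omega n ^ 2 := by
  have h1 : (∑ k : Fin n, if 0 ≤ k.val then ((k.val : ℤ) - (0 : ℕ) + 1) * shf n 0 k else 0)
      = ((n * (n + 1) / 2 : ℕ) : ℤ) := by
    have := Finset.sum_range_id (n + 1)
    rw [Nat.add_sub_cancel, mul_comm] at this
    rw [← this, Finset.sum_range_succ', add_zero, ← Fin.sum_univ_eq_sum_range (fun k => k + 1) n]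
    simp [shf]
  rw [tsg, h1, zpow_natCast, omega, ← pow_mul, mul_comm _ 2, pow_mul, Complex.I_sq]
theorem tsg_odd {m : Fin n → ℤ} (h : ∀ j, Odd (m j)) : tsg 0 m = omega n ^ 2 := by
  rw [← sub_add_cancel m (shf n 0), tsg_add, tsg_shf, tsg_even, one_mul]
  intro j
  simpa [shf] using (h j).sub_odd odd_one

theorem dEnt_star (m' m : Fin n → ℤ) : star (dEnt m' m) = dEnt m' m := by
  rw [dEnt, star_sum]
  refine Finset.sum_congr rfl fun j _ => ?_
  split_ifs <;> simp [sgn_star]
theorem tEnt_star (r : ℕ) (m' m : Fin n → ℤ) : star (tEnt r m' m) = tEnt r m' m := by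
  rw [tEnt]; split_ifs <;> simp [tsg_star]

/-- the boundary coefficients read along a row -/
theorem dEnt_row (m c : Fin n → ℤ) : dEnt m c = ∑ j, if Even (m j) then
    sgn m j * ((if c = m - Pi.single j 1 then 1 else 0) - (if c = m + Pi.single j 1 then 1 else 0))
    else 0 := by
  refine Finset.sum_congr rfl fun j _ => ?_
  simp only [eq_sub_iff_add_eq (a := c), ← sub_eq_iff_eq_add (a := c), eq_comm (a := m)]
  by_cases h1 : c + Pi.single j 1 = m
  · subst h1
    simp [sgn_add, sgn_single, Int.even_add_one]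
  by_cases h2 : c - Pi.single j 1 = m
  · subst h2
    simp [sgn_sub, sgn_single, Int.even_sub_one]
  · simp [h1, h2]

/-- the coboundary of a function on the lattice -/
noncomputable def cob (G : (Fin n → ℤ) → ℂ) (m : Fin n → ℤ) : ℂ :=
  ∑ j, if Odd (m j) then sgn m j * (G (m + Pi.single j 1) - G (m - Pi.single j 1)) else 0

theorem cob_cob (G : (Fin n → ℤ) → ℂ) (m : Fin n → ℤ) : cob (cob G) m = 0 := by
  set t : Fin n → Fin n → ℂ := fun j k => if Odd (m j) ∧ Odd (m k) ∧ j ≠ k then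
    sgn m j * sgn m k * (if j < k then -1 else 1) *
      (G (m + Pi.single j 1 + Pi.single k 1) - G (m + Pi.single j 1 - Pi.single k 1)
        - G (m - Pi.single j 1 + Pi.single k 1) + G (m - Pi.single j 1 - Pi.single k 1)) else 0
    with ht
  have h1 : cob (cob G) m = ∑ j, ∑ k, t j k := by
    refine Finset.sum_congr rfl fun j _ => ?_
    by_cases hj : Odd (m j)
    · rw [if_pos hj, cob, cob, ← Finset.sum_sub_distrib, Finset.mul_sum]
      refine Finset.sum_congr rfl fun k _ => ?_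
      by_cases hjk : j = k
      · subst hjk
        simp [ht, ← Int.not_even_iff_odd, Int.even_add_one, Int.even_sub_one,
          Int.not_even_iff_odd.2 hj]
      · have hkj : k ≠ j := Ne.symm hjk
        by_cases hk : Odd (m k)
        · simp only [ht, Pi.add_apply, Pi.sub_apply, Pi.single_eq_of_ne hkj, add_zero, sub_zero,
            hj, hk, hjk, ne_eq, not_false_eq_true, and_self, if_true, sgn_add, sgn_sub, sgn_single]
          ring
        · simp [ht, hkj, hk]
    · simp [ht, hj]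
  have h2 : ∀ j k, t j k = -t k j := by
    intro j k
    simp only [ht]
    by_cases h : Odd (m j) ∧ Odd (m k) ∧ j ≠ k
    · rw [if_pos h, if_pos (show Odd (m k) ∧ Odd (m j) ∧ k ≠ j from ⟨h.2.1, h.1, h.2.2.symm⟩),
        add_right_comm m, sub_right_comm m,
        add_sub_right_comm m, add_sub_right_comm m (Pi.single k 1)]
      rcases lt_or_gt_of_ne h.2.2 with h3 | h3
      · rw [if_pos h3, if_neg (not_lt.2 h3.le)]; ring
      · rw [if_neg (not_lt.2 h3.le), if_pos h3]; ring
    · rw [if_neg h, if_neg (fun h' => h ⟨h'.2.1, h'.1, h'.2.2.symm⟩), neg_zero]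
  have h3 : ∑ j, ∑ k, t j k = -∑ j, ∑ k, t j k := by
    conv_lhs => rw [Finset.sum_comm]
    simp only [← Finset.sum_neg_distrib]
    exact Finset.sum_congr rfl fun j _ => Finset.sum_congr rfl fun k _ => h2 k j
  rw [h1]
  linear_combination (1 / 2 : ℂ) * h3

variable {K : Set (Fin n → ℝ)} {y : Fin n → ℝ} {r i : ℕ}

theorem cen_even (y : Fin n → ℝ) (i : ℕ) (j : Fin n) : Even (cen y i j) := even_two_mul _

theorem Cell.even (b : Cell K y r i) {j : Fin n} (h : j.val < r) : Even (b.1 j) := by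
  rw [b.2.2 j h]; exact cen_even y i j

theorem Cell.le_of_odd (b : Cell K y r i) {j : Fin n} (h : Odd (b.1 j)) : r ≤ j.val :=
  not_lt.1 fun h' => Int.not_even_iff_odd.2 h (b.even h')

/-- membership in the cell set -/
def IsCell (K : Set (Fin n → ℝ)) (y : Fin n → ℝ) (r i : ℕ) (m : Fin n → ℤ) : Prop :=
  pt i m ∈ K ∧ ∀ j : Fin n, j.val < r → m j = cen y i j

theorem Cell.isCell_add (b : Cell K y r i) {u : Fin n → ℤ} (hu : ∀ j : Fin n, j.val < r → u j = 0)
    (h : pt i (b.1 + u) ∈ K) : IsCell K y r i (b.1 + u) :=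
  ⟨h, fun j hj => by rw [Pi.add_apply, hu j hj, add_zero, b.2.2 j hj]⟩
theorem Cell.isCell_sub (b : Cell K y r i) {u : Fin n → ℤ} (hu : ∀ j : Fin n, j.val < r → u j = 0)
    (h : pt i (b.1 - u) ∈ K) : IsCell K y r i (b.1 - u) :=
  ⟨h, fun j hj => by rw [Pi.sub_apply, hu j hj, sub_zero, b.2.2 j hj]⟩
theorem single_low {j : Fin n} (h : r ≤ j.val) (k : Fin n) (hk : k.val < r) :
    (Pi.single j 1 : Fin n → ℤ) k = 0 := Pi.single_eq_of_ne (by rintro rfl; omega) _
theorem shf_low (k : Fin n) (hk : k.val < r) : shf n r k = 0 := if_neg (by omega)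
theorem Cell.not_add (b : Cell K y r i) {j : Fin n} (h : j.val < r) :
    ¬ IsCell K y r i (b.1 + Pi.single j 1) := fun hc => by
  have := hc.2 j h
  rw [← b.2.2 j h] at this
  simp at this
theorem Cell.not_sub (b : Cell K y r i) {j : Fin n} (h : j.val < r) :
    ¬ IsCell K y r i (b.1 - Pi.single j 1) := fun hc => by
  have := hc.2 j h
  rw [← b.2.2 j h] at this
  simp at this

open Classical in
/-- extension by zero -/
noncomputable def ex (g : Cell K y r i → ℂ) (m : Fin n → ℤ) : ℂ :=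
  if h : IsCell K y r i m then g ⟨m, h⟩ else 0

theorem ex_pos (g : Cell K y r i → ℂ) {m : Fin n → ℤ} (h : IsCell K y r i m) :
    ex g m = g ⟨m, h⟩ := dif_pos h
theorem ex_neg (g : Cell K y r i → ℂ) {m : Fin n → ℤ} (h : ¬ IsCell K y r i m) :
    ex g m = 0 := dif_neg h
theorem ex_cell (g : Cell K y r i → ℂ) (b : Cell K y r i) : ex g b.1 = g b := dif_pos b.2

variable [CompactSpace K]

theorem sum_delta (g : Cell K y r i → ℂ) (m : Fin n → ℤ) :
    ∑ c, g c * (if c.1 = m then 1 else 0) = ex g m := by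
  by_cases h : IsCell K y r i m
  · rw [ex_pos g h]
    refine (Finset.sum_eq_single (⟨m, h⟩ : Cell K y r i) (fun c _ hc => ?_)
      (fun h' => (h' (Finset.mem_univ (α := Cell K y r i) _)).elim)).trans ?_
    · rw [if_neg (fun e => hc (Subtype.ext e)), mul_zero]
    · rw [if_pos rfl, mul_one]
  · rw [ex_neg g h]
    refine Finset.sum_eq_zero fun c _ => ?_
    rw [if_neg (fun e : c.1 = m => h (e ▸ c.2)), mul_zero]

theorem sum_col (g : Cell K y r i → ℂ) (m : Fin n → ℤ) :
    ∑ c, g c * dEnt c.1 m = cob (ex g) m := by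
  simp only [dEnt, Finset.mul_sum]
  rw [Finset.sum_comm]
  refine Finset.sum_congr rfl fun j _ => ?_
  split_ifs
  · rw [← sum_delta, ← sum_delta, ← Finset.sum_sub_distrib, Finset.mul_sum]
    exact Finset.sum_congr rfl fun c _ => by ring
  · simp

theorem sum_row (g : Cell K y r i → ℂ) (m : Fin n → ℤ) :
    ∑ c, g c * dEnt m c.1 = ∑ j, if Even (m j) then
      sgn m j * (ex g (m - Pi.single j 1) - ex g (m + Pi.single j 1)) else 0 := by
  simp only [dEnt_row m, Finset.mul_sum]
  rw [Finset.sum_comm]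
  refine Finset.sum_congr rfl fun j _ => ?_
  split_ifs
  · rw [← sum_delta, ← sum_delta, ← Finset.sum_sub_distrib, Finset.mul_sum]
    exact Finset.sum_congr rfl fun c _ => by ring
  · simp

theorem sum_tcol (g : Cell K y r i → ℂ) (m : Fin n → ℤ) :
    ∑ c, g c * tEnt r c.1 m = tsg r m * ex g (m + shf n r) := by
  rw [← sum_delta, Finset.mul_sum]
  refine Finset.sum_congr rfl fun c _ => ?_
  rw [tEnt]; split_ifs <;> ring

theorem sum_trow (g : Cell K y r i → ℂ) (m : Fin n → ℤ) :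
    ∑ c, g c * tEnt r m c.1 = tsg r (m - shf n r) * ex g (m - shf n r) := by
  rw [← sum_delta, Finset.mul_sum]
  refine Finset.sum_congr rfl fun c _ => ?_
  rw [tEnt]
  by_cases h : c.1 = m - shf n r
  · rw [if_pos h, if_pos (by rw [h, sub_add_cancel]), h]; ring
  · rw [if_neg h, if_neg (fun e => h (by rw [e, add_sub_cancel_right]))]; ring

theorem mul_dG {A : Type} (e : Matrix A ((grid K y r).β i) ℂ) (a : A) (b : Cell K y r i) :
    (e * mat (dG K y r) i) a b = cob (ex (e a)) b.1 := sum_col (e a) b.1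

theorem mul_dG_dag {A : Type} (e : Matrix A ((grid K y r).β i) ℂ) (a : A) (b : Cell K y r i) :
    (e * (mat (dG K y r) i)ᴴ) a b = ∑ j, if Even (b.1 j) then
      sgn b.1 j * (ex (e a) (b.1 - Pi.single j 1) - ex (e a) (b.1 + Pi.single j 1)) else 0 := by
  rw [← sum_row, Matrix.mul_apply]
  exact Finset.sum_congr rfl fun c _ => congrArg _ (dEnt_star _ _)

theorem mul_tG {A : Type} (e : Matrix A ((grid K y r).β i) ℂ) (a : A) (b : Cell K y r i) :
    (e * mat (tG K y r) i) a b = tsg r b.1 * ex (e a) (b.1 + shf n r) := sum_tcol (e a) b.1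

theorem mul_tG_dag {A : Type} (e : Matrix A ((grid K y r).β i) ℂ) (a : A) (b : Cell K y r i) :
    (e * (mat (tG K y r) i)ᴴ) a b = tsg r (b.1 - shf n r) * ex (e a) (b.1 - shf n r) := by
  rw [← sum_trow, Matrix.mul_apply]
  exact Finset.sum_congr rfl fun c _ => congrArg _ (tEnt_star _ _ _)

theorem dG_mulVec (z : Cell K y r i → ℂ) (b : Cell K y r i) :
    (mat (dG K y r) i *ᵥ z) b = ∑ j, if Even (b.1 j) then
      sgn b.1 j * (ex z (b.1 - Pi.single j 1) - ex z (b.1 + Pi.single j 1)) else 0 := by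
  rw [← sum_row]
  exact Finset.sum_congr rfl fun c _ => mul_comm _ _

/-- all neighbours of the cell lie in `K` -/
def Nbr (b : Cell K y r i) : Prop := ∀ m : Fin n → ℤ, (∀ j, |m j - b.1 j| ≤ 1) → pt i m ∈ K

omit [CompactSpace K] in
theorem Nbr.add {b : Cell K y r i} (h : Nbr b) {u : Fin n → ℤ} (hu : ∀ j, |u j| ≤ 1) :
    pt i (b.1 + u) ∈ K := h _ (by simpa using hu)
omit [CompactSpace K] in
theorem Nbr.sub {b : Cell K y r i} (h : Nbr b) {u : Fin n → ℤ} (hu : ∀ j, |u j| ≤ 1) :
    pt i (b.1 - u) ∈ K := h _ (by simpa using hu)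
theorem abs_single (j k : Fin n) : |(Pi.single j 1 : Fin n → ℤ) k| ≤ 1 := by
  rw [Pi.single_apply]; split_ifs <;> simp
theorem abs_shf (k : Fin n) : |shf n r k| ≤ 1 := by
  rw [shf]; split_ifs <;> simp

theorem vanR_int {A : ℕ → Type} {e : ∀ i, Matrix (A i) ((grid K y r).β i) ℂ}
    (h : ∀ i a (b : Cell K y r i), Nbr b → e i a b = 0) : VanR (intK K) (grid K y r) e := by
  intro x hx
  obtain ⟨ε, hε, hb⟩ := Metric.mem_nhds_iff.1 (mem_interior_iff_mem_nhds.1 hx)
  refine ⟨ε / 2, by positivity, ?_⟩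
  filter_upwards [(tendsto_one_div_add_atTop_nhds_zero_nat (𝕜 := ℝ)).eventually
    (gt_mem_nhds (half_pos hε))] with i hi a b hab
  by_contra hc
  refine hab (h i a b fun m hm => hb ?_)
  have h1 : dist (pt i b.1) x.1 < ε / 2 := not_le.1 hc
  have h2 := dist_pt_le i hm
  rw [Metric.mem_ball]
  linarith [dist_triangle (pt i m) (pt i b.1) x.1]

/-- walking in steps of two inside a box-convex set -/
theorem ga_walk (P : (Fin n → ℤ) → Prop)
    (hP : ∀ a b m, P a → P b → (∀ j, min (a j) (b j) ≤ m j ∧ m j ≤ max (a j) (b j)) → P m)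
    (c : ℤ) (f : (Fin n → ℤ) → ℂ)
    (step : ∀ m j, P m → (∀ k, Even ((m - Pi.single j 1 : Fin n → ℤ) k - c)) →
      P (m - Pi.single j 1) → P (m + Pi.single j 1) → f (m - Pi.single j 1) = f (m + Pi.single j 1))
    (N : ℕ) : ∀ v v' : Fin n → ℤ, ∑ j, (v j - v' j).natAbs ≤ N → P v → P v' →
      (∀ k, Even (v k - c)) → (∀ k, Even (v' k - c)) → f v = f v' := by
  induction N with
  | zero =>
    intro v v' h _ _ _ _
    have : v = v' := funext fun j => by
      have := Finset.sum_eq_zero_iff.1 (Nat.le_zero.1 h) j (Finset.mem_univ j)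
      omega
    rw [this]
  | succ N ih =>
    have key : ∀ v v' : Fin n → ℤ, ∑ j, (v j - v' j).natAbs ≤ N + 1 → P v → P v' →
        (∀ k, Even (v k - c)) → (∀ k, Even (v' k - c)) → ∀ j, v j < v' j → f v = f v' := by
      intro v v' h hv hv' he he' j hj
      have h2 : v j + 2 ≤ v' j := by
        obtain ⟨a, ha⟩ := he j
        obtain ⟨b, hb⟩ := he' j
        omega
      have hm : ∀ t : ℤ, 0 ≤ t → t ≤ 2 → P (v + Pi.single j t) := fun t h0 h1 =>
        hP v v' _ hv hv' fun k => by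
          by_cases hk : k = j
          · subst hk; simp only [Pi.add_apply, Pi.single_eq_same]; omega
          · simp [hk]
      have e1 : v + Pi.single j 1 - Pi.single j 1 = v := add_sub_cancel_right _ _
      have e2 : v + Pi.single j 1 + Pi.single j 1 = v + Pi.single j 2 := by
        rw [add_assoc, ← Pi.single_add]; rfl
      have h3 := step (v + Pi.single j 1) j (hm 1 (by omega) (by omega)) (by rw [e1]; exact he)
        (by rw [e1]; exact hv) (by rw [e2]; exact hm 2 (by omega) le_rfl)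
      rw [e1, e2] at h3
      rw [h3]
      refine ih _ _ ?_ (hm 2 (by omega) le_rfl) hv' (fun k => ?_) he'
      · refine Nat.le_of_lt_succ (lt_of_lt_of_le (Finset.sum_lt_sum (fun k _ => ?_)
          ⟨j, Finset.mem_univ j, ?_⟩) h)
        · by_cases hk : k = j
          · subst hk; simp only [Pi.add_apply, Pi.single_eq_same]; omega
          · simp [hk]
        · simp only [Pi.add_apply, Pi.single_eq_same]; omega
      · by_cases hk : k = j
        · subst hk
          obtain ⟨a, ha⟩ := he k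
          exact ⟨a + 1, by simp only [Pi.add_apply, Pi.single_eq_same]; omega⟩
        · simpa [hk] using he k
    intro v v' h hv hv' he he'
    by_cases hvv : v = v'
    · rw [hvv]
    obtain ⟨j, hj⟩ := Function.ne_iff.1 hvv
    rcases lt_or_gt_of_ne hj with h1 | h1
    · exact key v v' h hv hv' he he' j h1
    · refine (key v' v (le_of_eq_of_le (Finset.sum_congr rfl fun k _ => ?_) h) hv' hv he' he j
        h1).symm
      omega

omit [CompactSpace K] in
theorem ga_box {x : Fin n → ℝ} {R : ℝ} {a b m : Fin n → ℤ} (ha : dist (pt i a) x ≤ R)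
    (hb : dist (pt i b) x ≤ R) (h : ∀ j, min (a j) (b j) ≤ m j ∧ m j ≤ max (a j) (b j)) :
    dist (pt i m) x ≤ R := by
  have hR : 0 ≤ R := dist_nonneg.trans ha
  rw [dist_pi_le_iff hR] at ha hb ⊢
  intro j
  have h1 := ha j
  have h2 := hb j
  rw [Real.dist_eq, abs_le] at h1 h2 ⊢
  have hi : (0 : ℝ) < i + 1 := by positivity
  have mono : ∀ u v : Fin n → ℤ, u j ≤ v j → pt i u j ≤ pt i v j := fun u v huv =>
    div_le_div_of_nonneg_right (by exact_mod_cast huv) hi.le
  constructor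
  · rcases min_le_iff.1 (h j).1 with h3 | h3 <;> linarith [mono _ _ h3]
  · rcases le_max_iff.1 (h j).2 with h3 | h3 <;> linarith [mono _ _ h3]

end Vale.Agent.P228
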