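import Vale.Agent.P228.Grid
import Vale.Agent.P228.CtlA
import Vale.Agent.P228.GridA2

/-! Part GridA: algebraic identities of the cubical grid. -/

namespace Vale.Agent.P228

open Filter Matrix DagCat Set

variable {n : ℕ} (K : Set (Fin n → ℝ)) [CompactSpace K] (y : Fin n → ℝ) (r : ℕ)

omit [CompactSpace K] in
theorem ga_isOpen : IsOpen (intK K) := isOpen_interior.preimage continuous_subtype_val
theorem isOpen_intK : IsOpen (intK K) := ga_isOpen K
theorem deg_le (m : Fin n → ℤ) : deg m ≤ n :=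
  (Finset.card_filter_le _ _).trans (by simp)
theorem deg_dEnt {m' m : Fin n → ℤ} (h : dEnt m' m ≠ 0) : deg m' + 1 = deg m := by
  obtain ⟨j, hj, h1⟩ := dEnt_ne h
  have : (Finset.univ.filter fun k => Odd (m' k)) =
      (Finset.univ.filter fun k => Odd (m k)).erase j := by
    ext k
    by_cases hk : k = j
    · subst hk
      rcases h1 with rfl | rfl <;>
        simp [← Int.not_even_iff_odd, Int.even_add_one, Int.even_sub_one, Int.not_even_iff_odd.2 hj]
    · rcases h1 with rfl | rfl <;> simp [hk]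
  rw [deg, deg, this, Finset.card_erase_add_one (by simpa using hj)]
theorem deg_eq_zero {m : Fin n → ℤ} : deg m = 0 ↔ ∀ j, Even (m j) := by
  simp [deg, Finset.filter_eq_empty_iff]
theorem deg_eq_top {m : Fin n → ℤ} : deg m = n ↔ ∀ j, Odd (m j) := by
  have := Finset.card_filter_eq_iff (s := (Finset.univ : Finset (Fin n))) (p := fun j => Odd (m j))
  simpa [deg] using this
/-- The shift exchanges complementary dimensions. -/
theorem deg_tG (hr : r ≤ n) (i : ℕ) (b' b : (grid K y r).β i) (h : mat (tG K y r) i b' b ≠ 0) :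
    deg b'.1 + deg b.1 + r = n := by
  have h1 : b'.1 = b.1 + shf n r := by
    by_contra hc
    exact h (if_neg hc)
  have h2 : (Finset.univ.filter fun j : Fin n => j.val < r).card = r := by
    rw [Fin.card_filter_val_lt, min_eq_right hr]
  have h3 : deg (b.1 + shf n r) + deg b.1 + (Finset.univ.filter fun j : Fin n => j.val < r).card
      = ∑ _j : Fin n, 1 := by
    simp only [deg, Finset.card_filter, ← Finset.sum_add_distrib]
    refine Finset.sum_congr rfl fun j _ => ?_
    by_cases hj : j.val < r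
    · have := Cell.even b hj
      simp [hj, shf_low j hj, ← Int.not_even_iff_odd, this]
    · have h4 : shf n r j = 1 := if_pos (not_lt.1 hj)
      by_cases he : Even (b.1 j) <;> simp [hj, h4, ← Int.not_even_iff_odd, Int.even_add_one, he]
  rw [h2] at h3
  rw [h1, h3]
  simp
theorem ga_pt_cen (i : ℕ) : dist (pt i (cen y i)) y ≤ 2 * (1 / ((i : ℝ) + 1)) := by
  have hi : (0 : ℝ) < i + 1 := by positivity
  rw [dist_pi_le_iff (by positivity)]
  intro j
  have h1 := Int.floor_le (((i : ℝ) + 1) * y j / 2)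
  have h2 := Int.lt_floor_add_one (((i : ℝ) + 1) * y j / 2)
  have h3 : pt i (cen y i) j - y j
      = (2 * (⌊((i : ℝ) + 1) * y j / 2⌋ : ℝ) - (i + 1) * y j) / (i + 1) := by
    simp only [pt, cen]
    push_cast
    field_simp
  rw [Real.dist_eq, h3, abs_div, abs_of_pos hi, mul_one_div]
  gcongr
  rw [abs_le]
  constructor <;> linarith
theorem tendsto_pt_cen : Tendsto (fun i => pt i (cen y i)) atTop (nhds y) := by
  rw [tendsto_iff_dist_tendsto_zero]
  refine squeeze_zero (fun _ => dist_nonneg) (ga_pt_cen y) ?_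
  simpa using (tendsto_one_div_add_atTop_nhds_zero_nat (𝕜 := ℝ)).const_mul 2
theorem van_one_grid : Van {x : K | ∃ j : Fin n, j.val < r ∧ x.1 j ≠ y j}
    (1 : Mor (grid K y r) (grid K y r)) := by
  rintro x ⟨j, hj, hx⟩
  have h0 : 0 < dist (x.1 j) (y j) := dist_pos.2 hx
  refine ⟨dist (x.1 j) (y j) / 2, by positivity, ?_⟩
  filter_upwards [Metric.tendsto_nhds.1 (tendsto_pt_cen y) _ (half_pos h0)] with i hi a b _
  have h1 : dist (pt i b.1 j) (x.1 j) ≤ dist (pt i b.1) x.1 := dist_le_pi_dist _ _ j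
  have h2 : pt i b.1 j = pt i (cen y i) j := by simp only [pt, b.2.2 j hj]
  have h3 := dist_le_pi_dist (pt i (cen y i)) y j
  have h4 := dist_triangle (x.1 j) (pt i (cen y i) j) (y j)
  rw [dist_comm (x.1 j) (pt i (cen y i) j)] at h4
  change _ ≤ dist (pt i b.1) x.1
  rw [h2] at h1
  linarith

omit [CompactSpace K] in
theorem ga_ex_fun {i : ℕ} (G : (Fin n → ℤ) → ℂ) {m : Fin n → ℤ} (h : IsCell K y r i m) :
    ex (fun c : Cell K y r i => G c.1) m = G m := ex_pos _ h
theorem ex_eps {i : ℕ} (a : Unit) {m : Fin n → ℤ} (h : IsCell K y r i m) :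
    ex (epsG K y r i a) m = if ∀ j, Even (m j) then 1 else 0 := ex_pos _ h
theorem ex_mu {i : ℕ} (a : Unit) {m : Fin n → ℤ} (h : IsCell K y r i m) :
    ex (muG K y r i a) m = if ∀ j : Fin n, r ≤ j.val → Odd (m j) then 1 else 0 := ex_pos _ h
theorem eps_apply {i : ℕ} (a : Unit) (b : Cell K y r i) :
    epsG K y r i a b = if ∀ j, Even (b.1 j) then 1 else 0 := rfl
theorem mu_apply {i : ℕ} (a : Unit) (b : Cell K y r i) :
    muG K y r i a b = if ∀ j : Fin n, r ≤ j.val → Odd (b.1 j) then 1 else 0 := rfl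

theorem ga_tchain {a m : Fin n → ℤ} (h : ∀ j : Fin n, j.val < r → a j = m j ∧ Even (m j)) :
    cob (tEnt r a) m = tsg r m * dEnt (m + shf n r) a := by
  rw [dEnt_row, Finset.mul_sum]
  refine Finset.sum_congr rfl fun j _ => ?_
  by_cases hj : j.val < r
  · obtain ⟨h1, he⟩ := h j hj
    rw [if_neg (Int.not_odd_iff_even.2 he), if_neg (show ¬ a = m + shf n r - Pi.single j 1 from
      fun e => by have := congrFun e j; simp [h1, shf_low j hj] at this; omega),
      if_neg (show ¬ a = m + shf n r + Pi.single j 1 from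
      fun e => by have := congrFun e j; simp [h1, shf_low j hj] at this)]
    simp
  · have hj' := not_lt.1 hj
    have h4 : shf n r j = 1 := if_pos hj'
    have h5 : Even ((m + shf n r) j) ↔ Odd (m j) := by
      simp [h4, Int.even_add_one]
    simp only [h5, tEnt, add_right_comm m _ (shf n r), sub_add_eq_add_sub, tsg_add, tsg_sub,
      sgn_add, tsg_single hj', sgn_shf hj']
    split_ifs <;> ring

theorem ga_cob_ex {i : ℕ} (b : Cell K y r i) (hb : ∀ j, Odd (b.1 j) →
    pt i (b.1 + Pi.single j 1) ∈ K ∧ pt i (b.1 - Pi.single j 1) ∈ K) (G : (Fin n → ℤ) → ℂ) :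
    cob (ex fun c : Cell K y r i => G c.1) b.1 = cob G b.1 := by
  refine Finset.sum_congr rfl fun j _ => ?_
  split_ifs with h
  · rw [ex_pos _ (b.isCell_add (single_low (b.le_of_odd h)) (hb j h).1),
      ex_pos _ (b.isCell_sub (single_low (b.le_of_odd h)) (hb j h).2)]
  · rfl

theorem dG_sq_apply (i : ℕ) (b b'' : (grid K y r).β i) (hb : ∀ j, Odd (b.1 j) →
    pt i (b.1 + Pi.single j 1) ∈ K ∧ pt i (b.1 - Pi.single j 1) ∈ K) :
    (mat (dG K y r) i * mat (dG K y r) i) b'' b = 0 :=
  (mul_dG _ b'' b).trans ((ga_cob_ex K y r b hb (dEnt b''.1)).trans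
    (cob_cob (fun m => if b''.1 = m then 1 else 0) b.1))
theorem eps_dG_apply (i : ℕ) (b : (grid K y r).β i) (hb : ∀ j, Odd (b.1 j) →
    pt i (b.1 + Pi.single j 1) ∈ K ∧ pt i (b.1 - Pi.single j 1) ∈ K) :
    (epsG K y r i * mat (dG K y r) i) () b = 0 := by
  refine (mul_dG _ () b).trans ((ga_cob_ex K y r b hb
    (fun m => if ∀ j, Even (m j) then 1 else 0)).trans ?_)
  refine Finset.sum_eq_zero fun j _ => ?_
  have : (∀ k, Even ((b.1 + Pi.single j 1 : Fin n → ℤ) k)) ↔
      ∀ k, Even ((b.1 - Pi.single j 1 : Fin n → ℤ) k) :=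
    forall_congr' fun k => by simp [Int.even_add, Int.even_sub]
  simp only [this, sub_self, mul_zero, ite_self]
theorem mu_dG_apply (i : ℕ) (b : (grid K y r).β i) (hb : ∀ j,
    pt i (b.1 + Pi.single j 1) ∈ K ∧ pt i (b.1 - Pi.single j 1) ∈ K) :
    (muG K y r i * (mat (dG K y r) i)ᴴ) () b = 0 := by
  refine (mul_dG_dag _ () b).trans (Finset.sum_eq_zero fun j _ => ?_)
  split_ifs with h
  · by_cases hj : j.val < r
    · rw [ex_neg _ (Cell.not_sub b hj), ex_neg _ (Cell.not_add b hj), sub_self, mul_zero]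
    · rw [ex_mu K y r () (Cell.isCell_add b (single_low (not_lt.1 hj)) (hb j).1),
        ex_mu K y r () (Cell.isCell_sub b (single_low (not_lt.1 hj)) (hb j).2)]
      have : (∀ k : Fin n, r ≤ k.val → Odd ((b.1 - Pi.single j 1 : Fin n → ℤ) k)) ↔
          ∀ k : Fin n, r ≤ k.val → Odd ((b.1 + Pi.single j 1 : Fin n → ℤ) k) :=
        forall_congr' fun k => by simp [Int.odd_add, Int.odd_sub]
      simp only [this, sub_self, mul_zero]
  · rfl
theorem tri_dG : Tri (dG K y r) := by
  refine ⟨n, fun i b => n - deg b.1, fun i b => Nat.sub_le _ _, fun i g b' b h => ?_,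
    fun i b' b h => ?_⟩
  · by_contra hne
    exact h (one_apply_ne fun e => hne (by rw [e]))
  · have h1 := deg_dEnt (m' := b'.1) (m := b.1) h
    have h2 := deg_le b.1
    change n - deg b.1 < n - deg b'.1
    omega
theorem dG_sq : loc (intK K) (dG K y r) * loc (intK K) (dG K y r) = 0 := by
  rw [← DFun.map_mul, DagCat.Ideal.q_eq_zero]
  exact vanR_int fun i a b hb => dG_sq_apply K y r i b a fun j _ =>
    ⟨hb.add (abs_single j), hb.sub (abs_single j)⟩
theorem tG_dag_mul : Van (intK K) ((tG K y r).dag * tG K y r - 1) := by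
  refine vanR_int fun i a b hb => sub_eq_zero.2 ((mul_tG _ a b).trans ?_)
  rw [ex_pos _ (b.isCell_add shf_low (hb.add abs_shf))]
  change tsg r b.1 * star (tEnt r (b.1 + shf n r) a.1) = (1 : Matrix _ _ ℂ) a b
  rw [tEnt_star, tEnt]
  by_cases h : a = b
  · subst h
    rw [if_pos rfl, tsg_sq, one_apply_eq]
  · rw [if_neg (fun e => h (Subtype.ext (add_right_cancel e).symm)), mul_zero, one_apply_ne h]
theorem tG_mul_dag : Van (intK K) (tG K y r * (tG K y r).dag - 1) := by
  refine vanR_int fun i a b hb => sub_eq_zero.2 ((mul_tG_dag _ a b).trans ?_)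
  rw [ex_pos _ (b.isCell_sub shf_low (hb.sub abs_shf))]
  change tsg r (b.1 - shf n r) * tEnt r a.1 (b.1 - shf n r) = (1 : Matrix _ _ ℂ) a b
  rw [tEnt, sub_add_cancel]
  by_cases h : a = b
  · subst h
    rw [if_pos rfl, tsg_sq, one_apply_eq]
  · rw [if_neg (fun e => h (Subtype.ext e)), mul_zero, one_apply_ne h]
theorem tG_chain :
    Chain (loc (intK K) (dG K y r)) (loc (intK K) (dG K y r)).dag (loc (intK K) (tG K y r)) := by
  rw [← DFun.map_dag, chain_q]
  refine vanR_int fun i a b hb => sub_eq_zero.2 ?_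
  refine (mul_dG _ a b).trans (((ga_cob_ex K y r b (fun j _ =>
    ⟨hb.add (abs_single j), hb.sub (abs_single j)⟩) (tEnt r a.1)).trans ?_).trans
    (mul_tG _ a b).symm)
  rw [ex_pos _ (b.isCell_add shf_low (hb.add abs_shf))]
  change _ = tsg r b.1 * star (dEnt (b.1 + shf n r) a.1)
  rw [dEnt_star]
  exact ga_tchain r fun j hj => ⟨(a.2.2 j hj).trans (b.2.2 j hj).symm, Cell.even b hj⟩
theorem tG_dag_chain : Chain (loc (intK K) (dG K y r)).dag (loc (intK K) (dG K y r))
    (loc (intK K) (tG K y r)).dag := by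
  have h1 : (loc (intK K) (tG K y r)).dag * loc (intK K) (tG K y r) = 1 := by
    simpa using loc_eq.2 (tG_dag_mul K y r)
  have h2 : loc (intK K) (tG K y r) * (loc (intK K) (tG K y r)).dag = 1 := by
    simpa using loc_eq.2 (tG_mul_dag K y r)
  have h3 : loc (intK K) (tG K y r) * loc (intK K) (dG K y r) = _ := tG_chain K y r
  unfold Chain
  calc _ = (loc (intK K) (tG K y r)).dag * ((loc (intK K) (dG K y r)).dag *
        (loc (intK K) (tG K y r) * (loc (intK K) (tG K y r)).dag)) := by rw [h2, Hom.mul_one]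
    _ = _ := by
      rw [← Hom.assoc (loc (intK K) (dG K y r)).dag, ← h3, Hom.assoc, Hom.reassoc h1, Hom.one_mul]
theorem eps_dG : VanR (intK K) (grid K y r) (fun i => epsG K y r i * mat (dG K y r) i) :=
  vanR_int fun i _ b hb => eps_dG_apply K y r i b fun j _ =>
    ⟨hb.add (abs_single j), hb.sub (abs_single j)⟩
theorem mu_dG : VanR (intK K) (grid K y r) (fun i => muG K y r i * (mat (dG K y r) i)ᴴ) :=
  vanR_int fun i _ b hb => mu_dG_apply K y r i b fun j =>
    ⟨hb.add (abs_single j), hb.sub (abs_single j)⟩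
theorem eps_tG_dag : VanR (intK K) (grid K y r)
    (fun i => epsG K y r i * (mat (tG K y r) i)ᴴ - muG K y r i) := by
  refine vanR_int fun i a b hb => sub_eq_zero.2 ((mul_tG_dag _ a b).trans ?_)
  rw [ex_eps K y r a (b.isCell_sub shf_low (hb.sub abs_shf)), mu_apply]
  have : (∀ k : Fin n, r ≤ k.val → Odd (b.1 k)) ↔ ∀ k, Even ((b.1 - shf n r) k) :=
    forall_congr' fun k => by
      by_cases hk : k.val < r
      · simp [shf_low k hk, b.even hk, not_le.2 hk]
      · simp [shf, not_lt.1 hk, Int.even_sub_one]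
  simp only [this]
  split_ifs with h
  · rw [tsg_even r h, one_mul]
  · rw [mul_zero]
theorem mu_tG : VanR (intK K) (grid K y r)
    (fun i => muG K y r i * mat (tG K y r) i - epsG K y r i) := by
  refine vanR_int fun i a b hb => sub_eq_zero.2 ((mul_tG _ a b).trans ?_)
  rw [ex_mu K y r a (b.isCell_add shf_low (hb.add abs_shf)), eps_apply]
  have : (∀ k : Fin n, r ≤ k.val → Odd ((b.1 + shf n r) k)) ↔ ∀ k, Even (b.1 k) :=
    forall_congr' fun k => by
      by_cases hk : k.val < r
      · simp [b.even hk, not_le.2 hk]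
      · simp [shf, not_lt.1 hk, Int.odd_add]
  simp only [this]
  split_ifs with h
  · rw [tsg_even r h, one_mul]
  · rw [mul_zero]
theorem eps_tG0 : VanR (intK K) (grid K y 0)
    (fun i => epsG K y 0 i * mat (tG K y 0) i - omega n ^ 2 • muG K y 0 i) := by
  refine vanR_int fun i a b hb => sub_eq_zero.2 ((mul_tG _ a b).trans ?_)
  rw [ex_eps K y 0 a (b.isCell_add shf_low (hb.add abs_shf))]
  change _ = omega n ^ 2 * muG K y 0 i a b
  rw [mu_apply]
  have : (∀ k, Even ((b.1 + shf n 0) k)) ↔ ∀ k, Odd (b.1 k) :=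
    forall_congr' fun k => by simp [shf, Int.even_add_one]
  simp only [this, zero_le, forall_true_left]
  split_ifs with h
  · rw [tsg_odd h]
  · rw [mul_zero, mul_zero]
theorem mu_tG_dag0 : VanR (intK K) (grid K y 0)
    (fun i => muG K y 0 i * (mat (tG K y 0) i)ᴴ - omega n ^ 2 • epsG K y 0 i) := by
  refine vanR_int fun i a b hb => sub_eq_zero.2 ((mul_tG_dag _ a b).trans ?_)
  rw [ex_mu K y 0 a (b.isCell_sub shf_low (hb.sub abs_shf))]
  change _ = omega n ^ 2 * epsG K y 0 i a b
  rw [eps_apply]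
  have : (∀ k, Even (b.1 k)) ↔ ∀ k, Odd ((b.1 - shf n 0) k) :=
    forall_congr' fun k => by simp [shf, Int.odd_sub]
  simp only [this, zero_le, forall_true_left]
  split_ifs with h
  · rw [tsg_odd h]
  · rw [mul_zero, mul_zero]

theorem bG_herm : (bG K y).dag = bG K y := by
  rw [bG, Hom.dag_smul, Hom.dag_add, Hom.dag_dag, add_comm]
  simp [map_ofNat]
theorem bG_homog : Homog K y 0 (bG K y) := by
  intro i b' b h
  by_cases h1 : mat (tG K y 0) i b' b = 0
  · have h2 : mat (tG K y 0) i b b' ≠ 0 := fun h2 => h (by simp [bG, h1, h2])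
    have := deg_tG K y 0 (Nat.zero_le n) i b b' h2
    omega
  · exact deg_tG K y 0 (Nat.zero_le n) i b' b h1
theorem bG_chain :
    Chain (loc (intK K) (dG K y 0)) (loc (intK K) (dG K y 0)).dag (loc (intK K) (bG K y)) := by
  have h1 := tG_chain K y 0
  have h2 := h1.dag
  rw [Hom.dag_dag] at h2
  simpa [bG] using ((h1.smul (omega n)).add (h2.smul (starRingEnd ℂ (omega n)))).smul (1 / 2)
theorem bG_chain' :
    Chain (loc (intK K) (dG K y 0)).dag (loc (intK K) (dG K y 0)) (loc (intK K) (bG K y)) := by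
  have h2 := tG_dag_chain K y 0
  have h1 := h2.dag
  rw [Hom.dag_dag, Hom.dag_dag] at h1
  simpa [bG] using ((h1.smul (omega n)).add (h2.smul (starRingEnd ℂ (omega n)))).smul (1 / 2)
theorem omega_mul_conj : omega n * starRingEnd ℂ (omega n) = 1 := by
  rw [omega, map_pow, ← mul_pow, Complex.conj_I]
  simp
theorem omega_four : omega n ^ 4 = 1 := by
  rw [omega, ← pow_mul, mul_comm, pow_mul, Complex.I_pow_four, one_pow]
theorem mat_bG (i : ℕ) : mat (bG K y) i = (1 / 2 : ℂ) • (omega n • mat (tG K y 0) i +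
    starRingEnd ℂ (omega n) • (mat (tG K y 0) i)ᴴ) := by
  simp [bG]
theorem eps_bG : VanR (intK K) (grid K y 0)
    (fun i => epsG K y 0 i * mat (bG K y) i - (starRingEnd ℂ (omega n)) • muG K y 0 i) := by
  refine ((((eps_tG0 K y).smul fun _ => omega n).add ((eps_tG_dag K y 0).smul fun _ =>
    starRingEnd ℂ (omega n))).smul fun _ => 1 / 2).congr (Eventually.of_forall fun i => ?_)
  have h1 : starRingEnd ℂ (omega n) = omega n ^ 3 := by
    linear_combination omega n ^ 3 * omega_mul_conj (n := n)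
      - starRingEnd ℂ (omega n) * omega_four (n := n)
  simp only [mat_bG, Matrix.mul_smul, Matrix.mul_add, h1]
  module
theorem mu_bG : VanR (intK K) (grid K y 0)
    (fun i => muG K y 0 i * mat (bG K y) i - omega n • epsG K y 0 i) := by
  refine ((((mu_tG K y 0).smul fun _ => omega n).add ((mu_tG_dag0 K y).smul fun _ =>
    starRingEnd ℂ (omega n))).smul fun _ => 1 / 2).congr (Eventually.of_forall fun i => ?_)
  simp only [mat_bG, Matrix.mul_smul, Matrix.mul_add]
  match_scalars
  · ring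
  · linear_combination (-1 / 2 * omega n) * omega_mul_conj (n := n)
  · ring

theorem ga_rows {A : ℕ → Type} {e : ∀ i, Matrix (A i) ((grid K y r).β i) ℂ}
    {x : Fin n → ℝ} {R : ℝ} (h : VanR {z : K | z.1 ∈ Metric.ball x R} (grid K y r) e) {R' : ℝ}
    (hR : R' < R) : ∀ᶠ i in atTop, ∀ a (b : Cell K y r i), dist (pt i b.1) x ≤ R' → e i a b = 0 := by
  obtain ⟨ρ, hρ, h1⟩ := h.compact (K := {z : K | z.1 ∈ Metric.closedBall x R'})
    (Metric.isClosed_closedBall.preimage continuous_subtype_val).isCompact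
    (fun z hz => Metric.closedBall_subset_ball hR hz)
  filter_upwards [h1] with i hi a b hb
  by_contra hc
  have := hi a b hc _ (show (grid K y r).pos i b ∈ {z : K | z.1 ∈ Metric.closedBall x R'} from hb)
  rw [dist_self] at this
  linarith

omit [CompactSpace K] in
theorem ga_const {i : ℕ} {x : Fin n → ℝ} {R R' : ℝ} (hB : Metric.ball x R ⊆ interior K) (hR : R' < R)
    (c : ℤ) (g : Cell K y r i → ℂ)
    (step : ∀ (m : Cell K y r i) (j : Fin n), r ≤ j.val → dist (pt i m.1) x ≤ R' →
      (∀ k, Even ((m.1 - Pi.single j 1 : Fin n → ℤ) k - c)) →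
      ex g (m.1 - Pi.single j 1) = ex g (m.1 + Pi.single j 1))
    (b b' : Cell K y r i) (hb : ∀ k, Even (b.1 k - c)) (hb' : ∀ k, Even (b'.1 k - c))
    (h : dist (pt i b.1) x ≤ R') (h' : dist (pt i b'.1) x ≤ R') : g b = g b' := by
  rw [← ex_cell g b, ← ex_cell g b']
  refine ga_walk (fun m => dist (pt i m) x ≤ R' ∧ ∀ j : Fin n, j.val < r → m j = cen y i j)
    (fun u v m hu hv hm => ⟨ga_box hu.1 hv.1 hm, fun j hj => ?_⟩) c (ex g)
    (fun m j hm he h1 _ => ?_) _ b.1 b'.1 le_rfl ⟨h, b.2.2⟩ ⟨h', b'.2.2⟩ hb hb'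
  · have := hm j
    rw [hu.2 j hj, hv.2 j hj] at this
    omega
  · refine step ⟨m, interior_subset (hB (hm.1.trans_lt hR)), hm.2⟩ j (not_lt.1 fun hj => ?_) hm.1 he
    have := h1.2 j hj
    rw [← hm.2 j hj] at this
    simp at this

/-- Cocycles supported on vertices are constant on balls. -/
theorem rows_const_eps {A : ℕ → Type} {η : ∀ i, Matrix (A i) ((grid K y r).β i) ℂ}
    {x : Fin n → ℝ} {R : ℝ} (hB : Metric.ball x R ⊆ interior K)
    (h : VanR {z : K | z.1 ∈ Metric.ball x R} (grid K y r) (fun i => η i * mat (dG K y r) i))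
    (hs : ∀ i a b, η i a b ≠ 0 → ∀ j, Even (b.1 j)) {R' : ℝ} (hR : R' < R) :
    ∀ᶠ i in atTop, ∀ a (b b' : (grid K y r).β i), (∀ j, Even (b.1 j)) → (∀ j, Even (b'.1 j)) →
      dist (pt i b.1) x ≤ R' → dist (pt i b'.1) x ≤ R' → η i a b = η i a b' := by
  filter_upwards [ga_rows K y r h hR] with i hi a b b' hb hb'
  refine ga_const K y r hB hR 0 (η i a) (fun m j _ hm he => ?_) b b' (by simpa using hb)
    (by simpa using hb')
  have h1 := (mul_dG (η i) a m).symm.trans (hi a m hm)
  have h2 : Odd (m.1 j) := by simpa [Int.even_sub_one] using he j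
  rw [cob, Finset.sum_eq_single j (fun k _ hk => if_neg (by simpa [hk] using he k))
    (fun h' => (h' (Finset.mem_univ _)).elim), if_pos h2] at h1
  exact (sub_eq_zero.1 ((mul_eq_zero.1 h1).resolve_left (sgn_ne _ _))).symm

/-- Cycles supported on top cells are constant on balls. -/
theorem rows_const_mu {A : ℕ → Type} {η : ∀ i, Matrix (A i) ((grid K y 0).β i) ℂ}
    {x : Fin n → ℝ} {R : ℝ} (hB : Metric.ball x R ⊆ interior K)
    (h : VanR {z : K | z.1 ∈ Metric.ball x R} (grid K y 0) (fun i => η i * (mat (dG K y 0) i)ᴴ))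
    (hs : ∀ i a b, η i a b ≠ 0 → ∀ j, Odd (b.1 j)) {R' : ℝ} (hR : R' < R) :
    ∀ᶠ i in atTop, ∀ a (b b' : (grid K y 0).β i), (∀ j, Odd (b.1 j)) → (∀ j, Odd (b'.1 j)) →
      dist (pt i b.1) x ≤ R' → dist (pt i b'.1) x ≤ R' → η i a b = η i a b' := by
  filter_upwards [ga_rows K y 0 h hR] with i hi a b b' hb hb'
  refine ga_const K y 0 hB hR 1 (η i a) (fun m j _ hm he => ?_) b b'
    (by simpa [Int.even_sub_one] using hb) (by simpa [Int.even_sub_one] using hb')
  have h1 := (mul_dG_dag (η i) a m).symm.trans (hi a m hm)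
  have h2 : Even (m.1 j) := by simpa [Int.even_sub_one] using he j
  rw [Finset.sum_eq_single j (fun k _ hk => if_neg (by simpa [hk, Int.even_sub_one] using he k))
    (fun h' => (h' (Finset.mem_univ _)).elim), if_pos h2] at h1
  exact sub_eq_zero.1 ((mul_eq_zero.1 h1).resolve_left (sgn_ne _ _))

end Vale.Agent.P228
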