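import Vale.Agent.P228.GridA
import Vale.Agent.P228.AC

/-! Part GridB: local acyclicity of the grid. -/

namespace Vale.Agent.P228

open Filter Matrix DagCat Set

variable {n : ℕ} (K : Set (Fin n → ℝ)) [CompactSpace K] (y : Fin n → ℝ) (r : ℕ)

/-- membership in a box -/
def Bx (lo hi m : Fin n → ℤ) : Prop := ∀ j, lo j ≤ m j ∧ m j ≤ hi j

theorem Bx.add {lo hi m : Fin n → ℤ} (h : Bx lo hi m) {j : Fin n} (hj : m j < hi j) :
    Bx lo hi (m + Pi.single j 1) := fun k => by
  by_cases hk : k = j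
  · subst hk; have := h k; simp only [Pi.add_apply, Pi.single_eq_same]; omega
  · simpa [hk] using h k
theorem Bx.sub {lo hi m : Fin n → ℤ} (h : Bx lo hi m) {j : Fin n} (hj : lo j < m j) :
    Bx lo hi (m - Pi.single j 1) := fun k => by
  by_cases hk : k = j
  · subst hk; have := h k; simp only [Pi.sub_apply, Pi.single_eq_same]; omega
  · simpa [hk] using h k
theorem Bx.add_odd {lo hi m : Fin n → ℤ} (hhi : ∀ j, Even (hi j)) (h : Bx lo hi m) {j : Fin n}
    (hj : Odd (m j)) : Bx lo hi (m + Pi.single j 1) := h.add (by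
  obtain ⟨a, ha⟩ := hhi j
  obtain ⟨b, hb⟩ := hj
  have := h j
  omega)
theorem Bx.sub_odd {lo hi m : Fin n → ℤ} (hlo : ∀ j, Even (lo j)) (h : Bx lo hi m) {j : Fin n}
    (hj : Odd (m j)) : Bx lo hi (m - Pi.single j 1) := h.sub (by
  obtain ⟨a, ha⟩ := hlo j
  obtain ⟨b, hb⟩ := hj
  have := h j
  omega)

variable {K y r}

omit [CompactSpace K] in
theorem gb_ex {i : ℕ} {P : (Fin n → ℤ) → Prop} {z : Cell K y r i → ℂ} (hz : ∀ b, z b ≠ 0 → P b.1)
    {m : Fin n → ℤ} (h : ex z m ≠ 0) : P m := by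
  by_cases hm : IsCell K y r i m
  · rw [ex_pos z hm] at h
    exact hz _ h
  · exact (h (ex_neg z hm)).elim

theorem gb_supp {i : ℕ} {lo hi : Fin n → ℤ} (hlo : ∀ j, Even (lo j)) (hhi : ∀ j, Even (hi j))
    {w : Cell K y r i → ℂ} (hw : ∀ b, w b ≠ 0 → Bx lo hi b.1) (b : Cell K y r i)
    (h : (mat (dG K y r) i *ᵥ w) b ≠ 0) : Bx lo hi b.1 := by
  rw [dG_mulVec] at h
  obtain ⟨k, -, hk⟩ := Finset.exists_ne_zero_of_sum_ne_zero h
  have he : Even (b.1 k) := by
    by_contra hc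
    exact hk (if_neg hc)
  rw [if_pos he] at hk
  have h1 := right_ne_zero_of_mul hk
  by_cases h2 : ex w (b.1 - Pi.single k 1) = 0
  · have h3 : ex w (b.1 + Pi.single k 1) ≠ 0 := fun h3 => h1 (by rw [h2, h3, sub_zero])
    have := (gb_ex (P := Bx lo hi) hw h3).sub_odd hlo (j := k) (by simpa using he.add_one)
    rwa [add_sub_cancel_right] at this
  · have := (gb_ex (P := Bx lo hi) hw h2).add_odd hhi (j := k) (by simpa using he.sub_odd odd_one)
    rwa [sub_add_cancel] at this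

theorem gb_mulVec {i : ℕ} {A : Type} {M : Matrix A ((grid K y r).β i) ℂ} {w : Cell K y r i → ℂ}
    (h : ∀ b, w b ≠ 0 → ∀ a, M a b = 0) : M *ᵥ w = 0 := by
  funext a
  refine Finset.sum_eq_zero fun b _ => ?_
  by_cases hb : w b = 0
  · exact mul_eq_zero_of_right _ hb
  · exact mul_eq_zero_of_left (h b hb a) _

/-- the boundary at the top level of a box -/
theorem gb_top {i : ℕ} {z : Cell K y r i → ℂ} {j : Fin n} (b : Cell K y r i) (he : Even (b.1 j))
    (hz : ∀ m, ex z m ≠ 0 → m j < b.1 j) :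
    (mat (dG K y r) i *ᵥ z) b = sgn b.1 j * ex z (b.1 - Pi.single j 1) := by
  have h0 : ∀ m : Fin n → ℤ, b.1 j ≤ m j → ex z m = 0 := fun m hm => by
    by_contra hc
    exact absurd (hz m hc) (not_lt.2 hm)
  rw [dG_mulVec, Finset.sum_eq_single j (fun k _ hk => ?_) (fun h => (h (Finset.mem_univ _)).elim),
    if_pos he, h0 (b.1 + Pi.single j 1) (by simp), sub_zero]
  rw [h0 (b.1 + Pi.single k 1) (by simp [hk.symm]), h0 (b.1 - Pi.single k 1) (by simp [hk.symm]),
    sub_self, mul_zero, ite_self]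

theorem gb_aux (i : ℕ) (lo : Fin n → ℤ) (hlo : ∀ j, Even (lo j)) (N : ℕ) :
    ∀ hi : Fin n → ℤ, (∀ j, Even (hi j)) → ∑ j, (hi j - lo j).toNat ≤ N →
    (∀ m, Bx lo hi m → IsCell K y r i m) → ∀ z : Cell K y r i → ℂ, (∀ b, z b ≠ 0 → Bx lo hi b.1) →
    mat (dG K y r) i *ᵥ z = 0 → epsG K y r i *ᵥ z = 0 →
    ∃ w : Cell K y r i → ℂ, (∀ b, w b ≠ 0 → Bx lo hi b.1) ∧
      mat (dG K y r) i *ᵥ w = z ∧ epsG K y r i *ᵥ w = 0 := by
  have base : ∀ hi : Fin n → ℤ, (∀ j, hi j ≤ lo j) → ∀ z : Cell K y r i → ℂ,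
      (∀ b, z b ≠ 0 → Bx lo hi b.1) → epsG K y r i *ᵥ z = 0 →
      ∃ w : Cell K y r i → ℂ, (∀ b, w b ≠ 0 → Bx lo hi b.1) ∧
        mat (dG K y r) i *ᵥ w = z ∧ epsG K y r i *ᵥ w = 0 := by
    intro hi hh z hz he
    refine ⟨0, fun b hb => (hb rfl).elim, (mulVec_zero _).trans (funext fun b => ?_), mulVec_zero _⟩
    by_contra hb
    have h1 : ∀ c, z c ≠ 0 → c.1 = lo := fun c hc => funext fun j =>
      le_antisymm ((hz c hc j).2.trans (hh j)) (hz c hc j).1
    have h2 : ∑ c, epsG K y r i () c * z c = 0 := congrFun he ()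
    have h3 : ∑ c, epsG K y r i () c * z c = epsG K y r i () b * z b :=
      Finset.sum_eq_single b (fun c _ hc => mul_eq_zero_of_right _ (by
        by_contra h4
        exact hc (Subtype.ext ((h1 c h4).trans (h1 b (Ne.symm hb)).symm))))
        (fun h => (h (Finset.mem_univ (α := Cell K y r i) _)).elim)
    rw [h3, eps_apply, h1 b (Ne.symm hb), if_pos hlo, one_mul] at h2
    exact hb h2.symm
  induction N with
  | zero =>
    intro hi _ hN _ z hz _ he
    refine base hi (fun j => ?_) z hz he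
    have := Finset.sum_eq_zero_iff.1 (Nat.le_zero.1 hN) j (Finset.mem_univ j)
    omega
  | succ N ih =>
    intro hi hhi hN hc z hz hd he
    by_cases hh : ∀ j, hi j ≤ lo j
    · exact base hi hh z hz he
    obtain ⟨j, hj⟩ := not_forall.1 hh
    have hj2 : lo j + 2 ≤ hi j := by
      obtain ⟨a, ha⟩ := hhi j
      obtain ⟨b, hb⟩ := hlo j
      omega
    set W : (Fin n → ℤ) → ℂ := fun m =>
      if m j = hi j - 1 then sgn m j * ex z (m + Pi.single j 1) else 0 with hW
    have hWs : ∀ m, W m ≠ 0 → m j = hi j - 1 ∧ Bx lo hi m := fun m hm => by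
      have h1 : m j = hi j - 1 := by
        by_contra h
        exact hm (if_neg h)
      rw [hW] at hm
      simp only [h1, if_true] at hm
      have := (gb_ex (P := Bx lo hi) hz (right_ne_zero_of_mul hm)).sub (j := j)
        (by simp only [Pi.add_apply, Pi.single_eq_same]; omega)
      rw [add_sub_cancel_right] at this
      exact ⟨h1, this⟩
    set w : Cell K y r i → ℂ := fun b => W b.1 with hw
    have hex : ∀ m, ex w m = W m := fun m => by
      by_cases hm : IsCell K y r i m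
      · exact ex_pos w hm
      · rw [ex_neg w hm]
        by_contra h
        exact hm (hc m (hWs m (Ne.symm h)).2)
    have hwb : ∀ b, w b ≠ 0 → Bx lo hi b.1 := fun b hb => (hWs _ hb).2
    have hnb : ∀ b, w b ≠ 0 → ∀ k, Odd (b.1 k) →
        pt i (b.1 + Pi.single k 1) ∈ K ∧ pt i (b.1 - Pi.single k 1) ∈ K := fun b hb k hk =>
      ⟨(hc _ ((hwb b hb).add_odd hhi hk)).1, (hc _ ((hwb b hb).sub_odd hlo hk)).1⟩
    have hew : epsG K y r i *ᵥ w = 0 := gb_mulVec fun b hb a => by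
      rw [eps_apply, if_neg]
      intro h
      obtain ⟨a, ha⟩ := hhi j
      obtain ⟨b, hb⟩ := (hWs _ hb).1 ▸ h j
      omega
    set z' : Cell K y r i → ℂ := z - mat (dG K y r) i *ᵥ w with hz'
    have h1 : ∀ b, z' b ≠ 0 → Bx lo hi b.1 := fun b hb => by
      by_cases h : z b = 0
      · exact gb_supp hlo hhi hwb b fun h' => hb (sub_eq_zero.2 (h.trans h'.symm))
      · exact hz b h
    have h2 : ∀ b, z' b ≠ 0 → b.1 j < hi j := fun b hb => by
      refine lt_of_le_of_ne (h1 b hb j).2 fun h => hb (sub_eq_zero.2 ?_)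
      rw [gb_top b (h ▸ hhi j) (fun m hm => by rw [hex] at hm; have := (hWs m hm).1; omega), hex, hW]
      simp only [Pi.sub_apply, Pi.single_eq_same, h, if_true, sub_add_cancel, sgn_sub, sgn_single,
        lt_irrefl, if_false, mul_one]
      rw [← mul_assoc, sgn_sq, one_mul, ex_cell]
    have hd' : mat (dG K y r) i *ᵥ z' = 0 := by
      refine (mulVec_sub _ _ _).trans ?_
      rw [hd, mulVec_mulVec, zero_sub, neg_eq_zero]
      exact gb_mulVec fun b hb a => dG_sq_apply K y r i b a (hnb b hb)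
    have he' : epsG K y r i *ᵥ z' = 0 := by
      refine (mulVec_sub _ _ _).trans ?_
      rw [he, mulVec_mulVec, zero_sub, neg_eq_zero]
      exact gb_mulVec fun b hb a => eps_dG_apply K y r i b (hnb b hb)
    have h3 : ∀ b, z' b ≠ 0 → Bx lo (hi - Pi.single j 2) b.1 := fun b hb k => by
      refine ⟨(h1 b hb k).1, ?_⟩
      by_cases hk : k = j
      swap
      · simpa [hk] using (h1 b hb k).2
      subst hk
      simp only [Pi.sub_apply, Pi.single_eq_same]
      by_contra h4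
      have h5 : b.1 k + 1 = hi k := by have := h2 b hb; omega
      have h6 := hc _ ((h1 b hb).add (h2 b hb))
      have h7 := gb_top (z := z') (j := k) ⟨_, h6⟩ (by simpa [h5] using hhi k) (fun m hm => by
        simpa [h5] using gb_ex (P := fun m => m k < hi k) h2 hm)
      rw [hd'] at h7
      have h8 := (mul_eq_zero.1 h7.symm).resolve_left (sgn_ne _ _)
      simp only [add_sub_cancel_right] at h8
      exact hb ((ex_cell z' b).symm.trans h8)
    have hsub : ∀ m, Bx lo (hi - Pi.single j 2) m → Bx lo hi m := fun m hm k => by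
      refine ⟨(hm k).1, (hm k).2.trans ?_⟩
      by_cases hk : k = j
      · subst hk; simp
      · simp [hk]
    obtain ⟨w', hw1, hw2, hw3⟩ := ih (hi - Pi.single j 2) (fun k => by
      by_cases hk : k = j
      · subst hk; simpa using (hhi k).sub even_two
      · simpa [hk] using hhi k) (Nat.le_of_lt_succ (lt_of_lt_of_le (Finset.sum_lt_sum
        (fun k _ => by
          by_cases hk : k = j
          · subst hk; simp only [Pi.sub_apply, Pi.single_eq_same]; omega
          · simp [hk]) ⟨j, Finset.mem_univ j, by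
          simp only [Pi.sub_apply, Pi.single_eq_same]; omega⟩) hN))
      (fun m hm => hc m (hsub m hm)) z' h3 hd' he'
    refine ⟨w + w', fun b hb => ?_, (mulVec_add _ _ _).trans ?_, (mulVec_add _ _ _).trans ?_⟩
    · by_cases h : w b = 0
      · exact hsub _ (hw1 b fun h' => hb (by rw [Pi.add_apply, h, h', add_zero]))
      · exact hwb b h
    · rw [hw2, hz']
      exact add_sub_cancel _ _
    · rw [hew, hw3, add_zero]

variable (K y r)

/-- Boxes with even end points are acyclic. -/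
theorem box_acyc (i : ℕ) (lo hi : Fin n → ℤ) (hlo : ∀ j, Even (lo j)) (hhi : ∀ j, Even (hi j))
    (hK : ∀ m : Fin n → ℤ, (∀ j, lo j ≤ m j ∧ m j ≤ hi j) → pt i m ∈ K)
    (z : (grid K y r).β i → ℂ) (hz : ∀ b, z b ≠ 0 → ∀ j, lo j ≤ b.1 j ∧ b.1 j ≤ hi j)
    (hd : mat (dG K y r) i *ᵥ z = 0) (he : epsG K y r i *ᵥ z = 0) :
    ∃ w : (grid K y r).β i → ℂ, (∀ b, w b ≠ 0 → ∀ j, lo j ≤ b.1 j ∧ b.1 j ≤ hi j) ∧
      mat (dG K y r) i *ᵥ w = z ∧ epsG K y r i *ᵥ w = 0 := by
  by_cases h0 : z = 0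
  · exact ⟨0, fun b hb => (hb rfl).elim, (mulVec_zero _).trans h0.symm, mulVec_zero _⟩
  obtain ⟨b0, hb0⟩ := Function.ne_iff.1 h0
  have hsub : ∀ m, Bx (fun j => if j.val < r then cen y i j else lo j)
      (fun j => if j.val < r then cen y i j else hi j) m → Bx lo hi m := fun m hm j => by
    have h1 := hm j
    by_cases hj : j.val < r
    · have h2 := hz b0 hb0 j
      rw [b0.2.2 j hj] at h2
      simp only [hj, if_true] at h1
      omega
    · simpa only [hj, if_false] using h1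
  obtain ⟨w, h1, h2⟩ := gb_aux (K := K) (y := y) (r := r) i
    (fun j => if j.val < r then cen y i j else lo j)
    (fun j => by split_ifs; exacts [cen_even y i j, hlo j]) _
    (fun j => if j.val < r then cen y i j else hi j)
    (fun j => by split_ifs; exacts [cen_even y i j, hhi j]) le_rfl
    (fun m hm => ⟨hK m (hsub m hm), fun j hj => by
      have h1 := hm j
      simp only [hj, if_true] at h1
      omega⟩) z (fun b hb j => by
      dsimp only
      split_ifs with hj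
      · exact ⟨(b.2.2 j hj).ge, (b.2.2 j hj).le⟩
      · exact hz b hb j) hd he
  exact ⟨w, fun b hb => hsub _ (h1 b hb), h2⟩

theorem ball_acyc (i : ℕ) {x : Fin n → ℝ} {ρ : ℝ}
    (hK : Metric.closedBall x (ρ + 2 / ((i : ℝ) + 1)) ⊆ K)
    (z : (grid K y r).β i → ℂ) (hz : ∀ b, z b ≠ 0 → dist (pt i b.1) x ≤ ρ)
    (hd : mat (dG K y r) i *ᵥ z = 0) (he : epsG K y r i *ᵥ z = 0) :
    ∃ w : (grid K y r).β i → ℂ, (∀ b, w b ≠ 0 → dist (pt i b.1) x ≤ ρ + 2 / ((i : ℝ) + 1)) ∧
      mat (dG K y r) i *ᵥ w = z ∧ epsG K y r i *ᵥ w = 0 := by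
  by_cases h0 : z = 0
  · exact ⟨0, fun b hb => (hb rfl).elim, (mulVec_zero _).trans h0.symm, mulVec_zero _⟩
  obtain ⟨b0, hb0⟩ := Function.ne_iff.1 h0
  have hρ : 0 ≤ ρ := dist_nonneg.trans (hz b0 hb0)
  have hi : (0 : ℝ) < i + 1 := by positivity
  have hbox : ∀ m : Fin n → ℤ, (∀ j, 2 * ⌊((i : ℝ) + 1) * (x j - ρ) / 2⌋ ≤ m j ∧
      m j ≤ 2 * ⌈((i : ℝ) + 1) * (x j + ρ) / 2⌉) → dist (pt i m) x ≤ ρ + 2 / ((i : ℝ) + 1) := by
    intro m hm
    rw [dist_pi_le_iff (by positivity)]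
    intro j
    have h1 : (2 * ⌊((i : ℝ) + 1) * (x j - ρ) / 2⌋ : ℝ) ≤ m j := by exact_mod_cast (hm j).1
    have h2 : (m j : ℝ) ≤ 2 * ⌈((i : ℝ) + 1) * (x j + ρ) / 2⌉ := by exact_mod_cast (hm j).2
    have h3 := Int.lt_floor_add_one (((i : ℝ) + 1) * (x j - ρ) / 2)
    have h4 := Int.ceil_lt_add_one (((i : ℝ) + 1) * (x j + ρ) / 2)
    have h5 : pt i m j - x j = (m j - (i + 1) * x j) / (i + 1) := by
      simp only [pt]; field_simp
    have h6 : ρ + 2 / ((i : ℝ) + 1) = ((i + 1) * ρ + 2) / (i + 1) := by field_simp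
    rw [Real.dist_eq, h5, h6, abs_div, abs_of_pos hi]
    gcongr
    rw [abs_le]
    constructor <;> linarith
  obtain ⟨w, h1, h2⟩ := box_acyc K y r i (fun j => 2 * ⌊((i : ℝ) + 1) * (x j - ρ) / 2⌋)
    (fun j => 2 * ⌈((i : ℝ) + 1) * (x j + ρ) / 2⌉) (fun j => even_two_mul _)
    (fun j => even_two_mul _) (fun m hm => hK (hbox m hm)) z (fun b hb j => by
      have h1 := (dist_le_pi_dist _ _ j).trans (hz b hb)
      have h3 := Int.floor_le (((i : ℝ) + 1) * (x j - ρ) / 2)
      have h4 := Int.le_ceil (((i : ℝ) + 1) * (x j + ρ) / 2)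
      rw [Real.dist_eq, abs_le, pt, le_sub_iff_add_le, sub_le_iff_le_add, le_div_iff₀ hi,
        div_le_iff₀ hi] at h1
      constructor
      · have : (2 * ⌊((i : ℝ) + 1) * (x j - ρ) / 2⌋ : ℝ) ≤ b.1 j := by linarith [h1.1]
        exact_mod_cast this
      · have : (b.1 j : ℝ) ≤ 2 * ⌈((i : ℝ) + 1) * (x j + ρ) / 2⌉ := by linarith [h1.2]
        exact_mod_cast this) hd he
  exact ⟨w, fun b hb => hbox _ (h1 b hb), h2⟩

theorem acyc_grid : Acyc (intK K) (dG K y r) (epsG K y r) := by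
  intro x hx ρ hρ
  obtain ⟨ε, hε, hb⟩ := Metric.mem_nhds_iff.1 (mem_interior_iff_mem_nhds.1 hx)
  have h0 : 0 < min ρ ε := lt_min hρ hε
  refine ⟨min ρ ε / 3, by positivity, ?_⟩
  filter_upwards [(tendsto_one_div_add_atTop_nhds_zero_nat (𝕜 := ℝ)).eventually
    (gt_mem_nhds (show 0 < min ρ ε / 3 by positivity))] with i hi z hz hd he
  have h1 : min ρ ε / 3 + 2 / ((i : ℝ) + 1) < min ρ ε := by
    rw [← mul_one_div 2]; linarith
  obtain ⟨w, h2, h3⟩ := ball_acyc K y r i (x := x.1) (ρ := min ρ ε / 3)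
    ((Metric.closedBall_subset_ball (h1.trans_le (min_le_right _ _))).trans hb) z
    (fun b hb => (hz b hb).le) hd he
  exact ⟨w, fun b hb => (h2 b hb).trans_lt (h1.trans_le (min_le_left _ _)), h3⟩

theorem grid_vertices : ∀ x ∈ intK K, ∀ ρ > 0, ∀ᶠ i in atTop, ∃ v : (grid K y 0).β i → ℂ,
    (∀ b, v b ≠ 0 → dist ((grid K y 0).pos i b) x < ρ) ∧ mat (dG K y 0) i *ᵥ v = 0 ∧
      epsG K y 0 i *ᵥ v = 1 := by
  intro x hx ρ hρ
  filter_upwards [(tendsto_pt_cen x.1).eventually (mem_interior_iff_mem_nhds.1 hx),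
    Metric.tendsto_nhds.1 (tendsto_pt_cen x.1) ρ hρ] with i h1 h2
  have hv : ∀ b : Cell K y 0 i, (if b.1 = cen x.1 i then (1 : ℂ) else 0) ≠ 0 → b.1 = cen x.1 i :=
    fun b hb => by
      by_contra h
      exact hb (if_neg h)
  refine ⟨fun b => if b.1 = cen x.1 i then 1 else 0, fun b hb => ?_, gb_mulVec fun b hb a => ?_,
    funext fun a => ?_⟩
  · change dist (pt i b.1) x.1 < ρ
    rw [hv b hb]; exact h2
  · by_contra h
    obtain ⟨j, hj, -⟩ := dEnt_ne (m' := a.1) (m := b.1) h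
    rw [hv b hb] at hj
    exact Int.not_odd_iff_even.2 (cen_even _ _ _) hj
  · refine (sum_delta (epsG K y 0 i a) (cen x.1 i)).trans ?_
    rw [ex_eps K y 0 a ⟨h1, fun j hj => absurd hj (Nat.not_lt_zero _)⟩, if_pos (cen_even _ _)]
    rfl

theorem bG_sq : Null (loc (intK K) (dG K y 0)) (loc (intK K) (dG K y 0))
    (loc (intK K) (bG K y) * loc (intK K) (bG K y) - 1) := by
  have h := ac_null' (isOpen_intK K) (tri_dG K y 0) (dG_sq K y 0) (acyc_grid K y 0)
    (f := bG K y * bG K y - 1)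
    (by simpa using ((bG_chain' K y).mul (bG_chain K y)).sub Chain.one)
    ((((eps_bG K y).mul_ctl (mat_ctl (bG K y))).add ((mu_bG K y).smul
      fun _ => starRingEnd ℂ (omega n))).congr (Eventually.of_forall fun i => by
        simp only [mat_sub, mat_mul, mat_one, Matrix.sub_mul, Matrix.mul_sub, Matrix.smul_mul,
          Matrix.mul_one, Matrix.mul_assoc, smul_sub, smul_smul, mul_comm _ (omega n),
          omega_mul_conj, one_smul]
        abel))
  simpa using h

theorem poinc_bG : Poinc (loc (intK K) (dG K y 0)) (loc (intK K) (bG K y)) := by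
  have hh : (loc (intK K) (bG K y)).dag = loc (intK K) (bG K y) := by
    rw [← DFun.map_dag, bG_herm]
  refine ⟨⟨dG_sq K y 0, hh, bG_chain K y⟩, bG_chain K y, _, bG_chain' K y, bG_sq K y, ?_⟩
  simpa [hh] using (bG_sq K y).dag

end Vale.Agent.P228
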