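import Vale.Agent.P228.Grid
import Vale.Agent.P228.AC

/-! Part Ind: induction and averaging for the `p`-adic quotients. -/

namespace Vale.Agent.P228

open Filter Matrix DagCat Set

noncomputable section

set_option linter.unusedSectionVars false

variable (p : ℕ) [Fact p.Prime] (a : ℕ) {Y : Type} [MetricSpace Y] [CompactSpace Y]
  [AddAction ℤ_[p] Y] [ContinuousVAdd ℤ_[p] Y]

/-- Invariant sets. -/
def InvSet (U : Set Y) : Prop := ∀ t : ℤ_[p], ∀ x ∈ U, t +ᵥ x ∈ U

theorem inv_of_vadd {α : Type} {u : Y → α} (h : ∀ (t : ℤ_[p]) x, u (t +ᵥ x) = u x) :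
    (grpP p a Y).Inv u := by
  rintro i g y y' ⟨t, -, rfl⟩
  exact h t y

theorem ind_unif {ε : ℝ} (hε : 0 < ε) : ∃ δ > 0, ∀ (t t' : ℤ_[p]) (x y : Y), dist t t' < δ →
    dist x y < δ → dist (t +ᵥ x) (t' +ᵥ y) < ε := by
  obtain ⟨δ, hδ, h⟩ := Metric.uniformContinuous_iff.1 (CompactSpace.uniformContinuous_of_continuous
    (continuous_vadd (M := ℤ_[p]) (X := Y))) ε hε
  exact ⟨δ, hδ, fun t t' x y h1 h2 => h (a := (t, x)) (b := (t', y)) (max_lt h1 h2)⟩

theorem ind_orb {U : Set Y} (hU : InvSet p U) {y : Y} (hy : y ∈ U) :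
    IsCompact (range fun t : ℤ_[p] => t +ᵥ y) ∧ (range fun t : ℤ_[p] => t +ᵥ y) ⊆ U :=
  ⟨isCompact_range (by fun_prop), by rintro _ ⟨t, rfl⟩; exact hU t y hy⟩

theorem ind_van {U : Set Y} (hU : InvSet p U) {Γ Γ' : Grp Y} {X : Obj Γ} {X' : Obj Γ'}
    {A A' : ℕ → Type} {e : ∀ i, Matrix (A i) (X.β i) ℂ} {e' : ∀ i, Matrix (A' i) (X'.β i) ℂ}
    (he : VanR U X e) (h : ∀ i c' b', e' i c' b' ≠ 0 →
      ∃ c b, e i c b ≠ 0 ∧ ∃ t : ℤ_[p], X'.pos i b' = t +ᵥ X.pos i b) : VanR U X' e' := by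
  intro y hy
  obtain ⟨r, hr, h1⟩ := he.compact (ind_orb p hU hy).1 (ind_orb p hU hy).2
  obtain ⟨δ, hδ, h2⟩ := ind_unif p (Y := Y) hr
  refine ⟨δ, hδ, h1.mono fun i hi c' b' hb => not_lt.1 fun h3 => ?_⟩
  obtain ⟨c, b, h4, t, h5⟩ := h i c' b' hb
  have := h2 (-t) (-t) _ _ (by simpa) h3
  rw [h5, neg_vadd_vadd] at this
  exact (hi c b h4 _ ⟨-t, rfl⟩).not_gt this

theorem ind_ne {α β γ : Type} [Fintype β] {M : Matrix α β ℂ} {N : Matrix β γ ℂ} {x : α} {z : γ}
    (h : (M * N) x z ≠ 0) : ∃ y, M x y ≠ 0 ∧ N y z ≠ 0 := by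
  rw [Matrix.mul_apply] at h
  obtain ⟨y, -, hy⟩ := Finset.exists_ne_zero_of_sum_ne_zero h
  exact ⟨y, left_ne_zero_of_mul hy, right_ne_zero_of_mul hy⟩

theorem ind_av_ne {Γ : Grp Y} {Z Z' : Obj Γ} {f : Fam Z Z'} {i : ℕ} {b' : Z'.β i} {b : Z.β i}
    (h : avFam f i b' b ≠ 0) : ∃ g c' c, Γ.rel i g (Z'.pos i c') (Z'.pos i b') ∧ f i c' c ≠ 0 ∧
      Γ.rel i g (Z.pos i c) (Z.pos i b) := by
  have h1 := right_ne_zero_of_mul h
  rw [Matrix.sum_apply] at h1
  obtain ⟨g, -, h2⟩ := Finset.exists_ne_zero_of_sum_ne_zero h1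
  obtain ⟨c, h3, h4⟩ := ind_ne h2
  obtain ⟨c', h5, h6⟩ := ind_ne h3
  rw [← Z.ρ_star] at h4
  exact ⟨g, c', c, Z'.ρ_rel i g _ _ h5, h6, Z.ρ_rel i g _ _ (by simpa using h4)⟩

theorem rel_equicont {ε : ℝ} (hε : 0 < ε) : ∃ δ > 0, ∀ᶠ i in atTop, ∀ g x x' y y',
    (grpP p a Y).rel i g x x' → (grpP p a Y).rel i g y y' → dist x y < δ → dist x' y' < ε := by
  obtain ⟨δ, hδ, h⟩ := ind_unif p (Y := Y) hε
  have hp : (1 : ℝ) < p := by exact_mod_cast (Fact.out : p.Prime).one_lt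
  have h1 := (tendsto_pow_atTop_nhds_zero_of_lt_one (r := (p : ℝ)⁻¹) (by positivity)
    (inv_lt_one_of_one_lt₀ hp)).comp (tendsto_add_atTop_nat a)
  refine ⟨δ, hδ, (h1.eventually (gt_mem_nhds hδ)).mono ?_⟩
  rintro i hi g x _ y _ ⟨t, ht, rfl⟩ ⟨t', ht', rfl⟩ hxy
  refine h _ _ _ _ (lt_of_le_of_lt ?_ hi) hxy
  have h2 : t - t' ∈ RingHom.ker (PadicInt.toZModPow (a + i)) := by
    rw [RingHom.mem_ker, map_sub, ht, ht', sub_self]
  rw [PadicInt.ker_toZModPow, ← PadicInt.norm_le_pow_iff_mem_span_pow] at h2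
  rwa [_root_.zpow_neg, zpow_natCast, ← inv_pow, ← dist_eq_norm, add_comm] at h2

variable {X X' X'' : Obj (triv Y)} {Z Z' Z'' : Obj (grpP p a Y)}

theorem ctl_ind {f : Fam X X'} (h : Ctl X X' f) : Ctl _ _ (indFam p a f) := by
  intro ε hε
  obtain ⟨δ, hδ, h1⟩ := ind_unif p (Y := Y) hε
  refine (h δ hδ).mono fun i hi b' b hb => ?_
  by_cases e : b'.1 = b.1
  · exact h1 _ _ _ _ (by simpa [e]) (hi _ _ (by simpa [indFam, e] using hb))
  · simp [indFam, e] at hb
omit [MetricSpace Y] [CompactSpace Y] [ContinuousVAdd ℤ_[p] Y] in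
theorem equi_ind (f : Fam X X') : Equi _ _ (indFam p a f) := by
  intro i g
  ext b' b
  simp only [Matrix.mul_apply, indFam, Matrix.of_apply, mul_ite, mul_one, mul_zero,
    Finset.sum_ite_eq', Finset.mem_univ, if_true]
  rw [Finset.sum_eq_single (b'.1 - g, b'.2)]
  · simp [sub_eq_iff_eq_add]
  · intro c _ hc
    have : b' ≠ (c.1 + g, c.2) := fun e => hc (by rw [e]; simp)
    simp [this]
  · simp
omit [CompactSpace Y] [ContinuousVAdd ℤ_[p] Y] in
theorem ctl_j (X : Obj (triv Y)) : Ctl _ _ (jFam p a X) := Ctl.of_pos fun i b' b h => by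
  have : b' = (0, b) := by
    by_contra hc
    exact h (by simp [jFam, hc])
  subst this
  simp [rep]
theorem ctl_av {f : Fam Z Z'} (h : Ctl Z Z' f) : Ctl Z Z' (avFam f) := by
  intro ε hε
  obtain ⟨δ, hδ, h1⟩ := rel_equicont p a (Y := Y) hε
  filter_upwards [h1, h δ hδ] with i h2 h3 b' b hb
  obtain ⟨g, c', c, h4, h5, h6⟩ := ind_av_ne hb
  exact h2 g _ _ _ _ h4 h6 (h3 _ _ h5)
omit [MetricSpace Y] [CompactSpace Y] [ContinuousVAdd ℤ_[p] Y] in
theorem equi_av (f : Fam Z Z') : Equi Z Z' (avFam f) := by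
  intro i g
  simp only [avFam, Matrix.smul_mul, Matrix.mul_smul, Matrix.sum_mul, Matrix.mul_sum]
  congr 1
  refine (Fintype.sum_equiv (Equiv.addLeft g) _ _ fun k => ?_).symm
  rw [Equiv.coe_addLeft, Matrix.mul_assoc _ (Z.ρ i _), ← Z.ρ_add, Z'.ρ_add, neg_add', sub_add_eq_add_sub,
    neg_add_cancel, zero_sub, Matrix.mul_assoc, Matrix.mul_assoc, Matrix.mul_assoc]

/-- The induced morphism. -/
def indM (f : Mor X X') : Mor (ind p a X) (ind p a X') :=
  mkMor (indFam p a (mat f)) (ctl_ind p a (mat_ctl f)) (equi_ind p a _)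

/-- The inclusion of the neutral sheet. -/
def jM (X : Obj (triv Y)) : Mor X (ind p a X).forget :=
  mkMor (jFam p a X) (ctl_j p a X) (equi_triv _)

/-- The average of a non-equivariant morphism. -/
def avM (f : Mor Z.forget Z'.forget) : Mor Z Z' :=
  mkMor (avFam (X := Z) (X' := Z') (mat (X := Z.forget) (X' := Z'.forget) f))
    (ctl_av p a (Z := Z) (Z' := Z') (mat_ctl (X := Z.forget) (X' := Z'.forget) f)) (equi_av p a _)

theorem indM_mul (g : Mor X' X'') (f : Mor X X') :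
    indM p a (g * f) = indM p a g * indM p a f := mor_ext fun i => by
  ext b' b
  simp only [indM, mat_mul, mat_mkMor, indFam, Matrix.mul_apply, Matrix.of_apply,
    Fintype.sum_prod_type]
  rw [Finset.sum_eq_single b'.1]
  · by_cases e : b'.1 = b.1 <;> simp [e]
  · intro c _ hc
    simp [hc.symm]
  · simp
theorem indM_one : indM p a (1 : Mor X X) = 1 := mor_ext fun i => by
  ext b' b
  simp [indM, indFam, Matrix.one_apply, Prod.ext_iff, ite_and]
theorem indM_sub (f g : Mor X X') : indM p a (f - g) = indM p a f - indM p a g := mor_ext fun i => by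
  ext b' b
  simp only [indM, mat_sub, mat_mkMor, indFam, Matrix.sub_apply, Matrix.of_apply]
  split_ifs <;> simp
theorem indM_dag (f : Mor X X') : indM p a f.dag = (indM p a f).dag := mor_ext fun i => by
  ext b' b
  simp only [indM, mat_dag, mat_mkMor, indFam, conjTranspose_apply, Matrix.of_apply,
    eq_comm (a := b.1)]
  split_ifs <;> simp
theorem van_indM {U : Set Y} (hU : InvSet p U) {f : Mor X X'} (h : Van U f) :
    Van U (indM p a f) := ind_van p hU h fun i c' b' hb =>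
  ⟨c'.2, b'.2, fun e => hb (by simp [indM, indFam, e]), _, rfl⟩
theorem tri_indM {d : Mor X X} (h : Tri d) : Tri (indM p a d) := by
  obtain ⟨N, wt, h1, -, h3⟩ := h
  refine ⟨N, fun i b => wt i b.2, fun i b => h1 i _, fun i g b' b hb => ?_,
    fun i b' b hb => h3 i _ _ fun e => hb (by simp [indM, indFam, e])⟩
  have : b' = (b.1 + g, b.2) := by
    by_contra hc
    exact hb (by simp [hc])
  rw [this]
theorem jM_comm (f : Mor X X') : jM p a X' * f = fgt (indM p a f) * jM p a X := mor_ext fun i => by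
  ext b' b
  simp only [jM, indM, mat_mul, mat_fgt, mat_mkMor, indFam, jFam, Matrix.mul_apply, Matrix.of_apply,
    mul_ite, mul_one, mul_zero, Finset.sum_ite_eq', Finset.mem_univ, if_true]
  rw [Finset.sum_eq_single b'.2]
  · simp [Prod.ext_iff]
  · intro c _ hc
    simp [Prod.ext_iff, hc.symm]
  · simp

theorem avM_fgt (f : Mor Z Z') : avM p a (fgt f) = f := mor_ext fun i => by
  have : ∀ g, Z'.ρ i g * mat f i * Z.ρ i (-g) = mat f i := fun g => by
    rw [← mat_equi f, Matrix.mul_assoc, ← Z.ρ_add, add_neg_cancel, Z.ρ_zero, Matrix.mul_one]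
  simp only [avM, mat_mkMor, avFam, mat_fgt, this, Finset.sum_const, Finset.card_univ]
  rw [← Nat.cast_smul_eq_nsmul ℂ, smul_smul, one_div_mul_cancel (Nat.cast_ne_zero.2 Fintype.card_ne_zero),
    one_smul]
theorem avM_add (f g : Mor Z.forget Z'.forget) : avM p a (f + g) = avM p a f + avM p a g := mor_ext fun i => by
  simp only [avM, mat_mkMor, avFam, mat_add, Matrix.mul_add, Matrix.add_mul, Finset.sum_add_distrib,
    smul_add]
theorem avM_sub (f g : Mor Z.forget Z'.forget) : avM p a (f - g) = avM p a f - avM p a g := mor_ext fun i => by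
  simp only [avM, mat_mkMor, avFam, mat_sub, Matrix.mul_sub, Matrix.sub_mul, Finset.sum_sub_distrib,
    smul_sub]
theorem avM_dag (f : Mor Z.forget Z'.forget) : avM p a f.dag = (avM p a f).dag := mor_ext fun i => by
  simp only [avM, mat_mkMor, avFam, mat_dag, conjTranspose_smul, conjTranspose_sum,
    conjTranspose_mul, Obj.ρ_star, neg_neg, Matrix.mul_assoc]
  simp
theorem avM_mul_left (g : Mor Z' Z'') (f : Mor Z.forget Z'.forget) :
    avM p a (fgt g * f) = g * avM p a f := mor_ext fun i => by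
  simp only [avM, mat_mkMor, avFam, mat_mul, mat_fgt, Matrix.mul_smul, Matrix.mul_sum,
    ← Matrix.mul_assoc, mat_equi g i]
theorem avM_mul_right (g : Mor Z'.forget Z''.forget) (f : Mor Z Z') :
    avM p a (g * fgt f) = avM p a g * f := mor_ext fun i => by
  simp only [avM, mat_mkMor, avFam, mat_mul, mat_fgt, Matrix.smul_mul, Matrix.sum_mul,
    Matrix.mul_assoc, mat_equi f i]
theorem van_avM {U : Set Y} (hU : InvSet p U) {f : Mor Z.forget Z'.forget} (h : Van U f) :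
    Van U (avM p a f) := ind_van p hU h fun i c' b' hb => by
  obtain ⟨g, c', c, -, h5, t, -, h6⟩ := ind_av_ne hb
  exact ⟨c', c, h5, t, h6⟩
theorem chain_avM {U : Set Y} (hU : InvSet p U) {d : Mor Z Z} {d' : Mor Z' Z'}
    {f : Mor Z.forget Z'.forget} (h : Chain (loc U (fgt d)) (loc U (fgt d')) (loc U f)) :
    Chain (loc U d) (loc U d') (loc U (avM p a f)) := by
  have := van_avM p a hU ((chain_q _).1 h)
  rw [avM_sub, avM_mul_left, avM_mul_right] at this
  exact (chain_q _).2 this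
theorem ind_null {U : Set Y} (hU : InvSet p U) {d : Mor Z Z} {d' : Mor Z' Z'}
    {f : Mor Z.forget Z'.forget} (h : Null (loc U (fgt d)) (loc U (fgt d')) (loc U f)) :
    Null (loc U d) (loc U d') (loc U (avM p a f)) := by
  obtain ⟨k, hk⟩ := (null_q _).1 h
  have := van_avM p a hU hk
  rw [avM_sub, avM_add, avM_mul_left, avM_mul_right] at this
  exact (null_q _).2 ⟨_, this⟩

theorem poinc_of_fgt {U : Set Y} (hU : InvSet p U) {d B : Mor Z Z}
    (h : Poinc (loc U (fgt d)) (loc U (fgt B))) : Poinc (loc U d) (loc U B) := by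
  have e1 : loc U (fgt d.dag) = (loc U (fgt d)).dag := rfl
  have e2 : fgt (1 : Mor Z Z) = 1 := rfl
  have h1 : Chain (loc U d) (loc U d).dag (loc U B) := by
    simpa [avM_fgt] using chain_avM p a hU (d := d) (d' := d.dag) (f := fgt B) (e1 ▸ h.chain)
  obtain ⟨g, h2, h3, h4⟩ := h.equiv.inv
  obtain ⟨g, rfl⟩ := (van _ U).q_surj g
  have h5 := ind_null p a hU (d := d) (d' := d) (f := g * fgt B - fgt 1) (by simpa [e2] using h3)
  have h6 := ind_null p a hU (d := d.dag) (d' := d.dag) (f := fgt B * g - fgt 1)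
    (by simpa [e1, e2] using h4)
  rw [avM_sub, avM_fgt] at h5 h6
  rw [avM_mul_right] at h5
  rw [avM_mul_left] at h6
  have h7 : Van U (fgt (d * d)) := (van _ U).q_eq_zero.1 h.sq
  have h8 : Van U (fgt (B.dag - B)) := (loc_eq (f := (fgt B).dag)).1 h.herm
  refine ⟨⟨?_, ?_, h1⟩, h1, loc U (avM p a g), ?_, ?_, ?_⟩
  · simpa using (van _ U).q_eq_zero.2 (van_fgt.1 h7)
  · simpa using loc_eq.2 (van_fgt.1 h8)
  · simpa using chain_avM p a hU (d := d.dag) (d' := d) (f := g) (e1 ▸ h2)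
  · simpa using h5
  · simpa using h6

theorem vanR_indRow {U : Set Y} (hU : InvSet p U) {e : ∀ i, Matrix Unit (X.β i) ℂ}
    (h : VanR U X e) : VanR U (ind p a X).forget (indRow p a e) := ind_van p hU h fun i c' b' hb =>
  ⟨(), b'.2, fun e => hb (by simp [indRow, e]), _, rfl⟩
theorem vanR_sumRow {U : Set Y} (hU : InvSet p U) {e : ∀ i, Matrix Unit (X.β i) ℂ}
    (h : VanR U X e) : VanR U (ind p a X).forget (sumRow p a e) := ind_van p hU h fun i c' b' hb => ⟨(), b'.2, hb, _, rfl⟩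
theorem indRow_mul (e : ∀ i, Matrix Unit (X'.β i) ℂ) (f : Mor X X') (i : ℕ) :
    indRow p a e i * mat (indM p a f) i = indRow p a (fun i => e i * mat f i) i := by
  ext g b
  simp only [indM, indRow, mat_mkMor, indFam, Matrix.mul_apply, Matrix.of_apply,
    Fintype.sum_prod_type]
  rw [Finset.sum_eq_single b.1]
  · by_cases e : b.1 = g <;> simp [e]
  · intro c _ hc
    simp [hc]
  · simp
theorem sumRow_mul (e : ∀ i, Matrix Unit (X'.β i) ℂ) (f : Mor X X') (i : ℕ) :
    sumRow p a e i * mat (indM p a f) i = sumRow p a (fun i => e i * mat f i) i := by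
  ext g b
  simp only [indM, sumRow, mat_mkMor, indFam, Matrix.mul_apply, Matrix.of_apply,
    Fintype.sum_prod_type]
  rw [Finset.sum_eq_single b.1]
  · simp
  · intro c _ hc
    simp [hc]
  · simp
theorem sumRow_j (e : ∀ i, Matrix Unit (X.β i) ℂ) (i : ℕ) :
    sumRow p a e i * mat (jM p a X) i = e i := by
  ext g b
  simp [jM, sumRow, jFam, Matrix.mul_apply]
theorem indRow_j (e : ∀ i, Matrix Unit (X.β i) ℂ) (i : ℕ) :
    indRow p a e i * mat (jM p a X) i = Matrix.of fun g b => if g = 0 then e i () b else 0 := by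
  ext g b
  simp [jM, indRow, jFam, Matrix.mul_apply, eq_comm]
theorem indRow_rho (e : ∀ i, Matrix Unit (X.β i) ℂ) (i : ℕ) (g g' : ZMod (p ^ (a + i)))
    (b : (ind p a X).β i) :
    (indRow p a e i * (ind p a X).ρ i g) g' b = indRow p a e i (g' - g) b := by
  simp [indRow, Matrix.mul_apply, eq_sub_iff_add_eq]
theorem sumRow_rho (e : ∀ i, Matrix Unit (X.β i) ℂ) (i : ℕ) (g : ZMod (p ^ (a + i))) :
    sumRow p a e i * (ind p a X).ρ i g = sumRow p a e i := by
  ext g b
  simp [sumRow, Matrix.mul_apply]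

/-- Rows permuted by the group, tested against an average. -/
theorem vanR_av {U : Set Y} (hU : InvSet p U)
    {E : ∀ i, Matrix (ZMod (p ^ (a + i))) (Z'.β i) ℂ}
    {F : ∀ i, Matrix (ZMod (p ^ (a + i))) (Z.β i) ℂ}
    (hE : ∀ i g g' b, (E i * Z'.ρ i g) g' b = E i (g' - g) b) {f : Mor Z.forget Z'.forget}
    (h : VanR U Z.forget (fun i => E i * mat f i - F i)) :
    VanR U Z.forget (fun i => E i * mat (avM p a f) i - Matrix.of fun g' b =>
      (1 / (Fintype.card (ZMod (p ^ (a + i))) : ℂ)) * ∑ g, (F i * Z.ρ i (-g)) (g' - g) b) := ind_van p hU h fun i g' b hb => by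
  have e : ∀ g, (E i * (Z'.ρ i g * mat f i * Z.ρ i (-g))) g' b =
      (E i * mat f i * Z.ρ i (-g)) (g' - g) b := fun g => by
    rw [Matrix.mul_assoc, ← Matrix.mul_assoc, Matrix.mul_assoc (E i) (mat f i), Matrix.mul_apply,
      Matrix.mul_apply]
    simp only [hE]
  simp only [avM, mat_mkMor, avFam, Matrix.mul_smul, Matrix.mul_sum, Matrix.sub_apply,
    Matrix.smul_apply, Matrix.sum_apply, Matrix.of_apply, e, smul_eq_mul, ← mul_sub,
    ← Finset.sum_sub_distrib] at hb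
  obtain ⟨g, -, h1⟩ := Finset.exists_ne_zero_of_sum_ne_zero (right_ne_zero_of_mul hb)
  rw [← Matrix.sub_apply, ← Matrix.sub_mul] at h1
  obtain ⟨c, h2, h3⟩ := ind_ne h1
  obtain ⟨t, -, h4⟩ := Z.ρ_rel i _ _ _ h3
  exact ⟨_, c, h2, -t, by rw [show Z.forget.pos i c = _ from h4, neg_vadd_vadd]⟩

theorem acyc_ind {U : Set Y} (hU : InvSet p U) {d : Mor X X} {e : ∀ i, Matrix Unit (X.β i) ℂ}
    (h : Acyc U d e) : Acyc U (fgt (indM p a d)) (indRow p a e) := by
  intro y hy r hr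
  obtain ⟨δ, hδ, h1⟩ := ind_unif p (Y := Y) hr
  obtain ⟨r', hr', h2⟩ := h.uniform (ind_orb p hU hy).1 (ind_orb p hU hy).2 hδ
  obtain ⟨δ', hδ', h3⟩ := ind_unif p (Y := Y) hr'
  refine ⟨δ', hδ', h2.mono fun i hi z hz hd he => ?_⟩
  have e1 : ∀ (z : (ind p a X).β i → ℂ) g, (fun b => (mat (fgt (indM p a d)) i *ᵥ z) (g, b)) =
      mat d i *ᵥ fun b => z (g, b) := fun z g => by
    funext b
    simp only [indM, mat_fgt, mat_mkMor, indFam, mulVec, dotProduct, Matrix.of_apply,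
      Fintype.sum_prod_type]
    rw [Finset.sum_eq_single g]
    · simp
    · intro c _ hc
      simp [hc.symm]
    · simp
  have e2 : ∀ (z : (ind p a X).β i → ℂ) g, (indRow p a e i *ᵥ z) g =
      (e i *ᵥ fun b => z (g, b)) () := fun z g => by
    simp only [indRow, mulVec, dotProduct, Matrix.of_apply, Fintype.sum_prod_type]
    rw [Finset.sum_eq_single g]
    · simp
    · intro c _ hc
      simp [hc]
    · simp
  choose w hw1 hw2 hw3 using fun g : ZMod (p ^ (a + i)) => hi _ ⟨-rep p g, rfl⟩ (fun b => z (g, b))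
    (fun b hb => by simpa using h3 (-rep p g) (-rep p g) _ _ (by simpa) (hz _ hb))
    (by rw [← e1, hd]; rfl) (funext fun _ => by rw [← e2, he]; rfl)
  refine ⟨fun b => w b.1 b.2, fun b hb => ?_, funext fun b => ?_, funext fun g => ?_⟩
  · simpa using h1 (rep p b.1) (rep p b.1) _ _ (by simpa) (hw1 _ _ hb)
  · exact (congrFun (e1 _ b.1) b.2).trans (congrFun (hw2 b.1) b.2)
  · exact (e2 _ g).trans (congrFun (hw3 g) ())

end

end Vale.Agent.P228
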