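import Vale.Agent.P228.Ind
import Vale.Agent.P228.Delta

/-! Part Sheets: invariant functions and sheets. -/

namespace Vale.Agent.P228

open Filter Matrix DagCat Set

set_option linter.unusedSectionVars false

variable (p : ℕ) [Fact p.Prime] (a : ℕ) {Y : Type} [MetricSpace Y] [CompactSpace Y]
  [AddAction ℤ_[p] Y] [ContinuousVAdd ℤ_[p] Y]

/-- The supremum over the orbit. -/
noncomputable def supO (u : Y → ℝ) (x : Y) : ℝ := ⨆ t : ℤ_[p], u (t +ᵥ x)

theorem continuous_supO {u : Y → ℝ} (hu : Continuous u) : Continuous (supO p u) := by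
  have := (isCompact_univ (X := ℤ_[p])).continuous_sSup (f := fun (x : Y) (t : ℤ_[p]) => u (t +ᵥ x))
    (hu.comp (continuous_snd.vadd continuous_fst))
  simp only [image_univ] at this
  exact this
theorem supO_vadd (u : Y → ℝ) (t : ℤ_[p]) (x : Y) : supO p u (t +ᵥ x) = supO p u x := by
  simp only [supO, vadd_vadd]
  exact (Equiv.addRight t).iSup_comp (g := fun s => u (s +ᵥ x))
theorem exists_supO {u : Y → ℝ} (hu : Continuous u) (x : Y) :
    ∃ t : ℤ_[p], supO p u x = u (t +ᵥ x) := by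
  obtain ⟨t, -, ht⟩ := (isCompact_univ (X := ℤ_[p])).exists_isMaxOn univ_nonempty
    (f := fun t => u (t +ᵥ x)) (hu.comp (continuous_id.vadd continuous_const)).continuousOn
  refine ⟨t, le_antisymm (ciSup_le fun s => ht (mem_univ s)) ?_⟩
  exact le_ciSup (f := fun t : ℤ_[p] => u (t +ᵥ x))
    ⟨_, by rintro _ ⟨s, rfl⟩; exact ht (mem_univ s)⟩ t
theorem le_supO {u : Y → ℝ} (hu : Continuous u) (x : Y) (t : ℤ_[p]) :
    u (t +ᵥ x) ≤ supO p u x :=
  le_ciSup (f := fun t : ℤ_[p] => u (t +ᵥ x))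
    (isCompact_range (hu.comp (continuous_id.vadd continuous_const))).bddAbove t
theorem InvSet.compl {U : Set Y} (h : InvSet p U) : InvSet p Uᶜ := fun t x hx h' =>
  hx (by simpa using h (-t) _ h')
theorem InvSet.closure {U : Set Y} (h : InvSet p U) : InvSet p (closure U) := fun t _ hx =>
  map_mem_closure (continuous_const_vadd t) hx (h t)
theorem InvSet.interior {U : Set Y} (h : InvSet p U) : InvSet p (interior U) := by
  rw [interior_eq_compl_closure_compl]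
  exact ((h.compl p).closure p).compl p
theorem isOpen_sat {U : Set Y} (h : IsOpen U) : IsOpen {x | ∃ t : ℤ_[p], ∃ z ∈ U, x = t +ᵥ z} := by
  refine isOpen_iff_mem_nhds.2 ?_
  rintro _ ⟨t, z, hz, rfl⟩
  filter_upwards [(continuous_const_vadd (-t)).continuousAt.preimage_mem_nhds
    (h.mem_nhds (show -t +ᵥ t +ᵥ z ∈ U by simpa using hz))] with w hw
  exact ⟨t, _, hw, by simp⟩
theorem isClosed_sat {C : Set Y} (h : IsClosed C) :
    IsClosed {x | ∃ t : ℤ_[p], ∃ z ∈ C, x = t +ᵥ z} := by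
  have := ((isCompact_univ (X := ℤ_[p])).prod h.isCompact).image
    (f := fun q : ℤ_[p] × Y => q.1 +ᵥ q.2) continuous_vadd
  convert this.isClosed using 1
  ext x
  exact ⟨fun ⟨t, z, hz, e⟩ => ⟨(t, z), ⟨mem_univ _, hz⟩, e.symm⟩,
    fun ⟨q, hq, e⟩ => ⟨q.1, q.2, hq.2, e.symm⟩⟩
theorem invSet_sat (U : Set Y) : InvSet p {x | ∃ t : ℤ_[p], ∃ z ∈ U, x = t +ᵥ z} := by
  rintro s _ ⟨t, z, hz, rfl⟩
  exact ⟨s + t, z, hz, vadd_vadd _ _ _⟩

theorem sheets_sep {W C : Set Y} (hW : IsOpen W) (hi : InvSet p W) (hC : IsClosed C) (h : C ⊆ W) :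
    ∃ w : Y → ℝ, Continuous w ∧ (∀ (t : ℤ_[p]) x, w (t +ᵥ x) = w x) ∧ (∀ y, y ∉ W → 2 ≤ w y) ∧
      ∀ y ∈ C, w y = -2 := by
  obtain ⟨u, h0, h1, -⟩ := exists_continuous_zero_one_of_isClosed (isClosed_sat p hC)
    hW.isClosed_compl (disjoint_compl_right_iff_subset.2 (by
      rintro _ ⟨t, z, hz, rfl⟩
      exact hi t z (h hz)))
  have hu : Continuous fun y => 4 * u y - 2 := by fun_prop
  refine ⟨supO p fun y => 4 * u y - 2, continuous_supO p hu, supO_vadd p _, fun y hy => ?_,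
    fun y hy => ?_⟩
  · have := le_supO p hu y 0
    rw [zero_vadd, h1 hy] at this
    exact le_trans (by norm_num) this
  · obtain ⟨t, ht⟩ := exists_supO p hu y
    rw [ht, h0 ⟨t, y, hy, rfl⟩]
    norm_num

theorem sep_inv {W C : Set Y} (hW : IsOpen W) (hi : InvSet p W) (hC : IsClosed C) (h : C ⊆ W) :
    Sep (grpP p a Y) W C := by
  obtain ⟨w, h1, h2, h3, h4⟩ := sheets_sep p hW hi hC h
  exact ⟨w, h1, inv_of_vadd p a h2, fun y hy => lt_of_lt_of_le two_pos (h3 y hy),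
    fun y hy => by rw [h4 y hy]; norm_num⟩

theorem orderOf_zetaP (i : ℕ) : orderOf (zetaP p a (Y := Y) i) = p ^ a := by
  have e : ∀ (k : ℕ) g, (zetaP p a (Y := Y) i ^ k) g = ZMod.stdAddChar (N := p ^ a)
      (k * ZMod.castHom (pow_dvd_pow p (Nat.le_add_right a i)) (ZMod (p ^ a)) g) := fun k g => by
    rw [AddChar.pow_apply, ← nsmul_eq_mul, AddChar.map_nsmul_eq_pow]
    rfl
  refine Nat.dvd_antisymm (orderOf_dvd_of_pow_eq_one (AddChar.ext _ _ fun g => ?_)) ?_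
  · rw [e, ZMod.natCast_self, zero_mul, AddChar.map_zero_eq_one, AddChar.one_apply]
  · have := e (orderOf (zetaP p a (Y := Y) i)) (1 : ZMod (p ^ (a + i)))
    rw [pow_orderOf_eq_one, AddChar.one_apply, map_one, mul_one,
      ← AddChar.map_zero_eq_one (ZMod.stdAddChar (N := p ^ a))] at this
    exact (ZMod.natCast_eq_zero_iff _ _).1 (ZMod.injective_stdAddChar this).symm

theorem sheets_ker {t : ℤ_[p]} : PadicInt.toZModPow a t = 0 ↔ (p : ℤ_[p]) ^ a ∣ t := by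
  rw [← RingHom.mem_ker, PadicInt.ker_toZModPow, Ideal.mem_span_singleton]

theorem sheets_clopen : IsClopen {t : ℤ_[p] | PadicInt.toZModPow a t = 0} := by
  have hp : (0 : ℝ) < p := Nat.cast_pos.2 (Fact.out : p.Prime).pos
  convert IsUltrametricDist.isClopen_closedBall (0 : ℤ_[p]) (r := (p : ℝ) ^ (-a : ℤ))
    (zpow_pos hp _).ne' using 1
  ext t
  rw [mem_closedBall_zero_iff, PadicInt.norm_le_pow_iff_mem_span_pow, ← PadicInt.ker_toZModPow]
  rfl

theorem sheets_V (x : Y) (hx : ∀ t : ℤ_[p], t +ᵥ x = x → (p : ℤ_[p]) ^ a ∣ t) :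
    ∃ V : Set Y, IsOpen V ∧ x ∈ V ∧
      ∀ z ∈ V, ∀ t : ℤ_[p], t +ᵥ z ∈ V → PadicInt.toZModPow a t = 0 := by
  have hc : Continuous fun t : ℤ_[p] => t +ᵥ x := continuous_id.vadd continuous_const
  obtain ⟨A0, A1, o0, o1, s0, s1, hd⟩ := normal_separation
    ((sheets_clopen p a).1.isCompact.image hc).isClosed
    ((sheets_clopen p a).compl.1.isCompact.image hc).isClosed (by
      rw [Set.disjoint_left]
      rintro _ ⟨s, hs, rfl⟩ ⟨t, ht, e⟩
      have h1 := (sheets_ker p a).2 (hx (-s + t) (by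
        rw [← vadd_vadd, show t +ᵥ x = s +ᵥ x from e, neg_vadd_vadd]))
      rw [map_add, map_neg, show PadicInt.toZModPow a s = 0 from hs, neg_zero, zero_add] at h1
      exact ht h1)
  let S : Set (ℤ_[p] × Y) := (Prod.fst ⁻¹' {t | PadicInt.toZModPow a t = 0}ᶜ ∪
    (fun q => q.1 +ᵥ q.2) ⁻¹' A0) ∩ (Prod.fst ⁻¹' {t | PadicInt.toZModPow a t = 0} ∪
    (fun q => q.1 +ᵥ q.2) ⁻¹' A1)
  have hS : IsOpen S :=
    (((sheets_clopen p a).compl.2.preimage continuous_fst).union (o0.preimage continuous_vadd)).inter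
      (((sheets_clopen p a).2.preimage continuous_fst).union (o1.preimage continuous_vadd))
  refine ⟨(Prod.snd '' Sᶜ)ᶜ, (isClosedMap_snd_of_compactSpace _ hS.isClosed_compl).isOpen_compl, ?_,
    fun z hz t ht => ?_⟩
  · rintro ⟨⟨t, z⟩, hq, rfl⟩
    refine hq ⟨?_, ?_⟩ <;> by_cases h : PadicInt.toZModPow a t = 0
    · exact Or.inr (s0 ⟨t, h, rfl⟩)
    · exact Or.inl h
    · exact Or.inl h
    · exact Or.inr (s1 ⟨t, h, rfl⟩)
  · have h1 : (t, z) ∈ S := by_contra fun h => hz ⟨_, h, rfl⟩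
    have h2 : (0, t +ᵥ z) ∈ S := by_contra fun h => ht ⟨_, h, rfl⟩
    refine h1.2.resolve_right fun h3 => Set.disjoint_left.1 hd ?_ h3
    simpa using h2.1.resolve_left fun h => h (map_zero _)

theorem exists_sheet (x : Y) (hx : ∀ t : ℤ_[p], t +ᵥ x = x → (p : ℤ_[p]) ^ a ∣ t) :
    ∃ (ψ : Y → ℝ) (θ : Y → ℂ), Sheet (grpP p a Y) (zetaP p a) ψ θ ∧ ψ x < -1 := by
  classical
  obtain ⟨V, hV, hxV, hs⟩ := sheets_V p a x hx
  obtain ⟨ψ, h1, h2, h3, h4⟩ := sheets_sep p (isOpen_sat p hV) (invSet_sat p V)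
    (isClosed_singleton (x := x)) (by rintro _ rfl; exact ⟨0, _, hxV, by simp⟩)
  let θ : Y → ℂ := fun z => if h : ∃ t : ℤ_[p], -t +ᵥ z ∈ V then
    ZMod.stdAddChar (PadicInt.toZModPow a h.choose) else 0
  have hθ : ∀ z (t : ℤ_[p]), -t +ᵥ z ∈ V → θ z = ZMod.stdAddChar (PadicInt.toZModPow a t) := by
    intro z t ht
    have h : ∃ t : ℤ_[p], -t +ᵥ z ∈ V := ⟨t, ht⟩
    have := hs _ ht (t - h.choose) (by
      rw [vadd_vadd, show t - h.choose + -t = -h.choose by ring]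
      exact h.choose_spec)
    rw [map_sub, sub_eq_zero] at this
    simp only [θ, dif_pos h, this]
  have hU : ∀ y, ψ y < 2 → ∃ t : ℤ_[p], -t +ᵥ y ∈ V := fun y hy => by
    obtain ⟨t, z, hz, rfl⟩ : y ∈ {x | ∃ t : ℤ_[p], ∃ z ∈ V, x = t +ᵥ z} :=
      by_contra fun h => (h3 y h).not_gt hy
    exact ⟨t, by simpa using hz⟩
  refine ⟨ψ, θ, ⟨h1, inv_of_vadd p a h2, ?_, fun y hy => ?_, fun y hy => ?_⟩,
    by rw [h4 x rfl]; norm_num⟩
  · rintro i _ y _ ⟨s, rfl, rfl⟩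
    by_cases h : ∃ t : ℤ_[p], -t +ᵥ y ∈ V
    · obtain ⟨t, ht⟩ := h
      rw [hθ y t ht, hθ _ (s + t) (by
        rwa [vadd_vadd, show -(s + t) + s = -t by ring]), map_add, AddChar.map_add_eq_mul]
      congr 1
      exact congrArg ZMod.stdAddChar (PadicInt.cast_toZModPow a (a + i) (Nat.le_add_right a i) s).symm
    · have h' : ¬ ∃ t : ℤ_[p], -t +ᵥ s +ᵥ y ∈ V := fun ⟨t, ht⟩ =>
        h ⟨t - s, by rwa [vadd_vadd, show -t + s = -(t - s) by ring] at ht⟩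
      simp only [θ, dif_neg h, dif_neg h', mul_zero]
  · obtain ⟨t, ht⟩ := hU y hy
    filter_upwards [(continuous_const_vadd (-t)).continuousAt.preimage_mem_nhds (hV.mem_nhds ht)]
      with z hz
    rw [hθ z t hz, hθ y t ht]
  · obtain ⟨t, ht⟩ := hU y hy
    rw [hθ y t ht, AddChar.norm_apply]

/-- Finitely many sheets cover a neighbourhood of a closed set with small stabilisers. -/
theorem exists_sheets {C : Set Y} (hC : IsClosed C)
    (hx : ∀ x ∈ C, ∀ t : ℤ_[p], t +ᵥ x = x → (p : ℤ_[p]) ^ a ∣ t) :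
    ∃ (sh : List ((Y → ℝ) × (Y → ℂ))) (O : Set Y), (∀ q ∈ sh, Sheet (grpP p a Y) (zetaP p a) q.1 q.2) ∧
      IsOpen O ∧ C ⊆ O ∧ ∀ x ∈ O, ∃ q ∈ sh, q.1 x < -1 := by
  choose ψ θ h1 h2 using fun x : C => exists_sheet p a x.1 (hx x.1 x.2)
  have ho : ∀ x : C, IsOpen {z | ψ x z < -1} := fun x => isOpen_lt (h1 x).cont continuous_const
  obtain ⟨t, ht⟩ := hC.isCompact.elim_finite_subcover _ ho fun x hx => mem_iUnion.2 ⟨⟨x, hx⟩, h2 _⟩
  refine ⟨t.toList.map fun x => (ψ x, θ x), _, fun q hq => ?_, isOpen_biUnion fun x _ => ho x, ht,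
    fun z hz => ?_⟩
  · obtain ⟨x, -, rfl⟩ := List.mem_map.1 hq
    exact h1 x
  · obtain ⟨x, hx, hz⟩ := mem_iUnion₂.1 hz
    exact ⟨_, List.mem_map.2 ⟨x, Finset.mem_toList.2 hx, rfl⟩, hz⟩

end Vale.Agent.P228
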