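import Vale.Agent.P228.ValA

/-! Part ValB: existence of values and vanishing on null-cobordant complexes. -/

namespace Vale.Agent.P228

open Filter Matrix DagCat Set

variable {Y : Type} [MetricSpace Y] [CompactSpace Y] {Γ : Grp Y} {X X' L : Obj Γ} {W U : Set Y}
  {cs : List (Cut Y)} {d B : Mor X X} {d' B' : Mor X' X'} {s s' : ∀ i, AddChar (Γ.G i) ℂ → ℤ}

/-- One step of the construction, for a prescribed subcomplex. -/
theorem exists_step {Λ : Obj Γ} {ι : Mor Λ X} {dΛ : Mor Λ Λ} (hP : Poinc (loc W d) (loc W B))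
    (hι : IsSub W d ι dΛ) {u : Y → ℝ} (hu : Continuous u) (hi : Γ.Inv u) {a a' : ℝ} (ha : a' < a)
    (h1 : Van {y | u y < a} (1 - ι * ι.dag)) :
    ∃ (D : Obj Γ) (dD : Mor D D) (δ : Mor D (Λ + Λ)) (β β' : Mor D D), δ.dag * δ = 1 ∧ Tri dD ∧
      Van {y | u y < a'} (1 : Mor D D) ∧
      Dbl (loc W (bdD dΛ (ι.dag * (B * ι)))) (loc W ((cat Γ).hyp Λ)) (loc W dD) (loc W δ)
        (loc W β) (loc W β') ∧ Poinc (loc W (dblD dD)) (loc W (dblB β β')) := by
  have hb := ValA_poinc_bd hι hP.toIsSym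
  have hP1 : Poinc (loc (W ∩ {y | u y < a}) d) (loc (W ∩ {y | u y < a}) B) :=
    hP.map (resU inter_subset_left)
  have hc : Contr (loc (W ∩ {y | u y < a}) (bdD dΛ (ι.dag * (B * ι)))) := by
    have := contr_bd (ValA_poinc_sub (hι.mono inter_subset_left) hP1 (h1.mono inter_subset_right))
    simpa using this
  obtain ⟨D, dD, α, δ, g1, g2, g3, g4⟩ := exists_dom (hι.tri.bdD _) hb.sq hu hi ha hc
  obtain ⟨β, β', hβ⟩ := Dom.dbl hb g4
  obtain ⟨β, rfl⟩ := (van Γ W).q_surj β
  obtain ⟨β', rfl⟩ := (van Γ W).q_surj β'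
  exact ⟨D, dD, δ, β, β', g1, g2, g3, hβ, ValA_poinc_dbl hb hβ⟩

omit [CompactSpace Y] in
/-- Cutting along a separating function. -/
theorem ValB_proj {η : ℝ} (hd : Tri d) (hU : Van U (1 : Mor X X))
    (hw : Sep Γ W ((W \ U) ∩ centre [] η)) :
    ∃ (Λ : Obj Γ) (ι : Mor Λ X) (dΛ : Mor Λ Λ), IsSub W d ι dΛ ∧
      Van W (1 - ι * ι.dag) ∧ Van Wᶜ (1 : Mor Λ Λ) := by
  obtain ⟨w, hw1, hw2, hw3, hw4⟩ := hw
  obtain ⟨Λ, ι, h1, h2, h3, h4⟩ := exists_proj hw1 hw2 0 X
  have hU' : Van U (1 - ι * ι.dag) := by simpa using hU.mul_left (1 - ι * ι.dag)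
  have hW : Van W (1 - ι * ι.dag) := h2.of_cover hU' fun y hy => by
    by_cases hyU : y ∈ U
    · exact Or.inr hyU
    · exact Or.inl (hw4 y ⟨⟨hy, hyU⟩, fun c hc => absurd hc List.not_mem_nil⟩)
  refine ⟨Λ, ι, ι.dag * (d * ι), ⟨h1, h4 d hd, (chain_q _).mpr ?_⟩, hW,
    van_one_of_isom h1 (h3.mono hw3)⟩
  have := (hW.mul_right (d * ι)).neg
  simpa using this

theorem Val.exist (hP : Poinc (loc W d) (loc W B)) (hd : Tri d) (hU : Van U (1 : Mor X X))
    (hcs : ∀ c ∈ cs, GoodCut Γ c) (hw : Sep Γ W ((W \ U) ∩ centre cs 0)) :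
    ∃ s, Val W cs d B s := by
  induction cs generalizing X U with
  | nil =>
    obtain ⟨Λ, ι, dΛ, h1, h2, h3⟩ := ValB_proj hd hU hw
    exact ⟨fun i χ => esig dΛ (ι.dag * (B * ι)) i χ, Λ, ι, dΛ, h1, h2, h3,
      Eventually.of_forall fun _ _ => rfl⟩
  | cons c cs ih =>
    obtain ⟨f, a, b, hf, hfi, hab, c1, c2⟩ := hcs c List.mem_cons_self
    obtain ⟨Λ, ι, dΛ, h1, h2, h3⟩ := exists_cut hd hf hfi (a := (a + b) / 2) (b := b) (by linarith)
    have h1' := h1.mono (subset_univ W)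
    obtain ⟨D, dD, δ, β, β', g1, g2, g3, g4, g5⟩ :=
      exists_step hP h1' hf hfi (a' := a) (by linarith) h2
    have k3 : Van {y | c.2 y < 0} ι := h3.mono c2
    have k6 : Van {y | c.1 y < 0} (1 : Mor D D) := g3.mono c1
    have hn := ValA_next hU h1.isom k3 g1 k6
    obtain ⟨s, hs⟩ := ih g5 g2.dblD (ValA_van_sum hn hn)
      (fun c hc => hcs c (List.mem_cons_of_mem _ hc)) (hw.mono ValA_centre)
    refine ⟨s, Λ, ι, dΛ, D, dD, δ, β, β', h1', h2.mono fun y hy => ?_, k3, g1, g2, k6, g4, hs⟩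
    have := c1 y hy
    change f y < _
    linarith

omit [CompactSpace Y] in
/-- Transport of a Lagrangian to subcomplexes that are everything over `W`. -/
theorem ValB_lag_sub {Λ M : Obj Γ} {ι : Mor Λ X} {dΛ : Mor Λ Λ} {j : Mor M L} {dM : Mor M M}
    {dL k : Mor L L} {l : Mor L X} (hs : IsSym (loc W d) (loc W B))
    (hL : Lag (loc W d) (loc W B) (loc W dL) (loc W l) (loc W k)) (hι : IsSub W d ι dΛ)
    (hι' : Van W (1 - ι * ι.dag)) (hj : IsSub W dL j dM) (hj' : Van W (1 - j * j.dag)) :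
    Lag (loc W dΛ) (loc W (ι.dag * (B * ι))) (loc W dM) (loc W (ι.dag * (l * j)))
      (loc W (j.dag * (k * j))) := by
  have h1 : loc W ι * (loc W ι).dag = 1 := by
    have := (van Γ W).q_eq_zero.mpr hι'
    simp only [DFun.map_sub, DFun.map_one, DFun.map_mul, DFun.map_dag] at this
    exact (sub_eq_zero.mp this).symm
  have h2 : (loc W ι).dag * loc W ι = 1 := by
    have := congrArg (loc W) hι.isom
    simpa using this
  have h3 : loc W ι * loc W dΛ = loc W d * loc W ι := hι.chain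
  have := (Lag.of_equiv hs hL (hj.sq hL.sq) (hj.equiv hj')).unitary (w := (loc W ι).dag)
    (d' := loc W dΛ) (B' := loc W (ι.dag * (B * ι))) (by simpa using h1) (by simpa using h2)
    (by
      have := congrArg (fun k => (loc W ι).dag * (k * (loc W ι).dag)) h3
      simp only [Hom.assoc, Hom.reassoc h2, h1, Hom.one_mul, Hom.mul_one] at this
      exact this.symm)
    (by simp [Hom.reassoc h1, h1])
  simpa using this

omit [MetricSpace Y] [CompactSpace Y] in
theorem ValB_centre {c : Cut Y} {η : ℝ} (hη : 0 < η) :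
    (W \ (U ∪ {y | c.1 y < -η} ∪ {y | c.2 y < 0})) ∩ centre cs η
      ⊆ (W \ U) ∩ centre (c :: cs) η := by
  rintro y ⟨⟨h1, h2⟩, h3⟩
  simp only [mem_union, mem_setOf_eq, not_or, not_lt] at h2
  refine ⟨⟨h1, h2.1.1⟩, fun c' hc' => ?_⟩
  rcases List.mem_cons.mp hc' with rfl | hc'
  · exact ⟨h2.1.2, by linarith [h2.2]⟩
  · exact h3 c' hc'

/-- Values vanish in the presence of a Lagrangian supported where the complex is. -/
theorem Val.lag (h : Val W cs d B s) (hP : Poinc (loc W d) (loc W B)) (hU : Van U (1 : Mor X X))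
    {dL : Mor L L} {l : (van Γ W).quot.Hom L X} {k : (van Γ W).quot.Hom L L} (hT : Tri dL)
    (hUL : Van U (1 : Mor L L)) (hL : Lag (loc W d) (loc W B) (loc W dL) l k) (hcs : ∀ c ∈ cs, SepCut Γ c)
    {η : ℝ} (hη : 0 < η) (hw : Sep Γ W ((W \ U) ∩ centre cs η)) :
    ∀ᶠ i in atTop, ∀ χ, s i χ = 0 := by
  induction cs generalizing X L U with
  | nil =>
    obtain ⟨Λ, ι, dΛ, h1, h2, h3, h4⟩ := h
    obtain ⟨l, rfl⟩ := (van Γ W).q_surj l
    obtain ⟨k, rfl⟩ := (van Γ W).q_surj k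
    obtain ⟨M, j, dM, g1, g2, g3⟩ := ValB_proj hT hUL hw
    filter_upwards [h4, esig_lag (ValA_sym_up h3 (ValA_sym_sub h1 hP.toIsSym))
      (ValA_lag_up h3 g3 (ValB_lag_sub hP.toIsSym hL h1 h2 g1 g2))] with i a b χ
    rw [a, b]
  | cons c cs ih =>
    obtain ⟨Λ, ι, dΛ, D, dD, δ, β, β', h1, h2, h3, h4, h5, h6, h7, h8⟩ := h
    obtain ⟨l, rfl⟩ := (van Γ W).q_surj l
    obtain ⟨k, rfl⟩ := (van Γ W).q_surj k
    obtain ⟨c1, c2, c3⟩ := hcs c List.mem_cons_self
    obtain ⟨M, j, dM, g1, g2, g3⟩ :=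
      exists_cut hT c1 c2 (a := -(2 * η / 3)) (b := -(η / 3)) (by linarith)
    have g1' := g1.mono (subset_univ W)
    have hsym := ValA_sym_sub h1 hP.toIsSym
    have hb := ValA_poinc_bd h1 hP.toIsSym
    have e1 : loc W ι * ((loc W ι).dag * (loc W l * loc W j)) = loc W l * loc W j := by
      have v : Van W ((1 - ι * ι.dag) * (l * j)) :=
        Van.of_cover (h2.mul_right _) (((g3.mul_left l).mul_left _)) fun y _ => by
          by_cases hy : c.1 y < 0
          · exact Or.inl hy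
          · refine Or.inr ?_
            change _ < c.1 y
            linarith
      have := (van Γ W).q_eq_zero.mpr v
      simp only [DFun.map_sub, DFun.map_one, DFun.map_mul, DFun.map_dag, Hom.sub_mul,
        Hom.one_mul, Hom.assoc] at this
      exact (sub_eq_zero.mp this).symm
    have e2 : (loc W ι).dag * loc W ι = 1 := by
      have := congrArg (loc W) h1.isom
      simpa using this
    have hI0 := hL.toIsot.pull (g1'.sq hL.sq) g1'.chain
    have hI : Isot (loc W dΛ) (loc W (ι.dag * (B * ι))) (loc W dM) (loc W (ι.dag * (l * j)))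
        (loc W (j.dag * (k * j))) := by
      refine ⟨hI0.sq, by simpa using hI0.herm, ?_, ?_⟩
      · have a1 : loc W l * loc W j * loc W dM = loc W d * (loc W l * loc W j) := hI0.chain
        have a2 : loc W ι * loc W dΛ = loc W d * loc W ι := h1.chain
        have a3 : loc W d * (loc W l * loc W j)
            = loc W ι * (loc W dΛ * ((loc W ι).dag * (loc W l * loc W j))) := by
          rw [Hom.reassoc a2, Hom.assoc, e1]
        simp only [Chain, DFun.map_mul, DFun.map_dag, Hom.assoc] at a1 ⊢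
        rw [a1, a3, Hom.reassoc e2, Hom.one_mul]
      · have a1 := hI0.iso
        have a2 := congrArg Hom.dag e1
        simp only [Hom.dag_mul, Hom.dag_dag, Hom.assoc] at a1 a2
        simp only [DFun.map_mul, DFun.map_dag, Hom.dag_mul, Hom.dag_dag, Hom.assoc]
        rw [e1, ← a1]
        have a3 := congrArg (fun t => t * (loc W B * (loc W l * loc W j))) a2
        simpa only [Hom.assoc] using a3
    have hLb : Lag (loc W (bdD dΛ (ι.dag * (B * ι)))) (loc W ((cat Γ).hyp Λ))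
        (loc W (bdL dΛ (ι.dag * (B * ι)) dM (ι.dag * (l * j)) (j.dag * (k * j))))
        (bdl (loc W (ι.dag * (l * j)))) ((van Γ W).quot.bdh M Λ) := by
      have := lag_bd hsym hI
      simpa using this
    have hc : Contr (loc (W ∩ {y | c.1 y < -(2 * η / 3)})
        (bdL dΛ (ι.dag * (B * ι)) dM (ι.dag * (l * j)) (j.dag * (k * j)))) := by
      have hP1 : Poinc (loc (W ∩ {y | c.1 y < -(2 * η / 3)}) d)
          (loc (W ∩ {y | c.1 y < -(2 * η / 3)}) B) := hP.map (resU inter_subset_left)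
      have h2' : Van (W ∩ {y | c.1 y < -(2 * η / 3)}) (1 - ι * ι.dag) := h2.mono fun y hy => by
        have := hy.2
        change c.1 y < _ at this ⊢
        linarith
      have := contr_bdL (ValA_poinc_sub (h1.mono inter_subset_left) hP1 h2')
        (ValB_lag_sub hP1.toIsSym (hL.map (resU inter_subset_left)) (h1.mono inter_subset_left) h2'
          (g1.mono (subset_univ _)) (g2.mono inter_subset_right))
      simpa using this
    obtain ⟨E, dE, α, ε, k1, k2, k3, k4⟩ := exists_dom (h1.tri.bdL _ g1.tri _ _) hLb.sq c1 c2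
      (a' := -η) (by linarith) hc
    obtain ⟨g, l', k', hL'⟩ := Dbl.lag hb h7 hLb k4
    obtain ⟨g, rfl⟩ := (van Γ W).q_surj g
    have hD : Van (U ∪ {y | c.1 y < -η} ∪ {y | c.2 y < 0}) (1 : Mor D D) :=
      (ValA_next hU h1.isom h3 h4 h6).mono (union_subset_union_left _
        (union_subset_union_right _ fun y hy => by
          change c.1 y < _ at hy ⊢
          linarith))
    have hE : Van (U ∪ {y | c.1 y < -η} ∪ {y | c.2 y < 0}) (1 : Mor E E) := by
      have a1 := van_one_sub h1.isom hU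
      have a2 := van_one_of_isom h1.isom h3
      have b1 := van_one_sub g1.isom hUL
      have b2 : Van {y | c.2 y < 0} (1 : Mor M M) :=
        van_one_of_isom g1.isom (g3.mono fun y hy => by
          have := c3 y
          change c.2 y < 0 at hy
          change _ < c.1 y
          by_contra hn
          exact this ⟨by linarith, hy⟩)
      exact ((van_one_sub k1 (ValA_van_sum b1 (ValA_van_sum a1 b1))).union k3).union
        (van_one_sub k1 (ValA_van_sum b2 (ValA_van_sum a2 b2)))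
    refine ih (L := E + (D + E)) (dL := dsum dE (tri dD g (-dE.dag))) (l := l') (k := k') h8
      (ValA_poinc_dbl hb h7) (ValA_van_sum hD hD)
      (k2.oplus (h5.of_tri k2.dag.neg g)) (ValA_van_sum hE (ValA_van_sum hD hE))
      (by simpa using hL') (fun c hc => hcs c (List.mem_cons_of_mem _ hc))
      (hw.mono (ValB_centre hη))

/-- Isometric complexes have the same values. -/
theorem Val.isometry (h : Val W cs d B s) (h' : Val W cs d' B' s') (hd : Tri d)
    (hP : Poinc (loc W d) (loc W B)) (hP' : Poinc (loc W d') (loc W B'))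
    (hU : Van U (1 : Mor X X)) (hU' : Van U (1 : Mor X' X')) {v : (van Γ W).quot.Hom X X'}
    (hv : IsEquiv (loc W d) (loc W d') v)
    (hi : Null (loc W d) (loc W d).dag (v.dag * (loc W B' * v) - loc W B))
    (hcs : ∀ c ∈ cs, SepCut Γ c) {η : ℝ} (hη : 0 < η) (hw : Sep Γ W ((W \ U) ∩ centre cs η)) :
    ∀ᶠ i in atTop, ∀ χ, s i χ = s' i χ := by
  obtain ⟨k, hk⟩ := lag_graph' hP.toIsSym hP' hv hi
  have := (h.oplus h'.neg).lag (by simpa using hP.oplus hP'.neg) (ValA_van_sum hU hU') hd hU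
    (l := col 1 v) (k := k) (by simpa using hk) hcs hη hw
  exact this.mono fun i a χ => by linarith [a χ]

theorem Val.unique (h : Val W cs d B s) (h' : Val W cs d B s') (hd : Tri d)
    (hP : Poinc (loc W d) (loc W B)) (hU : Van U (1 : Mor X X))
    (hcs : ∀ c ∈ cs, SepCut Γ c) {η : ℝ} (hη : 0 < η) (hw : Sep Γ W ((W \ U) ∩ centre cs η)) :
    ∀ᶠ i in atTop, ∀ χ, s i χ = s' i χ :=
  h.isometry h' hd hP hP hU hU IsEquiv.refl ⟨0, by simp⟩ hcs hη hw

/-- The value of a double is twice the value. -/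
theorem Val.double {D : Obj Γ} {dD β β' : Mor D D} {δ : (van Γ W).quot.Hom D X}
    (h : Val W cs d B s) (h' : Val W cs (dblD dD) (dblB β β') s') (hd : Tri d) (hD : Tri dD)
    (hP : Poinc (loc W d) (loc W B))
    (hδ : Dbl (loc W d) (loc W B) (loc W dD) δ (loc W β) (loc W β'))
    (hU : Van U (1 : Mor X X)) (hU' : Van U (1 : Mor D D))
    (hcs : ∀ c ∈ cs, SepCut Γ c) {η : ℝ} (hη : 0 < η) (hw : Sep Γ W ((W \ U) ∩ centre cs η)) :
    ∀ᶠ i in atTop, ∀ χ, s' i χ = 2 * s i χ := by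
  obtain ⟨l, k, hk⟩ := Dbl.lag_two hP hδ
  have hP2 := ValA_poinc_dbl hP hδ
  obtain ⟨δ, rfl⟩ := (van Γ W).q_surj δ
  have := (h'.oplus (h.oplus h).neg).lag (by simpa using hP2.oplus (hP.oplus hP).neg)
    (ValA_van_sum (ValA_van_sum hU' hU') (ValA_van_sum hU hU))
    ((hd.oplus hd).oplus (hD.of_tri hd.neg δ))
    (ValA_van_sum (ValA_van_sum hU hU) (ValA_van_sum hU' hU))
    (l := l) (k := k) (by simpa using hk) hcs hη hw
  exact this.mono fun i a χ => by linarith [a χ]

end Vale.Agent.P228
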