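import Vale.Agent.P228.StdA
import Vale.Agent.P228.ValB

/-! Part StdB: the standard computation and homotopy invariance. -/

namespace Vale.Agent.P228

open Filter Matrix DagCat Set

variable {n : ℕ}

theorem stdB_mem {r : ℕ} {j : Fin n} : j ∈ (List.finRange n).drop r ↔ r ≤ j.val := by
  rw [List.mem_drop_iff_getElem]
  constructor
  · rintro ⟨i, hi, rfl⟩
    simp
  · intro h
    exact ⟨j.val - r, by simp; omega, Fin.ext (by simp; omega)⟩

theorem stdB_cons {Y : Type} (F : Y → Fin n → ℝ) (y : Fin n → ℝ) (η : ℝ) (j : Fin n) :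
    boxCuts F y η j.val = (fun x => F x j - (y j - η), fun x => (y j + η) - F x j) ::
      boxCuts F y η (j.val + 1) := by
  rw [boxCuts, List.drop_eq_getElem_cons (by simp), List.map_cons, List.getElem_finRange]
  rfl

theorem goodCut_box {Y : Type} [MetricSpace Y] {Γ : Grp Y} {F : Y → Fin n → ℝ} (hF : Continuous F)
    (hi : Γ.Inv F) (y : Fin n → ℝ) {η : ℝ} (hη : 0 < η) (r : ℕ) :
    ∀ c ∈ boxCuts F y η r, GoodCut Γ c := by
  intro c hc
  obtain ⟨j, -, rfl⟩ := List.mem_map.1 hc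
  exact ⟨fun x => F x j, y j - η, y j + η, by fun_prop, fun i g x x' h => by simp only [hi i g x x' h],
    by linarith, fun x h => sub_neg.1 h, fun x h => sub_neg.1 h⟩
theorem sepCut_box {Y : Type} [MetricSpace Y] {Γ : Grp Y} {F : Y → Fin n → ℝ} (hF : Continuous F)
    (hi : Γ.Inv F) (y : Fin n → ℝ) {η : ℝ} (hη : 0 < η) (r : ℕ) :
    ∀ c ∈ boxCuts F y η r, SepCut Γ c := by
  intro c hc
  obtain ⟨j, -, rfl⟩ := List.mem_map.1 hc
  exact ⟨by fun_prop, fun i g x x' h => by simp only [hi i g x x' h],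
    fun x h => by linarith [h.1, h.2]⟩
theorem mem_centre_box {Y : Type} {F : Y → Fin n → ℝ} {y : Fin n → ℝ} {η η' : ℝ} {r : ℕ} {x : Y} :
    x ∈ centre (boxCuts F y η r) η' ↔ ∀ j : Fin n, r ≤ j.val → |F x j - y j| ≤ η + η' := by
  simp only [centre, boxCuts, mem_ofPred_eq, List.forall_mem_map, stdB_mem, abs_le]
  refine forall_congr' fun j => imp_congr_right fun _ => ?_
  constructor <;> rintro ⟨h1, h2⟩ <;> constructor <;> linarith

theorem stdB_sep {Y : Type} [MetricSpace Y] {W C : Set Y} (hW : IsOpen W) {F : Y → Fin n → ℝ}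
    (hF : Continuous F) {y : Fin n → ℝ} {δ ρ : ℝ} (h : ∀ x ∈ frontier W, δ ≤ dist (F x) y)
    (h0 : 0 ≤ ρ) (hρ : ρ < δ) (hC : ∀ x ∈ C, x ∈ W ∧ ∀ j, |F x j - y j| ≤ ρ) :
    Sep (triv Y) W C := by
  refine (sep_triv (C := closure W ∩ {x | dist (F x) y ≤ ρ}) hW
    (isClosed_closure.inter (isClosed_le (by fun_prop) continuous_const)) fun x hx => ?_).mono
    fun x hx => ⟨subset_closure (hC x hx).1, (dist_pi_le_iff h0).2 (hC x hx).2⟩
  by_contra h1
  exact ((h x (by rw [hW.frontier_eq]; exact ⟨hx.1, h1⟩)).trans hx.2).not_gt hρ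

theorem stdB_dist {Z : Type} [TopologicalSpace Z] {S : Set Z} (hS : IsCompact S)
    {F : Z → Fin n → ℝ} (hF : Continuous F) {y : Fin n → ℝ} (h : ∀ x ∈ S, F x ≠ y) :
    ∃ δ > 0, ∀ x ∈ S, δ ≤ dist (F x) y :=
  hS.exists_forall_le' (by fun_prop) fun x hx => dist_pos.2 (h x hx)

variable (K : Set (Fin n → ℝ)) [CompactSpace K]

omit [CompactSpace K] in
theorem stdB_sepK {y : Fin n → ℝ} {R η η' : ℝ} (hη : 0 ≤ η) (hη' : 0 ≤ η') (hR : η + η' < R)
    {W : Set K} (hW : W = {z : K | z.1 ∈ Metric.ball y R}) (r : ℕ) :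
    Sep (triv K) W ((W \ {z | ∃ k : Fin n, k.val < r ∧ η < |z.1 k - y k|}) ∩
      centre (boxCuts Subtype.val y η r) η') := by
  refine (sep_triv (C := {z : K | z.1 ∈ Metric.closedBall y (η + η')})
    (hW ▸ Metric.isOpen_ball.preimage continuous_subtype_val)
    (Metric.isClosed_closedBall.preimage continuous_subtype_val)
    fun z hz => hW ▸ Metric.closedBall_subset_ball hR hz).mono fun z hz =>
      (dist_pi_le_iff (by positivity)).2 fun k => ?_
  rcases le_or_gt r k.val with h | h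
  · exact mem_centre_box.1 hz.2 k h
  · exact (not_lt.1 fun h1 => hz.1.2 ⟨k, h, h1⟩).trans (le_add_of_nonneg_right hη')

theorem stdB_van (y : Fin n → ℝ) {η : ℝ} (hη : 0 ≤ η) (r : ℕ) :
    Van {z : K | ∃ k : Fin n, k.val < r ∧ η < |z.1 k - y k|}
      (1 : Mor (grid K y r) (grid K y r)) :=
  (van_one_grid K y r).mono fun _ ⟨k, h1, h2⟩ => ⟨k, h1, fun e => by
    rw [e, sub_self, abs_zero] at h2
    exact h2.not_ge hη⟩

/-- The standard computation. -/
theorem val_std (y : Fin n → ℝ) {R η : ℝ} (hη : 0 < η) (hR : 2 * η < R)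
    (hB : Metric.ball y R ⊆ interior K) {W : Set K} (hW : W = {z : K | z.1 ∈ Metric.ball y R})
    {r : ℕ} (hr : r ≤ n) {B : Mor (grid K y r) (grid K y r)} (hH : Homog K y r B)
    (hP : Poinc (loc W (dG K y r)) (loc W B)) {s : ∀ i, AddChar ((triv K).G i) ℂ → ℤ}
    (h : Val W (boxCuts Subtype.val y η r) (dG K y r) B s) :
    ∀ᶠ i in atTop, ∀ χ, s i χ = 2 ^ (n - r + 1) ∨ s i χ = -2 ^ (n - r + 1) := by
  have hR0 : 0 < R := by linarith
  have hWK : W ⊆ intK K := fun z hz => hB (by rwa [hW] at hz)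
  have sc := sepCut_box (Γ := triv K) continuous_subtype_val (triv_inv _) y hη
  have gc := goodCut_box (Γ := triv K) continuous_subtype_val (triv_inv _) y hη
  have s0 := stdB_sepK K hη.le le_rfl (by linarith) hW
  have s1 := stdB_sepK K hη.le hη.le (by linarith) hW
  induction hr using Nat.decreasingInduction generalizing s with
  | self =>
    have hX : Van Wᶜ (1 : Mor (grid K y n) (grid K y n)) := (van_one_grid K y n).mono fun z hz => by
      by_contra h1
      refine hz ?_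
      have : z.1 = y := funext fun j => by_contra fun e => h1 ⟨j, j.2, e⟩
      rw [hW, mem_ofPred_eq, this]
      exact Metric.mem_ball_self hR0
    have h1 : Val W (boxCuts Subtype.val y η n) (dG K y n) B (esig (dG K y n) B) := by
      rw [boxCuts, List.drop_of_length_le (by simp)]
      exact ⟨_, 1, dG K y n, ⟨by simp, tri_dG K y n, Chain.one⟩, by simpa using Ideal.Mem.zero, hX,
        .of_forall fun i χ => by simp⟩
    have hc : ∀ i (b : (grid K y n).β i), b.1 = cen y i := fun i b => funext fun j => b.2.2 j j.2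
    have hd : dG K y n = 0 := mor_ext fun i => by
      ext b' b
      by_contra h2
      obtain ⟨j, h3, -⟩ := dEnt_ne h2
      exact Int.not_odd_iff_even.2 (even_two_mul _) (hc i b ▸ h3 : Odd (cen y i j))
    obtain ⟨g, -, ⟨k, h2⟩, -⟩ := hP.equiv.inv
    obtain ⟨g, rfl⟩ := (van _ W).q_surj g
    have h3 : Van W (g * B - 1) := (van _ W).q_eq_zero.1 (by simpa [hd] using h2)
    filter_upwards [h.unique h1 (tri_dG K y n) hP (stdB_van K y hη.le n) (sc n) hη (s1 n),
      VanR.eventually_zero (h3.univ_of_supp hX),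
      VanR.eventually_zero ((loc_eq.1 hP.herm).univ_of_supp hX),
      tendsto_pt_cen y (Metric.ball_mem_nhds y hR0)] with i h4 h5 h6 h7 χ
    let b : (grid K y n).β i := ⟨cen y i, interior_subset (hB h7), fun _ _ => rfl⟩
    have hb : ∀ b', b' = b := fun b' => Subtype.ext (hc i b')
    rw [h4, Nat.sub_self, zero_add, pow_one]
    refine esig_unique _ _ b hb (by rw [hd, mat_zero]) (sub_eq_zero.1 h6) (fun e => ?_) χ
    have h9 : mat g i * mat B i = 1 := sub_eq_zero.1 h5
    have h8 : (mat g i * mat B i) b b = 1 := by rw [h9, one_apply_eq]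
    rw [Matrix.mul_apply, Finset.sum_eq_zero fun c _ => by rw [hb c, e, mul_zero]] at h8
    simp at h8
  | of_succ r hr ih =>
    obtain ⟨Λ, ι, dΛ, hsub, v1, v2, w, hw, hH'⟩ := std_step K y ⟨r, hr⟩ hR0 hB hW hH hP
    obtain ⟨D, dD, δ, β, β', hδ, hD, v3, hdb, hPD⟩ := exists_step hP hsub
      (u := fun z : K => z.1 ⟨r, hr⟩) ((continuous_apply _).comp continuous_subtype_val)
      (triv_inv _) (sub_lt_self _ hη) v1
    have hU : Van {z : K | ∃ k : Fin n, k.val < r + 1 ∧ η < |z.1 k - y k|} (1 : Mor D D) := by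
      have h1 : ∀ {U : Set K}, Van U (1 : Mor Λ Λ) → Van U (1 : Mor D D) := fun h =>
        van_one_sub hδ (Ideal.mem_one_sum.2 ⟨h, h⟩)
      refine ((h1 (van_one_sub hsub.isom (stdB_van K y hη.le r))).union
        (h1 (van_one_of_isom hsub.isom v2))).of_cover v3 ?_
      rintro z ⟨k, h2, h3⟩
      rcases Nat.lt_succ_iff_lt_or_eq.1 h2 with h4 | h4
      · exact Or.inl (Or.inl ⟨k, h4, h3⟩)
      · rw [show k = ⟨r, hr⟩ from Fin.ext h4] at h3
        rcases lt_abs.1 h3 with h5 | h5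
        · exact Or.inl (Or.inr (by simp only [mem_ofPred_eq]; linarith))
        · exact Or.inr (by simp only [mem_ofPred_eq]; linarith)
    obtain ⟨t, ht⟩ := Val.exist hPD hD.dblD (Ideal.mem_one_sum.2 ⟨hU, hU⟩) (gc (r + 1)) (s0 (r + 1))
    have h1 : Val W (boxCuts Subtype.val y η r) (dG K y r) B t := by
      rw [stdB_cons Subtype.val y η ⟨r, hr⟩]
      exact ⟨Λ, ι, dΛ, D, dD, δ, β, β', hsub,
        v1.mono fun z hz => by simp only [mem_ofPred_eq] at hz ⊢; linarith,
        v2.mono fun z hz => by simp only [mem_ofPred_eq] at hz ⊢; linarith, hδ, hD,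
        v3.mono fun z hz => by simp only [mem_ofPred_eq] at hz ⊢; linarith, hdb, ht⟩
    have hb : Poinc (loc W (bdD dΛ (ι.dag * (B * ι)))) (loc W ((cat (triv K)).hyp Λ)) := by
      simpa using poinc_bd (hP.toIsSym.pull (hsub.sq hP.sq) hsub.chain)
    have hP' : Poinc (loc W (dG K y (r + 1))) (loc W (w.dag * ((cat (triv K)).hyp Λ * w))) :=
      hb.pull (by simpa using congrArg (resU hWK).map (dG_sq K y (r + 1))) hw
    obtain ⟨t', ht'⟩ := Val.exist hP' (tri_dG K y _) (stdB_van K y hη.le _) (gc (r + 1))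
      (s0 (r + 1))
    obtain ⟨k, hk, -, hk'⟩ := hw.symm
    have h2 := hdb.transport hb hP' hk (by
      simpa using (hk'.mul_left ((hw.mul hk).chain.dag.mul hb.chain)).add
        (hk'.dag.mul_right hb.chain))
    filter_upwards [h.unique h1 (tri_dG K y r) hP (stdB_van K y hη.le r) (sc r) hη (s1 r),
      ht'.double ht (tri_dG K y _) hD hP' h2 (stdB_van K y hη.le _) hU (sc _) hη (s1 _),
      ih hH' hP' ht'] with i h3 h4 h5 χ
    rw [h3, h4, show n - r + 1 = n - (r + 1) + 1 + 1 by omega, pow_succ' _ (_ + 1), ← mul_neg]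
    exact (h5 χ).imp (congrArg _) (congrArg _)

/-- Homotopy invariance of values. -/
theorem val_htpy {Y : Type} [MetricSpace Y] [CompactSpace Y] {X : Obj (triv Y)} {d B : Mor X X}
    {W : Set Y} (hW : IsOpen W) (hd : Tri d) (hP : Poinc (loc W d) (loc W B))
    {H : ℝ → Y → Fin n → ℝ} (hH : Continuous (Function.uncurry H)) (y : Fin n → ℝ)
    (hfr : ∀ t ∈ Icc (0 : ℝ) 1, ∀ x ∈ frontier W, H t x ≠ y) :
    ∃ η0 > 0, ∀ η, 0 < η → η < η0 → ∀ s s' : ∀ i, AddChar ((triv Y).G i) ℂ → ℤ,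
      Val W (boxCuts (H 0) y η 0) d B s → Val W (boxCuts (H 1) y η 0) d B s' →
      ∀ᶠ i in atTop, ∀ χ, s i χ = s' i χ := by
  obtain ⟨δ, hδ, h1⟩ := stdB_dist ((isCompact_Icc (a := (0 : ℝ)) (b := 1)).prod
    (isClosed_frontier (s := W)).isCompact) hH fun x hx => hfr x.1 hx.1 x.2 hx.2
  have hc : ∀ t, Continuous (H t) := fun t => hH.uncurry_left t
  refine ⟨δ / 3, by positivity, fun η hη hη' s s' hs hs' => ?_⟩
  obtain ⟨ε, hε, h2⟩ := Metric.uniformContinuousOn_iff_le.1
    (((isCompact_Icc (a := (0 : ℝ)) (b := 1)).prod isCompact_univ).uniformContinuousOn_of_continuous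
      hH.continuousOn) η hη
  have key : ∀ t ∈ Icc (0 : ℝ) 1, ∀ t' ∈ Icc (0 : ℝ) 1, dist t t' ≤ ε → ∀ s s',
      Val W (boxCuts (H t) y η 0) d B s → Val W (boxCuts (H t') y η 0) d B s' →
      ∀ᶠ i in atTop, ∀ χ, s i χ = s' i χ := by
    intro t ht t' ht' h3 s s' hs hs'
    have c1 := hc t
    have c2 := hc t'
    refine Val.unique (cs := ((List.finRange n).drop 0).map fun j =>
      (fun x => max (H t x j) (H t' x j) - (y j - η), fun x => y j + η - min (H t x j) (H t' x j)))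
      (hs.mono ?_) (hs'.mono ?_) hd hP (van_empty _) (fun c h4 => ?_) hη
      (stdB_sep hW c1 (fun x hx => h1 (t, x) ⟨ht, hx⟩) (ρ := 3 * η) (by positivity) (by linarith)
        fun x hx => ⟨hx.1.1, fun j => ?_⟩)
    · exact List.forall₂_map_left_iff.2 (List.forall₂_map_right_iff.2 (List.forall₂_same.2
        fun j _ => ⟨fun x h => by linarith [le_max_left (H t x j) (H t' x j)],
          fun x h => by linarith [min_le_left (H t x j) (H t' x j)]⟩))
    · exact List.forall₂_map_left_iff.2 (List.forall₂_map_right_iff.2 (List.forall₂_same.2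
        fun j _ => ⟨fun x h => by linarith [le_max_right (H t x j) (H t' x j)],
          fun x h => by linarith [min_le_right (H t x j) (H t' x j)]⟩))
    · obtain ⟨j, -, rfl⟩ := List.mem_map.1 h4
      exact ⟨by fun_prop, triv_inv _, fun x h => by
        linarith [h.1, h.2, min_le_max (a := H t x j) (b := H t' x j)]⟩
    · obtain ⟨h4, h5⟩ := hx.2 _ (List.mem_map_of_mem (stdB_mem.2 (Nat.zero_le j.val)))
      have h6 := abs_le.1 ((dist_le_pi_dist (H t x) (H t' x) j).trans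
        (h2 (t, x) ⟨ht, trivial⟩ (t', x) ⟨ht', trivial⟩ (by simpa [hε.le] using h3)))
      rw [abs_le]
      rcases le_total (H t x j) (H t' x j) with h7 | h7 <;>
        simp only [max_eq_left, max_eq_right, min_eq_left, min_eq_right, h7] at h4 h5 <;>
        constructor <;> linarith [h6.1, h6.2]
  have ind : ∀ k : ℕ, ∀ t ∈ Icc (0 : ℝ) 1, t ≤ (k + 1) * ε → ∀ s',
      Val W (boxCuts (H t) y η 0) d B s' → ∀ᶠ i in atTop, ∀ χ, s i χ = s' i χ := by
    intro k
    induction k with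
    | zero =>
      exact fun t ht h3 s' => key 0 ⟨le_rfl, zero_le_one⟩ t ht
        (by simpa [abs_of_nonneg ht.1] using h3) s s' hs
    | succ k ih =>
      intro t ht h3 s' hs'
      have h4 : max 0 (t - ε) ∈ Icc (0 : ℝ) 1 :=
        ⟨le_max_left _ _, max_le zero_le_one (by linarith [ht.2])⟩
      obtain ⟨u, hu⟩ := Val.exist hP hd (van_empty _) (goodCut_box (hc _) (triv_inv _) y hη 0)
        (stdB_sep hW (hc _) (fun x hx => h1 (_, x) ⟨h4, hx⟩) (ρ := η + 0) (by positivity)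
          (by linarith) fun x hx => ⟨hx.1.1, fun j => mem_centre_box.1 hx.2 j (Nat.zero_le _)⟩)
      filter_upwards [ih _ h4 (max_le (by positivity) (by push_cast at h3; linarith)) u hu,
        key _ h4 t ht (abs_le.2 ⟨by linarith [le_max_right 0 (t - ε)],
          by linarith [max_le ht.1 (sub_le_self t hε.le)]⟩) u s' hu hs'] with i h5 h6 χ
      rw [h5, h6]
  obtain ⟨k, hk⟩ := exists_nat_ge (1 / ε)
  rw [div_le_iff₀ hε] at hk
  exact ind k 1 ⟨zero_le_one, le_rfl⟩ (by linarith) s' hs'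

/-- Existence of values for small boxes. -/
theorem val_box_exist {Y : Type} [MetricSpace Y] [CompactSpace Y] {X : Obj (triv Y)}
    {d B : Mor X X} {W : Set Y} (hW : IsOpen W) (hd : Tri d) (hP : Poinc (loc W d) (loc W B))
    {F : Y → Fin n → ℝ} (hF : Continuous F) (y : Fin n → ℝ) (hfr : ∀ x ∈ frontier W, F x ≠ y) :
    ∃ η0 > 0, ∀ η, 0 < η → η < η0 → (∃ s, Val W (boxCuts F y η 0) d B s) ∧
      Sep (triv Y) W ((W \ ∅) ∩ centre (boxCuts F y η 0) η) := by
  obtain ⟨δ, hδ, h1⟩ := stdB_dist (isClosed_frontier (s := W)).isCompact hF hfr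
  refine ⟨δ / 2, half_pos hδ, fun η hη hη' => ⟨Val.exist hP hd (van_empty _)
    (goodCut_box hF (triv_inv _) y hη 0) ?_, ?_⟩⟩
  · exact stdB_sep hW hF h1 (ρ := η + 0) (by positivity) (by linarith)
      fun x hx => ⟨hx.1.1, fun j => mem_centre_box.1 hx.2 j (Nat.zero_le _)⟩
  · exact stdB_sep hW hF h1 (ρ := η + η) (by positivity) (by linarith)
      fun x hx => ⟨hx.1.1, fun j => mem_centre_box.1 hx.2 j (Nat.zero_le _)⟩

/-- The value of the grid along a map homotopic to the inclusion. -/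
theorem val_degree_one (y : K) {W : Set K} (hW : IsOpen W) (hWK : W ⊆ intK K) (hy : y ∈ W)
    {H : ℝ → K → Fin n → ℝ} (hH : Continuous (Function.uncurry H)) (h1 : ∀ x, H 1 x = x.1)
    (hfr : ∀ t ∈ Icc (0 : ℝ) 1, ∀ x ∈ frontier W, H t x ≠ y.1) :
    ∃ η0 > 0, ∀ η, 0 < η → η < η0 → ∀ s : ∀ i, AddChar ((triv K).G i) ℂ → ℤ,
      Val W (boxCuts (H 0) y.1 η 0) (dG K y.1 0) (bG K y.1) s →
      ∀ᶠ i in atTop, ∀ χ, s i χ = 2 ^ (n + 1) ∨ s i χ = -2 ^ (n + 1) := by
  have hP : ∀ {V : Set K}, V ⊆ intK K → Poinc (loc V (dG K y.1 0)) (loc V (bG K y.1)) :=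
    fun h => by simpa using (poinc_bG K y.1).map (resU h)
  obtain ⟨η1, p1, k1⟩ := val_htpy hW (tri_dG K y.1 0) (hP hWK) hH y.1 hfr
  obtain ⟨η2, p2, k2⟩ := val_box_exist hW (tri_dG K y.1 0) (hP hWK) (hH.uncurry_left 1) y.1
    (hfr 1 ⟨zero_le_one, le_rfl⟩)
  obtain ⟨R1, q1, r1⟩ := Metric.isOpen_iff.1 hW y hy
  obtain ⟨R2, q2, r2⟩ := Metric.isOpen_iff.1 isOpen_interior y.1 (hWK hy)
  refine ⟨min (min η1 η2) (min R1 R2 / 2), by positivity, fun η hη hη' s hs => ?_⟩
  obtain ⟨h2, h3⟩ := lt_min_iff.1 hη'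
  obtain ⟨s', hs'⟩ := (k2 η hη (lt_min_iff.1 h2).2).1
  have h4 := k1 η hη (lt_min_iff.1 h2).1 s s' hs hs'
  rw [show H 1 = Subtype.val from funext h1] at hs'
  have h5 : {z : K | z.1 ∈ Metric.ball y.1 (min R1 R2)} ⊆ W :=
    fun z hz => r1 (Metric.ball_subset_ball (min_le_left _ _) hz : z.1 ∈ Metric.ball y.1 R1)
  filter_upwards [h4, val_std K y.1 hη (by linarith)
    ((Metric.ball_subset_ball (min_le_right _ _)).trans r2) rfl (Nat.zero_le n) (bG_homog K y.1)
    (hP (h5.trans hWK)) (hs'.restrict (van_empty _) h5 fun z hz => lt_of_le_of_lt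
      ((dist_pi_le_iff (r := η + 0) (by positivity)).2 fun j =>
        mem_centre_box.1 hz.2 j (Nat.zero_le _)) (by linarith))] with i h6 h7 χ
  rw [h6]
  exact h7 χ

end Vale.Agent.P228
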