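import Vale.Agent.P228.Equiv
import Vale.Agent.P228.Sheets
import Vale.Agent.P228.StdB

/-! Part Main: divisibility and the local fixed point theorem for odd primes. -/

namespace Vale.Agent.P228

open Filter Matrix DagCat Set

/-- The local fixed point theorem. -/
def LocalThm (p : ℕ) [Fact p.Prime] : Prop :=
  ∀ (n : ℕ) (K : Set (Fin n → ℝ)) [CompactSpace K] [AddAction ℤ_[p] K] [ContinuousVAdd ℤ_[p] K]
    (W1 W : Set K), Oriented p K W1 W → IsOpen W → InvSet p W →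
    ∀ (H : ℝ → K → Fin n → ℝ) (y : K), Continuous (Function.uncurry H) →
      (∀ (t : ℤ_[p]) x, H 0 (t +ᵥ x) = H 0 x) → (∀ x, H 1 x = x.1) → y ∈ W →
      (∀ t ∈ Icc (0 : ℝ) 1, ∀ x ∈ frontier W, H t x ≠ y.1) →
      ∃ x ∈ W, H 0 x = y.1 ∧ ∀ t : ℤ_[p], t +ᵥ x = x

variable (p : ℕ) [Fact p.Prime] (a : ℕ) {n : ℕ} (K : Set (Fin n → ℝ)) [CompactSpace K]
  [AddAction ℤ_[p] K] [ContinuousVAdd ℤ_[p] K]

theorem Oriented.subset {W1 W : Set K} (h : Oriented p K W1 W) : W ⊆ intK K := by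
  obtain ⟨-, -, h3, xc, x1, R, R1, h4, -, -, -, h5⟩ := h
  intro x hx
  obtain ⟨x', hx', e⟩ := h4 x.1 (h5 x hx)
  exact h3 (Subtype.ext e ▸ hx')
theorem Oriented.mono {W1 W W' : Set K} (h : Oriented p K W1 W) (h' : W' ⊆ W) :
    Oriented p K W1 W' := by
  obtain ⟨h1, h2, h3, xc, x1, R, R1, h4, h5, h6, h7, h8⟩ := h
  exact ⟨h1, h2, h3, xc, x1, R, R1, h4, h5, h6, h7, fun x hx => h8 x (h' hx)⟩

theorem main_gap {Y : Type} [MetricSpace Y] [CompactSpace Y] {F : Y → Fin n → ℝ}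
    (hF : Continuous F) (y0 : Fin n → ℝ) {S : Set Y} (hS : IsClosed S) (h : ∀ x ∈ S, F x ≠ y0) :
    ∃ δ > 0, ∀ x ∈ S, δ ≤ dist (F x) y0 := by
  rcases S.eq_empty_or_nonempty with rfl | hne
  · exact ⟨1, one_pos, fun _ hx => hx.elim⟩
  obtain ⟨x0, hx0, hm⟩ := hS.isCompact.exists_isMinOn hne
    (f := fun x => dist (F x) y0) (by fun_prop)
  exact ⟨_, dist_pos.2 (h x0 hx0), fun x hx => hm hx⟩

theorem main_fgt_dblD {Y : Type} [MetricSpace Y] {Γ : Grp Y} {D : Obj Γ} (d : Mor D D) :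
    fgt (dblD d) = dblD (fgt d) := by
  unfold dblD dsum
  rw [fgt_col, fgt_row, fgt_row]
  rfl

theorem main_fgt_dblB {Y : Type} [MetricSpace Y] {Γ : Grp Y} {D : Obj Γ} (β β' : Mor D D) :
    fgt (dblB β β') = dblB (fgt β) (fgt β') := by
  unfold dblB
  rw [fgt_col, fgt_row, fgt_row]
  rfl

/-- Divisibility of the value of the grid along an invariant map with small stabilisers. -/
theorem val_dvd (y : Fin n → ℝ) {W1 W : Set K} (h : Oriented p K W1 W) (hW : IsOpen W)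
    (hi : InvSet p W) {F : K → Fin n → ℝ} (hF : Continuous F)
    (hFi : ∀ (t : ℤ_[p]) x, F (t +ᵥ x) = F x) (y0 : Fin n → ℝ)
    (hfr : ∀ x ∈ frontier W, F x ≠ y0)
    (hfree : ∀ x ∈ W, F x = y0 → ∀ t : ℤ_[p], t +ᵥ x = x → (p : ℤ_[p]) ^ a ∣ t) :
    ∃ η0 > 0, ∀ η, 0 < η → η < η0 → ∀ s : ∀ i, AddChar ((triv K).G i) ℂ → ℤ,
      Val W (boxCuts F y0 η 0) (dG K y 0) (bG K y) s →
      ∀ᶠ i in atTop, ∀ χ, (p : ℤ) ^ a ∣ 2 * s i χ := by
  have hcl : ∀ x ∈ closure W, x ∉ W → x ∈ frontier W := fun x hx hx' => by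
    rw [hW.frontier_eq]; exact ⟨hx, hx'⟩
  obtain ⟨sh, O, hsh, hO, hCO, hcov⟩ := exists_sheets p a (C := closure W ∩ F ⁻¹' {y0})
    (isClosed_closure.inter (isClosed_singleton.preimage hF)) (fun x hx => by
      by_cases hxW : x ∈ W
      · exact hfree x hxW hx.2
      · exact absurd hx.2 (hfr x (hcl x hx.1 hxW)))
  obtain ⟨δ, hδ, hgap⟩ := main_gap hF y0 (S := closure W ∩ (O ∩ W)ᶜ)
    (isClosed_closure.inter (hO.inter hW).isClosed_compl) (fun x hx e => by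
      by_cases hxW : x ∈ W
      · exact hx.2 ⟨hCO ⟨hx.1, e⟩, hxW⟩
      · exact hfr x (hcl x hx.1 hxW) e)
  refine ⟨δ / 2, half_pos hδ, fun η hη hη' s hs => ?_⟩
  have hcen : ∀ η', 0 ≤ η' → η' ≤ η → ∀ x ∈ closure W, x ∈ centre (boxCuts F y0 η 0) η' →
      x ∈ O ∩ W := by
    intro η' h0 h1 x hx hc
    by_contra hn
    have h2 := hgap x ⟨hx, hn⟩
    have h3 : dist (F x) y0 ≤ η + η' := (dist_pi_le_iff (by positivity)).2 fun j =>
      mem_centre_box.1 hc j (Nat.zero_le _)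
    linarith
  have hsep : ∀ η', 0 ≤ η' → η' ≤ η →
      Sep (grpP p a K) W ((W \ ∅) ∩ centre (boxCuts F y0 η 0) η') := by
    intro η' h0 h1
    refine sep_inv p a hW hi ?_ fun x hx => hx.1.1
    have e : (W \ ∅) ∩ centre (boxCuts F y0 η 0) η' =
        closure W ∩ ⋂ j : Fin n, {x | |F x j - y0 j| ≤ η + η'} := by
      ext x
      simp only [diff_empty, mem_inter_iff, mem_iInter, mem_setOf_eq]
      constructor
      · exact fun hx => ⟨subset_closure hx.1, fun j => mem_centre_box.1 hx.2 j (Nat.zero_le _)⟩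
      · intro hx
        have hc : x ∈ centre (boxCuts F y0 η 0) η' := mem_centre_box.2 fun j _ => hx.2 j
        exact ⟨(hcen η' h0 h1 x hx.1 hc).2, hc⟩
    rw [e]
    exact isClosed_closure.inter (isClosed_iInter fun j => isClosed_le (by fun_prop) (by fun_prop))
  obtain ⟨D, dD, β, β', δ', hT, hD, hP⟩ := exists_equivariant p a K y h hW hi
  obtain ⟨s', hs'⟩ := Val.exist hP hT.dblD (van_empty _)
    (goodCut_box hF (inv_of_vadd p a hFi) y0 hη 0) (hsep 0 le_rfl hη.le)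
  obtain ⟨Λ, dΛ, BΛ, h1, h2, h3, h4⟩ := hs'.final hP (van_empty _)
  have h5 := order_dvd_esig sh hsh h1 h2 h3 fun x hx => by
    rw [notMem_compl_iff] at hx
    exact hcov x (hcen 0 le_rfl hη.le x (subset_closure hx.1.1) hx.2).1
  have h6 := hs'.fgt
  rw [main_fgt_dblD, main_fgt_dblB] at h6
  have hP0 : Poinc (loc W (dG K y 0)) (loc W (bG K y)) :=
    (poinc_bG K y).map (resU (h.subset p K))
  have hsep' : Sep (triv K) W ((W \ ∅) ∩ centre (boxCuts F y0 η 0) η) := by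
    obtain ⟨w, w1, -, w3, w4⟩ := hsep η hη.le le_rfl
    exact ⟨w, w1, triv_inv w, w3, w4⟩
  have h7 := Val.double hs h6 (tri_dG K y 0) hT.fgt hP0 hD (van_empty _) (van_empty _)
    (sepCut_box hF (triv_inv F) y0 hη 0) hη hsep'
  filter_upwards [h4, h5, h7] with i e1 e2 e3 χ
  rw [← e3 χ, Finset.sum_congr rfl fun χ' _ => e1 χ']
  rw [orderOf_zetaP] at e2
  exact_mod_cast e2

/-- A point whose stabiliser contains a unit is fixed. -/
theorem fixed_of_not_dvd {Y : Type} [TopologicalSpace Y] [T2Space Y] [AddAction ℤ_[p] Y]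
    [ContinuousVAdd ℤ_[p] Y] {x : Y} {t : ℤ_[p]} (ht : t +ᵥ x = x) {k : ℕ}
    (hk : ¬ (p : ℤ_[p]) ^ (k + 1) ∣ t) (s : ℤ_[p]) : ((p : ℤ_[p]) ^ k * s) +ᵥ x = x := by
  have h1 : ∀ z : ℤ_[p], (z * t) +ᵥ x = x := by
    intro z
    refine PadicInt.denseRange_natCast.induction_on z (isClosed_eq (by fun_prop) (by fun_prop)) ?_
    intro m
    induction m with
    | zero => simp
    | succ m ih => rw [Nat.cast_succ, add_mul, one_mul, add_vadd, ht, ih]
  have h2 : t ∣ (p : ℤ_[p]) ^ k := by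
    rcases ValuationRing.dvd_total t ((p : ℤ_[p]) ^ k) with h | ⟨c, rfl⟩
    · exact h
    · have hc : IsUnit c := by
        rw [PadicInt.isUnit_iff]
        by_contra hn
        have := (PadicInt.norm_lt_one_iff_dvd c).1 (lt_of_le_of_ne c.norm_le_one hn)
        exact hk (by rw [pow_succ]; exact mul_dvd_mul_left _ this)
      exact (hc.mul_right_dvd).2 dvd_rfl
  obtain ⟨c, hc⟩ := h2
  rw [hc, mul_comm t c, mul_right_comm]
  exact h1 _

theorem localThm_odd (hp : p ≠ 2) : LocalThm p := by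
  intro n K _ _ _ W1 W h hW hi H y hH h0 h1 hy hfr
  by_contra hn
  have hF : Continuous (H 0) := hH.comp (Continuous.prodMk_right (0 : ℝ))
  have hfr0 : ∀ x ∈ frontier W, H 0 x ≠ y.1 := hfr 0 ⟨le_rfl, zero_le_one⟩
  obtain ⟨η1, p1, q1⟩ := val_dvd p 1 K y.1 h hW hi hF h0 y.1 hfr0 fun x hx e t ht => by
    by_contra hd
    exact hn ⟨x, hx, e, fun s => by simpa using fixed_of_not_dvd p ht (k := 0) hd s⟩
  obtain ⟨η2, p2, q2⟩ := val_degree_one K y hW (h.subset p K) hy hH h1 hfr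
  obtain ⟨η3, p3, q3⟩ := val_box_exist hW (tri_dG K y.1 0)
    ((poinc_bG K y.1).map (resU (h.subset p K))) hF y.1 hfr0
  have hη : 0 < min η1 (min η2 η3) / 2 := by positivity
  have hη' : min η1 (min η2 η3) / 2 < min η1 (min η2 η3) := half_lt_self (by positivity)
  obtain ⟨s, hs⟩ := (q3 _ hη (hη'.trans_le ((min_le_right _ _).trans (min_le_right _ _)))).1
  obtain ⟨i, e1, e2⟩ := ((q1 _ hη (hη'.trans_le (min_le_left _ _)) s hs).and
    (q2 _ hη (hη'.trans_le ((min_le_right _ _).trans (min_le_left _ _))) s hs)).exists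
  have e3 : (p : ℤ) ∣ 2 ^ (n + 2) := by
    have e4 := e1 1
    rw [pow_one] at e4
    rcases e2 1 with e | e <;> rw [e] at e4
    · rwa [pow_succ']
    · rwa [mul_neg, dvd_neg, ← pow_succ'] at e4
  have e5 : p ∣ 2 ^ (n + 2) := by exact_mod_cast e3
  exact hp ((Nat.prime_dvd_prime_iff_eq Fact.out Nat.prime_two).1
    ((Fact.out : p.Prime).dvd_of_dvd_pow e5))

end Vale.Agent.P228
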