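import Vale.Agent.P228.Ind
import Vale.Agent.P228.GridB

/-! Part Orient: the action preserves the fundamental class. -/

namespace Vale.Agent.P228

open Filter Matrix DagCat Set

variable (p : ℕ) [Fact p.Prime] (a : ℕ) {n : ℕ} (K : Set (Fin n → ℝ)) [CompactSpace K]
  [AddAction ℤ_[p] K] [ContinuousVAdd ℤ_[p] K]

/-- `V` lies in a ball inside the invariant open set `W1`, and the ball contains a smaller ball
whose points move little. -/
def Oriented (W1 V : Set K) : Prop :=
  IsOpen W1 ∧ InvSet p W1 ∧ W1 ⊆ intK K ∧ ∃ (xc x1 : Fin n → ℝ) (R R1 : ℝ),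
    (∀ z ∈ Metric.ball xc R, ∃ x ∈ W1, x.1 = z) ∧ 0 < R1 ∧ Metric.ball x1 R1 ⊆ Metric.ball xc R ∧
    (∀ x : K, x.1 ∈ Metric.ball x1 R1 → ∀ t : ℤ_[p], dist (t +ᵥ x) x ≤ R1 / 4) ∧
    ∀ x ∈ V, x.1 ∈ Metric.ball xc R

namespace OrientAux

theorem dist_d (i : ℕ) {m' m : Fin n → ℤ} (h : dEnt m' m ≠ 0) :
    dist (pt i m') (pt i m) ≤ 1 / ((i : ℝ) + 1) := dist_pt_le i fun j => by
  obtain ⟨k, -, hk | hk⟩ := dEnt_ne h <;> rw [hk] <;> by_cases e : j = k <;> simp [e]

omit [CompactSpace K] in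
theorem top_cell (y : Fin n → ℝ) {x : Fin n → ℝ} (hx : x ∈ interior K) {ρ : ℝ} (hρ : 0 < ρ) :
    ∀ᶠ i in atTop, ∃ b : Cell K y 0 i, (∀ j, Odd (b.1 j)) ∧ dist (pt i b.1) x ≤ ρ := by
  have h : Tendsto (fun i => pt i (cen x i + 1)) atTop (nhds x) :=
    (tendsto_pt_cen x).congr_dist (squeeze_zero (fun _ => dist_nonneg)
      (fun i => dist_pt_le i fun j => by simp) tendsto_one_div_add_atTop_nhds_zero_nat)
  filter_upwards [h.eventually (mem_interior_iff_mem_nhds.1 hx),
    h.eventually (Metric.closedBall_mem_nhds x hρ)] with i h1 h2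
  exact ⟨⟨cen x i + 1, h1, fun j hj => absurd hj (Nat.not_lt_zero _)⟩,
    fun j => (even_two_mul _).add_one, h2⟩

theorem van_sq (y : Fin n → ℝ) : Van (intK K) (dG K y 0 * dG K y 0) :=
  (van _ _).q_eq_zero.mp (by simpa using dG_sq K y 0)

theorem value (y : Fin n → ℝ) {W1 : Set K} (hK : W1 ⊆ intK K) {x1 : Fin n → ℝ} {R1 : ℝ}
    (hB : ∀ z ∈ Metric.ball x1 R1, ∃ x ∈ W1, x.1 = z) (R0 : 0 < R1)
    (hm : ∀ x : K, x.1 ∈ Metric.ball x1 R1 → ∀ t : ℤ_[p], dist (t +ᵥ x) x ≤ R1 / 4)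
    {c : Mor (ind p a (grid K y 0)).forget (grid K y 0)}
    (hc : Chain (loc W1 (fgt (indM p a (dG K y 0)))) (loc W1 (dG K y 0)) (loc W1 c))
    (he : VanR W1 (ind p a (grid K y 0)).forget
      (fun i => epsG K y 0 i * mat c i - sumRow p a (epsG K y 0) i)) :
    ∀ᶠ i in atTop, ∀ b1 : Cell K y 0 i, (∀ j, Odd (b1.1 j)) → dist (pt i b1.1) x1 ≤ R1 / 16 →
      ∀ g, (indRow p a (muG K y 0) i * (mat c i)ᴴ) g b1 = 1 := by
  have hC : IsCompact {z : K | dist z.1 x1 ≤ 7 * R1 / 8} :=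
    (isClosed_le (by fun_prop) continuous_const).isCompact
  have hCW : {z : K | dist z.1 x1 ≤ 7 * R1 / 8} ⊆ W1 := fun z hz => by
    obtain ⟨x, hx, e⟩ := hB z.1 (lt_of_le_of_lt hz (show 7 * R1 / 8 < R1 by linarith))
    exact Subtype.ext e ▸ hx
  have hs : ∀ᶠ i : ℕ in atTop, (4 * n + 3) * (1 / ((i : ℝ) + 1)) ≤ R1 / 8 :=
    (tendsto_one_div_add_atTop_nhds_zero_nat.const_mul (4 * n + 3 : ℝ)).eventually
      (ge_mem_nhds (by simpa using R0))
  filter_upwards [hs, AC_col (van_sq K y) hC (hCW.trans hK), AC_col ((chain_q _).1 hc) hC hCW,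
    AC_col he hC hCW, AC_col (mu_dG K y 0) hC (hCW.trans hK), mat_ctl c (R1 / 16) (by positivity)]
    with i hs h1 h2 h3 h4 h5 b1 ho hb1 g
  obtain ⟨s, hs'⟩ : ∃ s, s = 1 / ((i : ℝ) + 1) := ⟨_, rfl⟩
  have s0 : 0 ≤ s := by rw [hs']; positivity
  have s2 : 2 / ((i : ℝ) + 1) = 2 * s := by rw [hs']; ring
  have dd : ∀ a' a : Cell K y 0 i, mat (dG K y 0) i a' a ≠ 0 →
      dist (pt i a'.1) (pt i a.1) ≤ s ∧ deg a'.1 + 1 = deg a.1 := fun a' a h =>
    ⟨hs' ▸ dist_d i h, deg_dEnt h⟩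
  rw [← hs'] at hs
  have ns : 0 ≤ n * s := by positivity
  have ws : ∀ k : ℕ, k ≤ n → 0 ≤ k * s ∧ k * s ≤ n * s := fun k hk =>
    ⟨by positivity, by gcongr⟩
  let cg : Matrix ((grid K y 0).β i) ((grid K y 0).β i) ℂ := Matrix.of fun b' b => mat c i b' (g, b)
  have hG : ∀ b : Cell K y 0 i, dist (pt i b.1) x1 ≤ R1 / 2 + ((n - deg b.1 : ℕ) : ℝ) * s →
      dist (pt i b.1) x1 ≤ R1 / 2 + n * s ∧
      dist (rep p g +ᵥ (grid K y 0).pos i b) ((grid K y 0).pos i b) ≤ R1 / 4 ∧
      (ind p a (grid K y 0)).forget.pos i (g, b) ∈ {z : K | dist z.1 x1 ≤ 7 * R1 / 8} := by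
    intro b hb
    have e1 := hb.trans (add_le_add_right (ws _ (Nat.sub_le _ _)).2 _)
    have e2 := hm ((grid K y 0).pos i b) (lt_of_le_of_lt e1 (by linarith)) (rep p g)
    refine ⟨e1, e2, (dist_triangle _ (pt i b.1) _).trans ?_⟩
    have e3 : dist (rep p g +ᵥ (grid K y 0).pos i b).1 (pt i b.1) ≤ R1 / 4 := e2
    linarith
  obtain ⟨h, g1, -, g3⟩ := ac_core (mat (dG K y 0) i) (mat (dG K y 0) i) (epsG K y 0 i) (cg - 1)
    (fun b => n - deg b.1) n (fun _ => Nat.sub_le _ _)
    (fun a' a h => by have := (dd a' a h).2; have := deg_le a.1; omega)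
    {b | dist (pt i b.1) x1 ≤ R1 / 2 + ((n - deg b.1 : ℕ) : ℝ) * s}
    (fun a ha a' h => by
      have e1 := dd a' a h
      have e2 : n - deg a'.1 = n - deg a.1 + 1 := by have := deg_le a.1; omega
      have e3 : dist (pt i a.1) x1 ≤ _ := ha
      change dist _ _ ≤ _
      rw [e2, Nat.cast_succ]
      linarith [dist_triangle (pt i a'.1) (pt i a.1) x1])
    (fun a ha a' => h1 a (le_trans (hG a ha).1 (by linarith)) a')
    (fun a ha b => by
      have := h2 (g, a) (hG a ha).2.2 b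
      rw [Matrix.sub_mul, Matrix.mul_sub, Matrix.one_mul, Matrix.mul_one, Matrix.sub_apply,
        Matrix.sub_apply, sub_left_inj]
      rw [mat_sub, mat_mul, mat_mul, Matrix.sub_apply, sub_eq_zero] at this
      refine Eq.trans ?_ this
      simp [cg, Matrix.mul_apply, Fintype.sum_prod_type, indM, indFam])
    (fun a ha x => by
      rw [Matrix.mul_sub, Matrix.mul_one]
      exact h3 (g, a) (hG a ha).2.2 x)
    (fun a => {b | dist (pt i b.1) (pt i a.1) ≤ R1 / 4 + R1 / 16 + 3 * (deg a.1 * s)})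
    (fun a => {b | dist (pt i b.1) (pt i a.1) ≤ R1 / 4 + R1 / 16 + 3 * (deg a.1 * s) + 2 * s})
    (fun a ha b hb => by
      have e0 := (ws _ (deg_le a.1)).1
      change dist _ _ ≤ _
      by_cases e : b = a
      · rw [e, dist_self]; positivity
      · have e1 := h5 b (g, a) (by simpa [cg, e] using hb)
        have e2 := dist_triangle ((grid K y 0).pos i b) (rep p g +ᵥ (grid K y 0).pos i a)
          ((grid K y 0).pos i a)
        have e3 : dist (pt i b.1) (pt i a.1) ≤ _ := e2.trans (add_le_add e1.le (hG a ha).2.1)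
        linarith)
    (fun a _ a' h b hb => by
      have e1 := dd a' a h
      have e3 : dist (pt i b.1) (pt i a'.1) ≤ _ := hb
      change dist _ _ ≤ _
      rw [← e1.2, Nat.cast_succ]
      linarith [dist_triangle (pt i b.1) (pt i a'.1) (pt i a.1)])
    (fun a ha z hz => s2 ▸ ball_acyc K y 0 i (fun u hu => by
      obtain ⟨x, -, e⟩ := hB u (by
        have := (ws _ (deg_le a.1)).2
        rw [Metric.mem_closedBall, s2] at hu
        rw [Metric.mem_ball]
        linarith [dist_triangle u (pt i a.1) x1, (hG a ha).1])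
      exact e ▸ x.2) z hz)
  have near : ∀ a, h b1 a ≠ 0 → dist (pt i a.1) x1 ≤ R1 / 2 - s := fun a ha => by
    have e1 : dist (pt i b1.1) (pt i a.1) ≤ _ := (g1 b1 a ha).2
    have := (ws _ (deg_le a.1)).2
    linarith [dist_triangle_left (pt i a.1) x1 (pt i b1.1)]
  have row : ∀ b, (cg - 1) b1 b = (h * mat (dG K y 0) i) b1 b := fun b => by
    by_cases hb : dist (pt i b.1) x1 ≤ R1 / 2 + ((n - deg b.1 : ℕ) : ℝ) * s
    · rw [g3 b hb, Matrix.add_apply, add_eq_right, Matrix.mul_apply]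
      refine Finset.sum_eq_zero fun u _ => mul_eq_zero_of_left ?_ _
      by_contra hu
      have := (dd _ _ hu).2
      have := deg_le u.1
      have := deg_eq_top.2 ho
      omega
    · have hb' : R1 / 2 < dist (pt i b.1) x1 := by
        linarith [not_le.1 hb, (ws _ (Nat.sub_le n (deg b.1))).1]
      trans 0
      · have e : b1 ≠ b := by rintro rfl; linarith
        rw [Matrix.sub_apply, one_apply_ne e, sub_zero]
        by_contra hu
        have e1 : dist (pt i b1.1) (rep p g +ᵥ (grid K y 0).pos i b).1 < _ := h5 b1 (g, b) hu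
        have e2 := dist_triangle_left (rep p g +ᵥ (grid K y 0).pos i b).1 x1 (pt i b1.1)
        have e3 := hm (rep p g +ᵥ (grid K y 0).pos i b) (lt_of_le_of_lt e2 (by linarith)) (-rep p g)
        rw [neg_vadd_vadd] at e3
        have e4 : dist (pt i b.1) (rep p g +ᵥ (grid K y 0).pos i b).1 ≤ _ := e3
        linarith [dist_triangle (pt i b.1) (rep p g +ᵥ (grid K y 0).pos i b).1 x1]
      · rw [Matrix.mul_apply]
        refine (Finset.sum_eq_zero fun u _ => ?_).symm
        by_contra hu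
        linarith [near u (left_ne_zero_of_mul hu), (dd _ _ (right_ne_zero_of_mul hu)).1,
          dist_triangle_left (pt i b.1) x1 (pt i u.1)]
  have e1 : ((cg - 1) * (muG K y 0 i)ᴴ : Matrix _ Unit ℂ) b1 () =
      (h * (muG K y 0 i * (mat (dG K y 0) i)ᴴ)ᴴ : Matrix _ Unit ℂ) b1 () := by
    rw [conjTranspose_mul, conjTranspose_conjTranspose, ← Matrix.mul_assoc, Matrix.mul_apply,
      Matrix.mul_apply]
    exact Finset.sum_congr rfl fun b _ => by rw [row]
  have e2 : (h * (muG K y 0 i * (mat (dG K y 0) i)ᴴ)ᴴ : Matrix _ Unit ℂ) b1 () = 0 := by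
    rw [Matrix.mul_apply]
    refine Finset.sum_eq_zero fun u _ => ?_
    by_cases hu : h b1 u = 0
    · rw [hu, zero_mul]
    · rw [conjTranspose_apply, h4 u (le_trans (near u hu) (by linarith)), star_zero, mul_zero]
  have e3 : (indRow p a (muG K y 0) i * (mat c i)ᴴ) g b1 =
      star ((cg * (muG K y 0 i)ᴴ : Matrix _ Unit ℂ) b1 ()) := by
    simp [cg, Matrix.mul_apply, Fintype.sum_prod_type, indRow, mul_comm]
  rw [e2, Matrix.sub_mul, Matrix.one_mul, Matrix.sub_apply, sub_eq_zero] at e1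
  rw [e3, e1]
  simp [muG, ho]

end OrientAux

open OrientAux

theorem orient (y : Fin n → ℝ) {W1 V : Set K} (h : Oriented p K W1 V)
    {c : Mor (ind p a (grid K y 0)).forget (grid K y 0)}
    (hc : Chain (loc W1 (fgt (indM p a (dG K y 0)))) (loc W1 (dG K y 0)) (loc W1 c))
    (he : VanR W1 (ind p a (grid K y 0)).forget
      (fun i => epsG K y 0 i * mat c i - sumRow p a (epsG K y 0) i))
    (hdeg : ∀ i b' b, mat c i b' b ≠ 0 → deg b'.1 = deg b.2.1) :
    VanR V (grid K y 0) (fun i => indRow p a (muG K y 0) i * (mat c i)ᴴ -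
      Matrix.of fun _ b => muG K y 0 i () b) := by
  obtain ⟨-, hi, hK, xc, x1, R, R1, hB, R0, hs, hm, hV⟩ := h
  have hB' : Metric.ball xc R ⊆ interior K := fun z hz => by
    obtain ⟨x, hx, e⟩ := hB z hz
    exact e ▸ hK hx
  have h1 : VanR W1 (grid K y 0)
      (fun i => indRow p a (muG K y 0) i * (mat c i)ᴴ * (mat (dG K y 0) i)ᴴ) := by
    have e1 := (vanR_indRow p a hi ((mu_dG K y 0).mono hK)).mul_ctl (mat_ctl c.dag)
    have e2 := VanR.mul_left ((chain_q _).1 hc).dag (indRow p a (muG K y 0))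
    refine (e1.sub e2).congr (Eventually.of_forall fun i => ?_)
    have e3 := indRow_mul p a (muG K y 0) (dG K y 0).dag i
    rw [indM_dag] at e3
    simp only [mat_dag, mat_sub, mat_mul, mat_fgt, conjTranspose_sub, conjTranspose_mul,
      Matrix.mul_sub, ← Matrix.mul_assoc] at e3 ⊢
    rw [e3, sub_sub_cancel]
  have h2 : ∀ i g b, (indRow p a (muG K y 0) i * (mat c i)ᴴ) g b ≠ 0 → ∀ j, Odd (b.1 j) := by
    intro i g b hb
    rw [Matrix.mul_apply] at hb
    obtain ⟨u, -, hu⟩ := Finset.exists_ne_zero_of_sum_ne_zero hb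
    refine deg_eq_top.1 ((hdeg i b u (by simpa using right_ne_zero_of_mul hu)).trans
      (deg_eq_top.2 ?_))
    by_contra ho
    exact left_ne_zero_of_mul hu (by simp [indRow, muG, ho])
  intro x hx
  have x1R : dist x1 xc < R := hs (Metric.mem_ball_self R0)
  obtain ⟨R', r1, r2⟩ := exists_between (max_lt x1R (hV x hx))
  have r3 := sub_pos.2 ((le_max_left _ _).trans_lt r1)
  refine ⟨R' - dist x.1 xc, sub_pos.2 ((le_max_right _ _).trans_lt r1), ?_⟩
  filter_upwards [rows_const_mu K y hB' (h1.mono fun z hz => by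
      obtain ⟨x, hx, e⟩ := hB z.1 hz
      exact Subtype.ext e ▸ hx) h2 r2,
    top_cell K y (hB' x1R) (lt_min r3 (show 0 < R1 / 16 by positivity)),
    value p a K y hK (fun z hz => hB z (hs hz)) R0 hm hc he] with i k1 k2 k3 g b hb
  obtain ⟨b1, ho, hb1⟩ := k2
  by_contra hlt
  apply hb
  have hlt : dist (pt i b.1) x.1 < _ := not_le.1 hlt
  rw [Matrix.sub_apply, sub_eq_zero]
  by_cases hob : ∀ j, Odd (b.1 j)
  · rw [k1 g b b1 hob ho (by linarith [dist_triangle (pt i b.1) x.1 xc])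
      (by linarith [dist_triangle (pt i b1.1) x1 xc, hb1.trans (min_le_left _ _)]),
      k3 b1 ho (hb1.trans (min_le_right _ _))]
    simp [muG, hob]
  · rw [not_not.1 (mt (h2 i g b) hob)]
    simp [muG, hob]

/-- Degree preserving chain approximations of the action. -/
theorem exists_approx (y : Fin n → ℝ) {W1 : Set K} (hW : IsOpen W1) (hi : InvSet p W1)
    (hK : W1 ⊆ intK K) : ∃ c : Mor (ind p a (grid K y 0)).forget (grid K y 0),
      Chain (loc W1 (fgt (indM p a (dG K y 0)))) (loc W1 (dG K y 0)) (loc W1 c) ∧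
      VanR W1 (ind p a (grid K y 0)).forget
        (fun i => epsG K y 0 i * mat c i - sumRow p a (epsG K y 0) i) ∧
      ∀ i b' b, mat c i b' b ≠ 0 → deg b'.1 = deg b.2.1 := by
  obtain ⟨c, h1, h2⟩ := ac_exists (η := sumRow p a (epsG K y 0)) hW
    (tri_indM p a (tri_dG K y 0)).fgt
    (by
      rw [← DFun.map_mul]
      refine (van _ _).q_eq_zero.2 ?_
      have := van_indM p a hi ((van_sq K y).mono hK)
      rwa [indM_mul] at this)
    ((acyc_grid K y 0).mono hK) (fun x hx => grid_vertices K y x (hK hx))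
    ((vanR_sumRow p a hi ((eps_dG K y 0).mono hK)).congr
      (Eventually.of_forall fun i => (sumRow_mul p a _ _ i).symm))
  have hd : ∀ i b' b, mat (fgt (indM p a (dG K y 0))) i b' b ≠ 0 → deg b'.2.1 + 1 = deg b.2.1 :=
    fun i b' b h => deg_dEnt fun e => h (by simp [indM, indFam, dG, e])
  refine ⟨mkMor (fun i => Matrix.of fun b' b => if deg b'.1 = deg b.2.1 then mat c i b' b else 0)
    ((mat_ctl c).of_supp fun i b' b h e => h (by simp [e])) (equi_triv _), (chain_q _).2 ?_, ?_,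
    fun i b' b h => by_contra fun e => h (if_neg e)⟩
  · refine VanR.of_supp ((chain_q _).1 h1) fun i b' b h => ⟨b', fun e => h ?_⟩
    simp only [mat_sub, mat_mul, Matrix.sub_apply, Matrix.mul_apply, mat_mkMor, Matrix.of_apply]
      at e ⊢
    by_cases hb : deg b'.1 + 1 = deg b.2.1
    · refine Eq.trans ?_ e
      congr 1 <;> refine Finset.sum_congr rfl fun u _ => ?_
      · by_cases hu : mat (fgt (indM p a (dG K y 0))) i u b = 0
        · rw [hu, mul_zero, mul_zero]
        · rw [if_pos (by have := hd i u b hu; omega)]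
      · by_cases hu : mat (dG K y 0) i b' u = 0
        · rw [hu, zero_mul, zero_mul]
        · rw [if_pos ((deg_dEnt hu).symm.trans hb)]
    · rw [Finset.sum_eq_zero, Finset.sum_eq_zero, sub_zero] <;> intro u _
      · by_cases hu : mat (dG K y 0) i b' u = 0
        · rw [hu, zero_mul]
        · rw [if_neg fun e => hb ((deg_dEnt hu).trans e), mul_zero]
      · by_cases hu : mat (fgt (indM p a (dG K y 0))) i u b = 0
        · rw [hu, mul_zero]
        · rw [if_neg fun e => hb (by have := hd i u b hu; omega), zero_mul]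
  · refine h2.of_supp fun i x b h => ⟨x, fun e => h ?_⟩
    simp only [Matrix.sub_apply, Matrix.mul_apply, mat_mkMor, Matrix.of_apply, sumRow, epsG,
      ← deg_eq_zero] at e ⊢
    by_cases hb : deg b.2.1 = 0
    · refine Eq.trans (congrArg (· - _) (Finset.sum_congr rfl fun u _ => ?_)) e
      by_cases hu : deg u.1 = 0 <;> simp [hu, hb]
    · rw [if_neg hb, sub_zero]
      exact Finset.sum_eq_zero fun u _ => by by_cases hu : deg u.1 = 0 <;> simp [hu, Ne.symm hb]

end Vale.Agent.P228
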