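import Vale.Agent.P228.CtlA

/-! Part Sig: signatures. -/

namespace Vale.Agent.P228

open Filter Matrix DagCat Set

variable {Y : Type} [MetricSpace Y] {Γ : Grp Y} {X X' L : Obj Γ}

section qform
open QuadraticMap Module
variable {M N : Type} [AddCommGroup M] [Module ℝ M] [AddCommGroup N] [Module ℝ N]

/-- Signature of a real quadratic form. -/
noncomputable def sgq (Q : QuadraticForm ℝ M) : ℤ := (sigPos Q : ℤ) - sigNeg Q

theorem sgq_equiv {Q : QuadraticForm ℝ M} {Q' : QuadraticForm ℝ N} (e : M ≃ₗ[ℝ] N)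
    (h : ∀ x, Q' (e x) = Q x) : sgq Q = sgq Q' := by
  have : Equivalent Q Q' := ⟨⟨e, h⟩⟩
  rw [sgq, sgq, this.sigPos_eq, this.sigNeg_eq]

theorem sgq_wss {ι : Type} [Fintype ι] (w : ι → ℝ) :
    sgq (weightedSumSquares ℝ w) = ∑ i, (SignType.sign (w i) : ℤ) := by
  classical
  rw [sgq, QuadraticForm.sigPos_weightedSumSquares, QuadraticForm.sigNeg_weightedSumSquares,
    ← Set.coe_toFinset {i | 0 < w i}, ← Set.coe_toFinset {i | w i < 0}, Set.ncard_coe_finset,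
    Set.ncard_coe_finset, Set.toFinset_ofPred, Set.toFinset_ofPred, Finset.card_filter,
    Finset.card_filter]
  push_cast
  rw [← Finset.sum_sub_distrib]
  refine Finset.sum_congr rfl fun i _ => ?_
  rcases lt_trichotomy (w i) 0 with h | h | h
  · simp [h, h.not_gt]
  · simp [h]
  · simp [h, h.not_gt]

theorem sgq_pi {ι : Type} [Fintype ι] {P : ι → Type} [∀ i, AddCommGroup (P i)]
    [∀ i, Module ℝ (P i)] [∀ i, FiniteDimensional ℝ (P i)] (Q : ∀ i, QuadraticForm ℝ (P i)) :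
    sgq (QuadraticMap.pi Q) = ∑ i, sgq (Q i) := by
  choose w e using fun i => (Q i).equivalent_weightedSumSquares
  have e := fun i => (e i).some
  rw [Finset.sum_congr rfl fun i _ => (sgq_equiv (e i).toLinearEquiv (e i).map_app).trans
    (sgq_wss (w i)), ← Fintype.sum_sigma' fun i j => (SignType.sign (w i j) : ℤ), ← sgq_wss]
  refine sgq_equiv ((LinearEquiv.piCongrRight fun i => (e i).toLinearEquiv).trans
    (LinearEquiv.piCurry ℝ fun _ _ => ℝ).symm) fun x => ?_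
  rw [weightedSumSquares_apply, pi_apply, Fintype.sum_sigma]
  refine Finset.sum_congr rfl fun i _ => ?_
  rw [← (e i).map_app, weightedSumSquares_apply]
  rfl

theorem sgq_prod [FiniteDimensional ℝ M] [FiniteDimensional ℝ N] (Q : QuadraticForm ℝ M)
    (Q' : QuadraticForm ℝ N) : sgq (Q.prod Q') = sgq Q + sgq Q' := by
  obtain ⟨w, ⟨e⟩⟩ := Q.equivalent_weightedSumSquares
  obtain ⟨w', ⟨e'⟩⟩ := Q'.equivalent_weightedSumSquares
  rw [sgq_equiv e.toLinearEquiv e.map_app, sgq_equiv e'.toLinearEquiv e'.map_app, sgq_wss, sgq_wss,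
    sgq_equiv (Q' := weightedSumSquares ℝ (Sum.elim w w'))
      ((e.toLinearEquiv.prodCongr e'.toLinearEquiv).trans
        (LinearEquiv.sumArrowLequivProdArrow _ _ ℝ ℝ).symm) fun x => ?_, sgq_wss,
    Fintype.sum_sum_type]
  · rfl
  · rw [weightedSumSquares_apply, prod_apply, Fintype.sum_sum_type, ← e.map_app, ← e'.map_app,
      weightedSumSquares_apply, weightedSumSquares_apply]
    rfl

theorem sgq_lag [FiniteDimensional ℝ M] (Q : QuadraticForm ℝ M) (J : Submodule ℝ M)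
    (h0 : ∀ x ∈ J, Q x = 0) (h1 : ∀ v, (∀ x ∈ J, polar Q x v = 0) → v ∈ J) : sgq Q = 0 := by
  have a1 := QuadraticForm.sigPos_add_finrank_le_of_nonpos (Q := Q) (V := J)
    fun x hx => (h0 x hx).le
  have a2 := QuadraticForm.sigPos_add_finrank_le_of_nonpos (Q := -Q) (V := J)
    fun x hx => by simp [h0 x hx]
  have a3 := QuadraticForm.sigPos_add_sigNeg_add_radical (Q := Q)
  have a4 := LinearMap.BilinForm.finrank_add_finrank_orthogonal' (B := Q.polarBilin) J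
  have a5 : finrank ℝ (LinearMap.BilinForm.orthogonal Q.polarBilin J) ≤ finrank ℝ J :=
    Submodule.finrank_mono fun v hv => h1 v hv
  have a6 : J ⊓ LinearMap.ker Q.polarBilin = Q.radical := by
    rw [radical_eq_ker_polarBilin, inf_eq_right]
    intro v hv
    refine h1 v fun x _ => ?_
    rw [polar_comm, ← polarBilin_apply_apply, LinearMap.mem_ker.1 hv, LinearMap.zero_apply]
  rw [a6] at a4
  rw [sigPos_neg] at a2
  unfold sgq
  omega

theorem sig_eq_sgq {β : Type} [Fintype β] (B : Matrix β β ℂ) {V : Submodule ℝ (β → ℂ)}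
    (Q : QuadraticForm ℝ N) (f : N →ₗ[ℝ] (β → ℂ)) (hf : Function.Injective f)
    (hV : LinearMap.range f = V) (h : ∀ x, qf B (f x) = Q x) : sig B V = sgq Q := by
  subst hV
  exact (sgq_equiv (Q' := (qf B).restrict (LinearMap.range f)) (LinearEquiv.ofInjective f hf)
    h).symm

end qform

section rep
variable {β γ G : Type} [Fintype β] [Fintype γ] [DecidableEq β] [DecidableEq γ] [AddCommGroup G]

/-- A unitary representation. -/
structure IsRep (ρ : G → Matrix β β ℂ) : Prop where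
  zero : ρ 0 = 1
  add : ∀ g g', ρ (g + g') = ρ g * ρ g'
  star : ∀ g, (ρ g)ᴴ = ρ (-g)

omit [MetricSpace Y] in
theorem Obj.isRep (X : Obj Γ) (i : ℕ) : IsRep (X.ρ i) := ⟨X.ρ_zero i, X.ρ_add i, X.ρ_star i⟩

omit [DecidableEq β] in
theorem mem_cyc {d : Matrix β β ℂ} {ρ : G → Matrix β β ℂ} {χ : AddChar G ℂ} {v : β → ℂ} :
    v ∈ cyc d ρ χ ↔ d *ᵥ v = 0 ∧ ∀ g, ρ g *ᵥ v = χ g • v := Iff.rfl

omit [DecidableEq β] [DecidableEq γ] in
theorem dot_adj (A : Matrix β γ ℂ) (x : γ → ℂ) (u : β → ℂ) :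
    star (A *ᵥ x) ⬝ᵥ u = star x ⬝ᵥ Aᴴ *ᵥ u := by
  rw [star_mulVec, dotProduct_mulVec]

variable [Fintype G]

theorem IsRep.orth {ρ : G → Matrix β β ℂ} (hρ : IsRep ρ) {χ χ' : AddChar G ℂ} (hχ : χ ≠ χ')
    {v u : β → ℂ} (hv : ∀ g, ρ g *ᵥ v = χ g • v) (hu : ∀ g, ρ g *ᵥ u = χ' g • u) :
    Star.star v ⬝ᵥ u = 0 := by
  obtain ⟨g, hg⟩ := DFunLike.ne_iff.1 hχ
  have h := dot_adj (ρ (-g)) v u
  rw [hρ.star, neg_neg, hv, hu, star_smul, smul_dotProduct, dotProduct_smul,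
    AddChar.map_neg_eq_conj, smul_eq_mul, smul_eq_mul] at h
  simp only [RCLike.star_def, Complex.conj_conj] at h
  exact (mul_eq_mul_right_iff.1 h).resolve_left hg

theorem IsRep.decomp {ρ : G → Matrix β β ℂ} (hρ : IsRep ρ) {d : Matrix β β ℂ}
    (hd : ∀ g, d * ρ g = ρ g * d) {v : β → ℂ} (hv : d *ᵥ v = 0) :
    ∃ x : ∀ χ : AddChar G ℂ, cyc d ρ χ, ∑ χ, (x χ).1 = v := by
  classical
  have hG : (Fintype.card G : ℂ) ≠ 0 := Nat.cast_ne_zero.2 Fintype.card_ne_zero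
  refine ⟨fun χ => ⟨(Fintype.card G : ℂ)⁻¹ • ∑ g, χ (-g) • ρ g *ᵥ v, ?_, fun g => ?_⟩, ?_⟩
  · rw [mulVec_smul, mulVec_sum, Finset.sum_eq_zero, smul_zero]
    intro g _
    rw [mulVec_smul, mulVec_mulVec, hd, ← mulVec_mulVec, hv, mulVec_zero, smul_zero]
  · rw [mulVec_smul, mulVec_sum, smul_comm (χ g), Finset.smul_sum, Finset.smul_sum (r := χ g),
      Finset.smul_sum]
    refine Fintype.sum_equiv (Equiv.addLeft g) _ _ fun g' => ?_
    rw [mulVec_smul, mulVec_mulVec, ← hρ.add, Equiv.coe_addLeft, smul_smul (χ g),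
      ← AddChar.map_add_eq_mul, neg_add, add_neg_cancel_left]
  · rw [← Finset.smul_sum, Finset.sum_comm]
    simp only [← Finset.sum_smul, AddChar.sum_apply_eq_ite, neg_eq_zero, ite_smul, zero_smul,
      Finset.sum_ite_eq', Finset.mem_univ, if_true]
    rw [hρ.zero, one_mulVec, smul_smul, inv_mul_cancel₀ hG, one_smul]

omit [DecidableEq β] [Fintype G] in
theorem exists_adj (A : Matrix β γ ℂ) {u : γ → ℂ} (h : ∀ x, A *ᵥ x = 0 → star x ⬝ᵥ u = 0) :
    ∃ ξ, u = Aᴴ *ᵥ ξ := by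
  have := mem_span_of_iInf_ker_le_ker (L := fun i => (LinearMap.proj i) ∘ₗ A.mulVecLin)
    (K := (dotProductBilin ℂ ℂ (star u) : (γ → ℂ) →ₗ[ℂ] ℂ)) fun x hx => by
      have h1 := h x (funext fun i => (Submodule.mem_iInf _).1 hx i)
      rw [star_dotProduct, star_eq_zero] at h1
      exact h1
  obtain ⟨c, hc⟩ := (Submodule.mem_span_range_iff_exists_fun ℂ).1 this
  refine ⟨star c, funext fun j => ?_⟩
  have := congrArg star (LinearMap.congr_fun hc (Pi.single j 1))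
  simp only [LinearMap.sum_apply, LinearMap.smul_apply] at this
  simpa [mulVec, dotProduct, mul_comm, Pi.single_apply] using this.symm

open ComplexOrder in
theorem sig_split {ρ : G → Matrix β β ℂ} (hρ : IsRep ρ) {d B : Matrix β β ℂ}
    (hd : ∀ g, d * ρ g = ρ g * d) (hB : ∀ g, B * ρ g = ρ g * B) {V : Submodule ℝ (β → ℂ)}
    (hV : ∀ v, v ∈ V ↔ d *ᵥ v = 0) : sig B V = ∑ χ : AddChar G ℂ, sig B (cyc d ρ χ) := by
  classical
  have key : ∀ (A : Matrix β β ℂ), (∀ g, A * ρ g = ρ g * A) → ∀ (x : ∀ χ, cyc d ρ χ) (χ),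
      star (x χ).1 ⬝ᵥ A *ᵥ ∑ χ', (x χ').1 = star (x χ).1 ⬝ᵥ A *ᵥ (x χ).1 := by
    intro A hA x χ
    rw [mulVec_sum, dotProduct_sum, Finset.sum_eq_single χ]
    · intro χ' _ h
      refine hρ.orth h.symm (x χ).2.2 fun g => ?_
      rw [mulVec_mulVec, ← hA, ← mulVec_mulVec, (x χ').2.2, mulVec_smul]
    · simp
  let f : (∀ χ, cyc d ρ χ) →ₗ[ℝ] (β → ℂ) := ∑ χ, (cyc d ρ χ).subtype ∘ₗ LinearMap.proj χ
  have hf : ∀ x, f x = ∑ χ, (x χ).1 := fun x => by simp [f]
  refine (sig_eq_sgq B (QuadraticMap.pi fun χ => (qf B).restrict (cyc d ρ χ)) f ?_ ?_ ?_).trans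
    (sgq_pi _)
  · refine (injective_iff_map_eq_zero f).2 fun x hx => funext fun χ => Subtype.ext ?_
    have := key 1 (fun g => by simp) x χ
    rw [← hf, hx, mulVec_zero, dotProduct_zero, one_mulVec] at this
    exact dotProduct_star_self_eq_zero.1 this.symm
  · ext v
    rw [hV]
    constructor
    · rintro ⟨x, rfl⟩
      rw [hf, mulVec_sum]
      exact Finset.sum_eq_zero fun χ _ => (x χ).2.1
    · intro hv
      obtain ⟨x, hx⟩ := hρ.decomp hd hv
      exact ⟨x, (hf x).trans hx⟩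
  · intro x
    rw [qf_apply, QuadraticMap.pi_apply, hf, star_sum, sum_dotProduct, Complex.re_sum]
    exact Finset.sum_congr rfl fun χ _ => by rw [key B hB]; rfl

theorem sig_lag {ρ : G → Matrix β β ℂ} {σ : G → Matrix γ γ ℂ} (hρ : IsRep ρ) (hσ : IsRep σ)
    {d B : Matrix β β ℂ} {dL h : Matrix γ γ ℂ} {l : Matrix β γ ℂ}
    (hB : ∀ g, B * ρ g = ρ g * B) (hdL : ∀ g, dL * σ g = σ g * dL) (hl : ∀ g, l * σ g = ρ g * l)
    (herm : Bᴴ = B) (ch : B * d = dᴴ * B) (lch : l * dL = d * l)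
    (iso : lᴴ * (B * l) = dLᴴ * h + h * dL)
    (surj : ∀ v ξ, d *ᵥ v = 0 → (lᴴ * B) *ᵥ v = dLᴴ *ᵥ ξ →
      ∃ x y, dL *ᵥ x = 0 ∧ v = l *ᵥ x + d *ᵥ y) (χ : AddChar G ℂ) : sig B (cyc d ρ χ) = 0 := by
  classical
  let J : Submodule ℝ (β → ℂ) := ((LinearMap.ker dL.mulVecLin).map l.mulVecLin ⊔
    LinearMap.range d.mulVecLin).restrictScalars ℝ
  have hJ : ∀ v, v ∈ J ↔ ∃ x y, dL *ᵥ x = 0 ∧ v = l *ᵥ x + d *ᵥ y := by
    intro v
    simp only [J, Submodule.restrictScalars_mem, Submodule.mem_sup]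
    constructor
    · rintro ⟨_, ⟨x, hx, rfl⟩, _, ⟨y, rfl⟩, rfl⟩
      exact ⟨x, y, hx, rfl⟩
    · rintro ⟨x, y, hx, rfl⟩
      exact ⟨_, ⟨x, hx, rfl⟩, _, ⟨y, rfl⟩, rfl⟩
  refine sgq_lag _ (J.comap (cyc d ρ χ).subtype) ?_ ?_
  · rintro ⟨v, hv⟩ hv'
    replace hv := hv.1
    obtain ⟨x, y, hx, e⟩ := (hJ v).1 hv'
    have a1 : star v ⬝ᵥ B *ᵥ d *ᵥ y = 0 := by
      rw [mulVec_mulVec, ch, ← mulVec_mulVec, ← dot_adj, hv, star_zero, zero_dotProduct]
    have a2 : star (d *ᵥ y) ⬝ᵥ B *ᵥ l *ᵥ x = 0 := by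
      rw [dot_adj, mulVec_mulVec, ← ch, ← mulVec_mulVec, mulVec_mulVec x d, ← lch, ← mulVec_mulVec,
        hx, mulVec_zero, mulVec_zero, dotProduct_zero]
    have a3 : star (l *ᵥ x) ⬝ᵥ B *ᵥ l *ᵥ x = 0 := by
      rw [dot_adj, mulVec_mulVec x B, mulVec_mulVec, iso, add_mulVec, ← mulVec_mulVec,
        ← mulVec_mulVec, hx, mulVec_zero, add_zero, ← dot_adj, hx, star_zero, zero_dotProduct]
    show (star v ⬝ᵥ B *ᵥ v).re = 0
    conv_lhs => rw [congrArg (B *ᵥ ·) e, mulVec_add, dotProduct_add, a1, add_zero, e, star_add,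
      add_dotProduct, a2, a3]
    simp
  · rintro ⟨v, hv, hv'⟩ H
    have hu : ∀ g, σ g *ᵥ (lᴴ * B) *ᵥ v = χ g • (lᴴ * B) *ᵥ v := by
      intro g
      have := congrArg conjTranspose (hl (-g))
      rw [conjTranspose_mul, conjTranspose_mul, hσ.star, hρ.star, neg_neg] at this
      rw [mulVec_mulVec, ← Matrix.mul_assoc, this, Matrix.mul_assoc, ← hB, ← Matrix.mul_assoc,
        ← mulVec_mulVec, hv', mulVec_smul]
    have re0 : ∀ x ∈ cyc dL σ χ, (star x ⬝ᵥ (lᴴ * B) *ᵥ v).re = 0 := by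
      intro x hx
      have hm : l *ᵥ x ∈ cyc d ρ χ := ⟨by rw [mulVec_mulVec, ← lch, ← mulVec_mulVec, hx.1,
        mulVec_zero], fun g => by rw [mulVec_mulVec, ← hl, ← mulVec_mulVec, hx.2, mulVec_smul]⟩
      have := H ⟨_, hm⟩ ((hJ _).2 ⟨x, 0, hx.1, by simp⟩)
      have e : (star v ⬝ᵥ B *ᵥ l *ᵥ x).re = (star (l *ᵥ x) ⬝ᵥ B *ᵥ v).re := by
        conv_lhs => rw [← herm, ← dot_adj, star_dotProduct]
        simp
      simp only [QuadraticMap.polar, QuadraticMap.restrict_apply, qf_apply, Submodule.coe_add,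
        star_add, mulVec_add, add_dotProduct, dotProduct_add, Complex.add_re, e] at this
      rw [← mulVec_mulVec, ← dot_adj]
      linarith
    have z0 : ∀ x ∈ cyc dL σ χ, star x ⬝ᵥ (lᴴ * B) *ᵥ v = 0 := by
      intro x hx
      have := re0 (Complex.I • x) ⟨by rw [mulVec_smul, hx.1, smul_zero], fun g => by
        rw [mulVec_smul, hx.2, smul_comm]⟩
      rw [star_smul, smul_dotProduct] at this
      exact Complex.ext (re0 x hx) (by simpa using this)
    obtain ⟨ξ, hξ⟩ := exists_adj dL (u := (lᴴ * B) *ᵥ v) fun x hx => by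
      obtain ⟨z, rfl⟩ := hσ.decomp hdL hx
      rw [star_sum, sum_dotProduct]
      refine Finset.sum_eq_zero fun χ' _ => ?_
      by_cases e : χ' = χ
      · subst e
        exact z0 _ (z _).2
      · exact hσ.orth e (z χ').2.2 hu
    exact (hJ v).2 (surj v ξ hv hξ)

end rep
theorem esig_neg (d B : Mor X X) (i : ℕ) (χ : AddChar (Γ.G i) ℂ) :
    esig d (-B) i χ = -esig d B i χ := by
  have : (qf (-mat B i)).restrict (cyc (mat d i) (X.ρ i) χ) =
      -(qf (mat B i)).restrict (cyc (mat d i) (X.ρ i) χ) := by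
    ext v
    simp [qf_apply, neg_mulVec]
  rw [esig, esig, sig, sig, mat_neg, this, sigPos_neg, sigNeg_neg, neg_sub]

theorem esig_dsum (d B : Mor X X) (d' B' : Mor X' X') (i : ℕ) (χ : AddChar (Γ.G i) ℂ) :
    esig (dsum d d') (dsum B B') i χ = esig d B i χ + esig d' B' i χ := by
  rw [esig, dsum, dsum, mat_mat, mat_mat]
  refine (sig_eq_sgq _ (((qf (mat B i)).restrict (cyc (mat d i) (X.ρ i) χ)).prod
    ((qf (mat B' i)).restrict (cyc (mat d' i) (X'.ρ i) χ)))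
    ((LinearEquiv.sumArrowLequivProdArrow _ _ ℝ ℂ).symm.toLinearMap ∘ₗ
      ((cyc (mat d i) (X.ρ i) χ).subtype.prodMap (cyc (mat d' i) (X'.ρ i) χ).subtype))
    ?_ ?_ ?_).trans (sgq_prod _ _)
  · exact (LinearEquiv.sumArrowLequivProdArrow _ _ ℝ ℂ).symm.injective.comp
      (Subtype.val_injective.prodMap Subtype.val_injective)
  · ext v
    have e : ∀ (A : Matrix (X.β i) (X.β i) ℂ) (A' : Matrix (X'.β i) (X'.β i) ℂ) (c : ℂ),
        fromBlocks A 0 0 A' *ᵥ v = c • v ↔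
          A *ᵥ (v ∘ Sum.inl) = c • (v ∘ Sum.inl) ∧ A' *ᵥ (v ∘ Sum.inr) = c • (v ∘ Sum.inr) := by
      intro A A' c
      simp [fromBlocks_mulVec, funext_iff]
    have e0 := e (mat d i) (mat d' i) 0
    simp only [zero_smul] at e0
    constructor
    · rintro ⟨⟨x, y⟩, rfl⟩
      exact ⟨e0.2 ⟨x.2.1, y.2.1⟩, fun g => (e _ _ _).2 ⟨x.2.2 g, y.2.2 g⟩⟩
    · rintro ⟨h1, h2⟩
      refine ⟨(⟨v ∘ Sum.inl, (e0.1 h1).1, fun g => ((e _ _ _).1 (h2 g)).1⟩,
        ⟨v ∘ Sum.inr, (e0.1 h1).2, fun g => ((e _ _ _).1 (h2 g)).2⟩), ?_⟩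
      ext (b | b) <;> rfl
  · rintro ⟨x, y⟩
    show (star (Sum.elim x.1 y.1) ⬝ᵥ fromBlocks (mat B i) 0 0 (mat B' i) *ᵥ Sum.elim x.1 y.1).re =
      (star x.1 ⬝ᵥ mat B i *ᵥ x.1).re + (star y.1 ⬝ᵥ mat B' i *ᵥ y.1).re
    rw [fromBlocks_mulVec, ← Complex.add_re]
    simp [dotProduct, Fintype.sum_sum_type]

theorem esig_congr {d B d' B' : Mor X X} {i : ℕ} (hd : mat d i = mat d' i)
    (hB : mat B i = mat B' i) (χ : AddChar (Γ.G i) ℂ) : esig d B i χ = esig d' B' i χ := by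
  rw [esig, esig, hd, hB]

theorem esig_tw (ζ : ∀ i, AddChar (Γ.G i) ℂ) (d B : Mor X X) (i : ℕ) (χ : AddChar (Γ.G i) ℂ) :
    esig (tw ζ d) (tw ζ B) i (χ * ζ i) = esig d B i χ := by
  have : cyc (mat d i) ((X.twist ζ).ρ i) (χ * ζ i) = cyc (mat d i) (X.ρ i) χ := by
    ext v
    refine and_congr_right fun _ => forall_congr' fun g => ?_
    have h : ζ i g ≠ 0 := ((ζ i).val_isUnit g).ne_zero
    show (ζ i g • X.ρ i g) *ᵥ v = (χ g * ζ i g) • v ↔ _
    rw [smul_mulVec, mul_comm, mul_smul, (smul_right_injective _ h).eq_iff]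
  exact congrArg (sig (mat B i)) this

theorem esig_fgt (d B : Mor X X) (i : ℕ) (χ0 : AddChar ((triv Y).G i) ℂ) :
    esig (fgt d) (fgt B) i χ0 = ∑ χ : AddChar (Γ.G i) ℂ, esig d B i χ := by
  refine sig_split (X.isRep i) (mat_equi d i) (mat_equi B i) fun v => and_iff_left fun g => ?_
  have h : g = 0 := rfl
  rw [h, Obj.ρ_zero, one_mulVec, AddChar.map_zero_eq_one, one_smul]

theorem esig_of_one_eq_zero (d B : Mor X X) {i : ℕ} (h : mat (1 : Mor X X) i = 0)
    (χ : AddChar (Γ.G i) ℂ) : esig d B i χ = 0 := by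
  have : Subsingleton (X.β i → ℂ) := ⟨fun v w => by
    rw [← one_mulVec v, ← one_mulVec w, ← mat_one, h, zero_mulVec, zero_mulVec]⟩
  have h1 := sigPos_le_finrank ((qf (mat B i)).restrict (cyc (mat d i) (X.ρ i) χ))
  have h2 := sigPos_le_finrank (-(qf (mat B i)).restrict (cyc (mat d i) (X.ρ i) χ))
  rw [Module.finrank_zero_of_subsingleton] at h1 h2
  rw [sigPos_neg] at h2
  unfold esig sig
  omega

/-- Rank one. -/
theorem esig_unique {X : Obj (triv Y)} (d B : Mor X X) {i : ℕ} (b : X.β i) (hb : ∀ b', b' = b)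
    (hd : mat d i = 0) (hB : (mat B i)ᴴ = mat B i) (h : mat B i b b ≠ 0)
    (χ : AddChar ((triv Y).G i) ℂ) : esig d B i χ = 2 ∨ esig d B i χ = -2 := by
  have : Unique (X.β i) := ⟨⟨b⟩, hb⟩
  have hc : (mat B i b b).im = 0 := by
    have := congrFun (congrFun hB b) b
    exact Complex.conj_eq_iff_im.1 this
  have hr : (mat B i b b).re ≠ 0 := fun e => h (Complex.ext e hc)
  have := sig_eq_sgq (mat B i) (V := cyc (mat d i) (X.ρ i) χ)
    (QuadraticMap.weightedSumSquares ℝ fun _ : Fin 2 => (mat B i b b).re)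
    (LinearMap.pi fun _ => Complex.basisOneI.equivFun.symm.toLinearMap)
    (fun x y e => Complex.basisOneI.equivFun.symm.injective (congrFun e b)) ?_ ?_
  · rw [esig, this, sgq_wss]
    rcases hr.lt_or_gt with e | e <;> simp [e]
  · ext v
    refine iff_of_true ⟨Complex.basisOneI.equivFun (v b), funext fun b' => ?_⟩ ⟨?_, fun g => ?_⟩
    · rw [hb b']
      exact Complex.basisOneI.equivFun.symm_apply_apply _
    · rw [hd, zero_mulVec]
    · have h : g = 0 := rfl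
      rw [h, Obj.ρ_zero, one_mulVec, AddChar.map_zero_eq_one, one_smul]
  · intro x
    simp [qf_apply, mulVec, dotProduct, hb default, hc]
    ring

/-- A closed complex with a Lagrangian has vanishing signatures. -/
theorem esig_lag [CompactSpace Y] {d B : Mor X X} {dL h : Mor L L} {l : Mor L X}
    (hs : IsSym (loc univ d) (loc univ B))
    (hL : Lag (loc univ d) (loc univ B) (loc univ dL) (loc univ l) (loc univ h)) :
    ∀ᶠ i in atTop, ∀ χ, esig d B i χ = 0 := by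
  obtain ⟨g, g1, -, k, g2⟩ := hL.equiv.inv
  obtain ⟨g, rfl⟩ := (van Γ univ).q_surj g
  obtain ⟨k, rfl⟩ := (van Γ univ).q_surj k
  have e1 : loc univ B.dag = loc univ B := by simpa using hs.herm
  have e2 : loc univ (B * d) = loc univ (d.dag * B) := by simpa [Chain] using hs.chain
  have e3 : loc univ (l * dL) = loc univ (d * l) := by simpa [Chain] using hL.chain
  have e4 : loc univ (l.dag * (B * l)) = loc univ (dL.dag * h + h * dL) := by simpa using hL.iso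
  have e5 : loc univ (g * fibD d B dL l) = loc univ (dL * g) := by simpa [Chain] using g1
  have e6 : loc univ (col l h * g - 1) = loc univ (fibD d B dL l * k + k * fibD d B dL l) := by
    simp only [DFun.map_sub, DFun.map_add, DFun.map_mul, DFun.map_one, DFun.map_fibD, DFun.map_col]
    exact g2
  filter_upwards [loc_univ_eq.1 e1, loc_univ_eq.1 e2, loc_univ_eq.1 e3, loc_univ_eq.1 e4,
    loc_univ_eq.1 e5, loc_univ_eq.1 e6] with i e1 e2 e3 e4 e5 e6 χ
  refine sig_lag (d := mat d i) (X.isRep i) (L.isRep i) (mat_equi B i) (mat_equi dL i) (mat_equi l i)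
    e1 e2 e3 e4 (fun v ξ hv hξ => ?_) χ
  have hF : mat (fibD d B dL l) i = fromBlocks (mat d i) 0 ((mat l i)ᴴ * mat B i) (-(mat dL i)ᴴ) :=
    mat_mat ..
  have hz : mat (fibD d B dL l) i *ᵥ Sum.elim v ξ = 0 := by
    rw [hF, fromBlocks_mulVec]
    ext (b | b)
    · simpa using congrFun hv b
    · simp [hξ, neg_mulVec]
  refine ⟨mat g i *ᵥ Sum.elim v ξ, -(mat k i *ᵥ Sum.elim v ξ) ∘ Sum.inl, ?_, funext fun b => ?_⟩
  · rw [mulVec_mulVec, ← mat_mul, ← e5, mat_mul, ← mulVec_mulVec, hz, mulVec_zero]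
  · have := congrFun (congrArg (· *ᵥ Sum.elim v ξ) e6) (Sum.inl b)
    simp only [mat_sub, mat_add, mat_mul, mat_one, sub_mulVec, add_mulVec, ← mulVec_mulVec, hz,
      mulVec_zero, add_zero, one_mulVec] at this
    rw [hF, mat_col, fromRows_mulVec, fromBlocks_mulVec] at this
    simp only [Pi.sub_apply, Sum.elim_inl, zero_mulVec, add_zero] at this
    rw [mulVec_neg, Pi.add_apply, Pi.neg_apply, ← this]
    ring

end Vale.Agent.P228
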