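import Vale.Agent.P228.GridB
import Vale.Agent.P228.AlgB

/-! Part StdA: the boundary of a half grid is the grid of one dimension less. -/

namespace Vale.Agent.P228

open Filter Matrix DagCat Set

open Complex DagCat.Hom in
theorem stdA_alg {O : Type 1} [Add O] {C : DagCat O} {X Λ M : O} {d B T S H : C.Hom X X}
    {ι : C.Hom Λ X} {J : C.Hom M X} {dΛ : C.Hom Λ Λ} {d' G : C.Hom M M}
    (hT : T * d = d.dag * T) (hST : S * T = 1) (hTS : T * S = 1) (hι : ι.dag * ι = 1)
    (hJ : J.dag * J = 1) (hιJ : ι * (ι.dag * J) = J)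
    (hP : ι * (ι.dag * T) = T * (ι * ι.dag - J * J.dag)) (hd : d * ι = ι * dΛ)
    (hd' : d * J = J * d') (hsq : dΛ * dΛ = 0) (hB : B = T + (d.dag * H + H * d))
    (hG : G * d' = I • (d' * G)) (hG1 : G.dag * G = 1) (hG2 : G * G.dag = 1) :
    IsEquiv d' (bdD dΛ (ι.dag * (B * ι))) (col (ι.dag * J) ((-I) • (ι.dag * (H * J))) * G) := by
  have hdd : ι.dag * d.dag = dΛ.dag * ι.dag := by simpa using congrArg Hom.dag hd
  have h1 : ι * (ι.dag * (S * ι)) = S * ι := by
    have h : S * ι = ι * (ι.dag * (S * ι)) - J * (J.dag * (S * ι)) := by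
      simpa [reassoc hTS, reassoc hST, hι] using congrArg (fun k => S * k * S * ι) hP
    have h' : ∀ k : C.Hom Λ M, ι * (ι.dag * (J * k)) = J * k := fun k => by
      simpa using congrArg (· * k) hιJ
    rw [h]
    simp [reassoc hι, h']
  have h2 : ι.dag * (T * J) = 0 := by
    simpa [reassoc hι, hιJ, hJ] using congrArg (fun k => ι.dag * k * J) hP
  have ses : SES d' dΛ dΛ.dag (ι.dag * J) (ι.dag * (T * ι)) := by
    refine ⟨?_, ?_, J.dag * ι, ι.dag * (S * ι), by simp [hιJ, hJ], by simp [h1, reassoc hTS, hι],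
      by simp [hιJ, h2], ?_⟩
    · have : ι.dag * (d * (ι * (ι.dag * J))) = ι.dag * (J * d') := by rw [hιJ, hd']
      simpa [Chain, reassoc hd, reassoc hι] using this.symm
    · simp [Chain, ← hd, reassoc hT, reassoc hdd]
    · have := congrArg (fun k => ι.dag * (S * k * ι)) hP
      simp only [Hom.assoc, reassoc hST, Hom.sub_mul, Hom.mul_sub, hι, Hom.mul_one] at this
      simp [this, hι]
  have e1 := (ses.equiv_fib hsq).smul_d I_ne_zero
  have e2 : IsEquiv (I • tri dΛ (ι.dag * (T * ι)) (-dΛ.dag)) (bdD dΛ (ι.dag * (B * ι)))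
      (tri 1 ((-I) • (ι.dag * (H * ι))) ((-I) • 1)) := by
    refine IsEquiv.of_iso (k := tri 1 (-(ι.dag * (H * ι))) (I • 1)) ?_ ?_ ?_
    · simp [Chain, tri, bdD, hB, smul_smul, hd, reassoc hdd]
      abel
    · simp [tri, smul_smul]
    · simp [tri, smul_smul]
  have e3 : IsEquiv d' (I • d') G := IsEquiv.of_iso (by simp [Chain, hG]) hG1 hG2
  simpa [tri, hιJ] using (e2.mul e1).mul e3

open Complex DagCat.Hom in
theorem stdA_alg2 {O : Type 1} [Add O] {C : DagCat O} {X Λ M : O} {d B T Z Z' h : C.Hom X X}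
    {ι : C.Hom Λ X} {J : C.Hom M X} {dΛ : C.Hom Λ Λ} {d' G : C.Hom M M}
    (hT : T * d = d.dag * T) (hT1 : T.dag * T = 1) (hT2 : T * T.dag = 1) (hZ : Z * d = d * Z)
    (hZ1 : Z * Z' = 1) (hZ2 : Z' * Z = 1) (hι : ι.dag * ι = 1)
    (hJ : J.dag * J = 1) (hιJ : ι * (ι.dag * J) = J)
    (hP : ι * (ι.dag * (T * Z)) = T * Z * (ι * ι.dag - J * J.dag)) (hd : d * ι = ι * dΛ)
    (hd' : d * J = J * d') (hsq : dΛ * dΛ = 0) (hB : T.dag * B - Z = d * h + h * d)
    (hG : G * d' = I • (d' * G)) (hG1 : G.dag * G = 1) (hG2 : G * G.dag = 1) :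
    IsEquiv d' (bdD dΛ (ι.dag * (B * ι))) (col (ι.dag * J) ((-I) • (ι.dag * (T * h * J))) * G) :=
  stdA_alg (T := T * Z) (S := Z' * T.dag) (by simp [hZ, reassoc hT]) (by simp [reassoc hT1, hZ2])
    (by simp [reassoc hZ1, hT2]) hι hJ hιJ hP hd hd' hsq
    (by simpa [reassoc hT2, reassoc hT, sub_eq_iff_eq_add'] using congrArg (T * ·) hB) hG hG1 hG2

section inc
variable {α β γ : Type}

/-- the matrix of an inclusion of index sets -/
def stdAE [DecidableEq β] (e : α → β) : Matrix β α ℂ := Matrix.of fun b c => if b = e c then 1 else 0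

variable [Fintype β] [DecidableEq β]

theorem stdA_mul_E (e : α → β) (M : Matrix γ β ℂ) : M * stdAE e = M.submatrix id e := by
  ext a c
  simp [stdAE, Matrix.mul_apply]

theorem stdA_EH_mul (e : α → β) (M : Matrix β γ ℂ) : (stdAE e)ᴴ * M = M.submatrix e id := by
  ext a c
  simp [stdAE, Matrix.mul_apply, apply_ite (star : ℂ → ℂ)]

theorem stdA_EH_E [DecidableEq α] {e : α → β} (he : Function.Injective e) :
    (stdAE e)ᴴ * stdAE e = 1 := by
  rw [stdA_EH_mul]
  ext a c
  simp [stdAE, Matrix.one_apply, he.eq_iff]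

omit [Fintype β] in
theorem stdA_E_EH [Fintype α] {e : α → β} (he : Function.Injective e) (S : β → Prop)
    [DecidablePred S] (hS : ∀ b, S b ↔ b ∈ range e) :
    stdAE e * (stdAE e)ᴴ = diagonal fun b => if S b then 1 else 0 := by
  ext a b
  simp only [stdAE, Matrix.mul_apply, conjTranspose_apply, Matrix.of_apply, diagonal_apply, hS]
  by_cases h : a ∈ range e
  · obtain ⟨c, rfl⟩ := h
    rw [Finset.sum_eq_single c (fun x _ hx => by simp [he.eq_iff, hx.symm]) (by simp)]
    simp [apply_ite (star : ℂ → ℂ), eq_comm]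
  · have : ∀ c, a ≠ e c := fun c hc => h ⟨c, hc.symm⟩
    simp [this, h]

end inc

/-- inclusion morphisms -/
noncomputable def stdAI {Y : Type} [MetricSpace Y] {X' X : Obj (triv Y)}
    (e : ∀ i, X'.β i → X.β i) (he : ∀ i b, X.pos i (e i b) = X'.pos i b) : Mor X' X :=
  mkMor (fun i => stdAE (e i)) (Ctl.of_pos fun i b' b h => by
    by_contra hne
    exact h (if_neg fun e' : b' = e i b => hne (by rw [e', he]))) (equi_triv _)

/-- diagonal morphisms -/
noncomputable def stdAD {Y : Type} [MetricSpace Y] (X : Obj (triv Y)) (c : ∀ i, X.β i → ℂ) :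
    Mor X X :=
  mkMor (fun i => diagonal (c i)) (Ctl.of_pos fun i b' b h => by
    by_contra hne
    exact h (diagonal_apply_ne _ fun e => hne (by rw [e]))) (equi_triv _)

theorem stdA_ne {α β γ : Type} [Fintype β] {M : Matrix α β ℂ} {N : Matrix β γ ℂ} {x : α} {z : γ}
    (h : (M * N) x z ≠ 0) : ∃ y, M x y ≠ 0 ∧ N y z ≠ 0 := by
  rw [Matrix.mul_apply] at h
  obtain ⟨y, -, hy⟩ := Finset.exists_ne_zero_of_sum_ne_zero h
  exact ⟨y, left_ne_zero_of_mul hy, right_ne_zero_of_mul hy⟩

variable {n : ℕ} (K : Set (Fin n → ℝ)) [CompactSpace K] (y : Fin n → ℝ)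

theorem stdA_fix (r : ℕ) {W : Set K} {A h : Mor (grid K y r) (grid K y r)}
    (hA : ∀ i b' b, mat A i b' b ≠ 0 → deg b'.1 = deg b.1)
    (hv : Van W (A - (dG K y r * h + h * dG K y r))) :
    ∃ h1 : Mor (grid K y r) (grid K y r),
      (∀ i b' b, mat h1 i b' b ≠ 0 → deg b'.1 = deg b.1 + 1) ∧
      Van W (A - (dG K y r * h1 + h1 * dG K y r)) := by
  have hd : ∀ i b' b, mat (dG K y r) i b' b ≠ 0 → deg b'.1 + 1 = deg b.1 :=
    fun i b' b hb => deg_dEnt hb
  refine ⟨mkMor (fun i => Matrix.of fun b' b => if deg b'.1 = deg b.1 + 1 then mat h i b' b else 0)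
    ((mat_ctl h).of_supp fun i b' b hb e => hb (by simp [e])) (equi_triv _),
    fun i b' b hb => by_contra fun e => hb (by simp [e]),
    VanR.of_supp hv fun i b' b hb => ⟨b', fun e => hb ?_⟩⟩
  simp only [mat_sub, mat_add, mat_mul, mat_mkMor, Matrix.sub_apply, Matrix.add_apply,
    Matrix.mul_apply, Matrix.of_apply] at e ⊢
  by_cases h0 : deg b'.1 = deg b.1
  · rw [← e]
    congr 2 <;> refine Finset.sum_congr rfl fun c _ => ?_
    · by_cases h1 : mat (dG K y r) i b' c = 0
      · simp [h1]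
      · rw [if_pos (by have := hd _ _ _ h1; omega)]
    · by_cases h1 : mat (dG K y r) i c b = 0
      · simp [h1]
      · rw [if_pos (by have := hd _ _ _ h1; omega)]
  · rw [not_not.1 (mt (hA i b' b) h0), Finset.sum_eq_zero, Finset.sum_eq_zero, add_zero, sub_zero]
    · intro c _
      by_cases h1 : mat (dG K y r) i c b = 0
      · simp [h1]
      · rw [if_neg (by have := hd _ _ _ h1; omega), zero_mul]
    · intro c _
      by_cases h1 : mat (dG K y r) i b' c = 0
      · simp [h1]
      · rw [if_neg (by have := hd _ _ _ h1; omega), mul_zero]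

theorem stdA_kap (r : ℕ) {R : ℝ} (hR : 0 < R) (hB : Metric.ball y R ⊆ interior K)
    {W : Set K} (hW : W = {z : K | z.1 ∈ Metric.ball y R}) {A : Mor (grid K y r) (grid K y r)}
    (hA : ∀ i b' b, mat A i b' b ≠ 0 → deg b'.1 = deg b.1)
    (he : IsEquiv (loc W (dG K y r)) (loc W (dG K y r)) (loc W A)) :
    ∃ κ : ℕ → ℂ, (∀ i, κ i ≠ 0) ∧
      VanR W (grid K y r) (fun i => epsG K y r i * mat A i - κ i • epsG K y r i) := by
  classical
  have hWK : W ⊆ intK K := fun z hz => hB (by rwa [hW] at hz)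
  have h0 := (eps_dG K y r).mono hWK
  have h1 : VanR W (grid K y r) fun i => epsG K y r i * mat A i * mat (dG K y r) i := by
    refine (VanR.mul_left ((chain_q _).1 he.chain) (epsG K y r) |>.add
      (h0.mul_ctl (mat_ctl A))).congr (.of_forall fun i => ?_)
    simp [Matrix.mul_sub, Matrix.mul_assoc]
  have h2 : ∀ i a b, (epsG K y r i * mat A i) a b ≠ 0 → ∀ j, Even (b.1 j) := by
    intro i a b hb
    obtain ⟨c, h3, h4⟩ := stdA_ne hb
    rw [← deg_eq_zero, ← hA _ _ _ h4, deg_eq_zero]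
    by_contra h5
    exact h3 (if_neg h5)
  have hc : ∀ i j, Even (cen y i j) := fun i j => even_two_mul _
  have hev : ∀ ρ > 0, ∀ᶠ i in atTop, dist (pt i (cen y i)) y < ρ ∧ pt i (cen y i) ∈ K := by
    intro ρ hρ
    filter_upwards [tendsto_pt_cen y (Metric.ball_mem_nhds y hρ),
      tendsto_pt_cen y (Metric.ball_mem_nhds y hR)] with i h3 h4
    exact ⟨h3, interior_subset (hB h4)⟩
  let κ : ℕ → ℂ := fun i => if h : pt i (cen y i) ∈ K then
    (epsG K y r i * mat A i) () ⟨cen y i, h, fun _ _ => rfl⟩ else 1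
  have h3 : VanR W (grid K y r) fun i => epsG K y r i * mat A i - κ i • epsG K y r i := by
    intro x hx
    have hx' : dist x.1 y < R := by rwa [hW] at hx
    obtain ⟨R', h4, h5⟩ := exists_between hx'
    refine ⟨R' - dist x.1 y, sub_pos.2 h4, ?_⟩
    filter_upwards [rows_const_eps K y r hB (hW ▸ h1) h2 h5, hev R' (dist_nonneg.trans_lt h4)]
      with i h6 h7 a b hb
    refine not_lt.1 fun h8 => hb ?_
    have h9 : dist (pt i b.1) x.1 < R' - dist x.1 y := h8
    rw [Matrix.sub_apply, Matrix.smul_apply]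
    by_cases e : ∀ j, Even (b.1 j)
    · rw [h6 a b ⟨cen y i, h7.2, fun _ _ => rfl⟩ e (hc i)
        (by linarith [dist_triangle (pt i b.1) x.1 y]) h7.1.le]
      simp [κ, h7.2, epsG, e]
    · rw [not_not.1 (mt (h2 i a b) e)]
      simp [epsG, e]
  have h4 : ∀ᶠ i in atTop, κ i ≠ 0 := by
    obtain ⟨g, -, -, h5⟩ := he.inv
    obtain ⟨g, rfl⟩ := (van _ W).q_surj g
    obtain ⟨k, hk⟩ := (null_q _ (f := A * g - 1)).1 (by simpa using h5)
    obtain ⟨ρ, hρ, h6⟩ := ((VanR.mul_left hk (epsG K y r)).add (h0.mul_ctl (mat_ctl k))).sub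
      (h3.mul_ctl (mat_ctl g)) ⟨y, interior_subset (hB (Metric.mem_ball_self hR))⟩
      (by rw [hW]; exact Metric.mem_ball_self hR)
    filter_upwards [h6, hev ρ hρ] with i h7 h8 h9
    refine (h7 () ⟨cen y i, h8.2, fun _ _ => rfl⟩ ?_).not_gt h8.1
    have e : (epsG K y r i * mat k i * mat (dG K y r) i) () ⟨cen y i, h8.2, fun _ _ => rfl⟩ = 0 := by
      by_contra h10
      obtain ⟨c, -, h11⟩ := stdA_ne h10
      obtain ⟨j, h12, -⟩ := dEnt_ne h11
      exact Int.not_odd_iff_even.2 (hc i j) h12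
    simp only [mat_sub, mat_add, mat_mul, mat_one, Matrix.mul_sub, Matrix.mul_add, h9, zero_smul,
      ← Matrix.mul_assoc, Matrix.mul_one, sub_zero]
    intro h10
    change _ - epsG K y r i () _ - (_ + (_ * _ * _ : Matrix _ _ ℂ) () _) + _ - _ = 0 at h10
    rw [e] at h10
    rw [show epsG K y r i () ⟨cen y i, h8.2, fun _ _ => rfl⟩ = 1 from if_pos (hc i)] at h10
    simp at h10
  refine ⟨fun i => if κ i = 0 then 1 else κ i, fun i => by by_cases h : κ i = 0 <;> simp [h],
    h3.congr (h4.mono fun i hi => by simp only [if_neg hi])⟩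

theorem std_step (j : Fin n) {R : ℝ} (hR : 0 < R) (hB : Metric.ball y R ⊆ interior K)
    {W : Set K} (hW : W = {z : K | z.1 ∈ Metric.ball y R})
    {B : Mor (grid K y j.val) (grid K y j.val)} (hH : Homog K y j.val B)
    (hP : Poinc (loc W (dG K y j.val)) (loc W B)) :
    ∃ (Λ : Obj (triv K)) (ι : Mor Λ (grid K y j.val)) (dΛ : Mor Λ Λ),
      IsSub W (dG K y j.val) ι dΛ ∧ Van {z : K | z.1 j < y j} (1 - ι * ι.dag) ∧
      Van {z : K | y j < z.1 j} ι ∧
      ∃ w : Mor (grid K y (j.val + 1)) (Λ + Λ),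
        IsEquiv (loc W (dG K y (j.val + 1))) (loc W (bdD dΛ (ι.dag * (B * ι)))) (loc W w) ∧
        Homog K y (j.val + 1) (w.dag * ((cat (triv K)).hyp Λ * w)) := by
  have hWK : W ⊆ intK K := fun z hz => hB (by rwa [hW] at hz)
  have hWo : IsOpen W := hW ▸ Metric.isOpen_ball.preimage continuous_subtype_val
  set d := dG K y j.val with hd
  set T := tG K y j.val with hT
  have hTc : Chain (loc W d) (loc W d).dag (loc W T) := by
    simpa using (tG_chain K y j.val).map (resU hWK)
  have hT1 : (loc W T).dag * loc W T = 1 := by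
    simpa using loc_eq.2 ((tG_dag_mul K y j.val).mono hWK)
  have hT2 : loc W T * (loc W T).dag = 1 := by
    simpa using loc_eq.2 ((tG_mul_dag K y j.val).mono hWK)
  have hTc' : Chain (loc W d).dag (loc W d) (loc W T).dag := by
    simpa using (tG_dag_chain K y j.val).map (resU hWK)
  have hA : ∀ i b' b, mat (T.dag * B) i b' b ≠ 0 → deg b'.1 = deg b.1 := by
    intro i b' b hb
    obtain ⟨c, h1, h2⟩ := stdA_ne hb
    have h3 := deg_tG K y j.val j.2.le i c b' (star_ne_zero.1 h1)
    have h4 := hH i c b h2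
    omega
  have hAe : IsEquiv (loc W d) (loc W d) (loc W (T.dag * B)) := by
    simpa using (IsEquiv.of_iso hTc' hT2 hT1).mul hP.equiv
  obtain ⟨κ, hκ, hκ'⟩ := stdA_kap K y j.val hR hB hW hA hAe
  let Z := stdAD (grid K y j.val) fun i _ => κ i
  let Z' := stdAD (grid K y j.val) fun i _ => (κ i)⁻¹
  have mZ : ∀ i, mat Z i = κ i • 1 := fun i => (smul_one_eq_diagonal _).symm
  have hZ : ∀ f : Mor (grid K y j.val) (grid K y j.val), Z * f = f * Z := fun f =>
    mor_ext fun i => by simp [mZ]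
  have hZ1 : Z * Z' = 1 := mor_ext fun i => by simp [Z, Z', stdAD, hκ]
  have hZ2 : Z' * Z = 1 := by rw [← hZ, hZ1]
  obtain ⟨h0, hh0, -⟩ := ac_null hWo (tri_dG K y j.val) hP.sq ((acyc_grid K y j.val).mono hWK)
    (f := T.dag * B - Z) (hAe.chain.sub (g := loc W Z) (congrArg (loc W) (hZ d)))
    (hκ'.congr (.of_forall fun i => by simp [mZ, Matrix.mul_sub]))
  obtain ⟨h, hh, hh'⟩ := stdA_fix K y j.val (fun i b' b hb => by
    by_cases e : b' = b
    · rw [e]
    · exact hA i b' b (by simpa [mZ, e] using hb)) hh0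
  let Λ := (grid K y j.val).sub (fun i b => b.1 j ≤ cen y i j) fun i g b' b hb h => by
    rwa [not_not.1 (mt one_apply_ne hb)]
  let ι : Mor Λ (grid K y j.val) := stdAI (fun i => Subtype.val) fun _ _ => rfl
  let eJ : ∀ i, (grid K y (j.val + 1)).β i → (grid K y j.val).β i := fun i b =>
    ⟨b.1, b.2.1, fun k hk => b.2.2 k (by omega)⟩
  have heJ : ∀ i, Function.Injective (eJ i) := fun i b b' e => Subtype.ext (congrArg (·.1) e)
  let J : Mor (grid K y (j.val + 1)) (grid K y j.val) := stdAI eJ fun _ _ => rfl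
  have mι : ∀ i, mat (ι * ι.dag) i = diagonal fun b => if b.1 j ≤ cen y i j then 1 else 0 :=
    fun i => @stdA_E_EH _ _ _ (Λ.fin i) _ Subtype.val_injective
      (fun b : (grid K y j.val).β i => b.1 j ≤ cen y i j) _
      fun b => ⟨fun h => ⟨⟨b, h⟩, rfl⟩, by rintro ⟨c, rfl⟩; exact c.2⟩
  have mJ : ∀ i, mat (J * J.dag) i = diagonal fun b => if b.1 j = cen y i j then 1 else 0 :=
    fun i => stdA_E_EH (heJ i) (fun b : (grid K y j.val).β i => b.1 j = cen y i j)
      fun b => ⟨fun e => ⟨⟨b.1, b.2.1, fun k hk => (Nat.lt_succ_iff_lt_or_eq.1 hk).elim (b.2.2 k)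
        fun h => by rw [show k = j from Fin.ext h]; exact e⟩, rfl⟩,
      by rintro ⟨c, rfl⟩; exact c.2.2 j (by omega)⟩
  have hι : ι.dag * ι = 1 := mor_ext fun i => stdA_EH_E Subtype.val_injective
  have hJ : J.dag * J = 1 := mor_ext fun i => stdA_EH_E (heJ i)
  have hev : ∀ i, Even (cen y i j) := fun i => even_two_mul _
  have hιJ : ι * (ι.dag * J) = J := by
    have : ι * ι.dag * (J * J.dag) = J * J.dag := mor_ext fun i => by
      rw [mat_mul, mι, mJ, diagonal_mul_diagonal]
      congr 1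
      funext b
      by_cases e : b.1 j = cen y i j <;> simp [e]
    simpa [hJ] using congrArg (· * J) this
  have hPT : ι * (ι.dag * T) = T * (ι * ι.dag - J * J.dag) := mor_ext fun i => by
    rw [← Hom.assoc, mat_mul, mat_mul T, mat_sub, mι, mJ, diagonal_sub]
    ext b' b
    rw [diagonal_mul, mul_diagonal, mul_comm]
    by_cases e : b'.1 = b.1 + shf n j.val
    · have : b'.1 j = b.1 j + 1 := by simp [e, shf]
      congr 1
      split_ifs <;> first | omega | simp
    · simp [hT, tG, tEnt, e]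
  have hdι : d * ι = ι * (ι.dag * (d * ι)) := by
    have : d * (ι * ι.dag) = ι * ι.dag * (d * (ι * ι.dag)) := mor_ext fun i => by
      rw [mat_mul (ι * ι.dag), mat_mul d, mι]
      ext b' b
      rw [diagonal_mul, mul_diagonal]
      by_cases e : mat d i b' b = 0
      · simp [e]
      · obtain ⟨k, h1, h2⟩ := dEnt_ne e
        have h3 := hev i
        by_cases e' : b.1 j ≤ cen y i j
        · rw [if_pos (c := b'.1 j ≤ _), one_mul]
          rcases eq_or_ne j k with rfl | h4
          · rw [Int.odd_iff] at h1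
            rw [Int.even_iff] at h3
            rcases h2 with h2 | h2 <;> simp [h2] <;> omega
          · rcases h2 with h2 | h2 <;> simpa [h2, h4] using e'
        · simp [e']
    simpa [hι] using congrArg (· * ι) this
  have hdJ : d * J = J * dG K y (j.val + 1) := by
    have h1 : d * (J * J.dag) = J * J.dag * (d * (J * J.dag)) := mor_ext fun i => by
      rw [mat_mul (J * J.dag), mat_mul d, mJ]
      ext b' b
      rw [diagonal_mul, mul_diagonal]
      by_cases e : mat d i b' b = 0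
      · simp [e]
      · obtain ⟨k, h1, h2⟩ := dEnt_ne e
        by_cases e' : b.1 j = cen y i j
        · have h4 : j ≠ k := by
            rintro rfl
            exact Int.not_odd_iff_even.2 (e' ▸ hev i) h1
          rw [if_pos (c := b'.1 j = _), one_mul]
          rcases h2 with h2 | h2 <;> simpa [h2, h4] using e'
        · simp [e']
    have h2 : J.dag * (d * J) = dG K y (j.val + 1) := mor_ext fun i =>
      (stdA_EH_mul _ _).trans (congrArg (submatrix · (eJ i) id) (stdA_mul_E (eJ i) (mat d i)))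
    simpa [hJ, h2] using congrArg (· * J) h1
  let G := stdAD (grid K y (j.val + 1)) fun i b => (-Complex.I) ^ deg b.1
  have hG : G * dG K y (j.val + 1) = Complex.I • (dG K y (j.val + 1) * G) := mor_ext fun i => by
    ext b' b
    simp only [G, stdAD, mat_mul, mat_smul, mat_mkMor, Matrix.smul_apply, diagonal_mul,
      mul_diagonal, smul_eq_mul]
    by_cases e : mat (dG K y (j.val + 1)) i b' b = 0
    · simp [e]
    · rw [← deg_dEnt e, pow_succ]
      linear_combination (mat (dG K y (j.val + 1)) i b' b * (-Complex.I) ^ deg b'.1) *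
        Complex.I_mul_I
  have hG1 : G.dag * G = 1 := mor_ext fun i => by
    simp [G, stdAD, diagonal_conjTranspose, ← mul_pow]
  have hG2 : G * G.dag = 1 := mor_ext fun i => by
    simp [G, stdAD, diagonal_conjTranspose, ← mul_pow]
  have hsub : IsSub W d ι (ι.dag * (d * ι)) := by
    refine ⟨hι, ?_, congrArg (loc W) hdι.symm⟩
    obtain ⟨N, wt, h1, h2, h3⟩ := tri_dG K y j.val
    refine ⟨N, fun i b => wt i b.1, fun i b => h1 i b.1, fun i g b' b hb => h2 i g b'.1 b.1 hb,
      fun i b' b hb => h3 i b'.1 b.1 ?_⟩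
    rwa [mat_mul, mat_mul, mat_dag, show mat ι i = stdAE Subtype.val from rfl, stdA_mul_E,
      stdA_EH_mul] at hb
  have hc := (continuous_apply j).continuousAt.tendsto.comp (tendsto_pt_cen y)
  have hm : ∀ i : ℕ, ∀ a b : ℤ, a ≤ b → (a : ℝ) / (i + 1) ≤ b / (i + 1) := fun i a b h => by
    gcongr
  refine ⟨Λ, ι, _, hsub, fun z hz => ⟨(y j - z.1 j) / 2, half_pos (sub_pos.2 hz), ?_⟩,
    fun z hz => ⟨(z.1 j - y j) / 2, half_pos (sub_pos.2 hz), ?_⟩,
    col (ι.dag * J) ((-Complex.I) • (ι.dag * (T * h * J))) * G, ?_, ?_⟩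
  · have hz' : z.1 j < y j := hz
    filter_upwards [hc.eventually (lt_mem_nhds (show (y j + z.1 j) / 2 < y j by linarith))]
      with i hi a b hb
    have h1 : cen y i j ≤ b.1 j := not_lt.1 fun h => hb (by
      rw [mat_sub, mι, mat_one, ← diagonal_one, diagonal_sub, diagonal_apply]
      by_cases e : a = b <;> simp [e, h.le])
    have h2 : pt i (cen y i) j ≤ pt i b.1 j := hm i _ _ h1
    have h3 : |pt i b.1 j - z.1 j| ≤ dist (pt i b.1) z.1 := dist_le_pi_dist (pt i b.1) z.1 j
    exact le_trans (by simp only [Function.comp] at hi; linarith) ((le_abs_self _).trans h3)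
  · have hz' : y j < z.1 j := hz
    filter_upwards [hc.eventually (gt_mem_nhds (show y j < (y j + z.1 j) / 2 by linarith))]
      with i hi a b _
    have h2 : pt i b.1.1 j ≤ pt i (cen y i) j := hm i _ _ b.2
    have h3 : |pt i b.1.1 j - z.1 j| ≤ dist (pt i b.1.1) z.1 := dist_le_pi_dist (pt i b.1.1) z.1 j
    exact le_trans (by simp only [Function.comp] at hi; linarith) ((neg_le_abs _).trans h3)
  · have := stdA_alg2 (T := loc W T) (Z := loc W Z) (Z' := loc W Z') (h := loc W h)
      (d := loc W d) (B := loc W B) (ι := loc W ι) (J := loc W J) (G := loc W G)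
      (dΛ := loc W (ι.dag * (d * ι))) (d' := loc W (dG K y (j.val + 1))) hTc hT1 hT2
      (congrArg (loc W) (hZ d)) (congrArg (loc W) hZ1) (congrArg (loc W) hZ2)
      (congrArg (loc W) hι) (congrArg (loc W) hJ) (congrArg (loc W) hιJ)
      (congrArg (loc W) (show ι * (ι.dag * (T * Z)) = T * Z * (ι * ι.dag - J * J.dag) by
        rw [Hom.assoc T, hZ, ← Hom.assoc T, ← hPT, Hom.assoc, Hom.assoc]))
      (congrArg (loc W) hdι) (congrArg (loc W) hdJ) (hsub.sq hP.sq) (loc_eq.2 hh')
      (congrArg (loc W) hG) (congrArg (loc W) hG1) (congrArg (loc W) hG2)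
    simpa using this
  · have hJι : J.dag * ι * ι.dag = J.dag := by simpa using congrArg Hom.dag hιJ
    have h1 : ∀ i b' b, mat (J.dag * (T * h * J)) i b' b ≠ 0 →
        deg b'.1 + deg b.1 + (j.val + 1) = n := by
      intro i b' b hb
      rw [mat_mul, mat_mul, mat_dag, show mat J i = stdAE (eJ i) from rfl, stdA_mul_E,
        stdA_EH_mul] at hb
      obtain ⟨c, h2, h3⟩ := stdA_ne hb
      have h4 : deg b'.1 + _ + _ = _ := deg_tG K y j.val j.2.le i _ c h2
      have h5 : _ = deg b.1 + 1 := hh i c _ h3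
      omega
    have e : (col (ι.dag * J) ((-Complex.I) • (ι.dag * (T * h * J))) * G).dag *
        ((cat (triv K)).hyp Λ * (col (ι.dag * J) ((-Complex.I) • (ι.dag * (T * h * J))) * G)) =
        G.dag * (((-Complex.I) • (J.dag * (T * h * J)) +
          Complex.I • (J.dag * (T * h * J)).dag) * G) := by
      simp [hyp, Hom.reassoc hJι, Hom.reassoc (show ι * ι.dag * J = J by simpa using hιJ), ← Hom.assoc ι ι.dag]
    rw [e]
    generalize J.dag * (T * h * J) = N at h1
    intro i b' b hb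
    simp only [G, stdAD, mat_mul, mat_dag, mat_mkMor, diagonal_conjTranspose, diagonal_mul,
      mul_diagonal, mat_add, mat_smul, Matrix.add_apply, Matrix.smul_apply,
      conjTranspose_apply] at hb
    by_cases h2 : mat N i b' b = 0
    · rw [add_comm (deg _)]
      exact h1 i b b' fun h3 => hb (by simp [h2, h3])
    · exact h1 i b' b h2

end Vale.Agent.P228
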