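import Mathlib

/-! Part TwoA: generic smooth approximations. -/

namespace Vale.Agent.P228

open Set

/-- `F` is a local homeomorphism at `x`. -/
def LocHomeo {Y Z : Type} [TopologicalSpace Y] [TopologicalSpace Z] (F : Y → Z) (x : Y) : Prop :=
  ∃ O : Set Y, IsOpen O ∧ x ∈ O ∧ InjOn F O ∧ ∀ U ⊆ O, IsOpen U → IsOpen (F '' U)

theorem LocHomeo.congr {Y Z : Type} [TopologicalSpace Y] [TopologicalSpace Z] {F F' : Y → Z}
    {x : Y} (h : LocHomeo F x) (h' : ∀ᶠ z in nhds x, F' z = F z) : LocHomeo F' x := by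
  obtain ⟨O, h1, h2, h3, h4⟩ := h
  obtain ⟨V, hV, hVo, hxV⟩ := mem_nhds_iff.1 h'
  refine ⟨O ∩ V, h1.inter hVo, ⟨h2, hxV⟩, fun a ha b hb e => h3 ha.1 hb.1 ?_, fun U hU hUo => ?_⟩
  · rwa [hV ha.2, hV hb.2] at e
  · rw [image_congr fun a ha => hV (hU ha).2]
    exact h4 U (fun a ha => (hU ha).1) hUo

theorem LocHomeo.comp_homeo {Y Z : Type} [TopologicalSpace Y] [TopologicalSpace Z] {F : Y → Z}
    (e : Y ≃ₜ Y) {x : Y} (h : LocHomeo F (e x)) : LocHomeo (F ∘ e) x := by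
  obtain ⟨O, h1, h2, h3, h4⟩ := h
  refine ⟨e ⁻¹' O, h1.preimage e.continuous, h2, fun a ha b hb h => e.injective (h3 ha hb h),
    fun U hU hUo => ?_⟩
  rw [image_comp]
  exact h4 _ (image_subset_iff.2 hU) (e.isOpenMap U hUo)

theorem LocHomeo.subtype {Y Z : Type} [TopologicalSpace Y] [TopologicalSpace Z] {g : Y → Z}
    {K : Set Y} {x : K} (hx : x.1 ∈ interior K) (h : LocHomeo g x.1) :
    LocHomeo (fun z : K => g z.1) x := by
  obtain ⟨O, h1, h2, h3, h4⟩ := h
  refine ⟨Subtype.val ⁻¹' (O ∩ interior K), (h1.inter isOpen_interior).preimage continuous_subtype_val,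
    ⟨h2, hx⟩, fun a ha b hb h => Subtype.ext (h3 ha.1 hb.1 h), fun U hU hUo => ?_⟩
  obtain ⟨V, hV, rfl⟩ := isOpen_induced_iff.1 hUo
  have e : (fun z : K => g z.1) '' (Subtype.val ⁻¹' V) = g '' (V ∩ (O ∩ interior K)) := by
    ext w
    constructor
    · rintro ⟨z, hz, rfl⟩
      exact ⟨z.1, ⟨hz, hU hz⟩, rfl⟩
    · rintro ⟨z, hz, rfl⟩
      exact ⟨⟨z, interior_subset hz.2.2⟩, hz.1, rfl⟩
  rw [e]
  exact h4 _ (fun a ha => ha.2.1) (hV.inter (h1.inter isOpen_interior))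

/-- The part of a fibre in a compact set of local homeomorphism points is finite. -/
theorem finite_fibre {Y Z : Type} [TopologicalSpace Y] [TopologicalSpace Z] [T1Space Z]
    {F : Y → Z} (hF : Continuous F) {P : Set Y} (hP : IsCompact P) {y : Z}
    (h : ∀ x ∈ P, F x = y → LocHomeo F x) : {x | x ∈ P ∧ F x = y}.Finite := by
  have hS : IsCompact {x | x ∈ P ∧ F x = y} := hP.inter_right (isClosed_singleton.preimage hF)
  choose! O h1 h2 h3 h4 using h
  obtain ⟨t, ht, hc⟩ := hS.elim_nhds_subcover O fun x hx => (h1 x hx.1 hx.2).mem_nhds (h2 x hx.1 hx.2)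
  refine t.finite_toSet.subset fun x hx => ?_
  obtain ⟨z, hz, hxz⟩ := mem_iUnion₂.1 (hc hx)
  have hz' := ht z hz
  rwa [h3 z hz'.1 hz'.2 hxz (h2 z hz'.1 hz'.2) (hx.2.trans hz'.2.symm)]

theorem twoA_locHomeo {n : ℕ} {g : (Fin n → ℝ) → Fin n → ℝ} (hg : ContDiff ℝ (1 : ℕ∞) g)
    {z : Fin n → ℝ} (hz : (fderiv ℝ g z).det ≠ 0) : LocHomeo g z := by
  have h1 : HasStrictFDerivAt g
      ((fderiv ℝ g z).toContinuousLinearEquivOfDetNeZero hz : (Fin n → ℝ) →L[ℝ] Fin n → ℝ) z := by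
    rw [ContinuousLinearMap.coe_toContinuousLinearEquivOfDetNeZero]
    exact hg.contDiffAt.hasStrictFDerivAt (by simp)
  exact ⟨(h1.toOpenPartialHomeomorph g).source, (h1.toOpenPartialHomeomorph g).open_source,
    h1.mem_toOpenPartialHomeomorph_source, (h1.toOpenPartialHomeomorph g).injOn,
    fun U hU hUo => (h1.toOpenPartialHomeomorph g).isOpen_image_of_subset_source hUo hU⟩

theorem twoA_meagre {n : ℕ} {g : (Fin n → ℝ) → Fin n → ℝ} (hg : Continuous g)
    {M0 : Set (Fin n → ℝ)} (hM : IsClosed M0) (hM' : interior M0 = ∅) :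
    IsMeagre (g '' (M0 ∩ {z | LocHomeo g z})) := by
  have h : ∀ z ∈ {z | LocHomeo g z}, ∃ C ∈ nhdsWithin z {z | LocHomeo g z},
      IsMeagre (g '' (M0 ∩ C)) := by
    rintro z ⟨O, h1, h2, h3, -⟩
    obtain ⟨C, hC, hzC, hCO⟩ := exists_compact_subset h1 h2
    refine ⟨C, mem_nhdsWithin_of_mem_nhds (mem_interior_iff_mem_nhds.1 hzC),
      IsNowhereDense.isMeagre ?_⟩
    rw [((hC.inter_left hM).image hg).isClosed.isNowhereDense_iff, eq_empty_iff_forall_notMem]
    intro w hw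
    obtain ⟨m, hm, rfl⟩ := interior_subset hw
    have h4 : g ⁻¹' interior (g '' (M0 ∩ C)) ∩ O ⊆ M0 := by
      rintro a ⟨ha, haO⟩
      obtain ⟨b, hb, e⟩ := interior_subset ha
      exact h3 (hCO hb.2) haO e ▸ hb.1
    have h5 := interior_maximal h4 ((isOpen_interior.preimage hg).inter h1) ⟨hw, hCO hm.2⟩
    rw [hM'] at h5
    exact h5
  choose! C h1 h2 using h
  obtain ⟨s, hs, hc, hcov⟩ := TopologicalSpace.countable_cover_nhdsWithin h1
  refine (isMeagre_biUnion hc fun z hz => h2 z (hs hz)).mono ?_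
  rintro _ ⟨m, hm, rfl⟩
  obtain ⟨z, hz, hmz⟩ := mem_iUnion₂.1 (hcov hm.2)
  exact mem_iUnion₂.2 ⟨z, hz, m, ⟨hm.1, hmz⟩, rfl⟩

/-- A continuous map on a compact set is approximated by a continuous map which misses `y` on a
given nowhere dense closed set and is a local homeomorphism at all points over `y`. -/
theorem exists_generic {n : ℕ} {N M0 : Set (Fin n → ℝ)} (hN : IsCompact N) (hM : IsClosed M0)
    (hM' : interior M0 = ∅) {f : (Fin n → ℝ) → Fin n → ℝ} (hf : ContinuousOn f N)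
    (y : Fin n → ℝ) {ε : ℝ} (hε : 0 < ε) :
    ∃ g : (Fin n → ℝ) → Fin n → ℝ, Continuous g ∧ (∀ z ∈ N, dist (g z) (f z) < ε) ∧
      ∀ z ∈ N, g z = y → z ∉ M0 ∧ LocHomeo g z := by
  obtain ⟨f', hf'⟩ := ContinuousMap.exists_restrict_eq hN.isClosed ⟨_, hf.restrict⟩
  have hff : ∀ z ∈ N, f' z = f z := fun z hz => DFunLike.congr_fun hf' ⟨z, hz⟩
  obtain ⟨g, hg, hd, -⟩ := f'.continuous.exists_contDiff_approx 1 (ε := fun _ => ε / 2)
    continuous_const fun _ => half_pos hε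
  have hc : IsCompact (N ∩ {z | (fderiv ℝ g z).det = 0}) :=
    hN.inter_right (isClosed_eq (ContinuousLinearMap.continuous_det.comp
      (hg.continuous_fderiv (by simp))) continuous_const)
  have h0 : MeasureTheory.volume (g '' (N ∩ {z | (fderiv ℝ g z).det = 0})) = 0 :=
    MeasureTheory.addHaar_image_eq_zero_of_det_fderivWithin_eq_zero MeasureTheory.volume
      (f' := fderiv ℝ g)
      (fun z _ => (hg.differentiable (by simp) z).hasFDerivAt.hasFDerivWithinAt) fun z hz => hz.2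
  have h1 : IsMeagre (g '' (N ∩ {z | (fderiv ℝ g z).det = 0})) := by
    refine IsNowhereDense.isMeagre ?_
    rw [(hc.image hg.continuous).isClosed.isNowhereDense_iff]
    exact MeasureTheory.Measure.interior_eq_empty_of_null h0
  have h2 := dense_of_mem_residual (h1.union (twoA_meagre hg.continuous hM hM'))
  obtain ⟨y', hy', hyy⟩ := h2.exists_dist_lt y (half_pos hε)
  refine ⟨fun z => g z + (y - y'), hg.continuous.add continuous_const, fun z hz => ?_,
    fun z hz e => ?_⟩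
  · have h3 := hd z
    rw [hff z hz] at h3
    have h4 : dist (g z + (y - y')) (g z) = dist y y' := by simp [dist_eq_norm]
    linarith [dist_triangle (g z + (y - y')) (g z) (f z)]
  · have e' : g z = y' := by
      have : g z = y - (y - y') := eq_sub_of_add_eq e
      simpa using this
    have h3 : LocHomeo g z := twoA_locHomeo hg fun h => hy' (Or.inl ⟨z, ⟨hz, h⟩, e'⟩)
    refine ⟨fun h => hy' (Or.inr ⟨z, ⟨h, h3⟩, e'⟩), ?_⟩
    obtain ⟨O, o1, o2, o3, o4⟩ := h3
    refine ⟨O, o1, o2, fun a ha b hb h => o3 ha hb (add_right_cancel h), fun U hU hUo => ?_⟩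
    rw [← image_image (· + (y - y')) g]
    exact isOpenMap_add_right _ _ (o4 U hU hUo)

end Vale.Agent.P228
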