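import Vale.Agent.P228.TwoA
import Vale.Agent.P228.Main

/-! Part TwoB: invariant generic perturbations. -/

namespace Vale.Agent.P228

open Set Filter Topology

set_option linter.unusedSectionVars false

variable (p : ℕ) [Fact p.Prime] {n : ℕ} (K : Set (Fin n → ℝ)) [CompactSpace K]
  [AddAction ℤ_[p] K] [ContinuousVAdd ℤ_[p] K]

/-- Points fixed by `p ^ k ℤ_p`. -/
def FixP (k : ℕ) : Set K := {x | ∀ s : ℤ_[p], ((p : ℤ_[p]) ^ k * s) +ᵥ x = x}

theorem isClosed_fixP (k : ℕ) : IsClosed (FixP p K k) := by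
  have : FixP p K k = ⋂ s : ℤ_[p], {x : K | ((p : ℤ_[p]) ^ k * s) +ᵥ x = x} := by
    ext x; simp [FixP]
  rw [this]
  exact isClosed_iInter fun s => isClosed_eq (continuous_const_vadd _) continuous_id

theorem invSet_fixP (k : ℕ) : InvSet p (FixP p K k) := fun t x hx s => by
  rw [vadd_vadd, add_comm, ← vadd_vadd, hx s]

/-- Bounded invariant extension of an invariant function on a closed invariant set. -/
theorem exists_inv_ext {Z : Set K} (hZ : IsClosed Z) (hi : InvSet p Z) {φ : K → Fin n → ℝ}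
    (hφ : ContinuousOn φ Z) (hφi : ∀ (t : ℤ_[p]), ∀ x ∈ Z, φ (t +ᵥ x) = φ x) {ε : ℝ} (hε : 0 ≤ ε)
    (hb : ∀ x ∈ Z, ‖φ x‖ ≤ ε) : ∃ φ' : K → Fin n → ℝ, Continuous φ' ∧
      (∀ (t : ℤ_[p]) x, φ' (t +ᵥ x) = φ' x) ∧ (∀ x, ‖φ' x‖ ≤ ε) ∧ ∀ x ∈ Z, φ' x = φ x := by
  have key : ∀ j : Fin n, ∃ u : K → ℝ, Continuous u ∧ (∀ x, u x ∈ Icc (-ε) ε) ∧
      ∀ x ∈ Z, u x = φ x j := by
    intro j
    let f : C(Z, ℝ) := ⟨fun x => φ x.1 j,
      (continuous_apply j).comp (continuousOn_iff_continuous_domRestrict.1 hφ)⟩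
    obtain ⟨g, hg, he⟩ := ContinuousMap.exists_restrict_eq_forall_mem_of_closed f
      (t := Icc (-ε) ε) (fun x => abs_le.1 ((norm_le_pi_norm (φ x.1) j).trans (hb x.1 x.2)))
      ⟨0, by constructor <;> linarith⟩ hZ
    refine ⟨g, g.continuous, hg, fun x hx => ?_⟩
    exact DFunLike.congr_fun he ⟨x, hx⟩
  choose u hu hb' he using key
  refine ⟨fun x j => supO p (u j) x, continuous_pi fun j => continuous_supO p (hu j),
    fun t x => funext fun j => supO_vadd p _ t x, fun x => ?_, fun x hx => funext fun j => ?_⟩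
  · refine (pi_norm_le_iff_of_nonneg hε).2 fun j => ?_
    obtain ⟨t, ht⟩ := exists_supO p (hu j) x
    change ‖supO p (u j) x‖ ≤ ε
    rw [ht]
    exact abs_le.2 (hb' j _)
  · obtain ⟨t, ht⟩ := exists_supO p (hu j) x
    change supO p (u j) x = φ x j
    rw [ht, he j _ (hi t x hx), hφi t x hx]

theorem twoB_margin {R : Set K} (hR : IsClosed R) {F : K → Fin n → ℝ} (hF : Continuous F)
    {y : Fin n → ℝ} (h : ∀ x ∈ R, F x ≠ y) : ∃ m > 0, ∀ x ∈ R, m ≤ dist (F x) y := by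
  rcases R.eq_empty_or_nonempty with rfl | hne
  · exact ⟨1, one_pos, fun _ h => h.elim⟩
  obtain ⟨x0, hx0, hm⟩ := hR.isCompact.exists_isMinOn hne
    (hF.dist continuous_const (g := fun _ => y)).continuousOn
  exact ⟨_, dist_pos.2 (h x0 hx0), fun x hx => hm hx⟩

theorem twoB_inv {F : K → Fin n → ℝ} (hFi : ∀ (t : ℤ_[p]) x, F (t +ᵥ x) = F x) (t : ℤ_[p])
    {z : K} (h : LocHomeo F z) : LocHomeo F (t +ᵥ z) := by
  have h1 : LocHomeo F (Homeomorph.vadd (-t) (t +ᵥ z)) := by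
    change LocHomeo F (-t +ᵥ t +ᵥ z)
    rwa [neg_vadd_vadd]
  have h2 := h1.comp_homeo
  have e : F ∘ (Homeomorph.vadd (-t) : K ≃ₜ K) = F := funext fun x => hFi (-t) x
  rwa [e] at h2

theorem twoB_open (F : K → Fin n → ℝ) : IsOpen {x | LocHomeo F x} := by
  refine isOpen_iff_mem_nhds.2 ?_
  rintro x ⟨O, hO, hx, h1, h2⟩
  filter_upwards [hO.mem_nhds hx] with z hz
  exact ⟨O, hO, hz, h1, h2⟩

/-- The retraction of the saturation of a slice onto the slice. -/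
theorem twoB_retr {k : ℕ} {V N : Set K} (hN : IsClosed N) (hNV : N ⊆ V)
    (hV : ∀ z ∈ V, ∀ t : ℤ_[p], t +ᵥ z ∈ V → PadicInt.toZModPow k t = 0)
    (hA : N ⊆ FixP p K k) : ∃ r : K → K,
      ContinuousOn r {x | ∃ t : ℤ_[p], ∃ z ∈ N, x = t +ᵥ z} ∧
      ∀ (t : ℤ_[p]), ∀ z ∈ N, r (t +ᵥ z) = z := by
  classical
  have uniq : ∀ (t t' : ℤ_[p]), ∀ z ∈ N, ∀ z' ∈ N, t +ᵥ z = t' +ᵥ z' → z = z' := by
    intro t t' z hz z' hz' e
    have e' : (-t' + t) +ᵥ z = z' := by rw [← vadd_vadd, e, neg_vadd_vadd]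
    obtain ⟨s, hs⟩ := (sheets_ker p k).1 (hV z (hNV hz) (-t' + t) (by rw [e']; exact hNV hz'))
    rw [← e', hs, hA hz s]
  let r : K → K := fun x => if h : ∃ z ∈ N, ∃ t : ℤ_[p], x = t +ᵥ z then h.choose else x
  have hr : ∀ (t : ℤ_[p]), ∀ z ∈ N, r (t +ᵥ z) = z := by
    intro t z hz
    have h : ∃ z' ∈ N, ∃ t' : ℤ_[p], t +ᵥ z = t' +ᵥ z' := ⟨z, hz, t, rfl⟩
    obtain ⟨h1, t', h2⟩ := h.choose_spec
    simp only [r, dif_pos h]
    exact (uniq _ _ _ hz _ h1 h2).symm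
  refine ⟨r, continuousOn_iff_isClosed.2 fun D hD => ⟨_, isClosed_sat p (hN.inter hD), ?_⟩, hr⟩
  ext x
  constructor
  · rintro ⟨h1, t, z, hz, rfl⟩
    rw [mem_preimage, hr t z hz] at h1
    exact ⟨⟨t, z, ⟨hz, h1⟩, rfl⟩, t, z, hz, rfl⟩
  · rintro ⟨⟨t, z, hz, rfl⟩, h2⟩
    exact ⟨by rw [mem_preimage, hr t z hz.1]; exact hz.2, h2⟩

/-- An invariant function separating the finite part of the fibre from the rest. -/
theorem twoB_cut {F : K → Fin n → ℝ} (hF : Continuous F)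
    (hFi : ∀ (t : ℤ_[p]) x, F (t +ᵥ x) = F x) {y : Fin n → ℝ} {P : Set K} (hP : IsClosed P)
    (hPi : InvSet p P) (hg : ∀ x ∈ P, F x = y → LocHomeo F x) :
    ∃ w : K → ℝ, Continuous w ∧ (∀ (t : ℤ_[p]) x, w (t +ᵥ x) = w x) ∧
      (∀ x, w x < 2 → F x = y → x ∈ P) ∧ ∀ x ∈ P, F x = y → w x = -2 := by
  choose! O hO hxO hinj hop using hg
  let V : Set K := ⋃ x ∈ {x | x ∈ P ∧ F x = y}, O x
  have hV : IsOpen V := isOpen_biUnion fun x hx => hO x hx.1 hx.2
  obtain ⟨w, h1, h2, h3, h4⟩ := sheets_sep p (isClosed_sat p hV.isClosed_compl).isOpen_compl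
    ((invSet_sat p Vᶜ).compl p) (C := {x | x ∈ P ∧ F x = y})
    (hP.inter (isClosed_eq hF continuous_const)) (by
      rintro x hx ⟨t, z, hz, rfl⟩
      refine hz (mem_biUnion (x := z) ⟨?_, ?_⟩ (hxO z ?_ ?_))
      · simpa using hPi (-t) _ hx.1
      · rw [← hFi t]; exact hx.2
      · simpa using hPi (-t) _ hx.1
      · rw [← hFi t]; exact hx.2)
  refine ⟨w, h1, h2, fun x hx hy => ?_, fun x hx hy => h4 x ⟨hx, hy⟩⟩
  have hxV : x ∈ V := by
    by_contra hc
    exact (h3 x fun h => h ⟨0, x, hc, by simp⟩).not_gt hx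
  obtain ⟨x', hx', hxx⟩ := mem_iUnion₂.1 hxV
  rw [hinj x' hx'.1 hx'.2 hxx (hxO x' hx'.1 hx'.2) (hy.trans hx'.2.symm)]
  exact hx'.1

/-- One piece of the perturbation. -/
theorem perturb_piece (k : ℕ) (y : Fin n → ℝ) (x1 : K) (hx : x1 ∈ intK K)
    (h1 : x1 ∈ FixP p K (k + 1)) (h0 : x1 ∉ FixP p K k) :
    ∃ N : Set K, IsClosed N ∧ x1 ∈ interior N ∧
      ∀ (F : K → Fin n → ℝ), Continuous F → (∀ (t : ℤ_[p]) x, F (t +ᵥ x) = F x) →
      ∀ P : Set K, IsClosed P → InvSet p P → (∀ x ∈ P, F x = y → LocHomeo F x) →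
      ∀ δ > 0, ∃ F' : K → Fin n → ℝ, Continuous F' ∧ (∀ (t : ℤ_[p]) x, F' (t +ᵥ x) = F' x) ∧
        (∀ x, dist (F' x) (F x) < δ) ∧
        ∀ x ∈ P ∪ {x | ∃ t : ℤ_[p], ∃ z ∈ N ∩ FixP p K (k + 1), x = t +ᵥ z},
          F' x = y → LocHomeo F' x := by
  classical
  obtain ⟨V, hV, hxV, hVs⟩ := sheets_V p (k + 1) x1 fun t ht =>
    by_contra fun hc => h0 (fixed_of_not_dvd p ht hc)
  obtain ⟨d2, hd2, hball⟩ := Metric.nhds_basis_closedBall.mem_iff.1
    ((hV.inter (isOpen_intK K)).mem_nhds ⟨hxV, hx⟩)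
  refine ⟨Metric.closedBall x1 (d2 / 2), Metric.isClosed_closedBall,
    mem_interior_iff_mem_nhds.2 (Metric.closedBall_mem_nhds _ (by positivity)), ?_⟩
  intro F hF hFi P hP hPi hg δ hδ
  set A := FixP p K (k + 1) with hA
  set N2 := Metric.closedBall x1 d2 with hN2
  have hAc : IsClosed A := isClosed_fixP p K _
  have hNA : IsClosed (N2 ∩ A) := Metric.isClosed_closedBall.inter hAc
  obtain ⟨r, hr, hr'⟩ := twoB_retr p K hNA (fun z hz => (hball hz.1).1) hVs inter_subset_right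
  obtain ⟨w, hw, hwi, hw1, hw2⟩ := twoB_cut p K hF hFi hP hPi hg
  obtain ⟨m, hm, hmR⟩ := twoB_margin K (R := {x | -1 ≤ w x} ∩ (P ∪ {x | w x ≤ 1}))
    ((isClosed_le continuous_const hw).inter (hP.union (isClosed_le hw continuous_const))) hF
    (y := y) (by
      rintro x ⟨ha, hb⟩ hy
      have hxP : x ∈ P := hb.elim id fun h => hw1 x (lt_of_le_of_lt h one_lt_two) hy
      have := hw2 x hxP hy
      have ha' : -1 ≤ w x := ha
      linarith)
  let f : (Fin n → ℝ) → Fin n → ℝ := fun z => if h : z ∈ K then F ⟨z, h⟩ else 0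
  have hf : ∀ z : K, f z.1 = F z := fun z => dif_pos z.2
  have hfc : ContinuousOn f K := continuousOn_iff_continuous_domRestrict.2 (by
    convert hF using 1
    exact funext hf)
  have hM0 : IsCompact (Subtype.val '' (N2 ∩ (A \ interior A))) :=
    (Metric.isClosed_closedBall.inter (hAc.sdiff isOpen_interior)).isCompact.image
      continuous_subtype_val
  obtain ⟨g, hgc, hga, hgy⟩ := exists_generic (N := Subtype.val '' N2)
    (Metric.isClosed_closedBall.isCompact.image continuous_subtype_val) hM0.isClosed (by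
      rw [eq_empty_iff_forall_notMem]
      intro z hz
      obtain ⟨x, hx, rfl⟩ := interior_subset hz
      refine hx.2.2 (mem_interior.2 ⟨Subtype.val ⁻¹' interior (Subtype.val '' (N2 ∩ (A \ interior A))),
        fun u hu => ?_, isOpen_interior.preimage continuous_subtype_val, hz⟩)
      obtain ⟨u', hu', e⟩ := interior_subset hu
      rw [← Subtype.ext e]
      exact hu'.2.1) (hfc.mono (by rintro _ ⟨x, -, rfl⟩; exact x.2)) y
    (ε := min δ m / 2) (by positivity)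
  obtain ⟨φ, hφc, hφi, hφb, hφe⟩ := exists_inv_ext p K (isClosed_sat p hNA) (invSet_sat p _)
    (φ := fun x => g (r x).1 - F x)
    ((hgc.comp_continuousOn (continuous_subtype_val.comp_continuousOn hr)).sub hF.continuousOn)
    (by
      rintro t _ ⟨s, z, hz, rfl⟩
      simp only [hFi]
      rw [vadd_vadd, hr' _ z hz, hr' _ z hz]) (ε := min δ m / 2) (by positivity) (by
      rintro _ ⟨s, z, hz, rfl⟩
      rw [hr' _ z hz, hFi, ← dist_eq_norm, ← hf]
      exact (hga _ ⟨z, hz.1, rfl⟩).le)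
  let lam : K → ℝ := fun x => max 0 (min 1 (w x + 1))
  have hlc : Continuous lam :=
    continuous_const.max (continuous_const.min (hw.add continuous_const))
  have hl : ∀ x, |lam x| ≤ 1 := fun x => abs_le.2 ⟨by
    have : 0 ≤ lam x := le_max_left _ _
    linarith, max_le zero_le_one (min_le_left _ _)⟩
  have hd : ∀ x, dist (F x + lam x • φ x) (F x) < min δ m := fun x => by
    rw [dist_eq_norm, add_sub_cancel_left, norm_smul]
    have := mul_le_mul (hl x) (hφb x) (norm_nonneg _) zero_le_one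
    have h' : 0 < min δ m := lt_min hδ hm
    rw [Real.norm_eq_abs]
    linarith
  have hF'i : ∀ (t : ℤ_[p]) x, F (t +ᵥ x) + lam (t +ᵥ x) • φ (t +ᵥ x) = F x + lam x • φ x :=
    fun t x => by simp only [lam, hFi, hwi, hφi]
  refine ⟨fun x => F x + lam x • φ x, hF.add (hlc.smul hφc), hF'i,
    fun x => (hd x).trans_le (min_le_left _ _), fun x hxm hy => ?_⟩
  by_cases c1 : w x < -1
  · have hl0 : ∀ z, w z < -1 → F z + lam z • φ z = F z := fun z hz => by
      have : lam z = 0 := max_eq_left ((min_le_right _ _).trans (by linarith))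
      rw [this, zero_smul, add_zero]
    have hy' : F x = y := by rw [← hl0 x c1]; exact hy
    refine (hg x (hw1 x (by linarith) hy') hy').congr ?_
    filter_upwards [(isOpen_lt hw continuous_const).mem_nhds c1] with z hz using hl0 z hz
  have c2 : x ∉ P ∪ {x | w x ≤ 1} := fun hc => by
    have h2 := hmR x ⟨not_lt.1 c1, hc⟩
    have h3 := (hd x).trans_le (min_le_right _ _)
    have hy' : F x + lam x • φ x = y := hy
    rw [hy', dist_comm] at h3
    linarith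
  obtain ⟨t, z, hz, rfl⟩ := hxm.resolve_left fun h => c2 (Or.inl h)
  refine twoB_inv p K hF'i t ?_
  have hwz : 0 < w z := by
    have : ¬ w (t +ᵥ z) ≤ 1 := fun h => c2 (Or.inr h)
    rw [hwi] at this
    linarith
  have hzb : z ∈ Metric.ball x1 d2 := Metric.closedBall_subset_ball (by linarith) hz.1
  have hl1 : ∀ u ∈ N2 ∩ A, 0 < w u → F u + lam u • φ u = g u.1 := fun u hu hwu => by
    have e1 : lam u = 1 := by
      simp only [lam]
      rw [min_eq_left (by linarith), max_eq_right zero_le_one]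
    have e2 := hr' 0 u hu
    rw [zero_vadd] at e2
    rw [e1, one_smul, hφe u ⟨0, u, hu, by simp⟩, e2, add_sub_cancel]
  have hzN : z ∈ N2 ∩ A := ⟨Metric.ball_subset_closedBall hzb, hz.2⟩
  have hy' : g z.1 = y := by
    rw [← hl1 z hzN hwz, ← hF'i t]
    exact hy
  obtain ⟨g1, g2⟩ := hgy _ ⟨z, hzN.1, rfl⟩ hy'
  have hzi : z ∈ interior A := by_contra fun hc => g1 ⟨z, ⟨hzN.1, hz.2, hc⟩, rfl⟩
  refine (g2.subtype (hball hzN.1).2).congr ?_
  filter_upwards [isOpen_interior.mem_nhds hzi, Metric.isOpen_ball.mem_nhds hzb,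
    (isOpen_lt continuous_const hw).mem_nhds hwz] with u h1 h2 h3
  exact hl1 u ⟨Metric.ball_subset_closedBall h2, interior_subset h1⟩ h3

theorem perturb_step (k : ℕ) (y : Fin n → ℝ) {C : Set K} (hC : IsClosed C)
    (hK : C ⊆ intK K) {F : K → Fin n → ℝ} (hF : Continuous F)
    (hFi : ∀ (t : ℤ_[p]) x, F (t +ᵥ x) = F x) (h0 : ∀ x ∈ C ∩ FixP p K k, F x = y → LocHomeo F x)
    {δ : ℝ} (hδ : 0 < δ) :
    ∃ F' : K → Fin n → ℝ, Continuous F' ∧ (∀ (t : ℤ_[p]) x, F' (t +ᵥ x) = F' x) ∧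
      (∀ x, dist (F' x) (F x) < δ) ∧
      ∀ x ∈ C ∩ FixP p K (k + 1), F' x = y → LocHomeo F' x := by
  classical
  obtain ⟨w, hw, hwi, hw1, hw2⟩ := sheets_sep p (W := {x | F x = y ∧ ¬ LocHomeo F x}ᶜ)
    ((isClosed_eq hF continuous_const).inter (twoB_open K F).isClosed_compl).isOpen_compl
    (fun t x hx h => hx ⟨by rw [← hFi t]; exact h.1, fun h' => h.2 (twoB_inv p K hFi t h')⟩)
    (hC.inter (isClosed_fixP p K k)) (fun x hx h => h.2 (h0 x hx h.1))
  let C' : Set K := C ∩ FixP p K (k + 1) ∩ {x | -1 ≤ w x}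
  have hC' : IsClosed C' :=
    (hC.inter (isClosed_fixP p K _)).inter (isClosed_le continuous_const hw)
  choose N hN hxN hp using fun x : C' => perturb_piece p K k y x.1 (hK x.2.1.1) x.2.1.2 (fun h => by
    have h1 := hw2 x.1 ⟨x.2.1.1, h⟩
    have h2 : -1 ≤ w x.1 := x.2.2
    linarith)
  obtain ⟨T, hT⟩ := hC'.isCompact.elim_finite_subcover (fun x : C' => interior (N x))
    (fun _ => isOpen_interior) fun x hx => mem_iUnion.2 ⟨⟨x, hx⟩, hxN _⟩
  let Q : Finset C' → Set K := fun S => {x | w x ≤ 0} ∪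
    ⋃ u ∈ S, {x | ∃ t : ℤ_[p], ∃ z ∈ N u ∩ FixP p K (k + 1), x = t +ᵥ z}
  have key : ∀ S : Finset C', ∀ δ > 0, ∃ F' : K → Fin n → ℝ, Continuous F' ∧
      (∀ (t : ℤ_[p]) x, F' (t +ᵥ x) = F' x) ∧ (∀ x, dist (F' x) (F x) < δ) ∧
      ∀ x ∈ Q S, F' x = y → LocHomeo F' x := by
    intro S
    induction S using Finset.induction_on with
    | empty =>
      intro δ hδ
      refine ⟨F, hF, hFi, fun x => by simpa using hδ, fun x hx hy => by_contra fun hc => ?_⟩
      have h1 : w x ≤ 0 := by simpa [Q] using hx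
      have h2 := hw1 x fun h => h ⟨hy, hc⟩
      linarith
    | insert u S _ ih =>
      intro δ hδ
      obtain ⟨F1, a1, a2, a3, a4⟩ := ih (δ / 2) (by positivity)
      obtain ⟨F2, b1, b2, b3, b4⟩ := hp u F1 a1 a2 (Q S)
        ((isClosed_le hw continuous_const).union (S.finite_toSet.isClosed_biUnion fun v _ =>
          isClosed_sat p ((hN v).inter (isClosed_fixP p K _))))
        (by
          rintro t x (hx | hx)
          · exact Or.inl (by simpa [hwi] using hx)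
          · obtain ⟨v, hv, hx⟩ := mem_iUnion₂.1 hx
            exact Or.inr (mem_iUnion₂.2 ⟨v, hv, invSet_sat p _ t x hx⟩)) a4 (δ / 2) (by positivity)
      refine ⟨F2, b1, b2, fun x => ?_, fun x hx => b4 x ?_⟩
      · linarith [dist_triangle (F2 x) (F1 x) (F x), a3 x, b3 x]
      · rcases hx with hx | hx
        · exact Or.inl (Or.inl hx)
        · obtain ⟨v, hv, hx'⟩ := mem_iUnion₂.1 hx
          rcases Finset.mem_insert.1 hv with rfl | hv
          · exact Or.inr hx'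
          · exact Or.inl (Or.inr (mem_iUnion₂.2 ⟨v, hv, hx'⟩))
  obtain ⟨F', a1, a2, a3, a4⟩ := key T δ hδ
  refine ⟨F', a1, a2, a3, fun x hx => a4 x ?_⟩
  by_cases c : w x ≤ 0
  · exact Or.inl c
  · obtain ⟨v, hv, hxv⟩ := mem_iUnion₂.1 (hT (show x ∈ C' from ⟨hx, show -1 ≤ w x by linarith⟩))
    exact Or.inr (mem_iUnion₂.2 ⟨v, hv, 0, x, ⟨interior_subset hxv, hx.2⟩, by simp⟩)

/-- Generic invariant perturbation. -/
theorem perturb (k : ℕ) (y : Fin n → ℝ) {C : Set K} (hC : IsClosed C) (_hi : InvSet p C)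
    (hK : C ⊆ intK K) {F : K → Fin n → ℝ} (hF : Continuous F)
    (hFi : ∀ (t : ℤ_[p]) x, F (t +ᵥ x) = F x) (h0 : ∀ x ∈ C, F x = y → x ∉ FixP p K 0)
    {δ : ℝ} (hδ : 0 < δ) :
    ∃ F' : K → Fin n → ℝ, Continuous F' ∧ (∀ (t : ℤ_[p]) x, F' (t +ᵥ x) = F' x) ∧
      (∀ x, dist (F' x) (F x) < δ) ∧ (∀ x ∈ C, F' x = y → x ∉ FixP p K 0) ∧
      ∀ x ∈ C ∩ FixP p K k, F' x = y → LocHomeo F' x := by
  have key : ∀ k : ℕ, ∀ δ > 0, ∃ F' : K → Fin n → ℝ, Continuous F' ∧
      (∀ (t : ℤ_[p]) x, F' (t +ᵥ x) = F' x) ∧ (∀ x, dist (F' x) (F x) < δ) ∧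
      ∀ x ∈ C ∩ FixP p K k, F' x = y → LocHomeo F' x := by
    intro k
    induction k with
    | zero =>
      exact fun δ hδ => ⟨F, hF, hFi, fun x => by simpa using hδ,
        fun x hx hy => (h0 x hx.1 hy hx.2).elim⟩
    | succ k ih =>
      intro δ hδ
      obtain ⟨F1, a1, a2, a3, a4⟩ := ih (δ / 2) (by positivity)
      obtain ⟨F2, b1, b2, b3, b4⟩ := perturb_step p K k y hC hK a1 a2 a4 (half_pos hδ)
      exact ⟨F2, b1, b2, fun x => by linarith [dist_triangle (F2 x) (F1 x) (F x), a3 x, b3 x], b4⟩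
  obtain ⟨m, hm, hm'⟩ := twoB_margin K (hC.inter (isClosed_fixP p K 0)) hF (y := y)
    fun x hx hy => h0 x hx.1 hy hx.2
  obtain ⟨F', a1, a2, a3, a4⟩ := key k (min δ m) (lt_min hδ hm)
  refine ⟨F', a1, a2, fun x => (a3 x).trans_le (min_le_left _ _), fun x hx hy hf => ?_, a4⟩
  have h1 := hm' x ⟨hx, hf⟩
  have h2 := (a3 x).trans_le (min_le_right _ _)
  rw [hy, dist_comm] at h2
  linarith

theorem dvd_card_of_free (k : ℕ) (S : Finset K) (hi : InvSet p (S : Set K))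
    (hk : (S : Set K) ⊆ FixP p K k) (h0 : ∀ x ∈ S, x ∉ FixP p K 0) : p ∣ S.card := by
  classical
  let f : Function.End S := fun x => ⟨(1 : ℤ_[p]) +ᵥ x.1, hi 1 x.1 x.2⟩
  have hf : ∀ (m : ℕ) (x : S), ((f ^ m) x).1 = (m : ℤ_[p]) +ᵥ x.1 := by
    intro m
    induction m with
    | zero => intro x; simp [Function.End.one_def]
    | succ m ih =>
      intro x
      rw [pow_succ']
      change (1 : ℤ_[p]) +ᵥ ((f ^ m) x).1 = _
      rw [ih, vadd_vadd, add_comm]
      simp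
  have h1 : f ^ p ^ k = 1 := funext fun x => Subtype.ext (by
    rw [hf]
    change _ = x.1
    simpa using hk x.2 1)
  have h2 := Equiv.Perm.card_fixedPoints_modEq (p := p) (n := k) (f := f) h1
  have h3 : Fintype.card f.fixedPoints = 0 := by
    rw [Fintype.card_eq_zero_iff]
    refine ⟨fun x => h0 x.1.1 x.1.2 (fixed_of_not_dvd p (t := 1) (congrArg Subtype.val x.2) ?_)⟩
    rw [zero_add, pow_one, ← isUnit_iff_dvd_one]
    exact PadicInt.p_nonunit
  rw [h3, Fintype.card_coe] at h2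
  exact (Nat.modEq_zero_iff_dvd).1 h2

end Vale.Agent.P228
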