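import Vale.Agent.P228.StdB

/-! Part TwoC: additivity of values over disjoint pieces of the centre. -/

namespace Vale.Agent.P228

open Filter Matrix DagCat Set

variable {Y : Type} [MetricSpace Y] [CompactSpace Y]

theorem twoC_esig {Γ : Grp Y} {X X' : Obj Γ} {d B : Mor X X} {d' B' : Mor X' X'} {v : Mor X X'}
    (hs : IsSym (loc univ d) (loc univ B)) (hs' : Poinc (loc univ d') (loc univ B'))
    (hv : IsEquiv (loc univ d) (loc univ d') (loc univ v))
    (hi : loc univ (v.dag * (B' * v)) = loc univ B) :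
    ∀ᶠ i in atTop, ∀ χ, esig d B i χ = esig d' B' i χ := by
  have h1 := lag_graph hs hs' hv (k := 0) (by simp) (by rw [← hi]; simp)
  have h2 := esig_lag (d := dsum d d') (B := dsum B (-B')) (dL := d) (h := 0) (l := col 1 v)
    (by simpa using hs.oplus hs'.toIsSym.neg) (by simpa using h1)
  refine h2.mono fun i hi χ => ?_
  have := hi χ
  rw [esig_dsum, esig_neg] at this
  linarith

omit [CompactSpace Y] in
theorem twoC_piece {Γ : Grp Y} {X Λ : Obj Γ} {W Wa S : Set Y} {d : Mor X X} {ι : Mor Λ X}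
    {dΛ : Mor Λ Λ} (h1 : IsSub W d ι dΛ) (h2 : Van W (1 - ι * ι.dag)) (hS : Van Sᶜ (1 : Mor Λ Λ))
    (ha : Wa ⊆ W) {w : Y → ℝ} (hw : Continuous w) (hi : Γ.Inv w)
    (hc : ∀ x ∈ S, (w x < 0 ∧ x ∈ Wa) ∨ (0 < w x ∧ x ∉ Wa)) :
    ∃ (M : Obj Γ) (j : Mor M Λ), j.dag * j = 1 ∧ Van {y | w y < 0} (1 - j * j.dag) ∧
      Van {y | 0 < w y} j ∧ Chain (loc univ (j.dag * (dΛ * j))) (loc univ dΛ) (loc univ j) ∧
      IsSub Wa d (ι * j) (j.dag * (dΛ * j)) ∧ Van Wa (1 - ι * j * (ι * j).dag) ∧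
      Van Waᶜ (1 : Mor M M) := by
  obtain ⟨M, j, j1, j2, j3, j4⟩ := exists_proj hw hi 0 Λ
  have hch : Chain (loc univ (j.dag * (dΛ * j))) (loc univ dΛ) (loc univ j) := by
    refine (chain_q _).2 ?_
    have e : j * (j.dag * (dΛ * j)) - dΛ * j = -((1 - j * j.dag) * (dΛ * j)) := by simp
    rw [e]
    refine DagCat.Ideal.Mem.neg (Van.of_cover (U := {y | w y < 0} ∪ {y | 0 < w y}) (V := Sᶜ)
      (Van.union (j2.mul_right _) ((j3.mul_left _).mul_left _)) ?_ fun x _ => ?_)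
    · simpa only [Hom.mul_one] using (hS.mul_left (1 - j * j.dag)).mul_right (dΛ * j)
    · by_cases hx : x ∈ S
      · exact Or.inl ((hc x hx).imp (·.1) (·.1))
      · exact Or.inr hx
  refine ⟨M, j, j1, j2, j3, hch, ⟨by simp [Hom.reassoc h1.isom, j1], j4 _ h1.tri, ?_⟩, ?_, ?_⟩
  · simpa using (h1.mono ha).chain.mul (hch.map (resU (subset_univ Wa)))
  · have e : 1 - ι * j * (ι * j).dag = (1 - ι * ι.dag) + ι * ((1 - j * j.dag) * ι.dag) := by simp
    rw [e]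
    refine DagCat.Ideal.Mem.add (h2.mono ha) (Van.of_cover (U := {y | w y < 0}) (V := Sᶜ)
      ((j2.mul_right _).mul_left _) ?_ fun x hx => ?_)
    · simpa only [Hom.mul_one] using (hS.mul_left ι).mul_right ((1 - j * j.dag) * ι.dag)
    · by_cases hxS : x ∈ S
      · exact Or.inl ((hc x hxS).elim (·.1) fun h => absurd hx h.2)
      · exact Or.inr hxS
  · refine (van_one_of_isom j1 j3).of_cover (van_one_sub j1 hS) fun x hx => ?_
    by_cases hxS : x ∈ S
    · exact Or.inl ((hc x hxS).elim (fun h => absurd h.2 hx) (·.1))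
    · exact Or.inr hxS

theorem twoC_gap {n : ℕ} {F : Y → Fin n → ℝ}
    (hF : Continuous F) (y0 : Fin n → ℝ) {S : Set Y} (hS : IsClosed S) (h : ∀ x ∈ S, F x ≠ y0) :
    ∃ δ > 0, ∀ x ∈ S, δ ≤ dist (F x) y0 := by
  rcases S.eq_empty_or_nonempty with rfl | hne
  · exact ⟨1, one_pos, fun _ hx => hx.elim⟩
  obtain ⟨x0, hx0, hm⟩ := hS.isCompact.exists_isMinOn hne
    (f := fun x => dist (F x) y0) (by fun_prop)
  exact ⟨_, dist_pos.2 (h x0 hx0), fun x hx => hm hx⟩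

theorem twoC_dist {n : ℕ} {F : Y → Fin n → ℝ} {y : Fin n → ℝ} {η : ℝ} (hη : 0 < η) {x : Y}
    (hx : x ∈ centre (boxCuts F y η 0) 0) : dist (F x) y ≤ η :=
  (dist_pi_le_iff hη.le).2 fun j => by
    simpa [Real.dist_eq] using mem_centre_box.1 hx j (Nat.zero_le _)

theorem Val.split {Γ : Grp Y} {X : Obj Γ} {W U Wa Wb : Set Y} {cs : List (Cut Y)} {d B : Mor X X}
    {s : ∀ i, AddChar (Γ.G i) ℂ → ℤ} (h : Val W cs d B s) (hP : Poinc (loc W d) (loc W B))
    (hU : Van U (1 : Mor X X)) (ha : Wa ⊆ W) (hb : Wb ⊆ W) {w : Y → ℝ} (hw : Continuous w)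
    (hi : Γ.Inv w) (hc : ∀ x ∈ (W \ U) ∩ centre cs 0,
      (w x < 0 ∧ x ∈ Wa ∧ x ∉ Wb) ∨ (0 < w x ∧ x ∈ Wb ∧ x ∉ Wa)) :
    ∃ sa sb : ∀ i, AddChar (Γ.G i) ℂ → ℤ, Val Wa cs d B sa ∧ Val Wb cs d B sb ∧
      ∀ᶠ i in atTop, ∀ χ, s i χ = sa i χ + sb i χ := by
  induction cs generalizing X U with
  | nil =>
    obtain ⟨Λ, ι, dΛ, h1, h2, h3, h4⟩ := h
    have hS : Van (W \ U)ᶜ (1 : Mor Λ Λ) := h3.of_cover (van_one_sub h1.isom hU) fun x hx => by
      by_cases hxW : x ∈ W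
      · exact Or.inr (not_not.1 fun h => hx ⟨hxW, h⟩)
      · exact Or.inl hxW
    have hc' : ∀ x ∈ W \ U, (w x < 0 ∧ x ∈ Wa ∧ x ∉ Wb) ∨ (0 < w x ∧ x ∈ Wb ∧ x ∉ Wa) :=
      fun x hx => hc x ⟨hx, fun c hc => absurd hc List.not_mem_nil⟩
    obtain ⟨Ma, ja, a1, a2, a3, a4, a5, a6, a7⟩ := twoC_piece h1 h2 hS ha hw hi
      fun x hx => (hc' x hx).imp (fun h => ⟨h.1, h.2.1⟩) fun h => ⟨h.1, h.2.2⟩
    obtain ⟨Mb, jb, b1, b2, b3, b4, b5, b6, b7⟩ := twoC_piece h1 h2 hS hb (w := fun x => -w x)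
      hw.neg (fun i g y y' h => congrArg Neg.neg (hi i g y y' h))
      fun x hx => (hc' x hx).symm.imp (fun h => ⟨by simpa using h.1, h.2.1⟩)
        fun h => ⟨by simpa using h.1, h.2.2⟩
    simp only [Left.neg_neg_iff, Left.neg_pos_iff] at b2 b3
    have hcov : (univ : Set Y) ⊆ ({y | w y < 0} ∪ {y | 0 < w y}) ∪ (W \ U)ᶜ := fun x _ => by
      by_cases hx : x ∈ W \ U
      · exact Or.inl ((hc' x hx).imp (·.1) (·.1))
      · exact Or.inr hx
    have hab : ∀ f : Mor Λ Λ, loc univ (ja.dag * (f * jb)) = 0 := fun f => by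
      refine (van Γ univ).q_eq_zero.2 (Van.of_cover (Van.union ((b3.mul_left _).mul_left _)
        (a3.dag.mul_right _)) ?_ hcov)
      simpa using (hS.mul_left ja.dag).mul_right (f * jb)
    have hba : ∀ f : Mor Λ Λ, loc univ (jb.dag * (f * ja)) = 0 := fun f => by
      simpa using congrArg Hom.dag (hab f.dag)
    have hsum : loc univ (ja * ja.dag + jb * jb.dag) = loc univ 1 := by
      refine loc_eq.2 (Van.of_cover (Van.union ?_ ?_) ?_ hcov)
      · have := (b3.mul_right jb.dag).sub a2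
        convert this using 1
        abel
      · have := (a3.mul_right ja.dag).sub b2
        convert this using 1
        abel
      · simpa using hS.mul_left (ja * ja.dag + jb * jb.dag - 1)
    have hPΛ := ValA_poinc_up h3 (ValA_poinc_sub h1 hP h2)
    have sa := hPΛ.toIsSym.pull (v := loc univ ja) (IsSub.sq ⟨a1, a5.tri, a4⟩ hPΛ.sq) a4
    have sb := hPΛ.toIsSym.pull (v := loc univ jb) (IsSub.sq ⟨b1, b5.tri, b4⟩ hPΛ.sq) b4
    have a1' : (loc univ ja).dag * loc univ ja = 1 := by simpa using congrArg (loc univ) a1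
    have b1' : (loc univ jb).dag * loc univ jb = 1 := by simpa using congrArg (loc univ) b1
    have h5 := twoC_esig (d := dsum (ja.dag * (dΛ * ja)) (jb.dag * (dΛ * jb)))
      (B := dsum ((ι * ja).dag * (B * (ι * ja))) ((ι * jb).dag * (B * (ι * jb)))) (v := row ja jb)
      (by simpa using sa.oplus sb) hPΛ (by
        refine IsEquiv.of_iso (k := loc univ (row ja jb).dag) ?_ ?_ ?_
        · have a4' := a4
          have b4' := b4
          simp only [Chain, DFun.map_mul, DFun.map_dag] at a4' b4'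
          simp [Chain, dsum, a4', b4']
        · have e1 := hab 1
          have e2 := hba 1
          simp only [Hom.one_mul, DFun.map_mul, DFun.map_dag] at e1 e2
          simp [a1', b1', e1, e2]
        · simpa using hsum) (by
        have e1 := hab (ι.dag * (B * ι))
        have e2 := hba (ι.dag * (B * ι))
        simp only [Hom.assoc, DFun.map_mul, DFun.map_dag] at e1 e2
        simp [dsum, e1, e2])
    refine ⟨fun i χ => esig (ja.dag * (dΛ * ja)) ((ι * ja).dag * (B * (ι * ja))) i χ,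
      fun i χ => esig (jb.dag * (dΛ * jb)) ((ι * jb).dag * (B * (ι * jb))) i χ,
      ⟨Ma, ι * ja, _, a5, a6, a7, Eventually.of_forall fun _ _ => rfl⟩,
      ⟨Mb, ι * jb, _, b5, b6, b7, Eventually.of_forall fun _ _ => rfl⟩, ?_⟩
    filter_upwards [h4, h5] with i e1 e2 χ
    rw [e1, ← e2, esig_dsum]
  | cons c cs ih =>
    obtain ⟨Λ, ι, dΛ, D, dD, δ, β, β', h1, h2, h3, h4, h5, h6, h7, h8⟩ := h
    have hn := ValA_next hU h1.isom h3 h4 h6
    obtain ⟨sa, sb, g1, g2, g3⟩ := ih h8 (ValA_poinc_dbl (ValA_poinc_bd h1 hP.toIsSym) h7)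
      (ValA_van_sum hn hn) fun x hx => hc x (ValA_centre hx)
    exact ⟨sa, sb, ⟨Λ, ι, dΛ, D, dD, δ, β, β', h1.mono ha, h2, h3, h4, h5, h6, h7.map (resU ha),
      g1⟩, ⟨Λ, ι, dΛ, D, dD, δ, β, β', h1.mono hb, h2, h3, h4, h5, h6, h7.map (resU hb), g2⟩, g3⟩

theorem val_box_split {n : ℕ} {X : Obj (triv Y)} {d B : Mor X X} {W Wa Wb : Set Y}
    (hP : Poinc (loc W d) (loc W B)) (hWa : IsOpen Wa) (hWb : IsOpen Wb)
    (ha : Wa ⊆ W) (hb : Wb ⊆ W) (hab : Disjoint Wa Wb) {F : Y → Fin n → ℝ} (hF : Continuous F)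
    (y : Fin n → ℝ) (hcov : ∀ x ∈ closure W, F x = y → x ∈ Wa ∪ Wb)
    (hfa : ∀ x ∈ frontier Wa, F x ≠ y) (hfb : ∀ x ∈ frontier Wb, F x ≠ y) :
    ∃ η0 > 0, ∀ η, 0 < η → η < η0 → ∀ s : ∀ i, AddChar ((triv Y).G i) ℂ → ℤ,
      Val W (boxCuts F y η 0) d B s → ∃ sa sb : ∀ i, AddChar ((triv Y).G i) ℂ → ℤ,
        Val Wa (boxCuts F y η 0) d B sa ∧ Val Wb (boxCuts F y η 0) d B sb ∧
        ∀ᶠ i in atTop, ∀ χ, s i χ = sa i χ + sb i χ := by
  obtain ⟨δ, hδ, hgap⟩ := twoC_gap hF y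
    (S := closure W ∩ (Wa ∪ Wb)ᶜ ∪ (frontier Wa ∪ frontier Wb))
    ((isClosed_closure.inter (hWa.union hWb).isClosed_compl).union
      (isClosed_frontier.union isClosed_frontier)) (by
      rintro x (hx | hx | hx)
      · exact fun e => hx.2 (hcov x hx.1 e)
      · exact hfa x hx
      · exact hfb x hx)
  refine ⟨δ, hδ, fun η hη hη' s hs => ?_⟩
  have hcl : IsClosed {x | dist (F x) y ≤ η} := isClosed_le (by fun_prop) continuous_const
  have hin : ∀ {V : Set Y}, IsOpen V → frontier V ⊆ frontier Wa ∪ frontier Wb →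
      closure V ∩ {x | dist (F x) y ≤ η} ⊆ V := by
    intro V hV hf x hx
    by_contra hn
    have h1 : x ∈ frontier V := by rw [hV.frontier_eq]; exact ⟨hx.1, hn⟩
    have h2 := hgap x (Or.inr (hf h1))
    have h3 : dist (F x) y ≤ η := hx.2
    linarith
  obtain ⟨f, f0, f1, -⟩ := exists_continuous_zero_one_of_isClosed (isClosed_closure.inter hcl)
    (isClosed_closure.inter hcl)
    (hab.mono (hin hWa subset_union_left) (hin hWb subset_union_right))
  refine hs.split hP (van_empty _) ha hb (w := fun x => f x - 1 / 2) (by fun_prop) (triv_inv _)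
    fun x hx => ?_
  have h1 := twoC_dist hη hx.2
  have h2 : x ∈ Wa ∪ Wb := by
    by_contra hn
    have := hgap x (Or.inl ⟨subset_closure hx.1.1, hn⟩)
    linarith
  rcases h2 with h2 | h2
  · refine Or.inl ⟨?_, h2, disjoint_left.1 hab h2⟩
    rw [f0 ⟨subset_closure h2, h1⟩]; norm_num
  · refine Or.inr ⟨?_, h2, disjoint_right.1 hab h2⟩
    rw [f1 ⟨subset_closure h2, h1⟩]; norm_num

/-- The value vanishes if the fibre is empty. -/
theorem val_box_empty {n : ℕ} {X : Obj (triv Y)} {d B : Mor X X} {W : Set Y}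
    (hP : Poinc (loc W d) (loc W B)) {F : Y → Fin n → ℝ} (hF : Continuous F)
    (y : Fin n → ℝ) (hcov : ∀ x ∈ closure W, F x ≠ y) :
    ∃ η0 > 0, ∀ η, 0 < η → η < η0 → ∀ s : ∀ i, AddChar ((triv Y).G i) ℂ → ℤ,
      Val W (boxCuts F y η 0) d B s → ∀ᶠ i in atTop, ∀ χ, s i χ = 0 := by
  obtain ⟨δ, hδ, hgap⟩ := twoC_gap hF y isClosed_closure hcov
  refine ⟨δ, hδ, fun η hη hη' s hs => ?_⟩
  obtain ⟨Λ, dΛ, BΛ, -, -, h3, h4⟩ := hs.final hP (van_empty _)
  have h5 : Van univ (1 : Mor Λ Λ) := h3.mono fun x _ hx => by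
    have h1 := twoC_dist hη hx.2
    have := hgap x (subset_closure hx.1.1)
    linarith
  filter_upwards [h4, VanR.eventually_zero h5] with i e1 e2 χ
  rw [e1, esig_of_one_eq_zero _ _ e2]

end Vale.Agent.P228
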