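import Vale.Agent.P228.ValA

/-! Part TwoD: transport along an embedding of control spaces. -/

namespace Vale.Agent.P228

open Filter Matrix DagCat Set

noncomputable section

variable {Y Y' : Type} [MetricSpace Y] [CompactSpace Y] [MetricSpace Y'] [CompactSpace Y']

/-- Repositioning an object along a map. -/
@[reducible] def Obj.push (π : Y' → Y) (X : Obj (triv Y')) : Obj (triv Y) where
  β := X.β
  fin := X.fin
  dec := X.dec
  pos i b := π (X.pos i b)
  ρ := X.ρ
  ρ_zero := X.ρ_zero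
  ρ_add := X.ρ_add
  ρ_star := X.ρ_star
  ρ_rel i g b' b h := congrArg π (X.ρ_rel i g b' b h)

variable {π : Y' → Y} {X X' : Obj (triv Y')}

omit [CompactSpace Y] in
theorem ctl_push (hπ : Continuous π) {f : Fam X X'} (h : Ctl X X' f) :
    Ctl (X.push π) (X'.push π) f := by
  intro ε hε
  obtain ⟨δ, hδ, hu⟩ := Metric.uniformContinuous_iff.1
    (CompactSpace.uniformContinuous_of_continuous hπ) ε hε
  exact (h δ hδ).mono fun i hi b' b hb => hu (hi b' b hb)
omit [CompactSpace Y] in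
theorem twoD_inv (hπ : Continuous π) (hi : Function.Injective π) {ε : ℝ} (hε : 0 < ε) :
    ∃ δ > 0, ∀ a b, dist (π a) (π b) < δ → dist a b < ε := by
  have hS : IsCompact {q : Y' × Y' | ε ≤ dist q.1 q.2} :=
    (isClosed_le continuous_const (by fun_prop)).isCompact
  rcases eq_empty_or_nonempty {q : Y' × Y' | ε ≤ dist q.1 q.2} with h | h
  · refine ⟨1, one_pos, fun a b _ => not_le.1 fun hab => ?_⟩
    exact (h ▸ (show (a, b) ∈ {q : Y' × Y' | ε ≤ dist q.1 q.2} from hab) : (a, b) ∈ (∅ : Set _))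
  obtain ⟨q, hq, hm⟩ := hS.exists_isMinOn h (f := fun q => dist (π q.1) (π q.2)) (by fun_prop)
  refine ⟨dist (π q.1) (π q.2), dist_pos.2 fun e => ?_, fun a b hab => not_le.1 fun h' => ?_⟩
  · have h1 : ε ≤ dist q.1 q.2 := hq
    rw [hi e, dist_self] at h1
    linarith
  · exact not_le.2 hab (hm (show (a, b) ∈ {q : Y' × Y' | ε ≤ dist q.1 q.2} from h'))

omit [CompactSpace Y] in
theorem ctl_pull (hπ : Continuous π) (hi : Function.Injective π) {f : Fam X X'}
    (h : Ctl (X.push π) (X'.push π) f) : Ctl X X' f := by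
  intro ε hε
  obtain ⟨δ, hδ, hu⟩ := twoD_inv hπ hi hε
  exact (h δ hδ).mono fun i hi b' b hb => hu _ _ (hi b' b hb)

/-- The pushed morphism. -/
def pushM (hπ : Continuous π) (f : Mor X X') : Mor (X.push π) (X'.push π) :=
  mkMor (X := X.push π) (X' := X'.push π) (mat (X := X) (X' := X') f)
    (ctl_push hπ (mat_ctl (X := X) (X' := X') f)) (equi_triv _)

/-- The pulled morphism. -/
def pullM (hπ : Continuous π) (hi : Function.Injective π) (f : Mor (X.push π) (X'.push π)) :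
    Mor X X' :=
  mkMor (X := X) (X' := X') (mat (X := X.push π) (X' := X'.push π) f)
    (ctl_pull hπ hi (mat_ctl (X := X.push π) (X' := X'.push π) f)) (equi_triv _)

omit [CompactSpace Y] in
theorem pushM_pullM (hπ : Continuous π) (hi : Function.Injective π)
    (f : Mor (X.push π) (X'.push π)) : pushM hπ (pullM hπ hi f) = f := rfl

theorem vanR_push (hπ : Continuous π) (hi : Function.Injective π) {U : Set Y} {A : ℕ → Type}
    {e : ∀ i, Matrix (A i) (X.β i) ℂ} : VanR U (X.push π) e ↔ VanR (π ⁻¹' U) X e := by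
  constructor
  · intro h y hy
    obtain ⟨r, hr, h⟩ := h (π y) hy
    obtain ⟨δ, hδ, hu⟩ := Metric.uniformContinuous_iff.1
      (CompactSpace.uniformContinuous_of_continuous hπ) r hr
    exact ⟨δ, hδ, h.mono fun i h1 a b hb => not_lt.1 fun hlt => not_lt.2 (h1 a b hb) (hu hlt)⟩
  · intro h y hy
    by_cases hr : y ∈ range π
    · obtain ⟨y, rfl⟩ := hr
      obtain ⟨r, hr, h⟩ := h y hy
      obtain ⟨δ, hδ, hu⟩ := twoD_inv hπ hi hr
      exact ⟨δ, hδ, h.mono fun i h1 a b hb => not_lt.1 fun hlt => not_lt.2 (h1 a b hb) (hu _ _ hlt)⟩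
    · obtain ⟨r, hr, hb⟩ := Metric.isOpen_iff.1 (isCompact_range hπ).isClosed.isOpen_compl y hr
      exact ⟨r, hr, Eventually.of_forall fun i a b _ => not_lt.1 fun hlt => hb hlt ⟨_, rfl⟩⟩
theorem tri_push (hπ : Continuous π) {d : Mor X X} (h : Tri d) : Tri (pushM hπ d) := by
  obtain ⟨N, wt, h1, h2, h3⟩ := h
  exact ⟨N, wt, h1, h2, h3⟩
theorem van_push (hπ : Continuous π) (hi : Function.Injective π) {U : Set Y} {f : Mor X X'} :
    Van U (pushM hπ f) ↔ Van (π ⁻¹' U) f := vanR_push hπ hi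

/-- Pushing as a functor. -/
def pushF (hπ : Continuous π) : GFun (cat (triv Y')) (cat (triv Y)) where
  obj := Obj.push π
  map := pushM hπ
  map_mul _ _ := rfl
  map_one _ := rfl
  map_add _ _ := rfl
  map_smul _ _ := rfl
  map_dag _ := rfl

/-- Pushing as a functor on the quotients. -/
def pushQ (hπ : Continuous π) (hi : Function.Injective π) (U : Set Y) :
    GFun (van (triv Y') (π ⁻¹' U)).quot (van (triv Y) U).quot :=
  (pushF hπ).quot (I := van (triv Y') (π ⁻¹' U)) (J := van (triv Y) U)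
    fun h => (van_push hπ hi).2 h

theorem chain_push (hπ : Continuous π) (hi : Function.Injective π) {U : Set Y} {d : Mor X X}
    {d' : Mor X' X'} {f : Mor X X'} :
    Chain (loc U (pushM hπ d)) (loc U (pushM hπ d')) (loc U (pushM hπ f)) ↔
      Chain (loc (π ⁻¹' U) d) (loc (π ⁻¹' U) d') (loc (π ⁻¹' U) f) :=
  (chain_q _).trans ((van_push hπ hi (f := f * d - d' * f)).trans (chain_q _).symm)

theorem null_push (hπ : Continuous π) (hi : Function.Injective π) {U : Set Y} {d : Mor X X}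
    {d' : Mor X' X'} {f : Mor X X'} :
    Null (loc U (pushM hπ d)) (loc U (pushM hπ d')) (loc U (pushM hπ f)) ↔
      Null (loc (π ⁻¹' U) d) (loc (π ⁻¹' U) d') (loc (π ⁻¹' U) f) := by
  refine ⟨fun h => ?_, fun h => h.gmap (pushQ hπ hi U)⟩
  obtain ⟨k, hk⟩ := (null_q _).1 h
  exact (null_q _).2 ⟨pullM hπ hi k,
    (van_push hπ hi (f := f - (d' * pullM hπ hi k + pullM hπ hi k * d))).1 hk⟩

theorem isEquiv_push (hπ : Continuous π) (hi : Function.Injective π) {U : Set Y} {d : Mor X X}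
    {d' : Mor X' X'} {f : Mor X X'} :
    IsEquiv (loc U (pushM hπ d)) (loc U (pushM hπ d')) (loc U (pushM hπ f)) ↔
      IsEquiv (loc (π ⁻¹' U) d) (loc (π ⁻¹' U) d') (loc (π ⁻¹' U) f) := by
  refine ⟨fun h => ?_, fun h => h.gmap (pushQ hπ hi U)⟩
  obtain ⟨h1, g, h2, h3, h4⟩ := h
  obtain ⟨g, rfl⟩ := (van (triv Y) U).q_surj g
  exact ⟨(chain_push hπ hi).1 h1, loc _ (pullM hπ hi g),
    (chain_push hπ hi (f := pullM hπ hi g)).1 h2,
    (null_push hπ hi (f := pullM hπ hi g * f - 1)).1 h3,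
    (null_push hπ hi (f := f * pullM hπ hi g - 1)).1 h4⟩

theorem poinc_push (hπ : Continuous π) (hi : Function.Injective π) {U : Set Y} {d B : Mor X X} :
    Poinc (loc U (pushM hπ d)) (loc U (pushM hπ B)) ↔
      Poinc (loc (π ⁻¹' U) d) (loc (π ⁻¹' U) B) := by
  refine ⟨fun h => ⟨⟨?_, ?_, ?_⟩, ?_⟩, fun h => h.gmap (pushQ hπ hi U)⟩
  · exact (van _ _).q_eq_zero.2 ((van_push hπ hi (f := d * d)).1 ((van _ _).q_eq_zero.1 h.sq))
  · have h1 : loc U (pushM hπ B).dag = loc U (pushM hπ B) := h.herm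
    have h3 : Van U ((pushM hπ B).dag - pushM hπ B) := loc_eq.1 h1
    have h4 : Van U (pushM hπ (B.dag - B)) := h3
    have h2 : loc (π ⁻¹' U) B.dag = loc (π ⁻¹' U) B := loc_eq.2 ((van_push hπ hi).1 h4)
    exact h2
  · exact (chain_push hπ hi (d' := d.dag)).1 h.chain
  · exact (isEquiv_push hπ hi (d' := d.dag)).1 h.equiv
theorem acyc_push (hπ : Continuous π) (hi : Function.Injective π) {U : Set Y} (hU : U ⊆ range π)
    {d : Mor X X} {A : ℕ → Type} {e : ∀ i, Matrix (A i) (X.β i) ℂ} (h : Acyc (π ⁻¹' U) d e) :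
    Acyc (X := X.push π) U (pushM hπ d) e := by
  intro y hy r hr
  obtain ⟨y, rfl⟩ := hU hy
  obtain ⟨r0, hr0, hu⟩ := Metric.uniformContinuous_iff.1
    (CompactSpace.uniformContinuous_of_continuous hπ) r hr
  obtain ⟨r', hr', h⟩ := h y hy r0 hr0
  obtain ⟨δ, hδ, hv⟩ := twoD_inv hπ hi hr'
  refine ⟨δ, hδ, h.mono fun i h1 z hz h2 h3 => ?_⟩
  obtain ⟨w, g1, g2, g3⟩ := h1 z (fun b hb => hv _ _ (hz b hb)) h2 h3
  exact ⟨w, fun b hb => hu (g1 b hb), g2, g3⟩

/-- The comparison unitary. -/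
def pushC (π : Y' → Y) (X X' : Obj (triv Y')) : Mor ((X + X').push π) (X.push π + X'.push π) :=
  mkMor (X := (X + X').push π) (X' := X.push π + X'.push π)
    (fun i => (1 : Matrix (X.β i ⊕ X'.β i) (X.β i ⊕ X'.β i) ℂ))
    (Ctl.of_pos fun i b' b h => by
      have e : b' = b := by
        by_contra hne
        exact h (one_apply_ne hne)
      subst e
      rcases b' with b' | b' <;> rfl) (equi_triv _)

omit [CompactSpace Y] [MetricSpace Y'] [CompactSpace Y'] in
theorem pushC_dag_mul : (pushC π X X').dag * pushC π X X' = 1 := mor_ext fun i => by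
  change (1 : Matrix (X.β i ⊕ X'.β i) (X.β i ⊕ X'.β i) ℂ)ᴴ * 1 = 1
  simp

omit [CompactSpace Y] [MetricSpace Y'] [CompactSpace Y'] in
theorem pushC_mul_dag : pushC π X X' * (pushC π X X').dag = 1 := mor_ext fun i => by
  change 1 * (1 : Matrix (X.β i ⊕ X'.β i) (X.β i ⊕ X'.β i) ℂ)ᴴ = 1
  simp

omit [CompactSpace Y] in
theorem pushC_comm (hπ : Continuous π) {f : Mor (X + X') (X + X')}
    {g : Mor (X.push π + X'.push π) (X.push π + X'.push π)} (h : ∀ i, mat f i = mat g i) :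
    pushC π X X' * pushM hπ f = g * pushC π X X' := mor_ext fun i => by
  change (1 : Matrix (X.β i ⊕ X'.β i) (X.β i ⊕ X'.β i) ℂ) * mat f i = mat g i * 1
  rw [h]
  exact (Matrix.one_mul _).trans (Matrix.mul_one _).symm

omit [CompactSpace Y] in
theorem pushC_conj (hπ : Continuous π) {f : Mor (X + X') (X + X')}
    {g : Mor (X.push π + X'.push π) (X.push π + X'.push π)} (h : ∀ i, mat f i = mat g i) :
    (pushC π X X').dag * (g * pushC π X X') = pushM hπ f := by
  rw [← pushC_comm hπ h, Hom.reassoc pushC_dag_mul, Hom.one_mul]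

theorem isSub_push (hπ : Continuous π) (hi : Function.Injective π) {W : Set Y} {d : Mor X X}
    {ι : Mor X' X} {dΛ : Mor X' X'} (h : IsSub (π ⁻¹' W) d ι dΛ) :
    IsSub W (pushM hπ d) (pushM hπ ι) (pushM hπ dΛ) :=
  ⟨congrArg (pushM hπ) h.isom, tri_push hπ h.tri, (chain_push hπ hi).2 h.chain⟩

theorem Val.push (hπ : Continuous π) (hi : Function.Injective π) {W : Set Y} {cs : List (Cut Y)}
    {d B : Mor X X} {s : ∀ i, AddChar ((triv Y').G i) ℂ → ℤ}
    (hP : Poinc (loc (π ⁻¹' W) d) (loc (π ⁻¹' W) B))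
    (h : Val (π ⁻¹' W) (cs.map fun c => (c.1 ∘ π, c.2 ∘ π)) d B s) :
    Val W cs (pushM hπ d) (pushM hπ B) s := by
  clear hP
  induction cs generalizing X with
  | nil =>
    obtain ⟨Λ, ι, dΛ, h1, h2, h3, h4⟩ := h
    exact ⟨Λ.push π, pushM hπ ι, pushM hπ dΛ, isSub_push hπ hi h1,
      (van_push hπ hi (f := 1 - ι * ι.dag)).2 h2, (van_push hπ hi (f := 1)).2 h3, h4⟩
  | cons c cs ih =>
    obtain ⟨Λ, ι, dΛ, D, dD, δ, β, β', h1, h2, h3, h4, h5, h6, h7, h8⟩ := h
    refine ⟨Λ.push π, pushM hπ ι, pushM hπ dΛ, D.push π, pushM hπ dD, pushC π Λ Λ * pushM hπ δ,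
      pushM hπ β, pushM hπ β', isSub_push hπ hi h1,
      (van_push hπ hi (U := {y | c.1 y < 0}) (f := 1 - ι * ι.dag)).2 h2,
      (van_push hπ hi (U := {y | c.2 y < 0})).2 h3, ?_, tri_push hπ h5,
      (van_push hπ hi (U := {y | c.1 y < 0}) (f := 1)).2 h6, ?_, ?_⟩
    · rw [Hom.dag_mul, Hom.assoc, Hom.reassoc pushC_dag_mul, Hom.one_mul]
      exact congrArg (pushM hπ) h4
    · exact (h7.gmap (pushQ hπ hi W)).unitary (w := loc W (pushC π Λ Λ))
        (congrArg (loc W) pushC_dag_mul) (congrArg (loc W) pushC_mul_dag)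
        (congrArg (loc W) (pushC_comm hπ fun _ => rfl))
        (congrArg (loc W) (pushC_conj hπ fun _ => rfl))
    · exact (ih h8).iso pushC_dag_mul pushC_mul_dag
        (congrArg (loc W) (pushC_comm hπ fun _ => rfl))
        (congrArg (loc W) (pushC_conj hπ fun _ => rfl))

end

end Vale.Agent.P228
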