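import Vale.Agent.P228.TwoA
import Vale.Agent.P228.TwoC
import Vale.Agent.P228.TwoD

/-! Part TwoE: the value along a local homeomorphism. -/

namespace Vale.Agent.P228

open Filter Matrix DagCat Set

variable {n : ℕ} (K : Set (Fin n → ℝ)) [CompactSpace K]

omit [CompactSpace K] in
/-- Keeping the degree preserving entries of an augmented chain map. -/
theorem deg_part {Y : Type} [MetricSpace Y] {X T : Obj (triv Y)} {W : Set Y} {dX : Mor X X}
    {dT : Mor T T} (gX : ∀ i, X.β i → ℕ) (gT : ∀ i, T.β i → ℕ)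
    (hX : ∀ i b' b, mat dX i b' b ≠ 0 → gX i b' + 1 = gX i b)
    (hT : ∀ i b' b, mat dT i b' b ≠ 0 → gT i b' + 1 = gT i b)
    {eX : ∀ i, Matrix Unit (X.β i) ℂ} {eT : ∀ i, Matrix Unit (T.β i) ℂ}
    (eX0 : ∀ i a b, eX i a b ≠ 0 → gX i b = 0) (eT0 : ∀ i a b, eT i a b ≠ 0 → gT i b = 0)
    {c : Mor X T} (hc : Chain (loc W dX) (loc W dT) (loc W c))
    (he : VanR W X (fun i => eT i * mat c i - eX i)) :
    ∃ c : Mor X T, Chain (loc W dX) (loc W dT) (loc W c) ∧
      VanR W X (fun i => eT i * mat c i - eX i) ∧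
      ∀ i b' b, mat c i b' b ≠ 0 → gT i b' = gX i b := by
  let c0 : Mor X T := mkMor (fun i => Matrix.of fun b' b =>
    if gT i b' = gX i b then mat c i b' b else 0)
    ((mat_ctl c).of_supp fun i b' b h h' => h (by simp [h'])) (equi_triv _)
  have h0 : ∀ i b' b, mat c0 i b' b = if gT i b' = gX i b then mat c i b' b else 0 :=
    fun _ _ _ => rfl
  have si : ∀ {ι : Type} [Fintype ι] (P : Prop) [Decidable P] (f : ι → ℂ),
      ∑ j, (if P then f j else 0) = if P then ∑ j, f j else 0 := by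
    intro ι _ P _ f
    split_ifs <;> simp
  refine ⟨c0, (chain_q _).2 (VanR.of_supp ((chain_q _).1 hc) fun i b' b h => ⟨b', fun h' => h ?_⟩),
    he.of_supp fun i a b h => ⟨a, fun h' => h ?_⟩, fun i b' b h => ?_⟩
  · have e1 : (mat c0 i * mat dX i) b' b =
        if gT i b' + 1 = gX i b then (mat c i * mat dX i) b' b else 0 := by
      rw [Matrix.mul_apply, Matrix.mul_apply, ← si]
      refine Finset.sum_congr rfl fun a _ => ?_
      by_cases h : mat dX i a b = 0
      · simp [h]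
      · simp [h0, ← hX i a b h]
    have e2 : (mat dT i * mat c0 i) b' b =
        if gT i b' + 1 = gX i b then (mat dT i * mat c i) b' b else 0 := by
      rw [Matrix.mul_apply, Matrix.mul_apply, ← si]
      refine Finset.sum_congr rfl fun a _ => ?_
      by_cases h : mat dT i b' a = 0
      · simp [h]
      · simp [h0, hT i b' a h]
    rw [mat_sub, mat_mul, mat_mul, Matrix.sub_apply] at h' ⊢
    rw [e1, e2]
    split_ifs
    · exact h'
    · exact sub_self _
  · have e1 : (eT i * mat c0 i) a b = if 0 = gX i b then (eT i * mat c i) a b else 0 := by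
      rw [Matrix.mul_apply, Matrix.mul_apply, ← si]
      refine Finset.sum_congr rfl fun a' _ => ?_
      by_cases h : eT i a a' = 0
      · simp [h]
      · simp [h0, eT0 i a a' h]
    rw [Matrix.sub_apply] at h' ⊢
    rw [e1]
    split_ifs with hb
    · exact h'
    · rw [zero_sub, neg_eq_zero]
      by_contra hne
      exact hb (eX0 i a b hne).symm
  · by_contra hne
    exact h (if_neg hne)

omit [CompactSpace K] in
theorem equiv_of_aug {Y : Type} [MetricSpace Y] [CompactSpace Y] {X T : Obj (triv Y)} {W : Set Y}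
    (hW : IsOpen W) {dX : Mor X X} (hX : Tri dX) (hsq : loc W dX * loc W dX = 0)
    {dT : Mor T T} {eX : ∀ i, Matrix Unit (X.β i) ℂ} {eT : ∀ i, Matrix Unit (T.β i) ℂ}
    (aX : Acyc W dX eX) {c : Mor X T} {c' : Mor T X} (hc : Chain (loc W dX) (loc W dT) (loc W c))
    (hc' : Chain (loc W dT) (loc W dX) (loc W c'))
    (he : VanR W X (fun i => eT i * mat c i - eX i))
    (he' : VanR W T (fun i => eX i * mat c' i - eT i)) :
    Null (loc W dX) (loc W dX) (loc W c' * loc W c - 1) := by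
  have := ac_null' hW hX hsq aX (f := c' * c - 1) (by simpa using (hc'.mul hc).sub Chain.one)
    (((he'.mul_ctl (mat_ctl c)).add he).congr (Eventually.of_forall fun i => by
      simp [Matrix.mul_sub, Matrix.sub_mul, Matrix.mul_assoc]))
  simpa using this

omit [CompactSpace K] in
theorem epsG_deg {K : Set (Fin n → ℝ)} [CompactSpace K] (y : Fin n → ℝ) (i : ℕ) (a : Unit)
    (b : (grid K y 0).β i) (h : epsG K y 0 i a b ≠ 0) : deg b.1 = 0 :=
  deg_eq_zero.2 (by
    by_contra hn
    exact h (if_neg hn))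
theorem val_lochomeo (y : Fin n → ℝ) {O : Set K} (hO : IsOpen O) (hK : O ⊆ intK K)
    {F : K → Fin n → ℝ} (hF : Continuous F) (hinj : InjOn F O)
    (hopen : ∀ U ⊆ O, IsOpen U → IsOpen (F '' U)) {x : K} (hx : x ∈ O) :
    ∃ η0 > 0, ∀ η, 0 < η → η < η0 → ∀ s : ∀ i, AddChar ((triv K).G i) ℂ → ℤ,
      Val O (boxCuts F (F x) η 0) (dG K y 0) (bG K y) s →
      ∀ᶠ i in atTop, ∀ χ, s i χ = 2 ^ (n + 1) ∨ s i χ = -2 ^ (n + 1) := by
  obtain ⟨R0, hR0, hb⟩ := Metric.isOpen_iff.1 (hopen O Subset.rfl hO) (F x) ⟨x, hx, rfl⟩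
  obtain ⟨R, hR, hb⟩ : ∃ R > 0, Metric.closedBall (F x) R ⊆ F '' O :=
    ⟨R0 / 2, half_pos hR0, (Metric.closedBall_subset_ball (half_lt_self hR0)).trans hb⟩
  generalize F x = y0 at hb ⊢
  set K' := Metric.closedBall y0 R with hK'
  have : CompactSpace K' := isCompact_iff_compactSpace.1 (isCompact_closedBall y0 R)
  choose π πO πF using fun z : K' => hb z.2
  have hπ : Continuous π := continuous_def.2 fun U hU => by
    convert (hopen (U ∩ O) inter_subset_right (hU.inter hO)).preimage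
      (continuous_subtype_val (p := (· ∈ K'))) using 1
    ext z
    exact ⟨fun h => ⟨π z, ⟨h, πO z⟩, πF z⟩, fun ⟨w, hw, e⟩ =>
      show π z ∈ U from hinj hw.2 (πO z) (e.trans (πF z).symm) ▸ hw.1⟩
  have hi : Function.Injective π := fun z z' e => Subtype.ext (by rw [← πF z, ← πF z', e])
  set W := O ∩ F ⁻¹' Metric.ball y0 R with hWd
  have hW : IsOpen W := hO.inter (Metric.isOpen_ball.preimage hF)
  have hWr : W ⊆ range π := fun w hw =>
    ⟨⟨F w, Metric.ball_subset_closedBall hw.2⟩, hinj (πO _) hw.1 (πF _)⟩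
  have hW0 : π ⁻¹' W = {z : K' | z.1 ∈ Metric.ball y0 R} := by
    ext z
    simp [hWd, πO, πF]
  have hB : Metric.ball y0 R ⊆ interior K' := Metric.ball_subset_interior_closedBall
  have hW1 : π ⁻¹' W ⊆ intK K' := hW0 ▸ fun z hz => hB hz
  have hW2 : W ⊆ intK K := inter_subset_left.trans hK
  have tP := tri_push hπ (tri_dG K' y0 0)
  have sP : loc W (pushM hπ (dG K' y0 0)) * loc W (pushM hπ (dG K' y0 0)) = 0 := by
    have h1 : Van (intK K') (dG K' y0 0 * dG K' y0 0) :=
      (van _ _).q_eq_zero.1 (by rw [DFun.map_mul]; exact dG_sq K' y0 0)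
    rw [← DFun.map_mul]
    exact (van _ _).q_eq_zero.2 ((vanR_push hπ hi).2 (VanR.mono h1 hW1))
  have sQ : loc W (dG K y 0) * loc W (dG K y 0) = 0 := by
    simpa using congrArg (resU hW2).map (dG_sq K y 0)
  have aP := acyc_push hπ hi hWr ((acyc_grid K' y0 0).mono hW1)
  have aQ := (acyc_grid K y 0).mono hW2
  obtain ⟨c, c1, c2⟩ := ac_exists hW tP sP aQ (fun w hw => grid_vertices K y w (hW2 hw))
    (η := epsG K' y0 0) ((vanR_push hπ hi).2 ((eps_dG K' y0 0).mono hW1))
  obtain ⟨c', c3, c4⟩ := ac_exists hW (tri_dG K y 0) sQ aP (fun w hw r hr => by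
    obtain ⟨z, rfl⟩ := hWr hw
    obtain ⟨ρ, hρ, h⟩ := Metric.continuous_iff.1 hπ z r hr
    exact (grid_vertices K' y0 z (hW1 hw) ρ hρ).mono fun i ⟨v, h1, h2⟩ =>
      ⟨v, fun b hb => h _ (h1 b hb), h2⟩) ((eps_dG K y 0).mono hW2)
  obtain ⟨c, c1, c2, c5⟩ := deg_part (dX := pushM hπ (dG K' y0 0)) (dT := dG K y 0)
    (fun i b => deg b.1) (fun i b => deg b.1) (fun i b' b h => deg_dEnt h)
    (fun i b' b h => deg_dEnt h) (epsG_deg y0) (epsG_deg y) c1 c2
  have hc : IsEquiv (loc W (pushM hπ (dG K' y0 0))) (loc W (dG K y 0)) (loc W c) :=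
    ⟨c1, loc W c', c3, equiv_of_aug hW tP sP aP c1 c3 c2 c4,
      equiv_of_aug hW (tri_dG K y 0) sQ aQ c3 c1 c4 c2⟩
  have pQ : Poinc (loc W (dG K y 0)) (loc W (bG K y)) := (poinc_bG K y).map (resU hW2)
  have pP : Poinc (loc W (pushM hπ (dG K' y0 0)))
      (loc W (pushM hπ (pullM hπ hi (c.dag * (bG K y * c))))) := by
    rw [pushM_pullM]
    simpa using pQ.pull sP hc
  have p0 := (poinc_push hπ hi).1 pP
  have hH : Homog K' y0 0 (pullM hπ hi (c.dag * (bG K y * c))) := by
    intro i b' b h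
    obtain ⟨a', -, h1⟩ := Finset.exists_ne_zero_of_sum_ne_zero h
    obtain ⟨a, -, h2⟩ := Finset.exists_ne_zero_of_sum_ne_zero (right_ne_zero_of_mul h1)
    have e1 := c5 i a' b' (star_ne_zero.1 (left_ne_zero_of_mul h1))
    have e2 := c5 i a b (right_ne_zero_of_mul h2)
    have e3 := bG_homog K y i a' a (left_ne_zero_of_mul h2)
    rwa [e1, e2] at e3
  have cen : ∀ {Z : Type} {G : Z → Fin n → ℝ} {η η' : ℝ} {z : Z}, 0 ≤ η + η' →
      z ∈ centre (boxCuts G y0 η 0) η' → dist (G z) y0 ≤ η + η' := fun h0 h =>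
    (dist_pi_le_iff h0).2 fun j => mem_centre_box.1 h j (Nat.zero_le _)
  refine ⟨R / 2, half_pos hR, fun η hη hη' s hs => ?_⟩
  obtain ⟨s', hs'⟩ := Val.exist (cs := boxCuts Subtype.val y0 η 0) p0 (tri_dG K' y0 0)
    (van_empty _) (goodCut_box continuous_subtype_val (triv_inv _) y0 hη 0)
    ((sep_triv (C := {z : K' | dist z.1 y0 ≤ η + 0}) (hW.preimage hπ)
      (isClosed_le (by fun_prop) continuous_const) fun z hz => hW0 ▸
        show dist z.1 y0 < R from lt_of_le_of_lt hz (by linarith)).mono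
      fun z hz => cen (by linarith) hz.2)
  have h1 := val_std K' y0 hη (by linarith) hB hW0 (Nat.zero_le n) hH p0 hs'
  have h2 := Val.push (cs := boxCuts F y0 η 0) hπ hi p0 (by
    convert hs' using 1
    simp only [boxCuts, List.map_map]
    refine List.map_congr_left fun j _ => ?_
    ext z <;> simp [πF])
  have h3 := hs.restrict (van_empty _) inter_subset_left (W' := W) fun z hz =>
    ⟨hz.1.1, show dist (F z) y0 < R from (cen (by linarith) hz.2).trans_lt (by linarith)⟩
  have h4 := h2.isometry h3 tP pP pQ (van_empty _) (van_empty _) hc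
    (Null.of_eq (by rw [pushM_pullM]; simp)) (sepCut_box hF (triv_inv _) y0 hη 0) hη
    ((sep_triv (C := range π ∩ {z | dist (F z) y0 ≤ η + η}) hW
      ((isCompact_range hπ).isClosed.inter (isClosed_le (by fun_prop) continuous_const))
      (by
        rintro _ ⟨⟨z, rfl⟩, hz⟩
        exact ⟨πO z, show dist (F (π z)) y0 < R from lt_of_le_of_lt hz (by linarith)⟩)).mono
      fun z hz => ⟨hWr hz.1.1, cen (by linarith) hz.2⟩)
  filter_upwards [h1, h4] with i e1 e2 χ
  rw [← e2 χ]
  exact e1 χ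

/-- The parity of the value along a map with finite fibre of local homeomorphism points. -/
theorem val_parity (y : Fin n → ℝ) {F : K → Fin n → ℝ} (hF : Continuous F) (y0 : Fin n → ℝ)
    (S : Finset K) (hS : ∀ x ∈ S, F x = y0 ∧ LocHomeo F x) {W : Set K} (hW : IsOpen W)
    (hK : W ⊆ intK K) (hSW : (S : Set K) ⊆ W) (hcov : ∀ x ∈ closure W, F x = y0 → x ∈ S) :
    ∃ η0 > 0, ∀ η, 0 < η → η < η0 → ∀ s : ∀ i, AddChar ((triv K).G i) ℂ → ℤ,
      Val W (boxCuts F y0 η 0) (dG K y 0) (bG K y) s →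
      ∀ᶠ i in atTop, ∀ χ, ∃ m : ℤ, s i χ = 2 ^ (n + 1) * m ∧ m ≡ S.card [ZMOD 2] := by
  classical
  induction S using Finset.induction_on generalizing W with
  | empty =>
    obtain ⟨η0, h0, h⟩ := val_box_empty ((poinc_bG K y).map (resU hK)) hF y0
      fun x hx e => by simpa using hcov x hx e
    exact ⟨η0, h0, fun η h1 h2 s hs => (h η h1 h2 s hs).mono fun i hi χ => ⟨0, by simp [hi χ]⟩⟩
  | insert x S hx ih =>
    obtain ⟨hx0, O, hO, hxO, hinj, hopen⟩ := hS x (Finset.mem_insert_self _ _)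
    obtain ⟨r, hr, hb⟩ := Metric.nhds_basis_closedBall.mem_iff.1
      (((hO.inter hW).inter S.finite_toSet.isClosed.isOpen_compl).mem_nhds
        ⟨⟨hxO, hSW (Finset.mem_insert_self _ _)⟩, hx⟩)
    have hWb : IsOpen (W \ Metric.closedBall x r) := hW.sdiff Metric.isClosed_closedBall
    have ha : Metric.ball x r ⊆ W := fun z hz => (hb (Metric.ball_subset_closedBall hz)).1.2
    have ha' : Metric.ball x r ⊆ O := fun z hz => (hb (Metric.ball_subset_closedBall hz)).1.1
    have hSb : (S : Set K) ⊆ W \ Metric.closedBall x r := fun z hz =>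
      ⟨hSW (Finset.mem_insert_of_mem hz), fun h => (hb h).2 hz⟩
    have hd : Disjoint (Metric.ball x r) (W \ Metric.closedBall x r) :=
      Set.disjoint_left.2 fun z hz h => h.2 (Metric.ball_subset_closedBall hz)
    have hcb : ∀ z ∈ closure (W \ Metric.closedBall x r), F z = y0 → z ∈ S := fun z hz e =>
      (Finset.mem_insert.1 (hcov z (closure_mono sdiff_subset hz) e)).resolve_left fun e' =>
        Set.disjoint_left.1 (hd.closure_right Metric.isOpen_ball) (e' ▸ Metric.mem_ball_self hr) hz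
    obtain ⟨η1, p1, q1⟩ := val_box_split ((poinc_bG K y).map (resU hK)) Metric.isOpen_ball hWb ha
      sdiff_subset hd hF y0
      (fun z hz e => (Finset.mem_insert.1 (hcov z hz e)).imp
        (fun e' : z = x => e' ▸ Metric.mem_ball_self hr) fun h => hSb h)
      (fun z hz e => by
        rw [Metric.isOpen_ball.frontier_eq] at hz
        have := hinj (hb (Metric.closure_ball_subset_closedBall hz.1)).1.1 hxO (e.trans hx0.symm)
        exact hz.2 (this ▸ Metric.mem_ball_self hr))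
      (fun z hz e => by
        rw [hWb.frontier_eq] at hz
        exact hz.2 (hSb (hcb z hz.1 e)))
    obtain ⟨η2, p2, q2⟩ := val_lochomeo K y Metric.isOpen_ball (ha.trans hK) hF (hinj.mono ha')
      (fun U hU => hopen U (hU.trans ha')) (Metric.mem_ball_self hr)
    obtain ⟨η3, p3, q3⟩ := ih (fun z hz => hS z (Finset.mem_insert_of_mem hz)) hWb
      (sdiff_subset.trans hK) hSb hcb
    rw [hx0] at q2
    refine ⟨min η1 (min η2 η3), by positivity, fun η hη hη' s hs => ?_⟩
    simp only [lt_min_iff] at hη'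
    obtain ⟨sa, sb, h1, h2, h3⟩ := q1 η hη hη'.1 s hs
    filter_upwards [h3, q2 η hη hη'.2.1 sa h1, q3 η hη hη'.2.2 sb h2] with i e1 e2 e3 χ
    obtain ⟨m, e3, e4⟩ := e3 χ
    rw [Finset.card_insert_of_notMem hx, e1, e3]
    unfold Int.ModEq at e4 ⊢
    rcases e2 χ with e | e <;> rw [e]
    · exact ⟨m + 1, by ring, by push_cast; omega⟩
    · exact ⟨m - 1, by ring, by push_cast; omega⟩

end Vale.Agent.P228
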