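import Vale.Agent.P228.TwoB
import Vale.Agent.P228.TwoE

/-! Part TwoF: the local fixed point theorem for the prime two. -/

namespace Vale.Agent.P228

open Filter Matrix DagCat Set

theorem localThm_two (p : ℕ) [Fact p.Prime] (hp : p = 2) : LocalThm p := by
  intro n K _ _ _ W1 W h hW hi H y hH h0 h1 hy hfr
  by_contra hn
  classical
  have hF : Continuous (H 0) := hH.comp (Continuous.prodMk_right (0 : ℝ))
  have hWK := h.subset p K
  obtain ⟨δ, hδ, hgap⟩ := main_gap (Y := Icc (0 : ℝ) 1 × K) (F := fun q => H q.1 q.2)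
    (hH.comp ((continuous_subtype_val.comp continuous_fst).prodMk continuous_snd)) y.1
    (S := {q | q.2 ∈ frontier W}) (isClosed_frontier.preimage continuous_snd)
    fun q hq => hfr _ q.1.2 _ hq
  set C : Set K := closure W ∩ {x | dist (H 0 x) y.1 ≤ δ / 2} with hCd
  have hC : IsClosed C := isClosed_closure.inter (isClosed_le (by fun_prop) continuous_const)
  have hCi : InvSet p C := fun t x hx =>
    ⟨hi.closure p t x hx.1, show dist (H 0 (t +ᵥ x)) y.1 ≤ δ / 2 from h0 t x ▸ hx.2⟩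
  have hCW : C ⊆ W := fun x hx => by
    by_contra hx'
    have a1 := hgap (⟨0, le_rfl, zero_le_one⟩, x)
      (show x ∈ frontier W by rw [hW.frontier_eq]; exact ⟨hx.1, hx'⟩)
    have a2 : dist (H 0 x) y.1 ≤ δ / 2 := hx.2
    linarith
  obtain ⟨F, hF', hFi, hd, hf0, hfk⟩ := perturb p K (n + 2) y.1 hC hCi (hCW.trans hWK) hF h0
    (fun x hx e hx' => hn ⟨x, hCW hx, e, fun t => by simpa using hx' t⟩) (half_pos hδ)
  have hcl : ∀ x ∈ closure W, F x = y.1 → x ∈ C := fun x hx e =>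
    ⟨hx, show dist (H 0 x) y.1 ≤ δ / 2 by rw [← e, dist_comm]; exact (hd x).le⟩
  have hfr' : ∀ x ∈ frontier W, F x ≠ y.1 := fun x hx e => by
    rw [hW.frontier_eq] at hx
    exact hx.2 (hCW (hcl x hx.1 e))
  obtain ⟨η1, p1, q1⟩ := val_degree_one K y hW hWK hy
    (H := fun t x => H t x + (1 - t) • (F x - H 0 x))
    (hH.add ((continuous_const.sub continuous_fst).smul ((hF'.sub hF).comp continuous_snd)))
    (fun x => by simp [h1]) fun t ht x hx e => by
      have a1 := hgap (⟨t, ht⟩, x) hx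
      have a2 := hd x
      have a3 : ‖F x - H 0 x‖ * (1 - t) ≤ ‖F x - H 0 x‖ :=
        mul_le_of_le_one_right (norm_nonneg _) (by linarith [ht.1])
      rw [← e, dist_self_add_right, norm_smul, Real.norm_of_nonneg (sub_nonneg.2 ht.2)] at a1
      rw [dist_eq_norm] at a2
      linarith
  simp only [sub_zero, one_smul, add_sub_cancel] at q1
  have hfin := finite_fibre hF' (hC.inter (isClosed_fixP p K (n + 2))).isCompact hfk
  set S := hfin.toFinset with hSd
  have hS : ∀ x, x ∈ S ↔ (x ∈ C ∧ x ∈ FixP p K (n + 2)) ∧ F x = y.1 := fun x =>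
    hfin.mem_toFinset
  have hSi : InvSet p (S : Set K) := fun t x hx => by
    obtain ⟨⟨a1, a2⟩, a3⟩ := (hS x).1 hx
    exact (hS _).2 ⟨⟨hCi t x a1, invSet_fixP p K _ t x a2⟩, (hFi t x).trans a3⟩
  have hev : p ∣ S.card := dvd_card_of_free p K (n + 2) S hSi (fun x hx => ((hS x).1 hx).1.2)
    fun x hx => hf0 x ((hS x).1 hx).1.1 ((hS x).1 hx).2
  set Z : Set K := (closure W ∩ F ⁻¹' {y.1}) ∩ (S : Set K)ᶜ with hZd
  have hZ : IsClosed Z := by
    refine isClosed_of_closure_subset fun z hz => ?_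
    have a1 : z ∈ closure W ∩ F ⁻¹' {y.1} :=
      (isClosed_closure.inter (isClosed_singleton.preimage hF')).closure_subset_iff.2
        inter_subset_left hz
    refine ⟨a1, fun hzS => ?_⟩
    obtain ⟨O, hO, hzO, hinj, -⟩ := hfk z ((hS z).1 hzS).1 a1.2
    obtain ⟨w, hwO, hw⟩ := mem_closure_iff.1 hz O hO hzO
    exact hw.2 (hinj hwO hzO ((show F w = y.1 from hw.1.2).trans a1.2.symm) ▸ hzS)
  have hZi : InvSet p Z := fun t x hx =>
    ⟨⟨hi.closure p t x hx.1.1, (hFi t x).trans hx.1.2⟩, hSi.compl p t x hx.2⟩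
  obtain ⟨w, w1, w2, w3, w4⟩ := sheets_sep p (W := W ∩ Zᶜ) (hW.inter hZ.isOpen_compl)
    (fun t x hx => ⟨hi t x hx.1, hZi.compl p t x hx.2⟩) S.finite_toSet.isClosed
    fun x hx => ⟨hCW ((hS x).1 hx).1.1, fun h => h.2 hx⟩
  have hT : IsOpen {x | w x < 0} := isOpen_lt w1 continuous_const
  have hW2 : IsOpen (W ∩ {x | 0 < w x}) := hW.inter (isOpen_lt continuous_const w1)
  have hTW : {x | w x < 0} ⊆ W := fun x hx => by
    by_contra hx'
    have a1 := w3 x fun h => hx' h.1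
    have a2 : w x < 0 := hx
    linarith
  have hST : ∀ x ∈ S, w x < 0 := fun x hx => by rw [w4 x hx]; norm_num
  have hdi : ∀ x ∈ closure W, F x = y.1 → x ∉ S → 0 < w x := fun x hx e hx' =>
    two_pos.trans_le (w3 x fun h => h.2 ⟨⟨hx, e⟩, hx'⟩)
  have hcT : ∀ x ∈ closure {x | w x < 0}, F x = y.1 → x ∈ S := fun x hx e => by
    by_contra hx'
    exact (closure_lt_subset_le w1 continuous_const hx).not_gt
      (hdi x (closure_mono hTW hx) e hx')
  have hfb : ∀ x ∈ frontier (W ∩ {x | 0 < w x}), F x ≠ y.1 := fun x hx e => by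
    rw [hW2.frontier_eq] at hx
    have a1 := closure_mono inter_subset_left hx.1
    refine hx.2 ⟨hCW (hcl x a1 e), hdi x a1 e fun hx' => ?_⟩
    exact (closure_lt_subset_le continuous_const w1 (closure_mono inter_subset_right hx.1)).not_gt
      (hST x hx')
  have hP : Poinc (loc W (dG K y.1 0)) (loc W (bG K y.1)) := (poinc_bG K y.1).map (resU hWK)
  obtain ⟨η2, p2, q2⟩ := val_box_exist hW (tri_dG K y.1 0) hP hF' y.1 hfr'
  obtain ⟨η3, p3, q3⟩ := val_box_split hP hT hW2 hTW inter_subset_left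
    (Set.disjoint_left.2 fun x hx hx' => lt_asymm (show w x < 0 from hx) hx'.2) hF' y.1
    (fun x hx e => by
      by_cases hx' : x ∈ S
      · exact Or.inl (hST x hx')
      · exact Or.inr ⟨hCW (hcl x hx e), hdi x hx e hx'⟩)
    (fun x hx e => by
      rw [hT.frontier_eq] at hx
      exact hx.2 (hST x (hcT x hx.1 e))) hfb
  obtain ⟨η4, p4, q4⟩ := val_parity K y.1 hF' y.1 S
    (fun x hx => ⟨((hS x).1 hx).2, hfk x ((hS x).1 hx).1 ((hS x).1 hx).2⟩) hT (hTW.trans hWK)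
    hST hcT
  obtain ⟨η5, p5, q5⟩ := val_dvd p (n + 3) K y.1 (h.mono p K inter_subset_left) hW2
    (fun t x hx => ⟨hi t x hx.1, show 0 < w (t +ᵥ x) from w2 t x ▸ hx.2⟩) hF' hFi y.1 hfb
    fun x hx e t ht => by
      by_contra hd
      exact lt_asymm (show 0 < w x from hx.2) (hST x ((hS x).2
        ⟨⟨hcl x (subset_closure hx.1) e, fixed_of_not_dvd p ht hd⟩, e⟩))
  obtain ⟨η, hη, hη'⟩ : ∃ η > 0, η < min η1 (min η2 (min η3 (min η4 η5))) :=
    exists_between (by positivity)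
  simp only [lt_min_iff] at hη'
  obtain ⟨s, hs⟩ := (q2 η hη hη'.2.1).1
  obtain ⟨sa, sb, ha, hb, hab⟩ := q3 η hη hη'.2.2.1 s hs
  obtain ⟨i, e1, e2, e3, e4⟩ := ((q1 η hη hη'.1 s hs).and (hab.and
    ((q4 η hη hη'.2.2.2.1 sa ha).and (q5 η hη hη'.2.2.2.2 sb hb)))).exists
  obtain ⟨m, e5, e6⟩ := e3 1
  obtain ⟨k, e7⟩ := e4 1
  obtain ⟨c, e8⟩ := hev
  have e9 := e1 1
  rw [e2 1, e5] at e9
  subst hp
  rw [e8, Int.ModEq] at e6
  push_cast at e6 e7
  obtain ⟨m', rfl⟩ : ∃ m', m = 2 * m' := ⟨m / 2, by omega⟩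
  have e10 : sb i 1 = 2 ^ (n + 1) * (2 * k) :=
    mul_left_cancel₀ two_ne_zero (e7.trans (by ring))
  rw [e10, ← mul_add] at e9
  have e0 : (2 : ℤ) ^ (n + 1) ≠ 0 := by positivity
  rcases e9 with e | e
  · have := mul_left_cancel₀ e0 (e.trans (mul_one _).symm)
    omega
  · have := mul_left_cancel₀ e0 (e.trans (mul_neg_one _).symm)
    omega

theorem localThm (p : ℕ) [Fact p.Prime] : LocalThm p := by
  by_cases hp : p = 2
  · exact localThm_two p hp
  · exact localThm_odd p hp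

end Vale.Agent.P228
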