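import Vale.Agent.P228.Sig
import Vale.Agent.P228.AlgD

/-! Part ValA: formal properties of `Val`. -/

namespace Vale.Agent.P228

namespace DagCat

universe u
variable {O : Type u} [Add O] {C : DagCat O} {D L X X' : O}

open Hom

/-- Transport of doubling data along a unitary isomorphism. -/
theorem Dbl.unitary {d B : C.Hom X X} {d' B' : C.Hom X' X'} {dD β β' : C.Hom D D} {δ : C.Hom D X}
    (h : Dbl d B dD δ β β') {w : C.Hom X X'} (h1 : w.dag * w = 1) (h2 : w * w.dag = 1)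
    (hw : Chain d d' w) (hB : w.dag * (B' * w) = B) : Dbl d' B' dD (w * δ) β β' := by
  obtain ⟨α, K, hD, hK, n1, n2, n3⟩ := h.ex
  have hw1 : w * d = d' * w := hw
  have hw2 : w.dag * d' = d * w.dag := by
    have := congrArg (fun k => w.dag * (k * w.dag)) hw1
    simpa [reassoc h1, h2] using this.symm
  have hw3 : w.dag * d'.dag = d.dag * w.dag := by simpa using (congrArg Hom.dag hw1).symm
  have hB2 : w.dag * B' = B * w.dag := by
    rw [← hB]; simp [h2]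
  have hc1 : IsEquiv d d' w := IsEquiv.of_iso hw h1 h2
  refine ⟨h.herm, h.herm', h.chain, h.chain', α * w.dag, w * (K * w.dag),
    ⟨hD.sq, ?_, ?_, ?_⟩, ?_, ?_, ?_, ?_⟩
  · have := hD.chain_α
    simp only [Chain] at this ⊢
    simp [hw2, reassoc this]
  · have := hD.chain_δ
    simp only [Chain] at this ⊢
    simp [this, reassoc hw1]
  · obtain ⟨k, hk⟩ := hD.null
    refine ⟨w * (k * w.dag), ?_⟩
    have := congrArg (fun k => w * (k * w.dag)) hk
    simpa [h2, reassoc hw1, hw2] using this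
  · simp only [Chain] at hK ⊢
    simp [hw3, reassoc hK, reassoc hw1]
  · obtain ⟨k, hk⟩ := n1
    refine ⟨w * (k * w.dag), ?_⟩
    have := congrArg (fun k => w * (k * w.dag)) hk
    simpa [h2, reassoc hw1, hw2, hB2] using this
  · simpa [reassoc hB, ← hB] using n2
  · simpa [reassoc h1] using n3

/-- Transport of a Lagrangian along a unitary isomorphism. -/
theorem Lag.unitary {d B : C.Hom X X} {d' B' : C.Hom X' X'} {dL h : C.Hom L L} {l : C.Hom L X}
    (hL : Lag d B dL l h) {w : C.Hom X X'} (h1 : w.dag * w = 1) (h2 : w * w.dag = 1)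
    (hw : Chain d d' w) (hB : w.dag * (B' * w) = B) : Lag d' B' dL (w * l) h := by
  have hw1 : w * d = d' * w := hw
  refine ⟨⟨hL.sq, hL.herm, ?_, ?_⟩, ?_⟩
  · have := hL.chain
    simp only [Chain] at this ⊢
    simp [this, reassoc hw1]
  · rw [← hL.iso, ← hB]
    simp
  · have e : IsEquiv (fibD d B dL l) (fibD d' B' dL (w * l)) (dsum w 1) :=
      IsEquiv.of_iso (k := dsum w.dag 1) (by simp [Chain, fibD, tri, dsum, hw1, hB])
        (by simp [dsum, h1]) (by simp [dsum, h2])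
    simpa [dsum] using e.mul hL.equiv

end DagCat

open Filter Matrix DagCat Set

variable {Y : Type} [MetricSpace Y] [CompactSpace Y] {Γ : Grp Y} {X X' : Obj Γ} {W : Set Y}
  {cs : List (Cut Y)} {d B : Mor X X} {d' B' : Mor X' X'} {s s' : ∀ i, AddChar (Γ.G i) ℂ → ℤ}

omit [CompactSpace Y] in
theorem ValA_up {f g : Mor X X'} (hX : Van Wᶜ (1 : Mor X X)) (h : loc W f = loc W g) :
    loc univ f = loc univ g := loc_eq.mpr ((loc_eq.mp h).univ_of_supp hX)

omit [CompactSpace Y] in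
theorem ValA_chain_up {f : Mor X X'} (hX : Van Wᶜ (1 : Mor X X))
    (h : Chain (loc W d) (loc W d') (loc W f)) : Chain (loc univ d) (loc univ d') (loc univ f) :=
  (chain_q _).mpr (Van.univ_of_supp ((chain_q _).mp h) hX)

omit [CompactSpace Y] in
theorem ValA_null_up {f : Mor X X'} (hX : Van Wᶜ (1 : Mor X X))
    (h : Null (loc W d) (loc W d') (loc W f)) : Null (loc univ d) (loc univ d') (loc univ f) := by
  obtain ⟨k, hk⟩ := (null_q _).mp h
  exact (null_q _).mpr ⟨k, Van.univ_of_supp hk hX⟩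

omit [CompactSpace Y] in
theorem ValA_equiv_up {f : Mor X X'} (hX : Van Wᶜ (1 : Mor X X)) (hX' : Van Wᶜ (1 : Mor X' X'))
    (h : IsEquiv (loc W d) (loc W d') (loc W f)) :
    IsEquiv (loc univ d) (loc univ d') (loc univ f) := by
  obtain ⟨g, h1, h2, h3⟩ := h.inv
  obtain ⟨g, rfl⟩ := (van Γ W).q_surj g
  refine ⟨ValA_chain_up hX h.chain, loc univ g, ValA_chain_up hX' h1, ?_, ?_⟩
  · have := ValA_null_up (d := d) (d' := d) (f := g * f - 1) hX (by simpa using h2)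
    simpa using this
  · have := ValA_null_up (d := d') (d' := d') (f := f * g - 1) hX' (by simpa using h3)
    simpa using this

omit [CompactSpace Y] in
theorem ValA_sym_up (hX : Van Wᶜ (1 : Mor X X)) (h : IsSym (loc W d) (loc W B)) :
    IsSym (loc univ d) (loc univ B) := by
  refine ⟨?_, ?_, ?_⟩
  · simpa using ValA_up (f := d * d) (g := 0) hX (by simpa using h.sq)
  · simpa using ValA_up (f := B.dag) (g := B) hX (by simpa using h.herm)
  · simpa using ValA_chain_up (d' := d.dag) hX (by simpa using h.chain)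

omit [CompactSpace Y] in
theorem ValA_poinc_up (hX : Van Wᶜ (1 : Mor X X)) (h : Poinc (loc W d) (loc W B)) :
    Poinc (loc univ d) (loc univ B) :=
  ⟨ValA_sym_up hX h.toIsSym,
    by simpa using ValA_equiv_up (d' := d.dag) hX hX (by simpa using h.equiv)⟩

omit [CompactSpace Y] in
theorem ValA_van_sum {U : Set Y} (h : Van U (1 : Mor X X)) (h' : Van U (1 : Mor X' X')) :
    Van U (1 : Mor (X + X') (X + X')) := DagCat.Ideal.mem_one_sum.mpr ⟨h, h'⟩

omit [CompactSpace Y] in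
theorem ValA_lag_up {L : Obj Γ} {dL k : Mor L L} {l : Mor L X} (hX : Van Wᶜ (1 : Mor X X))
    (hL : Van Wᶜ (1 : Mor L L))
    (h : Lag (loc W d) (loc W B) (loc W dL) (loc W l) (loc W k)) :
    Lag (loc univ d) (loc univ B) (loc univ dL) (loc univ l) (loc univ k) := by
  refine ⟨⟨?_, ?_, ValA_chain_up hL h.chain, ?_⟩, ?_⟩
  · simpa using ValA_up (f := dL * dL) (g := 0) hL (by simpa using h.sq)
  · simpa using ValA_up (f := k.dag) (g := k) hL (by simpa using h.herm)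
  · simpa using ValA_up (f := l.dag * (B * l)) (g := dL.dag * k + k * dL) hL
      (by simpa using h.iso)
  · simpa using ValA_equiv_up (d := dL) (d' := fibD d B dL l) (f := col l k) hL
      (ValA_van_sum hX hL) (by simpa using h.equiv)

omit [CompactSpace Y] in
theorem ValA_van_dsum {U : Set Y} {Z Z' : Obj Γ} {f : Mor X Z} {g : Mor X' Z'} (h : Van U f)
    (h' : Van U g) : Van U (dsum f g) :=
  DagCat.Ideal.mem_col.mpr ⟨DagCat.Ideal.mem_row.mpr ⟨h, DagCat.Ideal.Mem.zero⟩,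
    DagCat.Ideal.mem_row.mpr ⟨DagCat.Ideal.Mem.zero, h'⟩⟩

omit [CompactSpace Y] in
/-- The support of the next object. -/
theorem ValA_next {U : Set Y} {c : Cut Y} {Λ D : Obj Γ} {ι : Mor Λ X} {δ : Mor D (Λ + Λ)}
    (hU : Van U (1 : Mor X X)) (hι : ι.dag * ι = 1) (h2 : Van {y | c.2 y < 0} ι)
    (hδ : δ.dag * δ = 1) (h1 : Van {y | c.1 y < 0} (1 : Mor D D)) :
    Van (U ∪ {y | c.1 y < 0} ∪ {y | c.2 y < 0}) (1 : Mor D D) := by
  have a1 := van_one_sub hι hU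
  have a2 := van_one_of_isom hι h2
  exact ((van_one_sub hδ (ValA_van_sum a1 a1)).union h1).union
    (van_one_sub hδ (ValA_van_sum a2 a2))

omit [MetricSpace Y] [CompactSpace Y] in
theorem ValA_centre {U : Set Y} {c : Cut Y} :
    (W \ (U ∪ {y | c.1 y < 0} ∪ {y | c.2 y < 0})) ∩ centre cs 0
      ⊆ (W \ U) ∩ centre (c :: cs) 0 := by
  rintro y ⟨⟨h1, h2⟩, h3⟩
  simp only [mem_union, mem_setOf_eq, not_or, not_lt] at h2
  refine ⟨⟨h1, h2.1.1⟩, fun c' hc' => ?_⟩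
  rcases List.mem_cons.mp hc' with rfl | hc'
  · exact ⟨by simpa using h2.1.2, by simpa using h2.2⟩
  · exact h3 c' hc'

theorem Val.congr (h : Val W cs d B s) (hs : ∀ᶠ i in atTop, ∀ χ, s' i χ = s i χ) :
    Val W cs d B s' := by
  induction cs generalizing X with
  | nil =>
    obtain ⟨Λ, ι, dΛ, h1, h2, h3, h4⟩ := h
    refine ⟨Λ, ι, dΛ, h1, h2, h3, ?_⟩
    filter_upwards [hs, h4] with i a b χ
    rw [a, b]
  | cons c cs ih =>
    obtain ⟨Λ, ι, dΛ, D, dD, δ, β, β', h1, h2, h3, h4, h5, h6, h7, h8⟩ := h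
    exact ⟨Λ, ι, dΛ, D, dD, δ, β, β', h1, h2, h3, h4, h5, h6, h7, ih h8⟩

omit [CompactSpace Y] in
theorem ValA_sub_iso {Λ : Obj Γ} {ι : Mor Λ X} {dΛ : Mor Λ Λ} (h : IsSub W d ι dΛ) {u : Mor X X'}
    (h1 : u.dag * u = 1) (hd : Chain (loc W d) (loc W d') (loc W u)) :
    IsSub W d' (u * ι) dΛ := by
  refine ⟨by simp [Hom.reassoc h1, h.isom], h.tri, ?_⟩
  have := h.chain
  simp only [Chain] at this hd ⊢
  simp [this, Hom.reassoc hd]

omit [CompactSpace Y] in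
theorem ValA_van_iso {U : Set Y} {Λ : Obj Γ} {ι : Mor Λ X} (h : Van U (1 - ι * ι.dag))
    {u : Mor X X'} (h2 : u * u.dag = 1) : Van U (1 - u * ι * (u * ι).dag) := by
  have := (h.mul_right u.dag).mul_left u
  simpa [h2] using this

/-- Invariance under unitaries intertwining the structure over `W`. -/
theorem Val.iso (h : Val W cs d B s) {u : Mor X X'} (h1 : u.dag * u = 1) (h2 : u * u.dag = 1)
    (hd : Chain (loc W d) (loc W d') (loc W u)) (hB : loc W (u.dag * (B' * u)) = loc W B) :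
    Val W cs d' B' s := by
  have key : ∀ {Λ : Obj Γ} (ι : Mor Λ X),
      loc W ((u * ι).dag * (B' * (u * ι))) = loc W (ι.dag * (B * ι)) := fun ι => by
    simp only [DFun.map_mul, ← hB]
    simp
  cases cs with
  | nil =>
    obtain ⟨Λ, ι, dΛ, g1, g2, g3, g4⟩ := h
    refine ⟨Λ, u * ι, dΛ, ValA_sub_iso g1 h1 hd, ValA_van_iso g2 h2, g3, ?_⟩
    filter_upwards [g4, loc_univ_eq.mp (ValA_up g3 (key ι))] with i a b χ
    rw [a, esig_congr rfl b]
  | cons c cs =>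
    obtain ⟨Λ, ι, dΛ, D, dD, δ, β, β', g1, g2, g3, g4, g5, g6, g7, g8⟩ := h
    refine ⟨Λ, u * ι, dΛ, D, dD, δ, β, β', ValA_sub_iso g1 h1 hd, ValA_van_iso g2 h2,
      g3.mul_left u, g4, g5, g6, ?_, g8⟩
    have e : loc W (bdD dΛ ((u * ι).dag * (B' * (u * ι)))) = loc W (bdD dΛ (ι.dag * (B * ι))) :=
      (DFun.map_bdD _ _ _).trans ((congrArg (bdD (loc W dΛ)) (key ι)).trans
        (DFun.map_bdD _ _ _).symm)
    rwa [e]

theorem Val.mono {cs' : List (Cut Y)} (h : Val W cs d B s)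
    (hc : List.Forall₂ (fun c c' : Cut Y => (∀ y, c'.1 y < 0 → c.1 y < 0) ∧
      ∀ y, c'.2 y < 0 → c.2 y < 0) cs cs') : Val W cs' d B s := by
  induction hc generalizing X with
  | nil => exact h
  | cons hc _ ih =>
    obtain ⟨Λ, ι, dΛ, D, dD, δ, β, β', h1, h2, h3, h4, h5, h6, h7, h8⟩ := h
    exact ⟨Λ, ι, dΛ, D, dD, δ, β, β', h1, h2.mono hc.1, h3.mono hc.2, h4, h5, h6.mono hc.1, h7,
      ih h8⟩

/-- Restriction to a smaller set containing the centre. -/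
theorem Val.restrict {U W' : Set Y} (h : Val W cs d B s) (hU : Van U (1 : Mor X X)) (hW : W' ⊆ W)
    (hc : (W \ U) ∩ centre cs 0 ⊆ W') : Val W' cs d B s := by
  induction cs generalizing X U with
  | nil =>
    obtain ⟨Λ, ι, dΛ, h1, h2, h3, h4⟩ := h
    refine ⟨Λ, ι, dΛ, h1.mono hW, h2.mono hW, h3.of_cover (van_one_sub h1.isom hU) ?_, h4⟩
    intro y hy
    by_contra hn
    simp only [mem_union, mem_compl_iff, not_or, not_not] at hn
    exact hy (hc ⟨⟨hn.1, hn.2⟩, fun c hc => absurd hc List.not_mem_nil⟩)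
  | cons c cs ih =>
    obtain ⟨Λ, ι, dΛ, D, dD, δ, β, β', h1, h2, h3, h4, h5, h6, h7, h8⟩ := h
    have hn := ValA_next hU h1.isom h3 h4 h6
    exact ⟨Λ, ι, dΛ, D, dD, δ, β, β', h1.mono hW, h2, h3, h4, h5, h6, h7.map (resU hW),
      ih h8 (ValA_van_sum hn hn) (ValA_centre.trans hc)⟩

theorem Val.neg (h : Val W cs d B s) : Val W cs d (-B) (fun i χ => -s i χ) := by
  induction cs generalizing X with
  | nil =>
    obtain ⟨Λ, ι, dΛ, h1, h2, h3, h4⟩ := h
    refine ⟨Λ, ι, dΛ, h1, h2, h3, h4.mono fun i a χ => ?_⟩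
    simp only [a, Hom.neg_mul, Hom.mul_neg, esig_neg]
  | cons c cs ih =>
    obtain ⟨Λ, ι, dΛ, D, dD, δ, β, β', h1, h2, h3, h4, h5, h6, h7, h8⟩ := h
    have u1 : ∀ Z : Obj Γ,
        (dsum (1 : Mor Z Z) (-1 : Mor Z Z)).dag * dsum (1 : Mor Z Z) (-1 : Mor Z Z) = 1 :=
      fun Z => by simp [dsum]
    have u2 : ∀ Z : Obj Γ,
        dsum (1 : Mor Z Z) (-1 : Mor Z Z) * (dsum (1 : Mor Z Z) (-1 : Mor Z Z)).dag = 1 :=
      fun Z => by simp [dsum]
    refine ⟨Λ, ι, dΛ, D, dD, dsum 1 (-1) * δ, -β, -β', h1, h2, h3, ?_, h5, h6, ?_, ?_⟩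
    · rw [Hom.dag_mul, Hom.assoc, Hom.reassoc (u1 Λ), Hom.one_mul, h4]
    · have := h7.neg.unitary (w := loc W (dsum (1 : Mor Λ Λ) (-1 : Mor Λ Λ)))
        (d' := loc W (bdD dΛ (-(ι.dag * (B * ι))))) (B' := loc W ((cat Γ).hyp Λ))
        (by simpa using congrArg (loc W) (u1 Λ)) (by simpa using congrArg (loc W) (u2 Λ))
        (by simpa [Chain] using congrArg (loc W) (sgn_bdD (d := dΛ) (ι.dag * (B * ι))))
        (by simpa using congrArg (loc W) (sgn_hyp (C := cat Γ) (X := Λ)))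
      simpa using this
    · exact (ih h8).iso (u1 D) (u2 D)
        (by simpa [Chain] using congrArg (loc W) (sgn_dblD (d := dD)))
        (congrArg (loc W) (sgn_dblB β β'))

omit [CompactSpace Y] in
theorem ValA_sub_oplus {Λ Λ' : Obj Γ} {ι : Mor Λ X} {dΛ : Mor Λ Λ} {ι' : Mor Λ' X'}
    {dΛ' : Mor Λ' Λ'} (h : IsSub W d ι dΛ) (h' : IsSub W d' ι' dΛ') :
    IsSub W (dsum d d') (dsum ι ι') (dsum dΛ dΛ') := by
  refine ⟨by simp [dsum, h.isom, h'.isom], h.tri.oplus h'.tri, ?_⟩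
  have h1 := h.chain
  have h2 := h'.chain
  simp only [Chain] at h1 h2 ⊢
  simp [dsum, h1, h2]

omit [CompactSpace Y] in
theorem ValA_van_oplus {U : Set Y} {Λ Λ' : Obj Γ} {ι : Mor Λ X} {ι' : Mor Λ' X'}
    (h : Van U (1 - ι * ι.dag)) (h' : Van U (1 - ι' * ι'.dag)) :
    Van U (1 - dsum ι ι' * (dsum ι ι').dag) := by
  have := ValA_van_dsum h h'
  have e : 1 - dsum ι ι' * (dsum ι ι').dag = dsum (1 - ι * ι.dag) (1 - ι' * ι'.dag) := by
    simp [dsum]
  rwa [e]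

theorem Val.oplus (h : Val W cs d B s) (h' : Val W cs d' B' s') :
    Val W cs (dsum d d') (dsum B B') (fun i χ => s i χ + s' i χ) := by
  have key : ∀ {X X' Λ Λ' : Obj Γ} (B : Mor X X) (B' : Mor X' X') (ι : Mor Λ X) (ι' : Mor Λ' X'),
      (dsum ι ι').dag * (dsum B B' * dsum ι ι')
        = dsum (ι.dag * (B * ι)) (ι'.dag * (B' * ι')) := fun B B' ι ι' => by simp [dsum]
  induction cs generalizing X X' with
  | nil =>
    obtain ⟨Λ, ι, dΛ, h1, h2, h3, h4⟩ := h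
    obtain ⟨Λ', ι', dΛ', g1, g2, g3, g4⟩ := h'
    refine ⟨Λ + Λ', dsum ι ι', dsum dΛ dΛ', ValA_sub_oplus h1 g1, ValA_van_oplus h2 g2,
      ValA_van_sum h3 g3, ?_⟩
    filter_upwards [h4, g4] with i a b χ
    rw [key, esig_dsum, a, b]
  | cons c cs ih =>
    obtain ⟨Λ, ι, dΛ, D, dD, δ, β, β', h1, h2, h3, h4, h5, h6, h7, h8⟩ := h
    obtain ⟨Λ', ι', dΛ', D', dD', δ', γ, γ', g1, g2, g3, g4, g5, g6, g7, g8⟩ := h'
    refine ⟨Λ + Λ', dsum ι ι', dsum dΛ dΛ', D + D', dsum dD dD',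
      (cat Γ).mid Λ Λ Λ' Λ' * dsum δ δ', dsum β γ, dsum β' γ', ValA_sub_oplus h1 g1,
      ValA_van_oplus h2 g2, ValA_van_dsum h3 g3, ?_, h5.oplus g5, ValA_van_sum h6 g6, ?_, ?_⟩
    · rw [Hom.dag_mul, Hom.assoc, Hom.reassoc mid_dag_mul, Hom.one_mul]
      simp [dsum, h4, g4]
    · have := (h7.oplus g7).unitary (w := loc W ((cat Γ).mid Λ Λ Λ' Λ'))
        (d' := loc W (bdD (dsum dΛ dΛ') (dsum (ι.dag * (B * ι)) (ι'.dag * (B' * ι')))))
        (B' := loc W ((cat Γ).hyp (Λ + Λ')))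
        (by simpa using mid_dag_mul) (by simpa using mid_mul_dag)
        (by simpa [Chain] using mid_bdD _ _) (by simpa using mid_hyp)
      rw [key]
      simpa using this
    · exact (ih h8 g8).iso mid_dag_mul mid_mul_dag (by simpa [Chain] using mid_dblD)
        (by rw [mid_dblB])

omit [CompactSpace Y] in
theorem ValA_sub_fgt {Λ : Obj Γ} {ι : Mor Λ X} {dΛ : Mor Λ Λ} (h : IsSub W d ι dΛ) :
    IsSub W (fgt d) (fgt ι) (fgt dΛ) :=
  ⟨congrArg fgt h.isom, h.tri.fgt,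
    h.chain.gmap ((forget Γ).quot (I := van Γ W) (J := van (triv Y) W) fun h => van_fgt.mpr h)⟩

theorem Val.fgt (h : Val W cs d B s) :
    Val W cs (fgt d) (fgt B) (fun i _ => ∑ χ : AddChar (Γ.G i) ℂ, s i χ) := by
  induction cs generalizing X with
  | nil =>
    obtain ⟨Λ, ι, dΛ, h1, h2, h3, h4⟩ := h
    refine ⟨Λ.forget, P228.fgt ι, P228.fgt dΛ, ValA_sub_fgt h1, van_fgt.mpr h2, van_fgt.mpr h3,
      h4.mono fun i a χ => ?_⟩
    simp only [a]
    exact (esig_fgt dΛ (ι.dag * (B * ι)) i χ).symm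
  | cons c cs ih =>
    obtain ⟨Λ, ι, dΛ, D, dD, δ, β, β', h1, h2, h3, h4, h5, h6, h7, h8⟩ := h
    exact ⟨Λ.forget, P228.fgt ι, P228.fgt dΛ, D.forget, P228.fgt dD, P228.fgt δ, P228.fgt β,
      P228.fgt β', ValA_sub_fgt h1, van_fgt.mpr h2, van_fgt.mpr h3, congrArg P228.fgt h4, h5.fgt,
      van_fgt.mpr h6,
      h7.gmap ((forget Γ).quot (I := van Γ W) (J := van (triv Y) W) fun h => van_fgt.mpr h),
      ih h8⟩

omit [CompactSpace Y] in
theorem ValA_sym_sub {Λ : Obj Γ} {ι : Mor Λ X} {dΛ : Mor Λ Λ} (h : IsSub W d ι dΛ)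
    (hP : IsSym (loc W d) (loc W B)) : IsSym (loc W dΛ) (loc W (ι.dag * (B * ι))) := by
  simpa using hP.pull (h.sq hP.sq) h.chain

omit [CompactSpace Y] in
theorem ValA_poinc_sub {Λ : Obj Γ} {ι : Mor Λ X} {dΛ : Mor Λ Λ} (h : IsSub W d ι dΛ)
    (hP : Poinc (loc W d) (loc W B)) (hι : Van W (1 - ι * ι.dag)) :
    Poinc (loc W dΛ) (loc W (ι.dag * (B * ι))) := by
  simpa using hP.pull (h.sq hP.sq) (h.equiv hι)

omit [CompactSpace Y] in
theorem ValA_poinc_bd {Λ : Obj Γ} {ι : Mor Λ X} {dΛ : Mor Λ Λ} (h : IsSub W d ι dΛ)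
    (hP : IsSym (loc W d) (loc W B)) :
    Poinc (loc W (bdD dΛ (ι.dag * (B * ι)))) (loc W ((cat Γ).hyp Λ)) := by
  simpa using poinc_bd (ValA_sym_sub h hP)

omit [CompactSpace Y] in
theorem ValA_poinc_dbl {D : Obj Γ} {dD β β' : Mor D D} {δ : (van Γ W).quot.Hom D X}
    (hP : Poinc (loc W d) (loc W B))
    (h : Dbl (loc W d) (loc W B) (loc W dD) δ (loc W β) (loc W β')) :
    Poinc (loc W (dblD dD)) (loc W (dblB β β')) := by
  simpa using Dbl.poinc hP h

/-- The closed complex at the end of the construction. -/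
theorem Val.final {U : Set Y} (h : Val W cs d B s) (hP : Poinc (loc W d) (loc W B))
    (hU : Van U (1 : Mor X X)) :
    ∃ (Λ : Obj Γ) (dΛ BΛ : Mor Λ Λ), Tri dΛ ∧ Poinc (loc univ dΛ) (loc univ BΛ) ∧
      Van ((W \ U) ∩ centre cs 0)ᶜ (1 : Mor Λ Λ) ∧
      ∀ᶠ i in atTop, ∀ χ, s i χ = esig dΛ BΛ i χ := by
  induction cs generalizing X U with
  | nil =>
    obtain ⟨Λ, ι, dΛ, h1, h2, h3, h4⟩ := h
    refine ⟨Λ, dΛ, ι.dag * (B * ι), h1.tri, ValA_poinc_up h3 (ValA_poinc_sub h1 hP h2),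
      h3.of_cover (van_one_sub h1.isom hU) ?_, h4⟩
    intro y hy
    by_contra hn
    simp only [mem_union, mem_compl_iff, not_or, not_not] at hn
    exact hy ⟨⟨hn.1, hn.2⟩, fun c hc => absurd hc List.not_mem_nil⟩
  | cons c cs ih =>
    obtain ⟨Λ, ι, dΛ, D, dD, δ, β, β', h1, h2, h3, h4, h5, h6, h7, h8⟩ := h
    have hn := ValA_next hU h1.isom h3 h4 h6
    obtain ⟨Z, dZ, BZ, g1, g2, g3, g4⟩ :=
      ih h8 (ValA_poinc_dbl (ValA_poinc_bd h1 hP.toIsSym) h7) (ValA_van_sum hn hn)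
    exact ⟨Z, dZ, BZ, g1, g2, g3.mono (compl_subset_compl.mpr ValA_centre), g4⟩

end Vale.Agent.P228
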